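import Crest.Agent.R309.Ram
import Crest.Prelude.Def_WordRAMProb

/-!
# R309: macro machines on the word RAM, probabilities
-/

set_option linter.dupNamespace false

namespace Crest.Agent.R309

open Crest.Agent.Lib.PT Crest.WordRAM

theorem rp_sum_bodd {w : ℕ} (hw : 1 ≤ w) (g : Bool → ℝ) :
    ∑ a : Fin (2 ^ w), g (a : ℕ).bodd = 2 ^ w * ((g false + g true) / 2) := by
  obtain ⟨k, rfl⟩ := Nat.exists_eq_add_of_le' hw
  rw [Fin.sum_univ_eq_sum_range (fun a => g a.bodd), pow_succ', sum_range_two_mul]
  have e1 : ∀ x : ℕ, (2 * x).bodd = false := fun x => by simp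
  have e2 : ∀ x : ℕ, (2 * x + 1).bodd = true := fun x => by simp
  simp only [e1, e2, Finset.sum_const, Finset.card_range, nsmul_eq_mul]
  push_cast
  ring

theorem rp_Ex_words {w : ℕ} (hw : 1 ≤ w) (T : ℕ) (f : List Bool → ℝ) :
    Ex T f = (∑ tab : Fin T → Fin (2 ^ w), f (List.ofFn fun i => (tab i : ℕ).bodd)) /
      (2 ^ w) ^ T := by
  induction T generalizing f with
  | zero => simp [Ex]
  | succ T ih =>
    rw [Ex, ih, ih, ← (Fin.consEquiv fun _ : Fin (T + 1) => Fin (2 ^ w)).sum_comp,
      Fintype.sum_prod_type]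
    simp only [Fin.consEquiv_apply, List.ofFn_succ, Fin.cons_zero, Fin.cons_succ]
    rw [rp_sum_bodd hw fun b => ∑ tab : Fin T → Fin (2 ^ w),
      f (b :: List.ofFn fun i => (tab i : ℕ).bodd)]
    field_simp
    ring

theorem rp_uniformProb_mono {Ω : Type*} [Fintype Ω] {E E' : Set Ω} (h : E ⊆ E') :
    Crest.FinProb.uniformProb E ≤ Crest.FinProb.uniformProb E' := by
  classical
  unfold Crest.FinProb.uniformProb
  refine div_le_div_of_nonneg_right ?_ (Nat.cast_nonneg _)
  refine Nat.cast_le.2 (Finset.card_le_card fun x hx => ?_)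
  simp only [Finset.mem_filter, Finset.mem_univ, true_and] at hx ⊢
  exact h hx

theorem rp_run_of_halted {P : Program} {w : ℕ} {ρ : ℕ → ℕ} {inp : List ℕ} {T T' : ℕ}
    (h : (run P w ρ inp T).halted = true) (hT : T ≤ T') : run P w ρ inp T' = run P w ρ inp T := by
  induction T', hT using Nat.le_induction with
  | base => rfl
  | succ k _ ih =>
    have : run P w ρ inp (k + 1) = step P w ρ (run P w ρ inp k) :=
      Function.iterate_succ_apply' _ _ _
    rw [this, ih, step, if_pos h]

theorem rp_tsum_div {D : ℕ} (hD : 0 < D) (g : ℕ → ENNReal) :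
    ∑' T, g (T / D) = D * ∑' k, g k := by
  have : NeZero D := ⟨hD.ne'⟩
  rw [← (Nat.divModEquiv D).symm.tsum_eq, ENNReal.tsum_prod', ← ENNReal.tsum_mul_left]
  refine tsum_congr fun k => ?_
  have e : ∀ r : Fin D, (Nat.divModEquiv D).symm (k, r) / D = k := fun r =>
    congrArg Prod.fst ((Nat.divModEquiv D).apply_symm_apply (k, r))
  simp only [e]
  rw [tsum_fintype, Finset.sum_const, Finset.card_univ, Fintype.card_fin, nsmul_eq_mul]

/-- The low bits of independent uniform words are independent fair bits.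
Proof: induction on `T` (`Fin.consEquiv`), or count: for `w ≥ 1` exactly half of the words below
`2 ^ w` are odd. -/
theorem uniformProb_low (w T n : ℕ) (hw : 1 ≤ w) (hn : n ≤ T) (E : List Bool → Prop) :
    Crest.FinProb.uniformProb {tab : Fin T → Fin (2 ^ w) |
      E ((List.range n).map fun i => (streamOf tab i % 2 ^ w).bodd)} = Pr n E := by
  classical
  rw [← Pr_take hn, Pr, rp_Ex_words hw, Crest.FinProb.uniformProb]
  have e : ∀ tab : Fin T → Fin (2 ^ w),
      ((List.range n).map fun i => (streamOf tab i % 2 ^ w).bodd) =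
        (List.ofFn fun i => (tab i : ℕ).bodd).take n := by
    intro tab
    refine List.ext_getElem (by simp [hn]) fun i h1 h2 => ?_
    have hi : i < T := by
      rw [List.length_map, List.length_range] at h1; omega
    simp [streamOf, hi, Nat.mod_eq_of_lt (tab ⟨i, hi⟩).2]
  simp only [ind_eq, Finset.sum_boole, Set.mem_ofPred_eq, e]
  congr 1
  simp

/-- Simulation theorem.  Take `P, c, d` from `Mac.ram` (replace `c` by `c + 1` so that `w ≥ 1` and
`D = c (B+1)^d ≥ 1`; a halted configuration never changes, so time bounds may be increased).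
* Time: for `T ≥ D (n+1)`, not halted at `T` implies `fin = none` after `n` macro steps, so
  `probAfter T (not halted) ≤ Pr n (fin = none)` for `n = T / D - 1` (`uniformProb_low`); sum over `T`
  in blocks of length `D`.
* Outputs: if the run is halted at `T` with output `out`, the macro machine has halted after `T`
  steps, with an output `out'` with which the run is halted at `D (T+1) ≥ T`; so `out = out'`.
* The same argument gives `probAfter T ≤ Pr T …` and `Pr n … ≤ probAfter (D (n+1))`; both sequences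
  are bounded by `1`, so the suprema agree. -/
theorem Mac.sim {σ : Type} [Enc σ] (m : Mac σ)
    (hnx : PT fun p : σ × ℕ × Bool => m.nx p.1 p.2.1 p.2.2) (hrd : PT m.rd) (hwr : PT m.wr)
    (hfin : PT m.fin) :
    ∃ (P : Program) (c d : ℕ), ∀ (inp : List ℕ) (B w : ℕ), (∀ a ∈ inp, a < 2 ^ B) →
      (∀ l, sz (m.go (m.init inp) l).1 ≤ B) → c * (B + 1) ^ d ≤ w →
      expectedTime P w inp ≤ ((c * (B + 1) ^ d : ℕ) : ENNReal) *
        (1 + ∑' n, ENNReal.ofReal (Pr n fun l => m.fin (m.go (m.init inp) l).1 = none)) ∧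
      (∀ ρ T out, HaltsWithin P w ρ inp T out → ∃ l, m.Out (m.go (m.init inp) l) out) ∧
      ∀ Good : List ℕ → Prop, probHaltsWith P w inp Good =
        ⨆ n, Pr n fun l => ∃ out, m.Out (m.go (m.init inp) l) out ∧ Good out := by
  obtain ⟨P, c, d, H⟩ := m.ram hnx hrd hwr hfin
  refine ⟨P, c + 1, d, fun inp B w hinp hsz hw => ?_⟩
  have hDpos : 0 < (c + 1) * (B + 1) ^ d := by positivity
  have hle : c * (B + 1) ^ d ≤ (c + 1) * (B + 1) ^ d := Nat.mul_le_mul_right _ (Nat.le_succ c)
  have H' := H inp B w hinp hsz (hle.trans hw)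
  generalize (c + 1) * (B + 1) ^ d = D at hDpos hle hw ⊢
  have hw1 : 1 ≤ w := hDpos.trans_le hw
  have h2 : ∀ (ρ : ℕ → ℕ) (n T : ℕ), D * (n + 1) ≤ T → ∀ out,
      m.Out (m.go (m.init inp) ((List.range n).map fun i => (ρ i % 2 ^ w).bodd)) out →
        HaltsWithin P w ρ inp T out := by
    intro ρ n T hT out ho
    obtain ⟨h3, h4⟩ := (H' ρ n).2 out ho
    have h5 := rp_run_of_halted h3 ((Nat.mul_le_mul_right (n + 1) hle).trans hT)
    exact ⟨h5 ▸ h3, h5 ▸ h4⟩
  have hnT : ∀ n, n ≤ D * (n + 1) := fun n => by nlinarith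
  have h3 : ∀ (ρ : ℕ → ℕ) (T : ℕ) (out : List ℕ), HaltsWithin P w ρ inp T out →
      m.Out (m.go (m.init inp) ((List.range T).map fun i => (ρ i % 2 ^ w).bodd)) out := by
    intro ρ T out ho
    rcases hf : m.fin (m.go (m.init inp) ((List.range T).map fun i => (ρ i % 2 ^ w).bodd)).1
      with _ | k
    · have := (H' ρ T).1 hf
      rw [ho.1] at this
      cases this
    · have h4 := h2 ρ T _ le_rfl _ ⟨k, hf, rfl⟩
      refine ⟨k, hf, ?_⟩
      rw [← h4.2, rp_run_of_halted ho.1 (hnT T), ho.2]
  refine ⟨?_, fun ρ T out ho => ⟨_, h3 ρ T out ho⟩, fun Good => ?_⟩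
  · let g : ℕ → ENNReal := fun k => Nat.casesOn k 1 fun n =>
      ENNReal.ofReal (Pr n fun l => m.fin (m.go (m.init inp) l).1 = none)
    have e : (1 + ∑' n, ENNReal.ofReal (Pr n fun l => m.fin (m.go (m.init inp) l).1 = none)) =
        ∑' k, g k := (tsum_eq_zero_add' (f := g) ENNReal.summable).symm
    rw [e, ← rp_tsum_div hDpos, expectedTime]
    refine ENNReal.tsum_le_tsum fun T => ?_
    rcases hk : T / D with _ | n
    · refine ENNReal.ofReal_le_one.2 ?_
      refine (rp_uniformProb_mono (Set.subset_univ _)).trans ?_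
      exact (uniformProb_low w T 0 hw1 (Nat.zero_le _) fun _ => True).le.trans (Pr_le_one _ _)
    · have hT : D * (n + 1) ≤ T := hk ▸ Nat.mul_div_le T D
      refine ENNReal.ofReal_le_ofReal ?_
      rw [← uniformProb_low w T n hw1 ((hnT n).trans hT)]
      refine rp_uniformProb_mono fun tab (ht : _ = false) => ?_
      change m.fin _ = none
      by_contra hf
      obtain ⟨k, hk⟩ := Option.ne_none_iff_exists'.1 hf
      have := (h2 _ n T hT _ ⟨k, hk, rfl⟩).1
      rw [ht] at this
      cases this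
  · have ha : ∀ T, (probAfter P w inp T fun c => c.halted = true ∧ Good c.output) ≤
        Pr T fun l => ∃ out, m.Out (m.go (m.init inp) l) out ∧ Good out := by
      intro T
      rw [← uniformProb_low w T T hw1 le_rfl]
      exact rp_uniformProb_mono fun tab ht => ⟨_, h3 _ T _ ⟨ht.1, rfl⟩, ht.2⟩
    have hb : ∀ n, (Pr n fun l => ∃ out, m.Out (m.go (m.init inp) l) out ∧ Good out) ≤
        probAfter P w inp (D * (n + 1)) fun c => c.halted = true ∧ Good c.output := by
      intro n
      rw [← uniformProb_low w (D * (n + 1)) n hw1 (hnT n)]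
      refine rp_uniformProb_mono ?_
      rintro tab ⟨out, ho, hg⟩
      have := h2 _ n _ le_rfl out ho
      exact ⟨this.1, this.2 ▸ hg⟩
    have hb1 : BddAbove (Set.range fun n =>
        Pr n fun l => ∃ out, m.Out (m.go (m.init inp) l) out ∧ Good out) :=
      ⟨1, by rintro _ ⟨n, rfl⟩; exact Pr_le_one _ _⟩
    have hb2 : BddAbove (Set.range fun T =>
        probAfter P w inp T fun c => c.halted = true ∧ Good c.output) :=
      ⟨1, by rintro _ ⟨n, rfl⟩; exact (ha n).trans (Pr_le_one _ _)⟩
    exact le_antisymm (ciSup_le fun T => (ha T).trans (le_ciSup hb1 T))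
      (ciSup_le fun n => (hb n).trans (le_ciSup hb2 _))

end Crest.Agent.R309
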