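import Crest.Agent.R309.RamAux1

/-!
# R309: calls of polynomial-time functions on the word RAM; the main loop
-/

set_option linter.dupNamespace false

namespace Crest.Agent.R309.RamAux

open Crest.Agent.Lib.PT Crest.WordRAM

/-- The stack whose number is `v + 1`. -/
def raw (v : ℕ) : List Bool := (v + 1).bits.dropLast

theorem num_bits_dropLast (n : ℕ) (hn : n ≠ 0) : num n.bits.dropLast = n := by
  induction n using Nat.binaryRec' with
  | zero => exact absurd rfl hn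
  | bit b n h ih =>
    rw [Nat.bits_append_bit _ _ h]
    by_cases h0 : n = 0
    · subst h0
      rw [h rfl]
      rfl
    · have h1 : n.bits ≠ [] := fun e => h0 (by rw [← ofBits_bits n, e]; rfl)
      rw [List.dropLast_cons_of_ne_nil h1, num, ih h0, Nat.bit_val]

theorem num_raw (v : ℕ) : num (raw v) = v + 1 := num_bits_dropLast _ (Nat.succ_ne_zero v)

theorem ofBits_append_true (l : List Bool) : ofBits (l ++ [true]) = num l := by
  induction l with
  | nil => rfl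
  | cons b l ih => rw [List.cons_append, ofBits_cons, ih, num, Nat.bit_val]

theorem length_raw_le {v B : ℕ} (h : v < 2 ^ B) : (raw v).length ≤ B := by
  have h1 : (v + 1).size ≤ B + 1 := Nat.size_le.2 (by rw [pow_succ]; omega)
  rw [raw, List.length_dropLast, Nat.size_eq_bits_len]
  omega

theorem raw_pt {α : Type} [Enc α] {f : α → ℕ} (hf : PT f) : PT fun a => raw (f a) := by
  unfold raw
  fun_prop

/-- Move stack `a` to the main stack as the code of a list of bits. -/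
def inW : Prog := .loop .a (.seq (.push .m false) (.push .m true))
  (.seq (.push .m false) (.seq (.push .m false) (.seq (.push .m true) (.push .m true))))

theorem exec_inW (l : List Bool) : ∀ (acc rest : List Bool),
    Exec inW ⟨(enc acc).bits ++ rest, l, [], []⟩
      ⟨(enc (l.reverse ++ acc)).bits ++ rest, [], [], []⟩ (5 * l.length + 1) := by
  induction l with
  | nil => intro acc rest; exact Exec.loopE rfl
  | cons x l ih =>
    intro acc rest
    rw [List.reverse_cons, List.append_assoc]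
    cases x
    · refine Exec.mono (Exec.loopF rfl (Exec.seq (Exec.push _ _ _) (Exec.push _ _ _))
        (ih (false :: acc) rest)) ?_
      simp; omega
    · refine Exec.mono (Exec.loopT rfl (Exec.seq (Exec.push _ _ _) (Exec.seq (Exec.push _ _ _)
        (Exec.seq (Exec.push _ _ _) (Exec.push _ _ _)))) (ih (true :: acc) rest)) ?_
      simp; omega

theorem exists_call {σ : Type} [Enc σ] {G : List Bool × σ → List Bool} (hG : PT G) :
    ∃ (p : Prog) (c k : ℕ), ∀ x : List Bool × σ,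
      Exec p ⟨toBits x.2, x.1, [], []⟩ ⟨G x, [], [], []⟩ (c * sz x ^ k) := by
  have hr : PT fun x : List Bool × σ => (x.1.reverse, x.2) := by fun_prop
  obtain ⟨T, hT, p, hp⟩ := hG.comp hr
  have h1 : PB fun x : List Bool × σ => T (x.1.reverse, x.2) := hT.comp hr
  obtain ⟨c, k, hck⟩ : PB fun x : List Bool × σ => 1 + ((5 * x.1.length + 1) +
      (1 + (T (x.1.reverse, x.2) + (9 * (G x).length + 2)))) := by fun_prop
  refine ⟨.seq (.push .m false) (.seq inW (.seq (.push .m true) (.seq p outP))), c, k,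
    fun x => Exec.mono ?_ (hck x)⟩
  have e1 := exec_inW x.1 [] (toBits x.2)
  have e2 := hp (x.1.reverse, x.2) []
  simp only [List.append_nil, List.reverse_reverse] at e1 e2
  exact Exec.seq (Exec.push _ _ _) (Exec.seq e1 (Exec.seq (Exec.push _ _ _)
    (Exec.seq e2 (exec_outP (G x)))))

/-- Call a four-stack program on the state and the argument in register `src`. -/
def call (src : Fin 12) (p : Prog) (o : ℕ) (tl : List (Instr 12)) : List (Instr 12) :=
  .copy 3 8 :: .copy 4 src :: (rcode p (o + 2) ++ tl)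

theorem length_call (src : Fin 12) (p : Prog) (o : ℕ) (tl : List (Instr 12)) :
    (call src p o tl).length = len p + tl.length + 2 := by simp [call]

variable {L : List (Instr 12)} {w : ℕ} {ρ : ℕ → ℕ}

theorem rch_call (hw : 1 < w) {p : Prog} {s0 l out : List Bool} {n o : ℕ} {src : Fin 12}
    {tl : List (Instr 12)} (h : Exec p ⟨s0, l, [], []⟩ ⟨out, [], [], []⟩ n)
    (hA : At L o (call src p o tl)) (hb : s0.length + l.length + n < w) (k m a t U X Y : ℕ)
    (M : ℕ → ℕ) (D : ℕ) (hsrc : vec k (num s0) a 1 1 t (num s0) U X Y src = num l) :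
    ∃ o' t', At L o' tl ∧ Rch L w ρ (5 * n + 2) ⟨o, false, vec k m a 1 1 t (num s0) U X Y, M, D⟩
      ⟨o', false, vec k (num out) 1 1 1 t' (num s0) U X Y, M, D⟩ := by
  obtain ⟨a1, a2, a3⟩ := hA
  rw [at_append, length_rcode] at a3
  obtain ⟨t', r⟩ := rch_of_exec (ρ := ρ) (M := M) (D := D) (k := k) (S := num s0) (U := U)
    (X := X) (Y := Y) hw h (o + 2) t a3.1 (by simpa [St.tot] using hb)
  have r0 : Rch L w ρ (1 + 1) ⟨o, false, vec k m a 1 1 t (num s0) U X Y, M, D⟩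
      ⟨o + 2, false, vec k (num s0) (num l) 1 1 t (num s0) U X Y, M, D⟩ :=
    ((r_copy a1).trans (r_copy a2)).congr (by simp [hsrc])
  exact ⟨_, t', a3.2, (r0.trans r).mono (by omega)⟩

/-- The layout of the simulating program. -/
structure Layout (L : List (Instr 12)) (p1 p2 p3 p4 p5 : Prog) (S0 o1 o2 o3 o4 o5 : ℕ) : Prop where
  b0 : At L 0 [.const 2 1, .const 5 1, .const 6 1, .const 8 S0, .jump o1]
  b1 : At L o1 (call 2 p1 o1 [.sub 10 3 2, .jumpIfZero 10 o2, .sub 0 10 2, .halt])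
  b2 : At L o2 (call 2 p2 o2 [.sub 10 3 2, .load 11 10, .rand 7, .and 7 7 2, .add 9 11 2,
    .add 9 9 9, .add 9 9 7, .jump o3])
  b3 : At L o3 (call 9 p3 o3 [.copy 8 3, .jump o4])
  b4 : At L o4 (call 2 p4 o4 [.sub 10 3 2, .jump o5])
  b5 : At L o5 (call 2 p5 o5 [.sub 11 3 2, .store 11 10, .jump o1])

theorem exists_layout (p1 p2 p3 p4 p5 : Prog) (S0 : ℕ) :
    ∃ L o1 o2 o3 o4 o5, Layout L p1 p2 p3 p4 p5 S0 o1 o2 o3 o4 o5 := by
  let o1 := 0 + 5
  let o2 := o1 + (len p1 + 4 + 2)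
  let o3 := o2 + (len p2 + 8 + 2)
  let o4 := o3 + (len p3 + 2 + 2)
  let o5 := o4 + (len p4 + 2 + 2)
  have h := at_self ([.const 2 1, .const 5 1, .const 6 1, .const 8 S0, .jump o1] ++
    (call 2 p1 o1 [.sub 10 3 2, .jumpIfZero 10 o2, .sub 0 10 2, .halt] ++
    (call 2 p2 o2 [.sub 10 3 2, .load 11 10, .rand 7, .and 7 7 2, .add 9 11 2,
      .add 9 9 9, .add 9 9 7, .jump o3] ++
    (call 9 p3 o3 [.copy 8 3, .jump o4] ++
    (call 2 p4 o4 [.sub 10 3 2, .jump o5] ++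
    call 2 p5 o5 [.sub 11 3 2, .store 11 10, .jump o1])))))
  rw [at_append, at_append, at_append, at_append, at_append, length_call, length_call,
    length_call, length_call] at h
  exact ⟨_, o1, o2, o3, o4, o5, h.1, h.2.1, h.2.2.1, h.2.2.2.1, h.2.2.2.2.1, h.2.2.2.2.2⟩

section main
variable {p1 p2 p3 p4 p5 : Prog} {S0 o1 o2 o3 o4 o5 : ℕ}

theorem Layout.start (h : Layout L p1 p2 p3 p4 p5 S0 o1 o2 o3 o4 o5) (hw : 1 < w)
    (hS : S0 < 2 ^ w) (inp : List ℕ) :
    Rch L w ρ 5 (init ⟨12, L⟩ w inp) ⟨o1, false, vec (inp.length % 2 ^ w) 0 0 1 1 0 S0 0 0 0,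
      fun i => inp[i]?.getD 0 % 2 ^ w, 0⟩ := by
  obtain ⟨a1, a2, a3, a4, a5, -⟩ := h.b0
  have h1 : 1 < 2 ^ w := Nat.one_lt_two_pow (by omega)
  refine (((((r_const a1 h1).trans (r_const a2 h1)).trans (r_const a3 h1)).trans
    (r_const a4 hS)).trans (r_jump a5)).congr ?_
  congr 1
  funext j
  fin_cases j <;> rfl

theorem Layout.stop (h : Layout L p1 p2 p3 p4 p5 S0 o1 o2 o3 o4 o5) (hw : 1 < w)
    {s : List Bool} {T q : ℕ} (e1 : Exec p1 ⟨s, [], [], []⟩ ⟨raw (q + 1), [], [], []⟩ T)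
    (hb : s.length + T < w) (k m a t U X Y : ℕ) (M : ℕ → ℕ) (D : ℕ) :
    ∃ c : Cfg 12, c.halted = true ∧ c.output = (List.range q).map M ∧
      Rch L w ρ (5 * T + 6) ⟨o1, false, vec k m a 1 1 t (num s) U X Y, M, D⟩ c := by
  obtain ⟨o', t', ⟨a1, a2, a3, a4, -⟩, r⟩ :=
    rch_call (ρ := ρ) hw e1 h.b1 (by simpa using hb) k m a t U X Y M D rfl
  have r1 : Rch L w ρ (1 + 1) ⟨o', false, vec k (num (raw (q + 1))) 1 1 1 t' (num s) U X Y, M, D⟩
      ⟨o' + 1 + 1, false, vec k (num (raw (q + 1))) 1 1 1 t' (num s) U (q + 1) Y, M, D⟩ :=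
    ((r_sub a1).trans (r_jz a2)).congr (by simp [num_raw])
  refine ⟨_, ?_, ?_, (((r.trans r1).trans (r_sub a3)).trans (r_halt a4)).mono (by omega)⟩
  · rfl
  · simp [Cfg.output, Cfg.reg]

theorem Layout.iter (h : Layout L p1 p2 p3 p4 p5 S0 o1 o2 o3 o4 o5) (hw : 1 < w)
    {s s' : List Bool} {T ra wa wv B D : ℕ} {M : ℕ → ℕ}
    (e1 : Exec p1 ⟨s, [], [], []⟩ ⟨raw 0, [], [], []⟩ T)
    (e2 : Exec p2 ⟨s, [], [], []⟩ ⟨raw ra, [], [], []⟩ T)
    (e3 : Exec p3 ⟨s, (ρ D % 2 ^ w).bodd :: raw (M ra), [], []⟩ ⟨s', [], [], []⟩ T)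
    (e4 : Exec p4 ⟨s', [], [], []⟩ ⟨raw wa, [], [], []⟩ T)
    (e5 : Exec p5 ⟨s', [], [], []⟩ ⟨raw wv, [], [], []⟩ T)
    (hM : M ra < 2 ^ B) (hb : s.length + (B + 1) + T + 1 < w) (hb' : s'.length + T < w)
    (k m a t U X Y : ℕ) :
    ∃ m' a' t' U' X' Y', Rch L w ρ (25 * T + 27)
      ⟨o1, false, vec k m a 1 1 t (num s) U X Y, M, D⟩
      ⟨o1, false, vec k m' a' 1 1 t' (num s') U' X' Y', Function.update M wa wv, D + 1⟩ := by
  have hl := length_raw_le hM
  have hp : 2 ^ (B + 2) ≤ 2 ^ w := Nat.pow_le_pow_right (by omega) (by omega)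
  have hp' : 2 ^ (B + 2) = 4 * 2 ^ B := by ring
  obtain ⟨q1, t1, ⟨a1, a2, -⟩, r1⟩ :=
    rch_call (ρ := ρ) hw e1 h.b1 (by simp only [List.length_nil]; omega) k m a t U X Y M D rfl
  have r1' : Rch L w ρ (1 + 1) ⟨q1, false, vec k (num (raw 0)) 1 1 1 t1 (num s) U X Y, M, D⟩
      ⟨o2, false, vec k (num (raw 0)) 1 1 1 t1 (num s) U 0 Y, M, D⟩ :=
    ((r_sub a1).trans (r_jz a2)).congr (by simp [num_raw])
  obtain ⟨q2, t2, ⟨b1, b2, b3, b4, b5, b6, b7, b8, -⟩, r2⟩ :=
    rch_call (ρ := ρ) hw e2 h.b2 (by simp only [List.length_nil]; omega) k (num (raw 0)) 1 t1 U 0 Y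
      M D rfl
  have hbit : ρ D % 2 ^ w &&& 1 = (ρ D % 2 ^ w).bodd.toNat := by
    rw [Nat.and_one_is_mod, Nat.mod_two_of_bodd]
  have hb1 : (ρ D % 2 ^ w).bodd.toNat ≤ 1 := Bool.toNat_le _
  have r2a : Rch L w ρ (1 + 1 + 1 + 1)
      ⟨q2, false, vec k (num (raw ra)) 1 1 1 t2 (num s) U 0 Y, M, D⟩
      ⟨q2 + 1 + 1 + 1 + 1, false,
        vec k (num (raw ra)) 1 1 1 (ρ D % 2 ^ w).bodd.toNat (num s) U ra (M ra), M, D + 1⟩ :=
    ((((r_sub b1).trans (r_load b2)).trans (r_rand b3)).trans (r_and b4)).congr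
      (by simp only [vec2, vec3, vec7, vec10, wr7, wr10, wr11, num_raw, hbit, Nat.add_sub_cancel])
  have r2b : Rch L w ρ (1 + 1 + 1 + 1) ⟨q2 + 1 + 1 + 1 + 1, false,
        vec k (num (raw ra)) 1 1 1 (ρ D % 2 ^ w).bodd.toNat (num s) U ra (M ra), M, D + 1⟩
      ⟨o3, false, vec k (num (raw ra)) 1 1 1 (ρ D % 2 ^ w).bodd.toNat (num s)
        (num ((ρ D % 2 ^ w).bodd :: raw (M ra))) ra (M ra), M, D + 1⟩ := by
    refine ((((r_add b5 ?_).trans (r_add b6 ?_)).trans (r_add b7 ?_)).trans (r_jump b8)).congr ?_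
    · simp only [vec2, vec11]; omega
    · simp only [vec2, vec9, vec11, wr9]; omega
    · simp only [vec2, vec7, vec9, vec11, wr9]; omega
    · simp only [vec2, vec7, vec9, vec11, wr9, num, num_raw, two_mul]
  obtain ⟨q3, t3, ⟨c1, c2, -⟩, r3⟩ :=
    rch_call (ρ := ρ) hw e3 h.b3 (by simp only [List.length_cons]; omega) k (num (raw ra)) 1
      (ρ D % 2 ^ w).bodd.toNat (num ((ρ D % 2 ^ w).bodd :: raw (M ra))) ra (M ra) M (D + 1) rfl
  have r3' := ((r_copy (w := w) (ρ := ρ) (Rg := vec k (num s') 1 1 1 t3 (num s)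
    (num ((ρ D % 2 ^ w).bodd :: raw (M ra))) ra (M ra)) (M := M) (D := D + 1) c1).trans
      (r_jump c2))
  simp only [vec3, wr8] at r3'
  obtain ⟨q4, t4, ⟨d1, d2, -⟩, r4⟩ :=
    rch_call (ρ := ρ) hw e4 h.b4 (by simp only [List.length_nil]; omega) k (num s') 1 t3
      (num ((ρ D % 2 ^ w).bodd :: raw (M ra))) ra (M ra) M (D + 1) rfl
  have r4' := ((r_sub (w := w) (ρ := ρ) (Rg := vec k (num (raw wa)) 1 1 1 t4 (num s')
    (num ((ρ D % 2 ^ w).bodd :: raw (M ra))) ra (M ra)) (M := M) (D := D + 1) d1).trans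
      (r_jump d2))
  simp only [vec2, vec3, wr10] at r4'
  obtain ⟨q5, t5, ⟨f1, f2, f3, -⟩, r5⟩ :=
    rch_call (ρ := ρ) hw e5 h.b5 (by simp only [List.length_nil]; omega) k (num (raw wa)) 1 t4
      (num ((ρ D % 2 ^ w).bodd :: raw (M ra))) (num (raw wa) - 1) (M ra) M (D + 1) rfl
  have r5' := (((r_sub (w := w) (ρ := ρ) (Rg := vec k (num (raw wv)) 1 1 1 t5 (num s')
    (num ((ρ D % 2 ^ w).bodd :: raw (M ra))) (num (raw wa) - 1) (M ra)) (M := M) (D := D + 1)
      f1).trans (r_store f2)).trans (r_jump f3))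
  simp only [vec2, vec3, vec10, vec11, wr11] at r5'
  have fin := (((((((((r1.trans r1').trans r2).trans r2a).trans r2b).trans r3).trans r3').trans
    r4).trans r4').trans r5).trans r5'
  simp only [num_raw, Nat.add_sub_cancel] at fin
  exact ⟨_, _, _, _, _, _, fin.mono (by omega)⟩

end main

theorem drawn_stp (c : Cfg 12) : (stp L w ρ c).drawn ≤ c.drawn + 1 := by
  unfold stp step
  split_ifs
  · omega
  · dsimp only
    split <;> simp

theorem drawn_iterate (k : ℕ) (c : Cfg 12) : ((stp L w ρ)^[k] c).drawn ≤ c.drawn + k := by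
  induction k with
  | zero => simp
  | succ k ih =>
    rw [Function.iterate_succ_apply']
    have := drawn_stp (L := L) (w := w) (ρ := ρ) ((stp L w ρ)^[k] c)
    omega

theorem iterate_of_halted {c : Cfg 12} (h : c.halted = true) (k : ℕ) : (stp L w ρ)^[k] c = c :=
  Function.iterate_fixed (by simp [stp, step, h]) k

theorem Rch.iterate_eq {n T : ℕ} {c c' : Cfg 12} (h : Rch L w ρ n c c') (hc : c'.halted = true)
    (hT : n ≤ T) : (stp L w ρ)^[T] c = c' := by
  obtain ⟨k, hk, e⟩ := h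
  obtain ⟨j, rfl⟩ : ∃ j, T = j + k := ⟨T - k, by omega⟩
  rw [Function.iterate_add_apply, e, iterate_of_halted hc]

theorem Rch.not_halted {n T : ℕ} {c c' : Cfg 12} (h : Rch L w ρ n c c') (hc : c'.halted = false)
    (hT : c.drawn + T ≤ c'.drawn) : ((stp L w ρ)^[T] c).halted = false := by
  obtain ⟨k, -, e⟩ := h
  have h1 := drawn_iterate (L := L) (w := w) (ρ := ρ) k c
  rw [e] at h1
  obtain ⟨j, rfl⟩ : ∃ j, k = j + T := ⟨k - T, by omega⟩
  by_contra hh
  rw [Function.iterate_add_apply, iterate_of_halted (by simpa using hh)] at e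
  rw [e] at hh
  exact hh hc

end Crest.Agent.R309.RamAux
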