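import Crest.Agent.R309.MacDef
import Crest.Agent.R309.RamAux2
import Crest.Prelude.Def_WordRAM

/-!
# R309: macro machines on the word RAM, step by step
-/

set_option linter.dupNamespace false

namespace Crest.Agent.R309

open Crest.Agent.Lib.PT Crest.WordRAM

theorem RamAux.mem_bound {σ : Type} (m : Mac σ) {N : ℕ} (l : List Bool) :
    ∀ c : σ × (ℕ → ℕ), (∀ i, c.2 i < N) → (∀ l', (m.wr (m.go c l').1).2 < N) →
      ∀ i, (m.go c l).2 i < N := by
  induction l with
  | nil => exact fun c h _ => h
  | cons b l ih =>
    intro c h h'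
    refine ih (m.step c b) (fun i => ?_) fun l' => h' (b :: l')
    have h1 := h' [b]
    simp only [Mac.go_cons, Mac.go_nil] at h1
    unfold Mac.step at h1 ⊢
    split_ifs at h1 ⊢
    · exact h i
    · simp only [Function.update_apply]
      split_ifs
      · exact h1
      · exact h i

theorem RamAux.exists_poly {f : ℕ → ℕ} (h : PB fun u : Un => f u.n) :
    ∃ c d, ∀ B, f B ≤ c * (B + 1) ^ d := by
  obtain ⟨c, d, h⟩ := h
  refine ⟨c * 2 ^ d, d, fun B => (h ⟨B⟩).trans ?_⟩
  rw [sz_un, mul_assoc, ← mul_pow]
  exact Nat.mul_le_mul_left _ (Nat.pow_le_pow_left (by simp only []; omega) _)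

open RamAux in
/-- Deterministic simulation.  `bits ρ n` below is the list of the low bits of the first `n` random
words; the program draws exactly one word per macro step.
Construction.  A bit stack `l` is kept in a register as the number `enc l` (`enc [] = 1`,
`enc (b :: l) = 2 * enc l + b`), so four registers hold a `St` of `Lib.PT.Machine` as long as every stack has
length `< w` (`Exec.tot_le`).  Compile a `Prog` `p` placed at offset `o` into a list of instructions
`code p o` (push: `r := r + r; r := r + 1`; pop and test: compare with `1`, `r &&& 1`, `r >>> 1`; registers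
holding the constants), and prove by induction on `Exec p s s' n` that the machine goes from
`pc = o` to `pc = o + length` within `C * n` steps, changing only the stack and scratch registers,
whenever `P.code` contains `code p o` at offset `o`.  A word `v` is turned into the stack `raw v` with
`enc (raw v) = v + 1` by one addition, and back by one subtraction (`raw v = (v+1).bits.dropLast`,
polynomial time both ways); small `Prog`s convert a raw stack into the tree code of a `List Bool`
on the main stack and back (compare `outW`, `pour` in `Lib.PT.Compile` / `Tree`; reversals are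
absorbed in the polynomial-time function).  The main loop keeps `(enc s).bits` on the main stack;
it is convenient to use one polynomial-time function
`F (s, raw value, bit) = (halt flag, raw k, raw write address, raw write value, raw read address, s')`
and `Run.frame` to keep what lies below.  Loop body: load the value at the read address, draw a
word and mask its low bit, push the codes, run the program of `F`, decode the components into
registers, store, and test the flag (on halting set register `0 := k`, register `1 := 0`).  The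
first read address and the test of `fin s0` are constants of the program.  All numbers that occur
are outputs of polynomial-time functions on inputs of size polynomial in `B`, hence below `2 ^ w`. -/
theorem Mac.ram {σ : Type} [Enc σ] (m : Mac σ)
    (hnx : PT fun p : σ × ℕ × Bool => m.nx p.1 p.2.1 p.2.2) (hrd : PT m.rd) (hwr : PT m.wr)
    (hfin : PT m.fin) :
    ∃ (P : Program) (c d : ℕ), ∀ (inp : List ℕ) (B w : ℕ), (∀ a ∈ inp, a < 2 ^ B) →
      (∀ l, sz (m.go (m.init inp) l).1 ≤ B) → c * (B + 1) ^ d ≤ w → ∀ (ρ : ℕ → ℕ) (n : ℕ),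
      (m.fin (m.go (m.init inp) ((List.range n).map fun i => (ρ i % 2 ^ w).bodd)).1 = none →
        (run P w ρ inp n).halted = false) ∧
      ∀ out, m.Out (m.go (m.init inp) ((List.range n).map fun i => (ρ i % 2 ^ w).bodd)) out →
        HaltsWithin P w ρ inp (c * (B + 1) ^ d * (n + 1)) out := by
  have g1 : PT fun x : List Bool × σ => raw ((m.fin x.2).elim 0 (· + 1)) :=
    raw_pt (by fun_prop)
  have g2 : PT fun x : List Bool × σ => raw (m.rd x.2) := raw_pt (by fun_prop)
  have g3 : PT fun x : List Bool × σ =>
      toBits (m.nx x.2 (ofBits (x.1.tail ++ [true]) - 1) (x.1.headD false)) :=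
    PT.toBits (hnx.comp (f := fun x : List Bool × σ =>
      (x.2, ofBits (x.1.tail ++ [true]) - 1, x.1.headD false)) (by fun_prop))
  have g4 : PT fun x : List Bool × σ => raw (m.wr x.2).1 := raw_pt (by fun_prop)
  have g5 : PT fun x : List Bool × σ => raw (m.wr x.2).2 := raw_pt (by fun_prop)
  obtain ⟨p1, c1, k1, e1⟩ := exists_call g1
  obtain ⟨p2, c2, k2, e2⟩ := exists_call g2
  obtain ⟨p3, c3, k3, e3⟩ := exists_call g3
  obtain ⟨p4, c4, k4, e4⟩ := exists_call g4
  obtain ⟨p5, c5, k5, e5⟩ := exists_call g5
  obtain ⟨cw, kw, hwr'⟩ : PB fun s => sz (m.wr s).2 := by fun_prop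
  obtain ⟨L, o1, o2, o3, o4, o5, hL⟩ := exists_layout p1 p2 p3 p4 p5 (num (toBits m.s0))
  let B1 : ℕ → ℕ := fun B => B + cw * B ^ kw
  let Z : ℕ → ℕ := fun B => 4 * (B1 B + 1) + 1 + B + 1
  let T : ℕ → ℕ := fun B => c1 * Z B ^ k1 + c2 * Z B ^ k2 + c3 * Z B ^ k3 + c4 * Z B ^ k4 +
    c5 * Z B ^ k5
  obtain ⟨c, d, hcd⟩ := exists_poly (f := fun B => 25 * T B + 27 + Z B) (by
    simp only [T, Z, B1]
    fun_prop)
  refine ⟨⟨12, L⟩, c, d, fun inp B w hinp hsz hw ρ n => ?_⟩
  have hN := hcd B
  have hZ : Z B = 4 * (B1 B + 1) + 1 + B + 1 := rfl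
  have hB1 : B1 B = B + cw * B ^ kw := rfl
  have hT : T B = c1 * Z B ^ k1 + c2 * Z B ^ k2 + c3 * Z B ^ k3 + c4 * Z B ^ k4 +
    c5 * Z B ^ k5 := rfl
  generalize c * (B + 1) ^ d = N at hN hw ⊢
  have hw1 : 1 < w := by omega
  have hle : ∀ (x : List Bool × σ) (c k : ℕ), x.1.length ≤ B1 B + 1 → sz x.2 ≤ B →
      c * sz x ^ k ≤ c * Z B ^ k := by
    intro x c k h1 h2
    have := sz_boolList_le x.1
    exact Nat.mul_le_mul_left _ (Nat.pow_le_pow_left (by rw [sz_prod]; omega) _)
  have hmem : ∀ l i, (m.go (m.init inp) l).2 i < 2 ^ B1 B := by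
    intro l
    refine mem_bound m l _ (fun i => ?_) fun l' => ?_
    · have h1 : 2 ^ B ≤ 2 ^ B1 B := Nat.pow_le_pow_right (by omega) (by omega)
      simp only [Mac.init, List.getD_eq_getElem?_getD]
      cases h : inp[i]? with
      | none => simp
      | some a => exact (hinp a (List.mem_of_getElem? h)).trans_le h1
    · refine (lt_two_pow_sz _).trans_le (Nat.pow_le_pow_right (by omega) ?_)
      have := (hwr' _).trans (Nat.mul_le_mul_left cw (Nat.pow_le_pow_left (hsz l') kw))
      simp only [] at this
      omega
  have key : ∀ n, ∃ j ≤ n, (j = n ∨ m.fin (m.go (m.init inp)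
      ((List.range n).map fun i => (ρ i % 2 ^ w).bodd)).1 ≠ none) ∧ ∃ a b t U X Y,
      Rch L w ρ (5 + (25 * T B + 27) * j) (WordRAM.init ⟨12, L⟩ w inp)
        ⟨o1, false, vec (inp.length % 2 ^ w) a b 1 1 t (num (toBits (m.go (m.init inp)
          ((List.range n).map fun i => (ρ i % 2 ^ w).bodd)).1)) U X Y,
          (m.go (m.init inp) ((List.range n).map fun i => (ρ i % 2 ^ w).bodd)).2, j⟩ := by
    intro n
    induction n with
    | zero =>
      have h0 : sz m.s0 ≤ B := hsz []
      have h1 := num_lt (toBits m.s0)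
      rw [length_toBits] at h1
      refine ⟨0, le_rfl, Or.inl rfl, 0, 0, 0, 0, 0, 0, (hL.start hw1 (h1.trans_le
        (Nat.pow_le_pow_right (by omega) (by omega))) inp).congr ?_⟩
      congr 1
      funext i
      have h2 := hmem [] i
      simp only [Mac.go_nil, Mac.init, List.getD_eq_getElem?_getD, List.range_zero,
        List.map_nil] at h2 ⊢
      exact Nat.mod_eq_of_lt (h2.trans_le (Nat.pow_le_pow_right (by omega) (by omega)))
    | succ n ih =>
      obtain ⟨j, hj, hj', a, b, t, U, X, Y, r⟩ := ih
      have hs := hsz ((List.range n).map fun i => (ρ i % 2 ^ w).bodd)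
      have hs' := hsz ((List.range (n + 1)).map fun i => (ρ i % 2 ^ w).bodd)
      have hm := hmem ((List.range n).map fun i => (ρ i % 2 ^ w).bodd)
      rw [List.range_succ, List.map_append, Mac.go_append, List.map_singleton, Mac.go_cons,
        Mac.go_nil] at hs' ⊢
      generalize m.go (m.init inp) ((List.range n).map fun i => (ρ i % 2 ^ w).bodd) = cf
        at hj' r hs hs' hm ⊢
      by_cases hf : m.fin cf.1 = none
      · obtain rfl : j = n := hj'.resolve_right fun h => h hf
        have hst : m.step cf (ρ j % 2 ^ w).bodd =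
            (m.nx cf.1 (cf.2 (m.rd cf.1)) (ρ j % 2 ^ w).bodd, Function.update cf.2
              (m.wr (m.nx cf.1 (cf.2 (m.rd cf.1)) (ρ j % 2 ^ w).bodd)).1
              (m.wr (m.nx cf.1 (cf.2 (m.rd cf.1)) (ρ j % 2 ^ w).bodd)).2) := by
          unfold Mac.step
          rw [if_neg (by simp [hf])]
        rw [hst] at hs' ⊢
        have hl := length_raw_le (hm (m.rd cf.1))
        have x1 := (e1 ([], cf.1)).mono (hle _ _ _ (by simp) hs)
        have x2 := (e2 ([], cf.1)).mono (hle _ _ _ (by simp) hs)
        have x3 := (e3 ((ρ j % 2 ^ w).bodd :: raw (cf.2 (m.rd cf.1)), cf.1)).mono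
          (hle _ _ _ (by simpa using hl) hs)
        have x4 := (e4 ([], _)).mono (hle _ _ _ (by simp) hs')
        have x5 := (e5 ([], _)).mono (hle _ _ _ (by simp) hs')
        simp only [hf, Option.elim_none, List.tail_cons, List.headD_cons, ofBits_append_true,
          num_raw, Nat.add_sub_cancel] at x1 x2 x3 x4 x5 hs'
        obtain ⟨a', b', t', U', X', Y', r'⟩ := hL.iter (ρ := ρ) (T := T B) (D := j) (M := cf.2)
          hw1 (x1.mono (by omega)) (x2.mono (by omega)) (x3.mono (by omega))
          (x4.mono (by omega)) (x5.mono (by omega)) (hm _)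
          (by rw [length_toBits]; omega) (by rw [length_toBits]; omega)
          (inp.length % 2 ^ w) a b t U X Y
        exact ⟨j + 1, le_rfl, Or.inl rfl, a', b', t', U', X', Y',
          (r.trans r').mono (by rw [Nat.mul_succ]; omega)⟩
      · rw [m.step_of_fin hf]
        exact ⟨j, by omega, Or.inr hf, a, b, t, U, X, Y, r⟩
  obtain ⟨j, hj, hj', a, b, t, U, X, Y, r⟩ := key n
  have hs := hsz ((List.range n).map fun i => (ρ i % 2 ^ w).bodd)
  generalize m.go (m.init inp) ((List.range n).map fun i => (ρ i % 2 ^ w).bodd) = cf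
    at hj' r hs ⊢
  refine ⟨fun hf => ?_, fun out ⟨q, hq, hout⟩ => ?_⟩
  · obtain rfl : j = n := hj'.resolve_right fun h => h hf
    exact r.not_halted rfl (by simp [WordRAM.init])
  · have x1 := (e1 ([], cf.1)).mono (hle _ _ _ (by simp) hs)
    simp only [hq, Option.elim_some] at x1
    obtain ⟨cc, h1, h2, r'⟩ := hL.stop (ρ := ρ) (T := T B) hw1 (x1.mono (by omega))
      (by rw [length_toBits]; omega) (inp.length % 2 ^ w) a b t U X Y cf.2 j
    have h3 : (25 * T B + 27) * j ≤ N * n := Nat.mul_le_mul (by omega) hj
    have h4 : run ⟨12, L⟩ w ρ inp (N * (n + 1)) = cc :=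
      (r.trans r').iterate_eq h1 (by rw [Nat.mul_succ]; omega)
    exact ⟨by rw [h4]; exact h1, by rw [h4, hout]; exact h2⟩

end Crest.Agent.R309
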