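import Crest.Agent.R309.Model

/-!
# R309: laminar log-concave weights are Lorentzian
-/

set_option linter.dupNamespace false
set_option linter.unusedSectionVars false

namespace Crest.Agent.R309

open Finset

variable {E L : Type} [Fintype E] [DecidableEq E] [Fintype L] [DecidableEq L]

/-- The weight of a laminar family with convex penalties. -/
noncomputable def lamMu (mem : E → L → Bool) (ψ : L → ℤ → ℝ) (base : L → ℤ) (γ : E → ℝ)
    (top : E → ℤ) (c : E → ℤ) : ℝ := by
  classical
  exact if c ≤ top then
    Real.exp (∑ a, γ a * c a - ∑ C, ψ C (base C - ∑ a, if mem a C then c a else 0)) else 0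

/-- Ultrametric matrices are "all ones minus positive semidefinite".
Proof: for a finset `F` of members put `Θ F a b = ∏ C ∈ F, if mem a C ∧ mem b C then θ C else 1` and
prove `∑∑ x a * x b * Θ F a b ≤ (∑ x a)^2` by (strong) induction on `F`: remove `C₀ ∈ F` whose set
`{a | mem a C₀}` has minimal cardinality.  For `a, b ∈ C₀` and `C ∈ F \ C₀`: `C ∋ a` forces
`C₀ ⊆ C` (laminarity and minimality), so `Θ (F \ C₀) a b = λ := ∏ C ∈ F \ C₀, if C₀ ⊆ C then θ C else 1`
does not depend on `a, b ∈ C₀`; hence
`Θ F a b = Θ (F \ C₀) a b - λ (1 - θ C₀) [a ∈ C₀] [b ∈ C₀]` and the subtracted form is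
`λ (1 - θ C₀) (∑_{a ∈ C₀} x a)^2 ≥ 0`. -/
theorem ultra_le (mem : E → L → Bool)
    (lam : ∀ C C', (∃ a, mem a C = true ∧ mem a C' = true) →
      (∀ a, mem a C = true → mem a C' = true) ∨ (∀ a, mem a C' = true → mem a C = true))
    (θ : L → ℝ) (h0 : ∀ C, 0 ≤ θ C) (h1 : ∀ C, θ C ≤ 1) (x : E → ℝ) :
    ∑ a, ∑ b, x a * x b * ∏ C, (if mem a C = true ∧ mem b C = true then θ C else 1)
      ≤ (∑ a, x a) ^ 2 := by
  have key : ∀ (n : ℕ) (F : Finset L), F.card = n →
      ∑ a, ∑ b, x a * x b * ∏ C ∈ F, (if mem a C = true ∧ mem b C = true then θ C else 1)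
        ≤ (∑ a, x a) ^ 2 := by
    intro n
    induction n with
    | zero =>
      intro F hF
      rw [card_eq_zero] at hF
      subst hF
      simp only [prod_empty, mul_one]
      rw [sq, sum_mul_sum]
    | succ n ih =>
      intro F hF
      have hne : F.Nonempty := card_pos.1 (by omega)
      obtain ⟨C₀, hC₀, hmin⟩ := F.exists_min_image
        (fun C => (univ.filter fun a => mem a C = true).card) hne
      have hcard : (F.erase C₀).card = n := by rw [card_erase_of_mem hC₀]; omega
      refine le_trans ?_ (ih _ hcard)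
      set lm : ℝ := ∏ C ∈ F.erase C₀,
        (if ∀ a, mem a C₀ = true → mem a C = true then θ C else 1) with hlm
      have hlm0 : 0 ≤ lm := prod_nonneg fun C _ => by
        split_ifs
        · exact h0 C
        · exact zero_le_one
      have hsub : ∀ C ∈ F, ∀ a, mem a C₀ = true → mem a C = true →
          ∀ b, mem b C₀ = true → mem b C = true := by
        intro C hC a ha ha'
        rcases lam C₀ C ⟨a, ha, ha'⟩ with h | h
        · exact h
        · have hs : (univ.filter fun a => mem a C = true) ⊆
              (univ.filter fun a => mem a C₀ = true) := by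
            intro b hb
            simp only [mem_filter, mem_univ, true_and] at hb ⊢
            exact h b hb
          have he := eq_of_subset_of_card_le hs (hmin C hC)
          intro b hb
          have : b ∈ (univ.filter fun a => mem a C₀ = true) := by simpa using hb
          rw [← he] at this
          simpa using this
      have hΘ : ∀ a b, ∏ C ∈ F, (if mem a C = true ∧ mem b C = true then θ C else 1) =
          ∏ C ∈ F.erase C₀, (if mem a C = true ∧ mem b C = true then θ C else 1) -
            lm * (1 - θ C₀) * ((if mem a C₀ = true then 1 else 0) *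
              (if mem b C₀ = true then 1 else 0)) := by
        intro a b
        rw [← mul_prod_erase F _ hC₀]
        by_cases ha : mem a C₀ = true
        · by_cases hb : mem b C₀ = true
          · have e : ∏ C ∈ F.erase C₀, (if mem a C = true ∧ mem b C = true then θ C else 1) =
                lm := by
              refine prod_congr rfl fun C hC => ?_
              have hC' := mem_of_mem_erase hC
              by_cases hc : ∀ a, mem a C₀ = true → mem a C = true
              · rw [if_pos hc, if_pos ⟨hc a ha, hc b hb⟩]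
              · rw [if_neg hc, if_neg]
                exact fun h => hc (hsub C hC' a ha h.1)
            rw [e]
            simp only [ha, hb, and_self, if_true]
            ring
          · simp [hb]
        · simp [ha]
      simp only [hΘ, mul_sub, sum_sub_distrib]
      have hsq : ∑ a, ∑ b, x a * x b * (lm * (1 - θ C₀) * ((if mem a C₀ = true then 1 else 0) *
              (if mem b C₀ = true then (1 : ℝ) else 0))) =
          lm * (1 - θ C₀) * (∑ a, x a * (if mem a C₀ = true then 1 else 0)) ^ 2 := by
        rw [sq, sum_mul_sum, mul_sum]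
        refine sum_congr rfl fun a _ => ?_
        rw [mul_sum]
        refine sum_congr rfl fun b _ => ?_
        ring
      have hnn : 0 ≤ lm * (1 - θ C₀) * (∑ a, x a * (if mem a C₀ = true then 1 else 0)) ^ 2 :=
        mul_nonneg (mul_nonneg hlm0 (sub_nonneg.2 (h1 C₀))) (sq_nonneg _)
      rw [← hsq] at hnn
      simp only [mul_sub] at hnn
      linarith
  exact key _ univ rfl

/-- If the symmetric form `Q` satisfies `Q(η,η) ≤ ℓ(η)^2` for all `η`, `ℓ y ≠ 0`, `Q y y ≥ 0`, then
`Q(η,η) ≤ 0` for every `η` that is `Q`-orthogonal to `y`.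
Proof: `N = ℓ ⊗ ℓ - Q` is positive semidefinite.  Direct: apply the hypothesis to
`η' = η - (ℓ(η) / ℓ y) • e_y`, for which `ℓ(η') = 0` and
`Q(η',η') = Q(η,η) + (ℓ(η)/ℓ y)^2 Q y y ≥ Q(η,η)`. -/
theorem lor_of_le (Q : E → E → ℝ) (hQ : ∀ a b, Q a b = Q b a) (l : E → ℝ)
    (h : ∀ η : E → ℝ, ∑ a, ∑ b, η a * η b * Q a b ≤ (∑ a, η a * l a) ^ 2) (y : E) (hy : l y ≠ 0)
    (hyy : 0 ≤ Q y y) (η : E → ℝ) (ho : ∑ a, η a * Q a y = 0) :
    ∑ a, ∑ b, η a * η b * Q a b ≤ 0 := by
  set t : ℝ := (∑ a, η a * l a) / l y with ht
  have h' := h fun a => η a - t * (if a = y then 1 else 0)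
  have e1 : ∑ a, (η a - t * (if a = y then 1 else 0)) * l a = 0 := by
    simp only [sub_mul, sum_sub_distrib, mul_ite, mul_one, mul_zero, ite_mul, zero_mul,
      sum_ite_eq', mem_univ, if_true]
    rw [ht, div_mul_cancel₀ _ hy, sub_self]
  have ho' : ∑ b, η b * Q y b = 0 := by
    rw [← ho]; exact sum_congr rfl fun b _ => by rw [hQ]
  have e2 : ∑ a, ∑ b, (η a - t * (if a = y then 1 else 0)) * (η b - t * (if b = y then 1 else 0)) *
      Q a b = ∑ a, ∑ b, η a * η b * Q a b + t ^ 2 * Q y y := by
    have i1 : ∀ a, ∑ b, (η a - t * (if a = y then 1 else 0)) *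
        (η b - t * (if b = y then 1 else 0)) * Q a b =
        (η a - t * (if a = y then 1 else 0)) * (∑ b, η b * Q a b - t * Q a y) := by
      intro a
      have : ∑ b, (η b - t * (if b = y then 1 else 0)) * Q a b =
          ∑ b, η b * Q a b - t * Q a y := by
        simp only [sub_mul, sum_sub_distrib, mul_ite, mul_one, mul_zero, ite_mul, zero_mul,
          sum_ite_eq', mem_univ, if_true]
      rw [← this, mul_sum]
      exact sum_congr rfl fun b _ => by ring
    simp only [i1]
    simp only [sub_mul, sum_sub_distrib, mul_ite, mul_one, mul_zero, ite_mul, zero_mul,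
      sum_ite_eq', mem_univ, if_true, ho']
    have i2 : ∑ a, η a * (∑ b, η b * Q a b - t * Q a y) =
        ∑ a, ∑ b, η a * η b * Q a b - t * ∑ a, η a * Q a y := by
      rw [mul_sum, ← sum_sub_distrib]
      refine sum_congr rfl fun a _ => ?_
      rw [mul_sub, mul_sum]
      congr 1
      · exact sum_congr rfl fun b _ => by ring
      · ring
    rw [i2, ho]
    ring
  rw [e1, e2] at h'
  have : 0 ≤ t ^ 2 * Q y y := mul_nonneg (sq_nonneg _) hyy
  linarith

/-- The exponent of the laminar weight. -/
noncomputable def lorEx (mem : E → L → Bool) (ψ : L → ℤ → ℝ) (base : L → ℤ) (γ : E → ℝ)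
    (c : E → ℤ) : ℝ :=
  ∑ a, γ a * c a - ∑ C, ψ C (base C - ∑ a, if mem a C then c a else 0)

theorem lor_sum_dl (mem : E → L → Bool) (C : L) (c : E → ℤ) (a : E) :
    (∑ x, if mem x C then (c + dl a) x else 0) =
      (∑ x, if mem x C then c x else 0) + if mem a C then 1 else 0 := by
  have : ∀ x, (if mem x C then (c + dl a) x else 0) =
      (if mem x C then c x else 0) + if x = a then (if mem a C then 1 else 0) else 0 := by
    intro x
    by_cases hx : x = a
    · subst hx
      by_cases h : mem x C = true <;> simp [h]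
    · simp [hx, dl_ne hx]
  simp only [this, sum_add_distrib, sum_ite_eq', mem_univ, if_true]

theorem lor_gam_dl (γ : E → ℝ) (c : E → ℤ) (a : E) :
    ∑ x, γ x * ((c + dl a) x : ℤ) = ∑ x, γ x * c x + γ a := by
  have : ∀ x, γ x * ((c + dl a) x : ℤ) = γ x * c x + if x = a then γ a else 0 := by
    intro x
    by_cases hx : x = a
    · subst hx
      simp [mul_add]
    · simp [hx, dl_ne hx]
  simp only [this, sum_add_distrib, sum_ite_eq', mem_univ, if_true]

theorem lorEx_add (mem : E → L → Bool) (ψ : L → ℤ → ℝ) (base : L → ℤ) (γ : E → ℝ)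
    (τ : E → ℤ) (a b : E) :
    lorEx mem ψ base γ (τ + dl a + dl b) =
      (lorEx mem ψ base γ (τ + dl a) - lorEx mem ψ base γ τ / 2) +
      (lorEx mem ψ base γ (τ + dl b) - lorEx mem ψ base γ τ / 2) +
      ∑ C, if mem a C = true ∧ mem b C = true then
        2 * ψ C (base C - (∑ x, if mem x C then τ x else 0) - 1) -
          ψ C (base C - (∑ x, if mem x C then τ x else 0) - 1 - 1) -
          ψ C (base C - (∑ x, if mem x C then τ x else 0) - 1 + 1) else 0 := by
  simp only [lorEx, lor_sum_dl, lor_gam_dl]
  have : ∀ C, ψ C (base C - (((∑ x, if mem x C then τ x else 0) + if mem a C then 1 else 0) +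
        if mem b C then 1 else 0)) =
      ψ C (base C - ((∑ x, if mem x C then τ x else 0) + if mem a C then 1 else 0)) +
      ψ C (base C - ((∑ x, if mem x C then τ x else 0) + if mem b C then 1 else 0)) -
      ψ C (base C - ∑ x, if mem x C then τ x else 0) -
      (if mem a C = true ∧ mem b C = true then
        2 * ψ C (base C - (∑ x, if mem x C then τ x else 0) - 1) -
          ψ C (base C - (∑ x, if mem x C then τ x else 0) - 1 - 1) -
          ψ C (base C - (∑ x, if mem x C then τ x else 0) - 1 + 1) else 0) := by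
    intro C
    generalize (∑ x, if mem x C then τ x else 0) = S
    by_cases ha : mem a C = true
    · by_cases hb : mem b C = true
      · simp only [ha, hb, if_true, and_self]
        rw [show base C - (S + 1 + 1) = base C - S - 1 - 1 by ring,
          show base C - (S + 1) = base C - S - 1 by ring,
          show base C - S - 1 + 1 = base C - S by ring]
        ring
      · simp [ha, hb]
    · by_cases hb : mem b C = true <;> simp [ha, hb]
  simp only [this, sum_sub_distrib, sum_add_distrib]
  ring

/-- The laminar weight is a `Model`.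
Proof of `lor`: let `τ + e_y ≤ top`, so `τ ≤ top` and `μ τ > 0`.  Put `s C = base C - ∑_{a ∈ C} τ a`,
`θ C = exp (2 ψ C (s C - 1) - ψ C (s C - 2) - ψ C (s C)) ∈ [0,1]` (convexity at `s C - 1`) and
`l a = μ (τ + e_a) / sqrt (μ τ)`.  If `τ + e_a + e_b ≤ top` then
`μ (τ + e_a + e_b) = l a * l b * ∏ C, if a ∈ C ∧ b ∈ C then θ C else 1` (compare exponents member by
member).  If not, then either `l a * l b = 0`, or `a = b` with `τ a + 1 = top a`: the left side is
`0` and the right side is `≥ 0`.  So `Q(η,η) ≤ ∑∑ (η a l a)(η b l b) Θ a b ≤ (∑ η a l a)^2` by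
`ultra_le`; finish with `lor_of_le` (`l y > 0`). -/
theorem exists_lamModel (mem : E → L → Bool)
    (lam : ∀ C C', (∃ a, mem a C = true ∧ mem a C' = true) →
      (∀ a, mem a C = true → mem a C' = true) ∨ (∀ a, mem a C' = true → mem a C = true))
    (ψ : L → ℤ → ℝ) (cvx : ∀ C s, 2 * ψ C s ≤ ψ C (s - 1) + ψ C (s + 1)) (base : L → ℤ)
    (γ : E → ℝ) (top : E → ℤ) :
    ∃ M : Model E, M.top = top ∧ M.μ = lamMu mem ψ base γ top := by
  classical
  have hpos : ∀ c, c ≤ top → lamMu mem ψ base γ top c = Real.exp (lorEx mem ψ base γ c) := by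
    intro c hc
    simp only [lamMu, lorEx]
    rw [if_pos hc]
  have hzero : ∀ c, ¬ c ≤ top → lamMu mem ψ base γ top c = 0 := by
    intro c hc
    simp only [lamMu]
    rw [if_neg hc]
  have hnn : ∀ c, 0 ≤ lamMu mem ψ base γ top c := by
    intro c
    by_cases hc : c ≤ top
    · rw [hpos c hc]; exact (Real.exp_pos _).le
    · rw [hzero c hc]
  refine ⟨⟨lamMu mem ψ base γ top, top, fun c hc => by rw [hpos c hc]; exact Real.exp_pos _, hzero,
    fun τ y η hy ho => ?_⟩, rfl, rfl⟩
  set l : E → ℝ := fun a => if τ + dl a ≤ top then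
    Real.exp (lorEx mem ψ base γ (τ + dl a) - lorEx mem ψ base γ τ / 2) else 0 with hl
  set θ : L → ℝ := fun C => Real.exp
    (2 * ψ C (base C - (∑ x, if mem x C then τ x else 0) - 1) -
      ψ C (base C - (∑ x, if mem x C then τ x else 0) - 1 - 1) -
      ψ C (base C - (∑ x, if mem x C then τ x else 0) - 1 + 1)) with hθ
  have hθ0 : ∀ C, 0 ≤ θ C := fun C => (Real.exp_pos _).le
  have hθ1 : ∀ C, θ C ≤ 1 := fun C => by
    refine Real.exp_le_one_iff.2 ?_
    have := cvx C (base C - (∑ x, if mem x C then τ x else 0) - 1)
    linarith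
  have hle : ∀ (c : E → ℤ) (a : E), c + dl a ≤ top → c ≤ top := fun c a h x =>
    le_trans (by simpa using dl_nonneg a x) (h x)
  refine lor_of_le (fun a b => lamMu mem ψ base γ top (τ + dl a + dl b))
    (fun a b => by rw [add_right_comm]) l (fun η => ?_) y ?_ (hnn _) η ho
  · refine le_trans ?_ (ultra_le mem lam θ hθ0 hθ1 fun a => η a * l a)
    refine sum_le_sum fun a _ => sum_le_sum fun b _ => ?_
    have hΘ : 0 ≤ ∏ C, (if mem a C = true ∧ mem b C = true then θ C else 1) :=
      prod_nonneg fun C _ => by
        split_ifs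
        · exact hθ0 C
        · exact zero_le_one
    by_cases hab : τ + dl a + dl b ≤ top
    · have ha : τ + dl a ≤ top := hle _ _ hab
      have hb : τ + dl b ≤ top := hle _ a (by rwa [add_right_comm])
      have e : ∏ C, (if mem a C = true ∧ mem b C = true then θ C else 1) =
          Real.exp (∑ C, if mem a C = true ∧ mem b C = true then
            2 * ψ C (base C - (∑ x, if mem x C then τ x else 0) - 1) -
              ψ C (base C - (∑ x, if mem x C then τ x else 0) - 1 - 1) -
              ψ C (base C - (∑ x, if mem x C then τ x else 0) - 1 + 1) else 0) := by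
        rw [Real.exp_sum]
        refine prod_congr rfl fun C _ => ?_
        split_ifs
        · rfl
        · simp
      refine le_of_eq ?_
      rw [hpos _ hab, lorEx_add, Real.exp_add, Real.exp_add, e]
      simp only [hl, if_pos ha, if_pos hb]
      ring
    · rw [hzero _ hab, mul_zero]
      by_cases e : a = b
      · subst e
        exact mul_nonneg (mul_self_nonneg _) hΘ
      · have : ¬ τ + dl a ≤ top ∨ ¬ τ + dl b ≤ top := by
          by_contra hc
          push Not at hc
          apply hab
          intro x
          by_cases hx : x = a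
          · subst hx
            have := hc.1 x
            simpa [dl_ne e] using this
          · have := hc.2 x
            simpa [dl_ne hx] using this
        rcases this with h | h
        · simp [hl, h]
        · simp [hl, h]
  · simp only [hl, if_pos hy]
    exact (Real.exp_pos _).ne'

end Crest.Agent.R309
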