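import Crest.Agent.R309.Green

/-!
# R309: the second-order terms are squares; log-concavity of marginals
-/

set_option linter.dupNamespace false
set_option linter.unusedSectionVars false

namespace Crest.Agent.R309

open Finset

variable {U T : Type} [Fintype U] [DecidableEq U] [Fintype T] [DecidableEq T]

theorem square_shift {lo hi : U → ℤ} {S S' : Finset U} (hS : S ⊆ S') (ρ : U → ℤ)
    {ν : (El U T → ℤ) → ℝ} (hν : Van lo hi S ν) {c₀ : El U T → ℤ} (hc : Off S c₀)
    (W : (U → ℤ) → ℝ) (hW : ∀ u ∈ S, ∀ I, W (I + dl u) = W I) {u : U} (hu : u ∈ S) (d : El U T)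
    (Φ : (U → ℤ) → ℝ) :
    ∑ I ∈ boxS lo hi S' ρ, W I * (Φ I * ν (c₀ + diag I + dl d + dl (eY u))) =
      ∑ I ∈ boxS lo hi S' ρ, W I * (Φ (I + dl u) * ν (c₀ + diag I + dl d + dl (eX u))) := by
  symm
  refine sum_shift (hS hu) _ _ (fun I _ h => ?_) (fun I _ h => ?_) (fun I _ _ => ?_)
  · rw [hν u hu _ (Or.inl ?_), mul_zero, mul_zero]
    have := dl_nonneg d (eX u)
    simp only [Pi.add_apply, (hc u hu).1, diag_X, dl_self]
    omega
  · rw [hν u hu _ (Or.inr ?_), mul_zero, mul_zero]
    have := dl_nonneg d (eY u)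
    simp only [Pi.add_apply, (hc u hu).2, diag_Y, dl_self]
    omega
  · rw [hW u hu, diag_add_dl]
    congr 3
    abel

theorem square_sum_grad (S : Finset U) (F : (U → ℤ) → ℝ) (I : U → ℤ) (φ : El U T → ℝ) :
    ∑ a, grad S F I a * φ a =
      ∑ u ∈ S, ((F (I + dl u) - F I) * φ (eX u) + (F (I - dl u) - F I) * φ (eY u)) := by
  rw [sum_El]
  simp only [grad_X, grad_Y, grad_T, zero_mul, sum_const_zero, add_zero]
  rw [← sum_subset (subset_univ S)]
  · exact sum_congr rfl fun u hu => by simp [hu]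
  · intro u _ hu
    simp [hu]

/-- The quadratic form of the link matrices on the gradient, summed over the box, is nonnegative.
Proof: by `sum_El` twice, it is `∑ u ∈ S, ∑ u' ∈ S` of four terms (`X X', X Y', Y X', Y Y'`); each
`(u, u')` block is nonnegative after summing over `I`.
* `u ≠ u'`: shift the `Y` terms by `sum_shift` (direction `u`, `u'` or both) so that all four carry
  the weight `W I * ν (c₀ + diag I + eX u + eX u')`.  With `A = F (I+e_u) - F I`,
  `A' = F (I+e_u+e_u') - F (I+e_u')`, `B = F (I+e_u') - F I`, `B' = F (I+e_u+e_u') - F (I+e_u)` the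
  coefficients add up to `A B - A' B - A B' + A' B' = (A' - A) (B' - B) = (A' - A)^2`.
* `u = u'`: shift the `X X` term down and the `Y Y` term up so that all carry the weight
  `W I * ν (c₀ + diag I + eX u + eY u)` (which vanishes at `I u = lo u` and at `I u = hi u`); with
  `g = F (I+e_u) - F I`, `g' = F I - F (I-e_u)` the coefficients are `g'^2 - 2 g g' + g^2`. -/
theorem squares {lo hi : U → ℤ} {S S' : Finset U} (hS : S ⊆ S') (ρ : U → ℤ)
    {ν : (El U T → ℤ) → ℝ} (h0 : ∀ c, 0 ≤ ν c) (hν : Van lo hi S ν) {c₀ : El U T → ℤ}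
    (hc : Off S c₀) (W : (U → ℤ) → ℝ) (hW0 : ∀ I ∈ boxS lo hi S' ρ, 0 ≤ W I)
    (hW : ∀ u ∈ S, ∀ I, W (I + dl u) = W I) (F : (U → ℤ) → ℝ) :
    0 ≤ ∑ I ∈ boxS lo hi S' ρ, W I *
      ∑ a, ∑ b, grad S F I a * grad S F I b * ν (c₀ + diag I + dl a + dl b) := by
  have e1 : ∀ I, ∑ a, ∑ b, grad S F I a * grad S F I b * ν (c₀ + diag I + dl a + dl b) =
      ∑ u ∈ S, ∑ u' ∈ S,
        ((F (I + dl u) - F I) * (F (I + dl u') - F I) *
            ν (c₀ + diag I + dl (eX u) + dl (eX u')) +
          (F (I + dl u) - F I) * (F (I - dl u') - F I) *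
            ν (c₀ + diag I + dl (eX u) + dl (eY u')) +
          (F (I - dl u) - F I) * (F (I + dl u') - F I) *
            ν (c₀ + diag I + dl (eX u') + dl (eY u)) +
          (F (I - dl u) - F I) * (F (I - dl u') - F I) *
            ν (c₀ + diag I + dl (eY u) + dl (eY u'))) := by
    intro I
    simp only [mul_assoc, ← mul_sum]
    rw [square_sum_grad]
    refine sum_congr rfl fun u _ => ?_
    rw [square_sum_grad, square_sum_grad, mul_sum, mul_sum, ← sum_add_distrib]
    refine sum_congr rfl fun u' _ => ?_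
    rw [add_right_comm (c₀ + diag I) (dl (eX u')) (dl (eY u))]
    ring
  simp only [e1, mul_sum]
  rw [sum_comm]
  refine sum_nonneg fun u hu => ?_
  rw [sum_comm]
  refine sum_nonneg fun u' hu' => ?_
  simp only [mul_add, sum_add_distrib]
  rw [square_shift hS ρ hν hc W hW hu' (eX u)
      (fun I => (F (I + dl u) - F I) * (F (I - dl u') - F I)),
    square_shift hS ρ hν hc W hW hu (eX u')
      (fun I => (F (I - dl u) - F I) * (F (I + dl u') - F I)),
    square_shift hS ρ hν hc W hW hu' (eY u)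
      (fun I => (F (I - dl u) - F I) * (F (I - dl u') - F I))]
  simp only [add_right_comm (c₀ + diag _) (dl (eY u)) (dl (eX u'))]
  rw [square_shift hS ρ hν hc W hW hu (eX u')
      (fun I => (F (I + dl u' - dl u) - F (I + dl u')) * (F (I + dl u' - dl u') - F (I + dl u')))]
  simp only [add_right_comm (c₀ + diag _) (dl (eX u')) (dl (eX u))]
  simp only [← sum_add_distrib]
  refine sum_nonneg fun I hI => ?_
  have a1 : I + dl u' + dl u = I + dl u + dl u' := add_right_comm _ _ _
  have a2 : I + dl u + dl u' - dl u = I + dl u' := by abel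
  simp only [add_sub_cancel_right, a1, a2]
  have := mul_nonneg (mul_nonneg (hW0 I hI) (h0 (c₀ + diag I + dl (eX u) + dl (eX u'))))
    (sq_nonneg (F (I + dl u + dl u') - F (I + dl u') - F (I + dl u) + F I))
  nlinarith [this]

/-- Reverse Cauchy-Schwarz for the marginal matrix on two elements `a, b` that do not belong to
free cells.
Proof: write `N a b = ∑ I, μ (c₀ + diag I + a + b)` (symmetric).  If `N b b = 0` the left side is `0`.
Otherwise let `z = N b b • e_a - N a b • e_b` (a function on elements, zero on the elements of `S`),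
`m I = ∑ e, z e * μ (c₀ + e_b + diag I + e)`; `∑ m = 0`.  Take `F` from `solve` with base
`c₀ + e_b`.  For each `I` in the box, `η = z + grad S F I` is orthogonal to `b` in the link
`τ = c₀ + diag I`, so `M.lor` gives `Q_I(η,η) ≤ 0`.  Sum over `I`: the `z z` part is
`N b b * (N b b * N a a - N a b ^ 2)`, the mixed part vanishes by `green` with `G = 1`
(`ν = fun c => μ (c + e_a)` or `μ (c + e_b)`), the gradient part is `≥ 0` by `squares` (`W = 1`). -/
theorem marg_lc (M : Model (El U T)) (S : Finset U) (ρ : U → ℤ) {c₀ : El U T → ℤ} (hc : Off S c₀)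
    (a b : El U T) (ha : Off S (dl a)) (hb : Off S (dl b))
    (hok : ∀ I ∈ M.bx S ρ, c₀ + diag I + dl b ≤ M.top) :
    (∑ I ∈ M.bx S ρ, M.μ (c₀ + diag I + dl a + dl a)) *
        (∑ I ∈ M.bx S ρ, M.μ (c₀ + diag I + dl b + dl b)) ≤
      (∑ I ∈ M.bx S ρ, M.μ (c₀ + diag I + dl a + dl b)) ^ 2 := by
  set Naa := ∑ I ∈ M.bx S ρ, M.μ (c₀ + diag I + dl a + dl a) with hNaa
  set Nbb := ∑ I ∈ M.bx S ρ, M.μ (c₀ + diag I + dl b + dl b) with hNbb
  set Nab := ∑ I ∈ M.bx S ρ, M.μ (c₀ + diag I + dl a + dl b) with hNab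
  have hbb : 0 ≤ Nbb := sum_nonneg fun I _ => M.nonneg _
  rcases hbb.eq_or_lt with h0 | hpos
  · rw [← h0, mul_zero]; exact sq_nonneg _
  have hoff : ∀ e : El U T, Off S (dl e) → Off S (c₀ + dl e) := fun e he u hu => by
    simp only [Pi.add_apply, (hc u hu).1, (hc u hu).2, (he u hu).1, (he u hu).2, add_zero,
      and_self]
  set z : El U T → ℝ := fun e => Nbb * (if e = a then 1 else 0) - Nab * (if e = b then 1 else 0)
    with hz
  have hzs : ∀ φ : El U T → ℝ, ∑ e, z e * φ e = Nbb * φ a - Nab * φ b := by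
    intro φ
    simp only [hz, sub_mul, sum_sub_distrib, mul_ite, mul_one, mul_zero, ite_mul, zero_mul,
      sum_ite_eq', mem_univ, if_true]
  obtain ⟨F, hF⟩ := solve M S ρ (hoff b hb)
    (fun I hI => by rw [add_right_comm]; exact hok I hI)
    (fun I => Nbb * M.μ (c₀ + diag I + dl a + dl b) - Nab * M.μ (c₀ + diag I + dl b + dl b))
    (by rw [sum_sub_distrib, ← mul_sum, ← mul_sum]; ring)
  have hmix : ∀ e : El U T, Off S (dl e) →
      ∑ I ∈ M.bx S ρ, ∑ e', grad S F I e' * M.μ (c₀ + diag I + dl e + dl e') = 0 := by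
    intro e he
    have := green (Subset.refl S) ρ (M.van S) (hoff e he) F (fun _ => 1)
    simp only [one_mul, ene, sub_self, mul_zero, sum_const_zero, neg_zero] at this
    rw [← this]
    refine sum_congr rfl fun I _ => sum_congr rfl fun e' _ => ?_
    rw [add_right_comm c₀]
  have hsq := squares (Subset.refl S) ρ M.nonneg (M.van S) hc (fun _ => 1) (fun _ _ => zero_le_one)
    (fun _ _ _ => rfl) F
  simp only [one_mul] at hsq
  have hI : ∀ I ∈ M.bx S ρ,
      Nbb ^ 2 * M.μ (c₀ + diag I + dl a + dl a) - 2 * Nbb * Nab * M.μ (c₀ + diag I + dl a + dl b) +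
        Nab ^ 2 * M.μ (c₀ + diag I + dl b + dl b) +
        2 * Nbb * ∑ e', grad S F I e' * M.μ (c₀ + diag I + dl a + dl e') -
        2 * Nab * ∑ e', grad S F I e' * M.μ (c₀ + diag I + dl b + dl e') +
        ∑ e, ∑ e', grad S F I e * grad S F I e' * M.μ (c₀ + diag I + dl e + dl e') ≤ 0 := by
    intro I hI
    have h1 := M.lor (c₀ + diag I) b (fun e => z e + grad S F I e) (hok I hI) (by
      simp only [add_mul, sum_add_distrib, hzs]
      rw [← hF I hI]
      congr 1
      refine sum_congr rfl fun e _ => ?_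
      congr 2
      abel)
    refine le_of_eq_of_le ?_ h1
    have hsymm : ∀ e e' : El U T,
        M.μ (c₀ + diag I + dl e + dl e') = M.μ (c₀ + diag I + dl e' + dl e) := fun e e' => by
      rw [add_right_comm]
    have i1 : ∀ e, ∑ e', (z e + grad S F I e) * (z e' + grad S F I e') *
        M.μ (c₀ + diag I + dl e + dl e') =
        z e * (Nbb * M.μ (c₀ + diag I + dl e + dl a) - Nab * M.μ (c₀ + diag I + dl e + dl b)) +
        z e * ∑ e', grad S F I e' * M.μ (c₀ + diag I + dl e + dl e') +
        Nbb * (grad S F I e * M.μ (c₀ + diag I + dl a + dl e)) -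
        Nab * (grad S F I e * M.μ (c₀ + diag I + dl b + dl e)) +
        ∑ e', grad S F I e * grad S F I e' * M.μ (c₀ + diag I + dl e + dl e') := by
      intro e
      have := hzs fun e' => M.μ (c₀ + diag I + dl e + dl e')
      rw [hsymm a e, hsymm b e]
      calc _ = ∑ e', ((z e + grad S F I e) * (z e' * M.μ (c₀ + diag I + dl e + dl e')) +
            z e * (grad S F I e' * M.μ (c₀ + diag I + dl e + dl e')) +
            grad S F I e * grad S F I e' * M.μ (c₀ + diag I + dl e + dl e')) :=
            sum_congr rfl fun e' _ => by ring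
        _ = _ := by
            rw [sum_add_distrib, sum_add_distrib, ← mul_sum, ← mul_sum, this]
            ring
    simp only [i1, sum_add_distrib, sum_sub_distrib, hzs, ← mul_sum]
    rw [hsymm b a]
    ring
  have hsum := sum_nonpos hI
  simp only [sum_add_distrib, sum_sub_distrib, ← mul_sum, hmix a ha, hmix b hb] at hsum
  rw [← hNaa, ← hNbb, ← hNab] at hsum
  have h2 : Nbb * (Naa * Nbb - Nab ^ 2) ≤ 0 := by
    have : (0 : ℝ) ≤ ∑ I ∈ M.bx S ρ, ∑ e, ∑ e',
        grad S F I e * grad S F I e' * M.μ (c₀ + diag I + dl e + dl e') := hsq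
    nlinarith
  by_contra hcon
  push Not at hcon
  nlinarith [mul_pos hpos (sub_pos.2 hcon)]

end Crest.Agent.R309
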