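import Crest.Agent.R309.LamP

/-!
# R309: tail bounds for laminar models
-/

set_option linter.dupNamespace false
set_option linter.unusedSectionVars false

namespace Crest.Agent.R309

open Finset

variable {U L : Type} [Fintype U] [DecidableEq U] [Fintype L] [DecidableEq L]

theorem tails_wtS (m : Lam U L) (C₀ : L) (j : ℤ) (σ : U → ℤ) :
    m.wtS C₀ j σ = m.wt σ * Real.exp (m.ψ C₀ (m.net C₀ σ) - m.ψ C₀ (m.net C₀ σ - j)) := by
  rw [Lam.wtS, Lam.wt, ← Real.exp_add]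
  congr 1
  have : ∀ C, m.ψ C (m.net C σ - if C = C₀ then j else 0) = m.ψ C (m.net C σ) +
      if C = C₀ then m.ψ C₀ (m.net C₀ σ - j) - m.ψ C₀ (m.net C₀ σ) else 0 := by
    intro C
    by_cases h : C = C₀
    · subst h; simp
    · simp [h]
  simp only [this, sum_add_distrib, sum_ite_eq', mem_univ, if_true]
  ring

theorem tails_pos (m : Lam U L) (C₀ : L) (j : ℤ) : 0 < m.ZS C₀ j :=
  sum_pos (fun _ _ => Real.exp_pos _) ⟨m.lo, mem_box.2 fun u => ⟨le_rfl, m.le u⟩⟩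

theorem tails_lc (m : Lam U L) (C₀ : L) {ε : ℤ} (hε : ε = 1 ∨ ε = -1) (i : ℤ) :
    m.ZS C₀ (ε * (i - 1)) * m.ZS C₀ (ε * (i + 1)) ≤ m.ZS C₀ (ε * i) ^ 2 := by
  rcases hε with rfl | rfl
  · simpa using m.shift_lc C₀ i
  · have := m.shift_lc C₀ (-i)
    rw [mul_comm] at this
    convert this using 3 <;> ring

/-- ratios of a positive log-concave sequence decrease -/
theorem tails_ratio (B : ℕ → ℝ) (hB : ∀ i, 0 < B i) (hlc : ∀ i, B i * B (i + 2) ≤ B (i + 1) ^ 2)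
    (r : ℝ) (h0 : B 1 ≤ r * B 0) : ∀ i, B (i + 1) ≤ r * B i := by
  intro i
  induction i with
  | zero => exact h0
  | succ i ih =>
    have h1 := hlc i
    have h2 := hB i
    have h3 := hB (i + 1)
    have : B i * B (i + 2) ≤ B i * (r * B (i + 1)) := by nlinarith
    exact le_of_mul_le_mul_left this h2

theorem tails_pow (B : ℕ → ℝ) (hB : ∀ i, 0 < B i) (hlc : ∀ i, B i * B (i + 2) ≤ B (i + 1) ^ 2)
    (r : ℝ) (hr : 0 ≤ r) (h0 : B 1 ≤ r * B 0) : ∀ i, B i ≤ r ^ i * B 0 := by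
  intro i
  induction i with
  | zero => simp
  | succ i ih =>
    calc B (i + 1) ≤ r * B i := tails_ratio B hB hlc r h0 i
      _ ≤ r * (r ^ i * B 0) := mul_le_mul_of_nonneg_left ih hr
      _ = r ^ (i + 1) * B 0 := by ring

/-- Two-sided penalty: one of the two tails decays at the full rate.
Proof: `A j = m.ZS C₀ j` is positive (the box is nonempty) and log-concave (`shift_lc`), so the
ratios `A (j+1) / A j` decrease: if `A 1 ≤ A 0` then `A j ≤ A 0` for all `j ≥ 0`; otherwise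
`A (-1) ≤ A 0` and `A j ≤ A 0` for all `j ≤ 0`.  On `{net = s}`, `wtS C₀ s σ = wt σ * exp (k |s|)`, so
`exp (k |s|) ∑_{net = s} wt ≤ A s ≤ A 0 = Z`. -/
theorem Lam.abs_tail (m : Lam U L) (C₀ : L) (k : ℝ) (hψ : ∀ s, m.ψ C₀ s = k * |(s : ℝ)|) :
    ∃ ε : ℤ, (ε = 1 ∨ ε = -1) ∧ ∀ j : ℕ,
      ∑ σ ∈ (box m.lo m.hi).filter (fun σ => m.net C₀ σ = ε * j), m.wt σ ≤
        Real.exp (- k * j) * m.Z := by
  have key : ∀ ε : ℤ, (ε = 1 ∨ ε = -1) → m.ZS C₀ ε ≤ m.Z → ∀ j : ℕ,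
      ∑ σ ∈ (box m.lo m.hi).filter (fun σ => m.net C₀ σ = ε * j), m.wt σ ≤
        Real.exp (- k * j) * m.Z := by
    intro ε hε h j
    have h1 := tails_pow (fun i : ℕ => m.ZS C₀ (ε * i)) (fun i => tails_pos m C₀ _)
      (fun i => by
        have := tails_lc m C₀ hε (i + 1)
        push_cast
        convert this using 4 <;> ring) 1 zero_le_one
      (by simpa [Lam.ZS_zero] using h) j
    simp only [one_pow, one_mul, Nat.cast_zero, mul_zero, Lam.ZS_zero] at h1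
    have h2 : ∑ σ ∈ (box m.lo m.hi).filter (fun σ => m.net C₀ σ = ε * j), m.wt σ =
        Real.exp (- k * j) * ∑ σ ∈ (box m.lo m.hi).filter (fun σ => m.net C₀ σ = ε * j),
          m.wtS C₀ (ε * j) σ := by
      rw [mul_sum]
      refine sum_congr rfl fun σ hσ => ?_
      have habs : |((ε * j : ℤ) : ℝ)| = j := by
        rcases hε with rfl | rfl <;> simp
      rw [tails_wtS, (mem_filter.1 hσ).2, hψ, hψ, habs, sub_self, mul_left_comm, ← Real.exp_add]
      simp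
    rw [h2]
    refine mul_le_mul_of_nonneg_left (le_trans ?_ h1) (Real.exp_pos _).le
    exact sum_le_sum_of_subset_of_nonneg (filter_subset _ _) fun _ _ _ => (Real.exp_pos _).le
  by_cases h : m.ZS C₀ 1 ≤ m.Z
  · exact ⟨1, Or.inl rfl, key 1 (Or.inl rfl) h⟩
  · refine ⟨-1, Or.inr rfl, key (-1) (Or.inr rfl) ?_⟩
    have h1 := m.shift_lc C₀ 0
    rw [zero_sub, zero_add, Lam.ZS_zero] at h1
    have h2 := tails_pos m C₀ (-1)
    have h3 := tails_pos m C₀ 0
    rw [Lam.ZS_zero] at h3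
    push Not at h
    by_contra h4
    push Not at h4
    nlinarith

/-- One-sided penalty.
Proof: let `B i = m.ZS C₀ (ε * i)`, positive and log-concave in `i`.  `B 1 = Z + (exp k - 1) * tail`
(the penalty drops by `k` exactly on the tail `h < ε * net`).  The ratios `B (i+1) / B i` decrease, so
`(B 1 / B 0)^j ≤ B 0 / B (-j) ≤ exp Λ`, i.e. `B 1 / B 0 ≤ exp (Λ / j) ≤ 1 + 2 Λ / j` (as `0 ≤ Λ / j ≤ 1`;
if `Λ < 0` use `B 1 ≥ B 0`), and `k ≤ exp k - 1`. -/
theorem Lam.side_tail (m : Lam U L) (C₀ : L) (k : ℝ) (hk : 0 ≤ k) (ε h : ℤ) (hε : ε = 1 ∨ ε = -1)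
    (hψ : ∀ s, m.ψ C₀ s = k * ((max 0 (ε * s - h) : ℤ) : ℝ)) (j : ℕ) (hj : 0 < j) (Λ : ℝ)
    (hΛ : Λ ≤ j) (hZ : m.Z ≤ Real.exp Λ) (h1 : 1 ≤ m.ZS C₀ (- (ε * j))) :
    k * ∑ σ ∈ (box m.lo m.hi).filter (fun σ => h < ε * m.net C₀ σ), m.wt σ ≤
      2 * Λ / j * m.Z := by
  set T := ∑ σ ∈ (box m.lo m.hi).filter (fun σ => h < ε * m.net C₀ σ), m.wt σ with hT
  have hT0 : 0 ≤ T := sum_nonneg fun σ _ => (m.wt_pos σ).le
  have hZ0 : 0 < m.Z := by
    have := tails_pos m C₀ 0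
    rwa [Lam.ZS_zero] at this
  have hεε : ε * ε = 1 := by rcases hε with rfl | rfl <;> norm_num
  have hB1 : m.ZS C₀ ε = m.Z + (Real.exp k - 1) * T := by
    rw [Lam.ZS, Lam.Z, hT, sum_filter, mul_sum, ← sum_add_distrib]
    refine sum_congr rfl fun σ _ => ?_
    rw [tails_wtS, hψ, hψ, mul_sub ε, hεε]
    split_ifs with hh
    · rw [max_eq_right (by omega), max_eq_right (by omega)]
      have : k * ((ε * m.net C₀ σ - h : ℤ) : ℝ) - k * ((ε * m.net C₀ σ - 1 - h : ℤ) : ℝ) = k := by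
        push_cast; ring
      rw [this]; ring
    · rw [max_eq_left (by omega), max_eq_left (by omega)]
      simp
  have hek : k ≤ Real.exp k - 1 := by
    have := Real.add_one_le_exp k
    linarith
  have hB1' : m.Z ≤ m.ZS C₀ ε := by
    rw [hB1]
    have : 0 ≤ (Real.exp k - 1) * T := mul_nonneg (by linarith) hT0
    linarith
  have hB0 : 0 < m.ZS C₀ ε := tails_pos m C₀ _
  set r : ℝ := m.Z / m.ZS C₀ ε with hr
  have hr0 : 0 < r := div_pos hZ0 hB0
  have h2 := tails_ratio (fun i : ℕ => m.ZS C₀ (ε * (1 - i))) (fun i => tails_pos m C₀ _)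
    (fun i => by
      have := tails_lc m C₀ hε (-i)
      rw [mul_comm] at this
      push_cast
      convert this using 4 <;> ring) r
    (by simp [Lam.ZS_zero, hr, hB0.ne'])
  have h3 : ∀ i : ℕ, m.ZS C₀ (-(ε * i)) ≤ r ^ i * m.Z := by
    intro i
    induction i with
    | zero => simp [Lam.ZS_zero]
    | succ i ih =>
      have := h2 (i + 1)
      calc m.ZS C₀ (-(ε * ((i + 1 : ℕ) : ℤ))) ≤ r * m.ZS C₀ (-(ε * i)) := by
            convert this using 3 <;> (push_cast; ring)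
        _ ≤ r * (r ^ i * m.Z) := mul_le_mul_of_nonneg_left ih hr0.le
        _ = r ^ (i + 1) * m.Z := by ring
  have hj0 : (0 : ℝ) < j := by exact_mod_cast hj
  have h4 : 1 ^ j ≤ (r * Real.exp (Λ / j)) ^ j := by
    rw [one_pow, mul_pow, ← Real.exp_nat_mul, mul_div_cancel₀ _ hj0.ne']
    exact h1.trans ((h3 j).trans (mul_le_mul_of_nonneg_left hZ (by positivity)))
  have h5 : 1 ≤ r * Real.exp (Λ / j) := le_of_pow_le_pow_left₀ hj.ne' (by positivity) h4
  have h6 : m.ZS C₀ ε ≤ Real.exp (Λ / j) * m.Z := by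
    rw [hr, div_mul_eq_mul_div, le_div_iff₀ hB0] at h5
    linarith
  have h7 : 0 ≤ Λ / j := by
    have : 1 ≤ Real.exp (Λ / j) := by
      by_contra hc
      push Not at hc
      nlinarith
    exact Real.one_le_exp_iff.1 this
  have h8 : Real.exp (Λ / j) - 1 ≤ 2 * (Λ / j) := by
    have := Real.abs_exp_sub_one_le (x := Λ / j) (by
      rw [abs_of_nonneg h7, div_le_one hj0]; exact hΛ)
    rw [abs_of_nonneg h7] at this
    exact (le_abs_self _).trans this
  calc k * T ≤ (Real.exp k - 1) * T := mul_le_mul_of_nonneg_right hek hT0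
    _ ≤ (Real.exp (Λ / j) - 1) * m.Z := by linarith
    _ ≤ 2 * (Λ / j) * m.Z := mul_le_mul_of_nonneg_right h8 hZ0.le
    _ = 2 * Λ / j * m.Z := by ring

end Crest.Agent.R309
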