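import Crest.Agent.R309.Flow

/-!
# R309: the rooted maximum spanning forest (Prim's algorithm)
-/

set_option linter.dupNamespace false

namespace Crest.Agent.R309

open Finset Crest.Agent.Lib.PT

namespace Prim

/-- The large cell `u` joins the inserted vertex `a` to the uninserted vertex `b`. -/
def Out (I : Inst) (w : ℕ → ℕ) (L : ℕ) (an : ℕ → List ℕ) (a u b : ℕ) : Prop :=
  u < I.nc ∧ L ≤ w u ∧ an a ≠ [] ∧ an b = [] ∧ ((I.p u = b ∧ I.q u = a) ∨ (I.q u = b ∧ I.p u = a))

/-- The invariant of the algorithm. -/
structure Inv (I : Inst) (w : ℕ → ℕ) (L : ℕ) (pc : ℕ → Option ℕ) (an : ℕ → List ℕ) : Prop where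
  un : ∀ v, an v = [] → pc v = none
  dom : ∀ v, an v ≠ [] → v < I.nv
  refl : ∀ v, an v ≠ [] → v ∈ an v
  anc : ∀ v, ∀ r ∈ an v, an r ≠ []
  trans : ∀ v, ∀ r ∈ an v, ∀ r' ∈ an r, r' ∈ an v
  antisymm : ∀ v, ∀ r ∈ an v, v ∈ an r → r = v
  chain : ∀ v, ∀ r ∈ an v, ∀ r' ∈ an v, r' ∈ an r ∨ r ∈ an r'
  root : ∀ v, pc v = none → ∀ r ∈ an v, r = v
  par : ∀ v e, pc v = some e → e < I.nc ∧ L ≤ w e ∧
    ∃ o, ((I.p e = v ∧ I.q e = o) ∨ (I.q e = v ∧ I.p e = o)) ∧ an o ≠ [] ∧ v ∉ an o ∧
      ∀ r, r ∈ an v ↔ r = v ∨ r ∈ an o
  cut : ∀ u < I.nc, L ≤ w u → an (I.p u) ≠ [] → an (I.q u) ≠ [] →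
    ∀ r, ¬ (r ∈ an (I.p u) ↔ r ∈ an (I.q u)) → ∃ e, pc r = some e ∧ w u ≤ w e
  star : ∀ a u b a' u' b', Out I w L an a u b → Out I w L an a' u' b' →
    ∀ r, ¬ (r ∈ an a ↔ r ∈ an a') → ∃ e, pc r = some e ∧ min (w u) (w u') ≤ w e

variable {I : Inst} {w : ℕ → ℕ} {L : ℕ} {pc : ℕ → Option ℕ} {an : ℕ → List ℕ}

theorem inv_init : Inv I w L (fun _ => none) (fun _ => []) := by
  constructor <;> simp [Out]

theorem Out.old {v : ℕ} {l : List ℕ} (hl : l ≠ []) {a u b : ℕ}
    (h : Out I w L (Function.update an v l) a u b) (ha : a ≠ v) : Out I w L an a u b := by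
  obtain ⟨h1, h2, h3, h4, h5⟩ := h
  have hb : b ≠ v := by
    rintro rfl
    rw [Function.update_self] at h4
    exact hl h4
  rw [Function.update_of_ne ha] at h3
  rw [Function.update_of_ne hb] at h4
  exact ⟨h1, h2, h3, h4, h5⟩

/-- Insertion of `v` below the ancestor list `m` (the list of an inserted vertex, or empty). -/
theorem Inv.insert (h : Inv I w L pc an) {v : ℕ} (hv : v < I.nv) (hu : an v = []) {m : List ℕ}
    {c : Option ℕ} (hm : m = [] ∨ ∃ o, m = an o) (hroot : c = none → m = [])
    (hpar : ∀ e, c = some e → ∃ o, Out I w L an o e v ∧ m = an o)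
    (key : ∀ a u b, Out I w L an a u b → ∀ r, ¬ (r ∈ v :: m ↔ r ∈ an a) →
      ∃ e, Function.update pc v c r = some e ∧ w u ≤ w e) :
    Inv I w L (Function.update pc v c) (Function.update an v (v :: m)) := by
  have hne : ∀ x, ∀ r ∈ an x, r ≠ v := fun x r hr e => h.anc x r hr (e ▸ hu)
  have hmne : ∀ r ∈ m, r ≠ v := by
    rcases hm with rfl | ⟨o, rfl⟩
    · simp
    · exact hne o
  have hmanc : ∀ r ∈ m, an r ≠ [] := by
    rcases hm with rfl | ⟨o, rfl⟩
    · simp
    · exact h.anc o
  have hmtrans : ∀ r ∈ m, ∀ r' ∈ an r, r' ∈ m := by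
    rcases hm with rfl | ⟨o, rfl⟩
    · simp
    · exact h.trans o
  have hmchain : ∀ r ∈ m, ∀ r' ∈ m, r' ∈ an r ∨ r ∈ an r' := by
    rcases hm with rfl | ⟨o, rfl⟩
    · simp
    · exact h.chain o
  have hpc : ∀ r e, pc r = some e → Function.update pc v c r = some e := by
    intro r e hr
    have : r ≠ v := by
      rintro rfl
      rw [h.un _ hu] at hr
      cases hr
    rwa [Function.update_of_ne this]
  refine ⟨fun x hx => ?_, fun x hx => ?_, fun x hx => ?_, fun x r hr => ?_, fun x r hr r' hr' => ?_,
    fun x r hr hx => ?_, fun x r hr r' hr' => ?_, fun x hx r hr => ?_, fun x e hx => ?_,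
    fun u h1 h2 h3 h4 r hr => ?_, fun a u b a' u' b' h1 h2 r hr => ?_⟩
  · by_cases e : x = v
    · subst e; simp at hx
    · rw [Function.update_of_ne e] at hx ⊢; exact h.un x hx
  · by_cases e : x = v
    · subst e; exact hv
    · rw [Function.update_of_ne e] at hx; exact h.dom x hx
  · by_cases e : x = v
    · subst e; simp
    · rw [Function.update_of_ne e] at hx ⊢; exact h.refl x hx
  · by_cases e' : r = v
    · subst e'; simp
    · rw [Function.update_of_ne e']
      by_cases e : x = v
      · subst e
        rw [Function.update_self, List.mem_cons] at hr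
        exact hmanc r (hr.resolve_left e')
      · rw [Function.update_of_ne e] at hr; exact h.anc x r hr
  · by_cases e : x = v
    · subst e
      by_cases e' : r = x
      · subst e'; exact hr'
      · rw [Function.update_self, List.mem_cons] at hr ⊢
        rw [Function.update_of_ne e'] at hr'
        exact Or.inr (hmtrans r (hr.resolve_left e') r' hr')
    · rw [Function.update_of_ne e] at hr ⊢
      rw [Function.update_of_ne (hne x r hr)] at hr'
      exact h.trans x r hr r' hr'
  · by_cases e : x = v
    · subst e
      by_contra e'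
      rw [Function.update_of_ne e'] at hx
      exact hne r x hx rfl
    · rw [Function.update_of_ne e] at hr
      rw [Function.update_of_ne (hne x r hr)] at hx
      exact h.antisymm x r hr hx
  · by_cases e : x = v
    · subst e
      by_cases e1 : r = x
      · subst e1; exact Or.inl hr'
      by_cases e2 : r' = x
      · subst e2; exact Or.inr hr
      rw [Function.update_self, List.mem_cons] at hr hr'
      rw [Function.update_of_ne e1, Function.update_of_ne e2]
      exact hmchain r (hr.resolve_left e1) r' (hr'.resolve_left e2)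
    · rw [Function.update_of_ne e] at hr hr'
      rw [Function.update_of_ne (hne x r hr), Function.update_of_ne (hne x r' hr')]
      exact h.chain x r hr r' hr'
  · by_cases e : x = v
    · subst e
      rw [Function.update_self] at hx hr
      rw [hroot hx] at hr
      simpa using hr
    · rw [Function.update_of_ne e] at hx hr; exact h.root x hx r hr
  · by_cases e' : x = v
    · subst e'
      rw [Function.update_self] at hx
      obtain ⟨o, ⟨g1, g2, g3, g4, g5⟩, rfl⟩ := hpar e hx
      have ho : o ≠ x := by rintro rfl; exact g3 g4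
      refine ⟨g1, g2, o, g5, ?_⟩
      rw [Function.update_of_ne ho, Function.update_self]
      exact ⟨g3, fun hh => hne o x hh rfl, fun r => List.mem_cons⟩
    · rw [Function.update_of_ne e'] at hx
      obtain ⟨g1, g2, o, g3, g4, g5, g6⟩ := h.par x e hx
      have ho : o ≠ v := by rintro rfl; exact g4 hu
      refine ⟨g1, g2, o, g3, ?_⟩
      rw [Function.update_of_ne ho, Function.update_of_ne e']
      exact ⟨g4, g5, g6⟩
  · by_cases e1 : I.p u = v
    · by_cases e2 : I.q u = v
      · rw [e1, e2] at hr; exact absurd Iff.rfl hr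
      · rw [Function.update_of_ne e2] at h4 hr
        rw [e1, Function.update_self] at hr
        exact key (I.q u) u v ⟨h1, h2, h4, hu, Or.inl ⟨e1, rfl⟩⟩ r hr
    · rw [Function.update_of_ne e1] at h3 hr
      by_cases e2 : I.q u = v
      · rw [e2, Function.update_self] at hr
        exact key (I.p u) u v ⟨h1, h2, h3, hu, Or.inr ⟨e2, rfl⟩⟩ r fun hh => hr hh.symm
      · rw [Function.update_of_ne e2] at h4 hr
        obtain ⟨e, g1, g2⟩ := h.cut u h1 h2 h3 h4 r hr
        exact ⟨e, hpc r e g1, g2⟩
  · by_cases e1 : a = v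
    · by_cases e2 : a' = v
      · rw [e1, e2] at hr; exact absurd Iff.rfl hr
      · rw [Function.update_of_ne e2, e1, Function.update_self] at hr
        obtain ⟨e, g1, g2⟩ := key _ _ _ (h2.old (by simp) e2) r hr
        exact ⟨e, g1, (min_le_right _ _).trans g2⟩
    · rw [Function.update_of_ne e1] at hr
      by_cases e2 : a' = v
      · rw [e2, Function.update_self] at hr
        obtain ⟨e, g1, g2⟩ := key _ _ _ (h1.old (by simp) e1) r fun hh => hr hh.symm
        exact ⟨e, g1, (min_le_left _ _).trans g2⟩
      · rw [Function.update_of_ne e2] at hr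
        obtain ⟨e, g1, g2⟩ := h.star _ _ _ _ _ _ (h1.old (by simp) e1) (h2.old (by simp) e2) r hr
        exact ⟨e, hpc r e g1, g2⟩

theorem Inv.insert_root (h : Inv I w L pc an) {v : ℕ} (hv : v < I.nv) (hu : an v = [])
    (hno : ∀ a u b, ¬ Out I w L an a u b) : Inv I w L pc (Function.update an v [v]) := by
  have := h.insert hv hu (m := []) (c := none) (Or.inl rfl) (fun _ => rfl) (fun e he => by cases he)
    fun a u b ho => absurd ho (hno a u b)
  rwa [← h.un v hu, Function.update_eq_self] at this

theorem Inv.insert_edge (h : Inv I w L pc an) {o e v : ℕ} (hv : v < I.nv)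
    (ho : Out I w L an o e v) (hmax : ∀ a u b, Out I w L an a u b → w u ≤ w e) :
    Inv I w L (Function.update pc v (some e)) (Function.update an v (v :: an o)) := by
  refine h.insert hv ho.2.2.2.1 (Or.inr ⟨o, rfl⟩) (fun hh => by cases hh)
    (fun e' he' => by cases he'; exact ⟨o, ho, rfl⟩) fun a u b hout r hr => ?_
  by_cases e1 : r = v
  · subst e1
    exact ⟨e, Function.update_self _ _ _, hmax _ _ _ hout⟩
  · rw [Function.update_of_ne e1]
    obtain ⟨e', g1, g2⟩ := h.star _ _ _ _ _ _ ho hout r (by simpa [e1] using hr)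
    rw [min_eq_right (hmax _ _ _ hout)] at g2
    exact ⟨e', g1, g2⟩

/-! ### The algorithm -/

/-- States. -/
abbrev St : Type := List (Option ℕ) × List (List ℕ)

/-- The vertex is not inserted. -/
def free (s : St) (v : ℕ) : Bool := (s.2.getD v []).isEmpty

/-- The large cells with exactly one end inserted. -/
def cands (I : Inst) (w : List ℕ) (L : ℕ) (s : St) : List ℕ :=
  (List.range I.nc).filter fun u => decide (L ≤ w.getD u 0) && (free s (I.p u) != free s (I.q u))

/-- The uninserted end. -/
def endV (I : Inst) (s : St) (u : ℕ) : ℕ := bif free s (I.p u) then I.p u else I.q u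

/-- The inserted end. -/
def endO (I : Inst) (s : St) (u : ℕ) : ℕ := bif free s (I.p u) then I.q u else I.p u

/-- Insertion through a cell. -/
def stepE (I : Inst) (s : St) (u : ℕ) : St :=
  (s.1.set (endV I s u) (some u), s.2.set (endV I s u) (endV I s u :: s.2.getD (endO I s u) []))

/-- Insertion of a root. -/
def stepR (I : Inst) (s : St) : St :=
  ((List.range I.nv).find? (free s)).elim s fun v => (s.1, s.2.set v [v])

/-- One round. -/
def step (I : Inst) (w : List ℕ) (L : ℕ) (s : St) : St :=
  ((cands I w L s).argmax fun u => w.getD u 0).elim (stepR I s) (stepE I s)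

/-- The initial state. -/
def init (I : Inst) : St := (List.replicate I.nv none, List.replicate I.nv [])

section pt

variable {α : Type} [Enc α] {I : α → Inst} {u L : α → ℕ} {s : α → St} {w : α → List ℕ}

@[fun_prop] theorem free_pt (hs : PT s) (hu : PT u) : PT fun a => free (s a) (u a) := by
  unfold free; fun_prop

@[fun_prop] theorem cands_pt (hI : PT I) (hw : PT w) (hL : PT L) (hs : PT s) :
    PT fun a => cands (I a) (w a) (L a) (s a) := by
  unfold cands; fun_prop

@[fun_prop] theorem endV_pt (hI : PT I) (hs : PT s) (hu : PT u) :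
    PT fun a => endV (I a) (s a) (u a) := by
  unfold endV; fun_prop

@[fun_prop] theorem endO_pt (hI : PT I) (hs : PT s) (hu : PT u) :
    PT fun a => endO (I a) (s a) (u a) := by
  unfold endO; fun_prop

theorem stepE_pt (hI : PT I) (hs : PT s) (hu : PT u) :
    PT fun a => stepE (I a) (s a) (u a) := by
  unfold stepE; fun_prop

theorem stepR_pt (hI : PT I) (hs : PT s) : PT fun a => stepR (I a) (s a) := by
  unfold stepR
  exact PT.option_elim (g := fun a v => ((s a).1, (s a).2.set v [v])) (by fun_prop) hs (by fun_prop)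

theorem step_pt (hI : PT I) (hw : PT w) (hL : PT L) (hs : PT s) :
    PT fun a => step (I a) (w a) (L a) (s a) := by
  unfold step
  exact PT.option_elim (g := fun a u => stepE (I a) (s a) u) (by fun_prop) (stepR_pt hI hs)
    (stepE_pt (by fun_prop) (by fun_prop) (by fun_prop))

theorem init_pt (hI : PT I) : PT fun a => init (I a) := by
  unfold init; fun_prop

end pt

theorem mem_set_cases {β : Type} {l : List β} {i : ℕ} {a x : β} (h : x ∈ l.set i a) :
    x ∈ l ∨ (x = a ∧ i < l.length) := by
  by_cases hi : i < l.length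
  · exact (List.mem_or_eq_of_mem_set h).imp_right fun e => ⟨e, hi⟩
  · rw [List.set_eq_of_length_le (by omega)] at h
    exact Or.inl h

/-- The size invariant. -/
def Small (I : Inst) (k : ℕ) (s : St) : Prop :=
  s.1.length = I.nv ∧ s.2.length = I.nv ∧ (∀ x ∈ s.1, sz x ≤ 4 * I.nc + 3) ∧
    ∀ l ∈ s.2, sz l ≤ 1 + k * (4 * I.nv + 2)

theorem small_init (I : Inst) : Small I 0 (init I) := by
  refine ⟨by simp [init], by simp [init], fun x hx => ?_, fun x hx => ?_⟩
  · rw [List.eq_of_mem_replicate hx]; simp
  · rw [List.eq_of_mem_replicate hx]; simp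

theorem Small.step {I : Inst} {k : ℕ} {s : St} (h : Small I k s) (w : List ℕ) (L : ℕ) :
    Small I (k + 1) (step I w L s) := by
  obtain ⟨h1, h2, h3, h4⟩ := h
  have h5 : ∀ l ∈ s.2, sz l ≤ 1 + (k + 1) * (4 * I.nv + 2) := fun l hl => by
    have := h4 l hl
    rw [Nat.succ_mul]; omega
  unfold Prim.step
  cases e : (cands I w L s).argmax fun u => w.getD u 0 with
  | none =>
    simp only [Option.elim_none, stepR]
    cases e' : (List.range I.nv).find? (free s) with
    | none => exact ⟨h1, h2, h3, h5⟩
    | some v =>
      refine ⟨h1, by simpa using h2, h3, fun l hl => ?_⟩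
      rcases mem_set_cases hl with hl | ⟨rfl, hv⟩
      · exact h5 l hl
      · have := sz_nat_le_self v
        rw [Nat.succ_mul]
        simp only [sz_cons, sz_nil]
        omega
  | some u =>
    have hu : u < I.nc := by
      have := List.argmax_mem (Option.mem_def.2 e)
      simp only [cands, List.mem_filter, List.mem_range] at this
      exact this.1
    refine ⟨by simpa [stepE] using h1, by simpa [stepE] using h2, fun x hx => ?_, fun l hl => ?_⟩
    · rcases mem_set_cases hx with hx | ⟨rfl, -⟩
      · exact h3 x hx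
      · have := sz_nat_le_self u
        simp only [sz_some]
        omega
    · rcases mem_set_cases hl with hl | ⟨rfl, hv⟩
      · exact h5 l hl
      · have g1 := sz_nat_le_self (endV I s u)
        have g2 : sz (s.2.getD (endO I s u) []) ≤ 1 + k * (4 * I.nv + 2) := by
          rw [List.getD_eq_getElem?_getD]
          cases e'' : s.2[endO I s u]? with
          | none => simp
          | some l => exact h4 l (List.mem_of_getElem? e'')
        rw [Nat.succ_mul]
        simp only [sz_cons]
        omega

theorem run_pt : PT fun a : Inst × List ℕ × ℕ => (step a.1 a.2.1 a.2.2)^[a.1.nv] (init a.1) := by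
  refine PT.iterate_inv (fun a k s => Small a.1 k s) (by fun_prop) (by fun_prop)
    (init_pt (by fun_prop)) (fun a => small_init a.1) (fun a k s _ h => h.step _ _)
    (step_pt (by fun_prop) (by fun_prop) (by fun_prop) (by fun_prop))
    (B := fun a => (a.1.nv * (4 * a.1.nc + 3 + 1) + 1) +
      (a.1.nv * (1 + a.1.nv * (4 * a.1.nv + 2) + 1) + 1) + 1) (by fun_prop) fun a k s hk h => ?_
  obtain ⟨h1, h2, h3, h4⟩ := h
  have g1 := sz_list_le h3
  have g2 := sz_list_le (B := 1 + a.1.nv * (4 * a.1.nv + 2)) fun l hl =>
    (h4 l hl).trans (Nat.add_le_add_left (Nat.mul_le_mul_right _ hk) _)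
  rw [h1] at g1
  rw [h2] at g2
  rw [sz_prod]
  omega

theorem getD_set_fun {β : Type} (l : List β) {v : ℕ} (hv : v < l.length) (a d : β) :
    (fun x => (l.set v a).getD x d) = Function.update (fun x => l.getD x d) v a := by
  funext x
  by_cases e : x = v
  · subst e; simp [List.getD_eq_getElem?_getD, hv]
  · rw [Function.update_of_ne e]
    simp [List.getD_eq_getElem?_getD, List.getElem?_set_ne (Ne.symm e)]

/-- The number of inserted vertices. -/
def cnt (n : ℕ) (an : ℕ → List ℕ) : ℕ := #{v ∈ range n | an v ≠ []}

theorem cnt_update {n v : ℕ} {an : ℕ → List ℕ} (hv : v < n) (hu : an v = []) {l : List ℕ}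
    (hl : l ≠ []) : cnt n (Function.update an v l) = cnt n an + 1 := by
  unfold cnt
  rw [← card_insert_of_notMem (a := v) (by simp [hu])]
  congr 1
  ext x
  by_cases e : x = v
  · subst e; simp [hv, hl]
  · simp [e]

/-- The invariant of states. -/
def Good (I : Inst) (w : List ℕ) (L k : ℕ) (s : St) : Prop :=
  s.1.length = I.nv ∧ s.2.length = I.nv ∧
    Inv I (fun u => w.getD u 0) L (fun v => s.1.getD v none) (fun v => s.2.getD v []) ∧
    min k I.nv ≤ cnt I.nv fun v => s.2.getD v []

theorem good_init (I : Inst) (w : List ℕ) (L : ℕ) : Good I w L 0 (init I) := by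
  refine ⟨by simp [init], by simp [init], ?_, by simp⟩
  have e1 : (fun v => (init I).1.getD v none) = fun _ => none := by
    funext v
    simp only [init, List.getD_eq_getElem?_getD, List.getElem?_replicate]
    split_ifs <;> rfl
  have e2 : (fun v => (init I).2.getD v []) = fun _ => [] := by
    funext v
    simp only [init, List.getD_eq_getElem?_getD, List.getElem?_replicate]
    split_ifs <;> rfl
  rw [e1, e2]
  exact inv_init

theorem free_iff {s : St} {v : ℕ} : free s v = true ↔ s.2.getD v [] = [] := by
  unfold free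
  exact List.isEmpty_iff

theorem mem_cands_of_out {I : Inst} {w : List ℕ} {L : ℕ} {s : St} {a u b : ℕ}
    (h : Out I (fun u => w.getD u 0) L (fun v => s.2.getD v []) a u b) : u ∈ cands I w L s := by
  obtain ⟨h1, h2, h3, h4, h5⟩ := h
  have ha : free s a = false := by rw [← Bool.not_eq_true, free_iff]; exact h3
  have hb : free s b = true := free_iff.2 h4
  simp only [cands, List.mem_filter, List.mem_range, Bool.and_eq_true, decide_eq_true_eq]
  refine ⟨h1, h2, ?_⟩
  rcases h5 with ⟨e1, e2⟩ | ⟨e1, e2⟩ <;> rw [e1, e2, ha, hb] <;> rfl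

theorem out_of_mem_cands {I : Inst} {w : List ℕ} {L : ℕ} {s : St} {u : ℕ}
    (h : u ∈ cands I w L s) :
    Out I (fun u => w.getD u 0) L (fun v => s.2.getD v []) (endO I s u) u (endV I s u) := by
  simp only [cands, List.mem_filter, List.mem_range, Bool.and_eq_true, decide_eq_true_eq] at h
  obtain ⟨h1, h2, h3⟩ := h
  refine ⟨h1, h2, ?_⟩
  simp only [ne_eq, ← free_iff, endO, endV]
  cases e1 : free s (I.p u) <;> cases e2 : free s (I.q u) <;> simp_all

theorem Good.step {I : Inst} (hI : I.WF) {w : List ℕ} {L k : ℕ} {s : St} (h : Good I w L k s) :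
    Good I w L (k + 1) (step I w L s) := by
  obtain ⟨h1, h2, h3, h4⟩ := h
  unfold Prim.step
  cases e : (cands I w L s).argmax fun u => w.getD u 0 with
  | none =>
    rw [List.argmax_eq_none] at e
    have hno : ∀ a u b, ¬ Out I (fun u => w.getD u 0) L (fun v => s.2.getD v []) a u b :=
      fun a u b ho => by simpa [e] using mem_cands_of_out ho
    simp only [Option.elim_none, stepR]
    cases e' : (List.range I.nv).find? (free s) with
    | none =>
      refine ⟨h1, h2, h3, (min_le_right _ _).trans ?_⟩
      rw [List.find?_eq_none] at e'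
      unfold cnt
      rw [filter_true_of_mem, card_range]
      intro x hx hh
      exact e' x (by simpa using hx) (free_iff.2 hh)
    | some v =>
      have hv : v < I.nv := by simpa using List.mem_of_find?_eq_some e'
      have hu : s.2.getD v [] = [] := free_iff.1 (List.find?_some e')
      refine ⟨h1, by simpa using h2, ?_, ?_⟩
      · simp only [Option.elim_some]
        rw [getD_set_fun _ (h2 ▸ hv)]
        exact h3.insert_root hv hu hno
      · simp only [Option.elim_some]
        rw [getD_set_fun _ (h2 ▸ hv), cnt_update hv hu (by simp)]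
        omega
  | some u =>
    have ho := out_of_mem_cands (List.argmax_mem (Option.mem_def.2 e))
    have hv : endV I s u < I.nv := by
      have := hI u ho.1
      unfold endV
      cases free s (I.p u)
      · exact this.2
      · exact this.1
    refine ⟨by simpa [stepE] using h1, by simpa [stepE] using h2, ?_, ?_⟩
    · simp only [Option.elim_some, stepE]
      rw [getD_set_fun _ (h1 ▸ hv), getD_set_fun _ (h2 ▸ hv)]
      exact h3.insert_edge hv ho fun a u' b ho' =>
        List.le_of_mem_argmax (f := fun u => w.getD u 0) (mem_cands_of_out ho') (Option.mem_def.2 e)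
    · simp only [Option.elim_some, stepE]
      rw [getD_set_fun _ (h2 ▸ hv), cnt_update hv ho.2.2.2.1 (by simp)]
      omega

theorem good_iter {I : Inst} (hI : I.WF) (w : List ℕ) (L k : ℕ) :
    Good I w L k ((step I w L)^[k] (init I)) := by
  induction k with
  | zero => exact good_init I w L
  | succ k ih => rw [Function.iterate_succ_apply']; exact ih.step hI

theorem Good.spec {I : Inst} (hI : I.WF) {w : List ℕ} {L : ℕ} {s : St} (h : Good I w L I.nv s) :
    TreeSpec I w L s.1 s.2 := by
  obtain ⟨h1, -, h3, h4⟩ := h
  have hall : ∀ v < I.nv, s.2.getD v [] ≠ [] := by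
    rw [min_self] at h4
    have := eq_of_subset_of_card_le (filter_subset (fun v => s.2.getD v [] ≠ []) (range I.nv))
      (by rw [card_range]; exact h4)
    intro v hv
    have hv' : v ∈ range I.nv := mem_range.2 hv
    rw [← this] at hv'
    exact (mem_filter.1 hv').2
  refine ⟨h1, fun v hv => h3.refl v (hall v hv), fun v _ r hr => h3.dom r (h3.anc v r hr),
    fun v _ => h3.trans v, fun v _ => h3.antisymm v, fun v _ => h3.chain v, fun v _ => h3.root v,
    fun v _ e he => ?_, fun u hu hL => h3.cut u hu hL (hall _ (hI u hu).1) (hall _ (hI u hu).2)⟩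
  obtain ⟨g1, g2, o, g3, -, g5, g6⟩ := h3.par v e he
  exact ⟨g1, g2, o, g3, g5, g6⟩

end Prim

/-- State: `pc` (length `nv`, initially all `none`) and `an` (length `nv`, initially all `[]`); `v` is inserted
when `an v ≠ []`.  One round: among the cells `u < nc` with `L ≤ w u` and exactly one end inserted choose
one of maximal width (`List.argmax`); with `o` its inserted end and `v` the other set
`pc v := some u`, `an v := v :: an o`.  If there is no such cell, take the first uninserted vertex `v` and
set `an v := [v]` (a new root); if there is none, stop.  Iterate `nv` times (each round inserts a vertex).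
Invariants: the fields of `TreeSpec` for inserted vertices (ancestors are inserted, `pc v = none` and
`an v = []` for uninserted `v`, `cut` for cells with both ends inserted), and
(*) for inserted `a, a'`, cells `u` from `a` and `u'` from `a'` to uninserted vertices with `L ≤ w u, w u'`, and `r` in
exactly one of `an a`, `an a'`: `∃ e, pc r = some e ∧ min (w u) (w u') ≤ w e`.
When `v` is inserted through `e₀` from `o`: a large cell `u'` from an old `a'` to the outside or to `v` has
`w u' ≤ w e₀` by the choice of `e₀`; if `r = v` then `pc r = e₀`; otherwise `r` is in exactly one of `an o`,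
`an a'` and (*) for `(o, e₀), (a', u')` gives `w u' = min (w e₀) (w u') ≤ w e`.  This proves both `cut` for the
cells from old vertices to `v` and (*) for the pairs `(v, a')`.  When a root is inserted there is no large
cell from an old vertex to the outside.  Sizes: `an v` has length at most the number of rounds. -/
theorem exists_tree : ∃ tr : Inst × List ℕ × ℕ → List (Option ℕ) × List (List ℕ), PT tr ∧
    ∀ (I : Inst) (w : List ℕ) (L : ℕ), I.WF → TreeSpec I w L (tr (I, w, L)).1 (tr (I, w, L)).2 :=
  ⟨_, Prim.run_pt, fun I w L hI => (Prim.good_iter hI w L I.nv).spec hI⟩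

end Crest.Agent.R309
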