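import Crest.Agent.R309.Tape

/-!
# R309: independent repetitions
-/

set_option linter.dupNamespace false

namespace Crest.Agent.R309

open Finset Crest.Agent.Lib.PT

private theorem Ex_block (ρ N : ℕ) (F : List Bool → List Bool → ℝ) :
    Ex ((N + 1) * ρ) (fun l => F (l.take ρ) (l.drop ρ)) = Ex ρ fun ω => Ex (N * ρ) (F ω) := by
  rw [Ex_take_drop (by rw [Nat.succ_mul]; omega), Nat.succ_mul, Nat.add_sub_cancel]

private theorem Ex_block_mul (ρ N : ℕ) (f g : List Bool → ℝ) :
    Ex ((N + 1) * ρ) (fun l => f (l.take ρ) * g (l.drop ρ)) = Ex ρ f * Ex (N * ρ) g := by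
  rw [Ex_block ρ N fun ω l => f ω * g l]
  simp only [Ex_mul_left, Ex_mul_right]

private theorem Ex_sum_chunks (ρ N : ℕ) (X : List Bool → ℝ) :
    Ex (N * ρ) (fun l => ((chunks ρ N l).map X).sum) = N * Ex ρ X := by
  induction N with
  | zero => simp
  | succ N ih =>
    simp only [chunks_succ, List.map_cons, List.sum_cons]
    rw [Ex_block ρ N fun ω l => X ω + ((chunks ρ N l).map X).sum]
    simp only [Ex_add, Ex_const, ih]
    push_cast; ring

private theorem Ex_var_chunks (ρ N : ℕ) (X : List Bool → ℝ) :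
    Ex (N * ρ) (fun l => (((chunks ρ N l).map X).sum - N * Ex ρ X) ^ 2) =
      N * Ex ρ fun ω => (X ω - Ex ρ X) ^ 2 := by
  induction N with
  | zero => simp
  | succ N ih =>
    simp only [chunks_succ, List.map_cons, List.sum_cons]
    rw [Ex_block ρ N fun ω l => (X ω + ((chunks ρ N l).map X).sum - (N + 1 : ℕ) * Ex ρ X) ^ 2]
    have e : ∀ ω l, (X ω + ((chunks ρ N l).map X).sum - (N + 1 : ℕ) * Ex ρ X) ^ 2 =
        (X ω - Ex ρ X) ^ 2 + 2 * (X ω - Ex ρ X) * (((chunks ρ N l).map X).sum - N * Ex ρ X) +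
          (((chunks ρ N l).map X).sum - N * Ex ρ X) ^ 2 := fun ω l => by push_cast; ring
    simp only [e, Ex_add, Ex_const, ih, Ex_mul_left, Ex_sub, Ex_sum_chunks, sub_self, mul_zero]
    push_cast; ring

/-- Products over blocks: the blocks are independent (induction on `N`, `chunks_succ`,
`Ex_take_drop`). -/
theorem Ex_prod_chunks (ρ N : ℕ) (X : List Bool → ℝ) :
    Ex (N * ρ) (fun l => ((chunks ρ N l).map X).prod) = Ex ρ X ^ N := by
  induction N with
  | zero => simp
  | succ N ih =>
    simp only [chunks_succ, List.map_cons, List.prod_cons]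
    rw [Ex_block_mul ρ N X fun l => ((chunks ρ N l).map X).prod, ih, pow_succ']

/-- Chebyshev's inequality for a sum of independent copies.
Proof: with `μ = Ex ρ X`, `Ex (N ρ) (sum - N μ)^2 = N * Ex ρ (X - μ)^2 ≤ N R^2` by induction on `N`
(`chunks_succ`, `Ex_take_drop`; the cross term vanishes), then `Pr_ge_le`. -/
theorem cheb_chunks (ρ N : ℕ) (X : List Bool → ℝ) (R : ℝ) (hX : ∀ ω, ω.length = ρ → |X ω| ≤ R)
    (a : ℝ) (ha : 0 < a) :
    Pr (N * ρ) (fun l => a ≤ |((chunks ρ N l).map X).sum - N * Ex ρ X|) ≤ N * R ^ 2 / a ^ 2 := by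
  have h1 : Ex ρ (fun ω => (X ω - Ex ρ X) ^ 2) ≤ R ^ 2 := by
    have e : ∀ ω, (X ω - Ex ρ X) ^ 2 = X ω ^ 2 - 2 * Ex ρ X * X ω + Ex ρ X ^ 2 := fun ω => by ring
    have h2 : Ex ρ (fun ω => X ω ^ 2) ≤ R ^ 2 := Ex_le fun ω hω => by
      rw [← sq_abs]; exact pow_le_pow_left₀ (abs_nonneg _) (hX ω hω) 2
    simp only [e, Ex_add, Ex_sub, Ex_mul_left, Ex_const]
    nlinarith [sq_nonneg (Ex ρ X)]
  refine (Pr_mono fun l _ h => ?_).trans ((Pr_ge_le
    (f := fun l => (((chunks ρ N l).map X).sum - N * Ex ρ X) ^ 2) (fun _ _ => sq_nonneg _)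
    (pow_pos ha 2)).trans ?_)
  · rw [← sq_abs (_ - _)]
    exact pow_le_pow_left₀ ha.le h 2
  · rw [Ex_var_chunks]
    gcongr

/-- At least half of the blocks are bad only with exponentially small probability.
Proof: `4 ^ countP = ∏ (1 + 3 * ind bad)` has expectation `≤ (19/16)^N` (`Ex_prod_chunks`), and
`N ≤ 2 * countP` gives `2^N ≤ 4^countP`; Markov, and `19/32 ≤ 3/5`. -/
theorem major_chunks (ρ N : ℕ) (bad : List Bool → Bool)
    (h : Pr ρ (fun ω => bad ω = true) ≤ 1 / 16) :
    Pr (N * ρ) (fun l => N ≤ 2 * (chunks ρ N l).countP bad) ≤ (3 / 5) ^ N := by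
  have e : ∀ L : List (List Bool), (L.map fun ω => 1 + 3 * ind (bad ω = true)).prod =
      4 ^ L.countP bad := fun L => by
    induction L with
    | nil => simp
    | cons ω L ih =>
      rw [List.map_cons, List.prod_cons, ih, List.countP_cons]
      cases hb : bad ω
      · simp [ind]
      · simp only [ind, if_true, pow_succ]; ring
  refine (Pr_mono fun l _ h => ?_).trans ((Pr_ge_le (a := 2 ^ N)
    (f := fun l => ((chunks ρ N l).map fun ω => 1 + 3 * ind (bad ω = true)).prod)
    (fun _ _ => by rw [e]; positivity) (by positivity)).trans ?_)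
  · rw [e, show (4 : ℝ) = 2 ^ 2 by norm_num, ← pow_mul]
    exact pow_le_pow_right₀ one_le_two h
  · have h0 := Pr_nonneg ρ fun ω => bad ω = true
    rw [Ex_prod_chunks, ← div_pow, Ex_add, Ex_mul_left, Ex_const]
    unfold Pr at h h0
    exact pow_le_pow_left₀ (by positivity) (by linarith) N

/-- All blocks fail. -/
theorem first_none {β : Type} (ρ N : ℕ) (g : List Bool → Option β) :
    Pr (N * ρ) (fun l => (chunks ρ N l).findSome? g = none) = Pr ρ (fun ω => g ω = none) ^ N := by
  induction N with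
  | zero => simp [Pr, ind]
  | succ N ih =>
    rw [pow_succ', ← ih, Pr, Pr, Pr, ← Ex_block_mul]
    refine Ex_congr fun l _ => ?_
    rw [chunks_succ, List.findSome?_cons, ← ind_and]
    cases g (l.take ρ) <;> simp

/-- The first success (induction on `N`, `chunks_succ`, `Ex_take_drop`). -/
theorem first_some {β : Type} (ρ N : ℕ) (g : List Bool → Option β) (y : β) :
    Pr (N * ρ) (fun l => (chunks ρ N l).findSome? g = some y) =
      Pr ρ (fun ω => g ω = some y) * ∑ j ∈ range N, Pr ρ (fun ω => g ω = none) ^ j := by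
  induction N with
  | zero => simp [Pr, ind]
  | succ N ih =>
    have e : ∀ l : List Bool, ind ((chunks ρ (N + 1) l).findSome? g = some y) =
        ind (g (l.take ρ) = some y) + ind (g (l.take ρ) = none) *
          ind ((chunks ρ N (l.drop ρ)).findSome? g = some y) := fun l => by
      rw [chunks_succ, List.findSome?_cons]
      cases g (l.take ρ) <;> simp [ind]
    rw [Pr]
    simp only [e]
    rw [Ex_block ρ N fun ω l => ind (g ω = some y) + ind (g ω = none) *
      ind ((chunks ρ N l).findSome? g = some y)]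
    unfold Pr at ih ⊢
    simp only [Ex_add, Ex_const, Ex_mul_left, Ex_mul_right, ih, sum_range_succ', pow_succ',
      ← mul_sum, pow_zero]
    ring

/-- Independent blocks with different events. -/
theorem Pr_blocks (ρ N : ℕ) (E : ℕ → List Bool → Prop) :
    Pr (N * ρ) (fun l => ∀ i < N, E i ((l.drop (i * ρ)).take ρ)) = ∏ i ∈ range N, Pr ρ (E i) := by
  induction N generalizing E with
  | zero => simp [Pr, ind]
  | succ N ih =>
    rw [prod_range_succ', mul_comm (∏ _ ∈ _, _), ← ih fun i => E (i + 1), Pr, Pr, Pr,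
      ← Ex_block_mul]
    refine Ex_congr fun l _ => ?_
    rw [← ind_and, Nat.forall_lt_succ_left]
    simp only [zero_mul, List.drop_zero, List.drop_drop, Nat.succ_mul, add_comm ρ]

/-- A uniform number reduced modulo a power of two is uniform (`Ex_ofBits`). -/
theorem Pr_ofBits_mod {n j r : ℕ} (hj : j ≤ n) (hr : r < 2 ^ j) :
    Pr n (fun l => ofBits l % 2 ^ j = r) = 1 / 2 ^ j := by
  obtain ⟨k, rfl⟩ := Nat.exists_eq_add_of_le hj
  have key : ∀ m : ℕ, ∑ i ∈ range (2 ^ j * m), ind (i % 2 ^ j = r) = m := fun m => by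
    induction m with
    | zero => simp
    | succ m ih =>
      rw [Nat.mul_succ, sum_range_add, ih, sum_congr rfl (g := fun i => ind (i = r)) fun i hi => by
        rw [Nat.mul_add_mod, Nat.mod_eq_of_lt (mem_range.1 hi)]]
      simp [ind_eq, hr]
  rw [Pr, Ex_ofBits (j + k) fun i => ind (i % 2 ^ j = r), pow_add, key, pow_add]
  push_cast
  field_simp

/-- All bits vanish. -/
theorem Pr_any (n : ℕ) : Pr n (fun l => l.any id = false) = 1 / 2 ^ n := by
  induction n with
  | zero => simp [Pr, Ex, ind]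
  | succ n ih =>
    unfold Pr at ih ⊢
    simp only [Ex, List.any_cons, id, Bool.false_or, Bool.true_or, ih]
    rw [ind_neg (by simp), Ex_const, pow_succ]
    field_simp
    ring

end Crest.Agent.R309
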