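import Crest.Agent.R309.CoarseAux2

/-!
# R309: from unit steps to coarse steps
-/

set_option linter.dupNamespace false
set_option linter.unusedSectionVars false

namespace Crest.Agent.R309

open Finset

variable {U : Type} [Fintype U] [DecidableEq U]

/-- A Poincaré inequality on the fine box `∏ [lo u, lo u + s u * M u)` gives one on the coarse box
`∏ [0, M u)` of blocks of side `s u`.
Proof.  Let `h u = (s u - 1) / 2`, `blk u x = max 0 (min (M u - 1) ((x - lo u) / s u))` (clamped block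
index), and for `x` in the fine range let `k u x j` be the fraction of `t ∈ [-h u, h u]` with
`blk u (x + t) = j`.  Facts: `∑_j k u x j = 1`; `∑_x k u x j = s u` for every `j ∈ [0, M u)` (count the pairs
`(x, t)`; at the two boundary blocks use the symmetry `t ↦ -t`; only `≤ s u` is needed);
`k u x j ≠ 0 → |(x - lo u) / s u - j| ≤ 1`, with equality of block when `s u = 1`;
`k u (x+1) - k u x = (δ_{blk (x+1+h)} - δ_{blk (x-h)}) / (2h+1)`, and `blk (x+1+h) - blk (x-h) ∈ {0,1}`,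
equal to `1` with lower block `j` for at most `2h+1 ≤ s u` values of `x`; `s u ≤ 2 (2h+1)`.
Let `f σ = ∑_a (∏_u k u (σ u) (a u)) F a`, `G σ = F (fun u => blk u (σ u))`, `S = ∏ s u`, `c` from `hP f`.
`S ∑_a πb a (F a - c)^2 = ∑_σ πb (blk σ) (G σ - c)^2 ≤ 2A ∑ π (f - c)^2 + 2A ∑ π (G - f)^2`.
* `dir π u f ≤ A S / (2h+1)^2 * dir πb u F ≤ 4 A S / (s u)^2 * dir πb u F`: Jensen over the other
  coordinates; an edge `(a, a + e_u)` that occurs has `π σ ≤ A πb a` and `π (σ + e_u) ≤ A πb (a + e_u)`.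
* `∑ π (G - f)^2 ≤ 2 A card U * S * ∑_u dir πb u F`: replace the point masses `δ_{blk (σ u)}` by the
  kernels `k u (σ u)` one coordinate at a time (telescoping along an enumeration of `U`,
  Cauchy-Schwarz, Jensen); each difference is along a coarse edge both of whose ends are close to
  `σ`, and `σ u` lies in one of the two blocks of that edge (at most `2 s u` values). -/
theorem coarsen (lo : U → ℤ) (s M : U → ℕ) (hs : ∀ u, 0 < s u) (hM : ∀ u, 0 < M u)
    (π πb : (U → ℤ) → ℝ) (A : ℝ) (hA : 1 ≤ A) (lam : U → ℝ) (hlam : ∀ u, 0 ≤ lam u)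
    (hπ : ∀ σ, 0 ≤ π σ) (hπb : ∀ a, 0 ≤ πb a)
    (hcmp : ∀ σ ∈ box lo (fun u => lo u + s u * M u - 1), ∀ a ∈ box 0 (fun u => (M u : ℤ) - 1),
      (∀ u, |(σ u - lo u) / s u - a u| ≤ 1 ∧ (s u = 1 → a u = σ u - lo u)) →
      π σ ≤ A * πb a ∧ πb a ≤ A * π σ)
    (hP : ∀ f : (U → ℤ) → ℝ, ∃ c : ℝ,
      ∑ σ ∈ box lo (fun u => lo u + s u * M u - 1), π σ * (f σ - c) ^ 2 ≤
        ∑ u, lam u * dir lo (fun u => lo u + s u * M u - 1) π u f)
    (F : (U → ℤ) → ℝ) :
    ∃ c : ℝ, ∑ a ∈ box 0 (fun u => (M u : ℤ) - 1), πb a * (F a - c) ^ 2 ≤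
      ∑ u, 8 * A ^ 2 * (lam u / (s u : ℝ) ^ 2 + Fintype.card U) *
        dir 0 (fun u => (M u : ℤ) - 1) πb u F := by
  have hA0 : 0 ≤ A := zero_le_one.trans hA
  have hcl : ∀ σ ∈ box lo (fun u => lo u + s u * M u - 1), ∀ t ∈ Coarse.Tb s,
      π σ ≤ A * πb (Coarse.Bk lo s M σ t) ∧ πb (Coarse.Bk lo s M σ t) ≤ A * π σ :=
    fun σ hσ t ht => hcmp σ hσ _ (Coarse.Bk_mem lo s hM σ t) fun u =>
      Coarse.blk_close (hs u) (Fintype.mem_piFinset.1 hσ u) (Fintype.mem_piFinset.1 ht u)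
  have hc := fun σ hσ t ht => (hcl σ hσ t ht).1
  have h0 : (0 : U → ℤ) ∈ Coarse.Tb s :=
    Fintype.mem_piFinset.2 fun v => Coarse.zero_mem_win (hs v)
  have hT := Coarse.card_Tb_pos hs
  have hS : (0 : ℝ) < ∏ v, (s v : ℝ) := prod_pos fun v _ => by exact_mod_cast hs v
  obtain ⟨c, hc0⟩ := hP fun σ => (∑ t ∈ Coarse.Tb s, F (Coarse.Bk lo s M σ t)) / (Coarse.Tb s).card
  refine ⟨c, ?_⟩
  have hD := fun u => Coarse.dir_nonneg 0 (fun u => (M u : ℤ) - 1) hπb u F
  -- the coarse sum as a fine sum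
  have hpush := Coarse.push_eq (fun v => Coarse.fin (lo v) (s v) (M v))
    (fun v => Icc (0 : ℤ) ((M v : ℤ) - 1)) (fun v x => Coarse.blk (lo v) (s v) (M v) x)
    (fun v x => Coarse.blk_mem _ _ (hM v) _) fun a => πb a * (F a - c) ^ 2
  rw [← Coarse.box_coarse, ← Coarse.box_fin] at hpush
  have e0 : ∀ σ : U → ℤ,
      (fun v => Coarse.blk (lo v) (s v) (M v) (σ v)) = Coarse.Bk lo s M σ 0 := fun σ => by
    funext v; simp [Coarse.Bk]
  simp only [e0] at hpush
  have h1 : (∏ v, (s v : ℝ)) * ∑ a ∈ box 0 (fun u => (M u : ℤ) - 1), πb a * (F a - c) ^ 2 =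
      ∑ σ ∈ box lo (fun u => lo u + s u * M u - 1),
        πb (Coarse.Bk lo s M σ 0) * (F (Coarse.Bk lo s M σ 0) - c) ^ 2 := by
    rw [hpush, mul_sum]
    refine sum_congr rfl fun a ha => ?_
    congr 1
    exact prod_congr rfl fun v _ => by
      rw [Coarse.card_block (hs v) (Fintype.mem_piFinset.1 ha v)]
  have htele := Coarse.tele hs hM hA0 hπ hπb hc F univ
  have hres : ∀ t : U → ℤ, Coarse.res univ t = t := fun t => by funext v; simp [Coarse.res]
  simp only [hres, card_univ] at htele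
  have h2 : ∑ σ ∈ box lo (fun u => lo u + s u * M u - 1),
      πb (Coarse.Bk lo s M σ 0) * (F (Coarse.Bk lo s M σ 0) - c) ^ 2 ≤
      2 * A * ∑ σ ∈ box lo (fun u => lo u + s u * M u - 1), π σ *
        ((∑ t ∈ Coarse.Tb s, F (Coarse.Bk lo s M σ t)) / (Coarse.Tb s).card - c) ^ 2 +
      2 * A / (Coarse.Tb s).card * ∑ σ ∈ box lo (fun u => lo u + s u * M u - 1),
        ∑ t ∈ Coarse.Tb s, π σ * (F (Coarse.Bk lo s M σ 0) - F (Coarse.Bk lo s M σ t)) ^ 2 := by
    rw [mul_sum, mul_sum, ← sum_add_distrib]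
    refine sum_le_sum fun σ hσ => ?_
    have h3 := (hcl σ hσ 0 h0).2
    have h4 := sq_sum_le_card_mul_sum_sq (s := Coarse.Tb s)
      (f := fun t => F (Coarse.Bk lo s M σ 0) - F (Coarse.Bk lo s M σ t))
    rw [sum_sub_distrib, sum_const, nsmul_eq_mul] at h4
    rw [← mul_sum]
    set g := F (Coarse.Bk lo s M σ 0)
    set Q := ∑ t ∈ Coarse.Tb s, (g - F (Coarse.Bk lo s M σ t)) ^ 2
    set Y := ∑ t ∈ Coarse.Tb s, F (Coarse.Bk lo s M σ t)
    generalize ((Coarse.Tb s).card : ℝ) = n at hT h4 ⊢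
    have h5 : (g - Y / n) ^ 2 ≤ Q / n := by
      have : g - Y / n = (n * g - Y) / n := by field_simp
      rw [this, div_pow, div_le_div_iff₀ (by positivity) hT]
      nlinarith
    have h6 : (g - c) ^ 2 ≤ 2 * (Y / n - c) ^ 2 + 2 * (Q / n) := by
      nlinarith [sq_nonneg (g - Y / n - (Y / n - c))]
    have h7 := mul_le_mul h3 h6 (sq_nonneg _) (mul_nonneg hA0 (hπ σ))
    refine h7.trans (le_of_eq ?_)
    field_simp
  have h8 : ∑ u, lam u * dir lo (fun u => lo u + s u * M u - 1) π u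
      (fun σ => (∑ t ∈ Coarse.Tb s, F (Coarse.Bk lo s M σ t)) / (Coarse.Tb s).card) ≤
      ∑ u, lam u * (2 * A * (∏ v, (s v : ℝ)) / (s u : ℝ) ^ 2 *
        dir 0 (fun u => (M u : ℤ) - 1) πb u F) :=
    sum_le_sum fun u _ =>
      mul_le_mul_of_nonneg_left (Coarse.dir_le hs hM hA0 hπ hπb hc F u) (hlam u)
  refine le_of_mul_le_mul_left ?_ hS
  rw [h1]
  refine h2.trans ((add_le_add (mul_le_mul_of_nonneg_left (hc0.trans h8) (by positivity))
    (mul_le_mul_of_nonneg_left htele (by positivity))).trans ?_)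
  simp only [mul_sum, ← sum_add_distrib]
  refine sum_le_sum fun u _ => ?_
  have hsu : (0 : ℝ) < s u := by exact_mod_cast hs u
  have h9 : 0 ≤ (∏ v, (s v : ℝ)) * (A ^ 2 * (lam u / (s u : ℝ) ^ 2 + Fintype.card U) *
      dir 0 (fun u => (M u : ℤ) - 1) πb u F) := by
    have := hD u
    have := hlam u
    positivity
  have e : 2 * A * (lam u * (2 * A * (∏ v, (s v : ℝ)) / (s u : ℝ) ^ 2 *
        dir 0 (fun u => (M u : ℤ) - 1) πb u F)) +
      2 * A / (Coarse.Tb s).card * (Fintype.card U * (2 * A * (∏ v, (s v : ℝ)) *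
        (Coarse.Tb s).card * dir 0 (fun u => (M u : ℤ) - 1) πb u F)) =
      4 * ((∏ v, (s v : ℝ)) * (A ^ 2 * (lam u / (s u : ℝ) ^ 2 + Fintype.card U) *
        dir 0 (fun u => (M u : ℤ) - 1) πb u F)) := by
    field_simp
    ring
  rw [e]
  linarith

end Crest.Agent.R309
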