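import Crest.Agent.R309.Flow

/-!
# R309: reachability with explicit paths
-/

set_option linter.dupNamespace false

namespace Crest.Agent.R309

open Finset Crest.Agent.Lib.PT

namespace Reach

/-- A new vertex reached through the cell `u`, with its flow. -/
def cand (I : Inst) (fw bw : List Bool) (D : List (Option (List ℤ))) (u : ℕ) :
    Option (ℕ × List ℤ) :=
  if fw.getD u false = true ∧ (D.getD (I.p u) none).isSome = true ∧
      (D.getD (I.q u) none).isSome = false then
    some (I.q u, ((D.getD (I.p u) none).getD []).set u 1)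
  else if bw.getD u false = true ∧ (D.getD (I.q u) none).isSome = true ∧
      (D.getD (I.p u) none).isSome = false then
    some (I.p u, ((D.getD (I.q u) none).getD []).set u (-1))
  else none

/-- One round. -/
def step (I : Inst) (fw bw : List Bool) (D : List (Option (List ℤ))) : List (Option (List ℤ)) :=
  ((List.range I.nc).findSome? (cand I fw bw D)).elim D fun c => D.set c.1 (some c.2)

/-- The initial state. -/
def init (I : Inst) (src : List Bool) : List (Option (List ℤ)) :=
  (List.range I.nv).map fun v =>
    if src.getD v false = true then some (List.replicate I.nc 0) else none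

/-- The algorithm. -/
def reach (x : Inst × List Bool × List Bool × List Bool) : List (Option (List ℤ)) :=
  (step x.1 x.2.1 x.2.2.1)^[x.1.nv] (init x.1 x.2.2.2)

theorem getD_set {β : Type} (l : List β) {i : ℕ} (j : ℕ) (a d : β) (h : i < l.length) :
    (l.set i a).getD j d = if j = i then a else l.getD j d := by
  simp only [List.getD_eq_getElem?_getD, List.getElem?_set]
  by_cases hj : j = i
  · subst hj; simp [h]
  · rw [if_neg (Ne.symm hj), if_neg hj]

theorem cand_cases {I : Inst} {fw bw : List Bool} {D : List (Option (List ℤ))} {u v : ℕ}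
    {g : List ℤ} (h : cand I fw bw D u = some (v, g)) :
    ∃ f, (fw.getD u false = true ∧ D.getD (I.p u) none = some f ∧ D.getD (I.q u) none = none ∧
        v = I.q u ∧ g = f.set u 1) ∨
      (bw.getD u false = true ∧ D.getD (I.q u) none = some f ∧ D.getD (I.p u) none = none ∧
        v = I.p u ∧ g = f.set u (-1)) := by
  unfold cand at h
  split_ifs at h with h1 h2
  · obtain ⟨f, hf⟩ := Option.isSome_iff_exists.1 h1.2.1
    simp only [Option.some.injEq, Prod.mk.injEq, hf, Option.getD_some] at h
    exact ⟨f, Or.inl ⟨h1.1, hf, by simpa using h1.2.2, h.1.symm, h.2.symm⟩⟩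
  · obtain ⟨f, hf⟩ := Option.isSome_iff_exists.1 h2.2.1
    simp only [Option.some.injEq, Prod.mk.injEq, hf, Option.getD_some] at h
    exact ⟨f, Or.inr ⟨h2.1, hf, by simpa using h2.2.2, h.1.symm, h.2.symm⟩⟩

theorem step_cases (I : Inst) (fw bw : List Bool) (D : List (Option (List ℤ))) :
    ((∀ u < I.nc, cand I fw bw D u = none) ∧ step I fw bw D = D) ∨
      ∃ u < I.nc, ∃ v g, cand I fw bw D u = some (v, g) ∧ step I fw bw D = D.set v (some g) := by
  unfold step
  rcases h : (List.range I.nc).findSome? (cand I fw bw D) with _ | ⟨v, g⟩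
  · exact Or.inl ⟨fun u hu => List.findSome?_eq_none_iff.1 h u (List.mem_range.2 hu), rfl⟩
  · obtain ⟨u, hu, hc⟩ := List.exists_of_findSome?_eq_some h
    exact Or.inr ⟨u, List.mem_range.1 hu, v, g, hc, rfl⟩

/-! ### Polynomial time -/

/-- The size invariant. -/
def Small (I : Inst) (D : List (Option (List ℤ))) : Prop :=
  D.length = I.nv ∧ ∀ f, some f ∈ D → f.length = I.nc ∧ ∀ z ∈ f, z.natAbs ≤ 1

theorem mem_of_getD {D : List (Option (List ℤ))} {v : ℕ} {f : List ℤ}
    (h : D.getD v none = some f) : some f ∈ D := by
  rw [List.getD_eq_getElem?_getD] at h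
  rcases h' : D[v]? with _ | o
  · simp [h'] at h
  · rw [h', Option.getD_some] at h
    exact h ▸ List.mem_of_getElem? h'

theorem small_init (I : Inst) (src : List Bool) : Small I (init I src) := by
  refine ⟨by simp [init], fun f hf => ?_⟩
  simp only [init, List.mem_map] at hf
  obtain ⟨v, -, hv⟩ := hf
  split_ifs at hv
  obtain rfl := Option.some.inj hv
  refine ⟨by simp, fun z hz => ?_⟩
  rw [List.eq_of_mem_replicate hz]; simp

theorem small_step {I : Inst} (fw bw : List Bool) {D : List (Option (List ℤ))} (h : Small I D) :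
    Small I (step I fw bw D) := by
  rcases step_cases I fw bw D with ⟨-, e⟩ | ⟨u, -, v, g, hc, e⟩
  · rwa [e]
  · rw [e]
    refine ⟨by simp [h.1], fun f hf => ?_⟩
    rcases List.mem_or_eq_of_mem_set hf with hf | hf
    · exact h.2 f hf
    · obtain rfl := Option.some.inj hf
      obtain ⟨f', ⟨-, h1, -, -, rfl⟩ | ⟨-, h1, -, -, rfl⟩⟩ := cand_cases hc <;>
      · have := h.2 f' (mem_of_getD h1)
        refine ⟨by simp [this.1], fun z hz => ?_⟩
        rcases List.mem_or_eq_of_mem_set hz with hz | rfl
        · exact this.2 z hz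
        · simp

theorem sz_small {I : Inst} {D : List (Option (List ℤ))} (h : Small I D) :
    sz D ≤ I.nv * (I.nc * 15 + 4) + 1 := by
  have := sz_list_le (l := D) (B := I.nc * 15 + 3) fun o ho => by
    rcases o with _ | f
    · simp
    · obtain ⟨h1, h2⟩ := h.2 f ho
      have := sz_list_le (l := f) (B := 14) fun z hz => by
        have h3 := sz_int_le_of_le (h2 z hz)
        have h4 := sz_nat_le_self 1
        omega
      rw [sz_some, ← h1]; omega
  rwa [h.1] at this

theorem step_pt : PT fun p : (Inst × List Bool × List Bool × List Bool) × List (Option (List ℤ)) =>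
    step p.1.1 p.1.2.1 p.1.2.2.1 p.2 := by
  unfold step cand
  fun_prop

theorem reach_pt : PT reach := by
  unfold reach
  refine PT.iterate_inv (f := fun x : Inst × List Bool × List Bool × List Bool =>
      step x.1 x.2.1 x.2.2.1) (fun x _ D => Small x.1 D) (by fun_prop) (by fun_prop)
    (by unfold init; fun_prop) (fun x => small_init _ _) (fun x _ D _ h => small_step _ _ h)
    (step_pt.restrict _) (B := fun x => x.1.nv * (x.1.nc * 15 + 4) + 1) (by fun_prop)
    fun x _ D _ h => sz_small h

/-! ### Correctness -/

/-- The flow `f` certifies that `v` is reached, and only uses cells between reached vertices. -/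
def Good (I : Inst) (fw bw src : List Bool) (D : List (Option (List ℤ))) (v : ℕ) (f : List ℤ) :
    Prop :=
  (f.length = I.nc ∧
    (∀ u < I.nc, f.getD u 0 = 0 ∨ (f.getD u 0 = 1 ∧ fw.getD u false = true) ∨
      (f.getD u 0 = -1 ∧ bw.getD u false = true)) ∧
    ∃ s < I.nv, src.getD s false = true ∧ ∀ x < I.nv,
      I.div (fun u => f.getD u 0) x = (if x = s then 1 else 0) - (if x = v then 1 else 0)) ∧
  ∀ u < I.nc, f.getD u 0 ≠ 0 →
    (D.getD (I.p u) none).isSome = true ∧ (D.getD (I.q u) none).isSome = true

/-- The invariant. -/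
structure Inv (I : Inst) (fw bw src : List Bool) (D : List (Option (List ℤ))) : Prop where
  len : D.length = I.nv
  src_mem : ∀ v < I.nv, src.getD v false = true → (D.getD v none).isSome = true
  good : ∀ v < I.nv, ∀ f, D.getD v none = some f → Good I fw bw src D v f

theorem getD_init (I : Inst) (src : List Bool) {v : ℕ} (hv : v < I.nv) :
    (init I src).getD v none =
      if src.getD v false = true then some (List.replicate I.nc 0) else none := by
  simp [init, List.getD_eq_getElem?_getD, hv]

theorem getD_replicate (n u : ℕ) : (List.replicate n (0 : ℤ)).getD u 0 = 0 := by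
  rw [List.getD_eq_getElem?_getD, List.getElem?_replicate]
  split_ifs <;> rfl

theorem inv_init (I : Inst) (fw bw src : List Bool) : Inv I fw bw src (init I src) := by
  refine ⟨by simp [init], fun v hv h => by rw [getD_init I src hv, if_pos h]; rfl,
    fun v hv f hf => ?_⟩
  rw [getD_init I src hv] at hf
  split_ifs at hf with h
  obtain rfl := Option.some.inj hf
  refine ⟨⟨by simp, fun u _ => Or.inl (getD_replicate _ _), v, hv, h, fun x _ => ?_⟩,
    fun u _ hu => absurd (getD_replicate _ _) hu⟩
  simp [Inst.div]

theorem div_set (I : Inst) {f : List ℤ} {u : ℕ} (hu : u < I.nc) (hf : f.length = I.nc)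
    (h0 : f.getD u 0 = 0) (c : ℤ) (x : ℕ) :
    I.div (fun w => (f.set u c).getD w 0) x = I.div (fun w => f.getD w 0) x +
      ((if I.p u = x then c else 0) - (if I.q u = x then c else 0)) := by
  have h1 : I.div (fun w => if w = u then c else 0) x =
      (if I.p u = x then c else 0) - (if I.q u = x then c else 0) := by
    unfold Inst.div
    rw [Finset.sum_eq_single u (fun w _ hw => by simp [hw]) (fun h => absurd (mem_range.2 hu) h)]
    simp
  rw [← h1, ← Inst.div_add]
  refine Inst.div_congr (fun w _ => ?_) x
  rw [getD_set f w c 0 (hf ▸ hu)]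
  split_ifs with h
  · rw [h, h0, zero_add]
  · rw [add_zero]

theorem isSome_set {D : List (Option (List ℤ))} {v : ℕ} (hv : v < D.length) (g : List ℤ) (w : ℕ)
    (h : w = v ∨ (D.getD w none).isSome = true) :
    ((D.set v (some g)).getD w none).isSome = true := by
  rw [getD_set D w _ _ hv]
  split_ifs with h'
  · rfl
  · exact h.resolve_left h'

theorem inv_set {I : Inst} {fw bw src : List Bool} {D : List (Option (List ℤ))}
    (h : Inv I fw bw src D) {v : ℕ} (hv : v < I.nv) {g : List ℤ}
    (hg : Good I fw bw src (D.set v (some g)) v g) : Inv I fw bw src (D.set v (some g)) := by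
  have hv' : v < D.length := h.len ▸ hv
  refine ⟨by simp [h.len], fun w hw hs => isSome_set hv' g w (Or.inr (h.src_mem w hw hs)),
    fun w hw f hf => ?_⟩
  rw [getD_set D w _ _ hv'] at hf
  split_ifs at hf with e
  · obtain rfl := Option.some.inj hf
    rwa [e]
  · obtain ⟨h1, h2⟩ := h.good w hw f hf
    exact ⟨h1, fun u hu h0 => ⟨isSome_set hv' g _ (Or.inr (h2 u hu h0).1),
      isSome_set hv' g _ (Or.inr (h2 u hu h0).2)⟩⟩

theorem inv_step {I : Inst} (hI : I.WF) {fw bw src : List Bool} {D : List (Option (List ℤ))}
    (h : Inv I fw bw src D) : Inv I fw bw src (step I fw bw D) := by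
  rcases step_cases I fw bw D with ⟨-, e⟩ | ⟨u, hu, v, g, hc, e⟩
  · rwa [e]
  · rw [e]
    obtain ⟨hp, hq⟩ := hI u hu
    obtain ⟨f, ⟨h0, h1, h2, rfl, rfl⟩ | ⟨h0, h1, h2, rfl, rfl⟩⟩ := cand_cases hc
    · obtain ⟨⟨a1, a2, s, hs, a3, a4⟩, a5⟩ := h.good _ hp f h1
      have hz : f.getD u 0 = 0 := by
        by_contra hne
        have := (a5 u hu hne).2
        rw [h2] at this
        exact absurd this (by simp)
      have hq' : I.q u < D.length := h.len ▸ hq
      refine inv_set h hq ⟨⟨by simp [a1], fun w hw => ?_, s, hs, a3, fun x hx => ?_⟩,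
        fun w hw hne => ?_⟩
      · rw [getD_set f w _ _ (a1 ▸ hu)]
        split_ifs with e'
        · exact Or.inr (Or.inl ⟨rfl, e' ▸ h0⟩)
        · exact a2 w hw
      · rw [div_set I hu a1 hz, a4 x hx]
        simp only [eq_comm (a := x)]
        ring
      · rw [getD_set f w _ _ (a1 ▸ hu)] at hne
        split_ifs at hne with e'
        · subst e'
          exact ⟨isSome_set hq' _ _ (Or.inr (by rw [h1]; rfl)), isSome_set hq' _ _ (Or.inl rfl)⟩
        · exact ⟨isSome_set hq' _ _ (Or.inr (a5 w hw hne).1),
            isSome_set hq' _ _ (Or.inr (a5 w hw hne).2)⟩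
    · obtain ⟨⟨a1, a2, s, hs, a3, a4⟩, a5⟩ := h.good _ hq f h1
      have hz : f.getD u 0 = 0 := by
        by_contra hne
        have := (a5 u hu hne).1
        rw [h2] at this
        exact absurd this (by simp)
      have hp' : I.p u < D.length := h.len ▸ hp
      refine inv_set h hp ⟨⟨by simp [a1], fun w hw => ?_, s, hs, a3, fun x hx => ?_⟩,
        fun w hw hne => ?_⟩
      · rw [getD_set f w _ _ (a1 ▸ hu)]
        split_ifs with e'
        · exact Or.inr (Or.inr ⟨rfl, e' ▸ h0⟩)
        · exact a2 w hw
      · rw [div_set I hu a1 hz, a4 x hx]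
        simp only [eq_comm (a := x)]
        split_ifs <;> ring
      · rw [getD_set f w _ _ (a1 ▸ hu)] at hne
        split_ifs at hne with e'
        · subst e'
          exact ⟨isSome_set hp' _ _ (Or.inl rfl), isSome_set hp' _ _ (Or.inr (by rw [h1]; rfl))⟩
        · exact ⟨isSome_set hp' _ _ (Or.inr (a5 w hw hne).1),
            isSome_set hp' _ _ (Or.inr (a5 w hw hne).2)⟩

/-- The reached vertices. -/
def seen (I : Inst) (D : List (Option (List ℤ))) : Finset ℕ :=
  (range I.nv).filter fun v => (D.getD v none).isSome = true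

theorem progress {I : Inst} (hI : I.WF) {fw bw : List Bool} {D : List (Option (List ℤ))}
    (h : D.length = I.nv) :
    ((∀ u < I.nc, cand I fw bw D u = none) ∧ step I fw bw D = D) ∨
      (seen I D).card < (seen I (step I fw bw D)).card := by
  rcases step_cases I fw bw D with h' | ⟨u, hu, v, g, hc, e⟩
  · exact Or.inl h'
  · right
    rw [e]
    obtain ⟨hp, hq⟩ := hI u hu
    have key : v < I.nv ∧ D.getD v none = none := by
      obtain ⟨f, ⟨-, -, h2, rfl, -⟩ | ⟨-, -, h2, rfl, -⟩⟩ := cand_cases hc
      exacts [⟨hq, h2⟩, ⟨hp, h2⟩]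
    have hv' : v < D.length := h ▸ key.1
    refine Finset.card_lt_card ⟨fun w hw => ?_, fun hsub => ?_⟩
    · simp only [seen, mem_filter] at hw ⊢
      exact ⟨hw.1, isSome_set hv' g w (Or.inr hw.2)⟩
    · have : v ∈ seen I (D.set v (some g)) :=
        mem_filter.2 ⟨mem_range.2 key.1, isSome_set hv' g v (Or.inl rfl)⟩
      have := (mem_filter.1 (hsub this)).2
      rw [key.2] at this
      exact absurd this (by simp)

theorem inv_iter {I : Inst} (hI : I.WF) (fw bw src : List Bool) (k : ℕ) :
    Inv I fw bw src ((step I fw bw)^[k] (init I src)) ∧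
      ((∀ u < I.nc, cand I fw bw ((step I fw bw)^[k] (init I src)) u = none) ∨
        k ≤ (seen I ((step I fw bw)^[k] (init I src))).card) := by
  induction k with
  | zero => exact ⟨inv_init I fw bw src, Or.inr (Nat.zero_le _)⟩
  | succ k ih =>
    rw [Function.iterate_succ_apply']
    refine ⟨inv_step hI ih.1, ?_⟩
    rcases progress hI (fw := fw) (bw := bw) ih.1.len with ⟨h1, h2⟩ | h1
    · left; rwa [h2]
    · rcases ih.2 with h2 | h2
      · rcases step_cases I fw bw ((step I fw bw)^[k] (init I src)) with h3 | ⟨u, hu, v, g, hc, -⟩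
        · left; rw [h3.2]; exact h2
        · rw [h2 u hu] at hc
          exact absurd hc (by simp)
      · right; omega

theorem reach_spec {I : Inst} (hI : I.WF) (fw bw src : List Bool) :
    ReachSpec I fw bw src (reach (I, fw, bw, src)) := by
  obtain ⟨h1, h2⟩ := inv_iter hI fw bw src I.nv
  change ReachSpec I fw bw src ((step I fw bw)^[I.nv] (init I src))
  generalize (step I fw bw)^[I.nv] (init I src) = D at h1 h2
  have hall : I.nv ≤ (seen I D).card → ∀ v < I.nv, (D.getD v none).isSome = true := by
    intro hc v hv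
    have : seen I D = range I.nv :=
      Finset.eq_of_subset_of_card_le (filter_subset _ _) (by simpa using hc)
    exact (mem_filter.1 (this ▸ mem_range.2 hv : v ∈ seen I D)).2
  refine ⟨h1.src_mem, fun v hv f hf => (h1.good v hv f hf).1, fun u hu a b => ?_,
    fun u hu a b => ?_⟩
  · rcases h2 with h2 | h2
    · have := h2 u hu
      unfold cand at this
      by_contra hne
      rw [if_pos ⟨a, b, by simpa using hne⟩] at this
      exact absurd this (by simp)
    · exact hall h2 _ (hI u hu).2
  · rcases h2 with h2 | h2
    · have := h2 u hu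
      unfold cand at this
      by_contra hne
      rw [if_neg (fun h => hne h.2.1), if_pos ⟨a, b, by simpa using hne⟩] at this
      exact absurd this (by simp)
    · exact hall h2 _ (hI u hu).1

end Reach

/-- Start with `D v = some (replicate nc 0)` for the sources and `none` otherwise.  One round looks
for a cell that can be used from a reached to an unreached vertex and extends the flow.  After `nv`
rounds the set of reached vertices is closed. -/
theorem exists_reach : ∃ reach : Inst × List Bool × List Bool × List Bool → List (Option (List ℤ)),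
    PT reach ∧ ∀ I fw bw src, I.WF → ReachSpec I fw bw src (reach (I, fw, bw, src)) :=
  ⟨Reach.reach, Reach.reach_pt, fun _ fw bw src hI => Reach.reach_spec hI fw bw src⟩

end Crest.Agent.R309
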