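import Crest.Agent.R309.Tape

/-!
# R309: pointwise mixing of a lazy reversible chain from a Poincaré inequality
-/

set_option linter.dupNamespace false

namespace Crest.Agent.R309

open Finset

theorem mix_jensen (Ω : Finset ℕ) (w g : ℕ → ℝ) (h0 : ∀ y ∈ Ω, 0 ≤ w y) (h1 : ∑ y ∈ Ω, w y = 1) :
    (∑ y ∈ Ω, w y * g y) ^ 2 ≤ ∑ y ∈ Ω, w y * g y ^ 2 := by
  obtain ⟨q, hq⟩ : ∃ q, q = ∑ y ∈ Ω, w y * g y := ⟨_, rfl⟩
  have h : 0 ≤ ∑ y ∈ Ω, w y * (g y - q) ^ 2 :=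
    sum_nonneg fun y hy => mul_nonneg (h0 y hy) (sq_nonneg _)
  have e : ∑ y ∈ Ω, w y * (g y - q) ^ 2 =
      ∑ y ∈ Ω, w y * g y ^ 2 - 2 * q * ∑ y ∈ Ω, w y * g y + q ^ 2 * ∑ y ∈ Ω, w y := by
    rw [mul_sum, mul_sum, ← sum_sub_distrib, ← sum_add_distrib]
    exact sum_congr rfl fun y _ => by ring
  rw [e, h1, ← hq] at h
  rw [← hq]
  nlinarith

theorem mix_stat (Ω : Finset ℕ) (P : ℕ → ℕ → ℝ) (π : ℕ → ℝ) (h1 : ∀ x ∈ Ω, ∑ y ∈ Ω, P x y = 1)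
    (hrev : ∀ x ∈ Ω, ∀ y ∈ Ω, π x * P x y = π y * P y x) (g : ℕ → ℝ) :
    ∑ x ∈ Ω, π x * ∑ y ∈ Ω, P x y * g y = ∑ y ∈ Ω, π y * g y := by
  simp only [mul_sum]
  rw [sum_comm]
  refine sum_congr rfl fun y hy => ?_
  calc ∑ x ∈ Ω, π x * (P x y * g y) = ∑ x ∈ Ω, π y * g y * P y x :=
        sum_congr rfl fun x hx => by rw [← mul_assoc, hrev x hx y hy]; ring
    _ = π y * g y := by rw [← mul_sum, h1 y hy, mul_one]

theorem mix_contr (Ω : Finset ℕ) (P : ℕ → ℕ → ℝ) (π : ℕ → ℝ) (Γ : ℝ) (hΓ : 1 ≤ Γ)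
    (hπ : ∀ x ∈ Ω, 0 < π x) (h0 : ∀ x y, 0 ≤ P x y) (h1 : ∀ x ∈ Ω, ∑ y ∈ Ω, P x y = 1)
    (hlazy : ∀ x ∈ Ω, 1 / 2 ≤ P x x) (hrev : ∀ x ∈ Ω, ∀ y ∈ Ω, π x * P x y = π y * P y x)
    (hP : ∀ f : ℕ → ℝ, ∃ c : ℝ, ∑ x ∈ Ω, π x * (f x - c) ^ 2 ≤
      Γ / 2 * ∑ x ∈ Ω, ∑ y ∈ Ω, π x * P x y * (f x - f y) ^ 2)
    (g : ℕ → ℝ) (hg : ∑ x ∈ Ω, π x * g x = 0) :
    ∑ x ∈ Ω, π x * (∑ y ∈ Ω, P x y * g y) ^ 2 ≤ (1 - 1 / Γ) * ∑ x ∈ Ω, π x * g x ^ 2 := by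
  set N := ∑ x ∈ Ω, π x * g x ^ 2 with hN
  set B := ∑ x ∈ Ω, π x * (g x * ∑ y ∈ Ω, P x y * g y) with hB
  have hst := mix_stat Ω P π h1 hrev fun y => g y ^ 2
  -- `‖P g‖² ≤ ⟨g, P g⟩`
  have hA : ∑ x ∈ Ω, π x * (∑ y ∈ Ω, P x y * g y) ^ 2 ≤ B := by
    have hx : ∀ x ∈ Ω, π x * (∑ y ∈ Ω, P x y * g y) ^ 2 ≤
        π x * (g x * ∑ y ∈ Ω, P x y * g y) +
          (π x * (∑ y ∈ Ω, P x y * g y ^ 2) - π x * g x ^ 2) / 2 := by
      intro x hx
      have hj := mix_jensen Ω (fun y => 2 * P x y - if y = x then 1 else 0) g (by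
        intro y _
        split_ifs with h
        · subst h
          have := hlazy y hx
          linarith
        · have := h0 x y
          linarith) (by
        rw [sum_sub_distrib, ← mul_sum, h1 x hx, sum_ite_eq', if_pos hx]
        norm_num)
      simp only [sub_mul, sum_sub_distrib, ite_mul, one_mul, zero_mul, sum_ite_eq', if_pos hx,
        mul_assoc, ← mul_sum] at hj
      have := mul_le_mul_of_nonneg_left hj (hπ x hx).le
      nlinarith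
    refine (sum_le_sum hx).trans ?_
    rw [sum_add_distrib, ← sum_div, sum_sub_distrib, hst]
    simp [hB]
  obtain ⟨c, hc⟩ := hP g
  have hE : ∑ x ∈ Ω, ∑ y ∈ Ω, π x * P x y * (g x - g y) ^ 2 = 2 * (N - B) := by
    have hx : ∀ x ∈ Ω, ∑ y ∈ Ω, π x * P x y * (g x - g y) ^ 2 =
        π x * g x ^ 2 - 2 * (π x * (g x * ∑ y ∈ Ω, P x y * g y)) +
          π x * ∑ y ∈ Ω, P x y * g y ^ 2 := by
      intro x hx
      calc _ = ∑ y ∈ Ω, (π x * g x ^ 2 * P x y - 2 * (π x * (g x * (P x y * g y))) +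
            π x * (P x y * g y ^ 2)) := sum_congr rfl fun y _ => by ring
        _ = _ := by
          rw [sum_add_distrib, sum_sub_distrib, ← mul_sum, ← mul_sum, ← mul_sum, ← mul_sum,
            ← mul_sum, h1 x hx, mul_one]
    rw [sum_congr rfl hx, sum_add_distrib, sum_sub_distrib, ← mul_sum, hst]
    ring
  have hNc : N ≤ ∑ x ∈ Ω, π x * (g x - c) ^ 2 := by
    have e : ∑ x ∈ Ω, π x * (g x - c) ^ 2 =
        N - 2 * c * ∑ x ∈ Ω, π x * g x + ∑ x ∈ Ω, π x * c ^ 2 := by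
      rw [hN, mul_sum, ← sum_sub_distrib, ← sum_add_distrib]
      exact sum_congr rfl fun y _ => by ring
    have : 0 ≤ ∑ x ∈ Ω, π x * c ^ 2 := sum_nonneg fun x hx => mul_nonneg (hπ x hx).le (sq_nonneg _)
    rw [e, hg]
    linarith
  rw [hE] at hc
  have hΓ0 : 0 < Γ := by linarith
  have h2 : N / Γ ≤ N - B := by
    rw [div_le_iff₀ hΓ0]
    linarith
  have : (1 - 1 / Γ) * N = N - N / Γ := by ring
  linarith

/-- Write `P x y = Pr ρ (st x · = y)`, `Z = ∑ π`, `(P f) x = ∑_y P x y f y`, and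
`Var f = ∑ π (f - mean f)^2` (`P` preserves the mean, by reversibility; the mean minimises
`c ↦ ∑ π (f - c)^2`).
* `Var f - Var (P f) = ∑ π f² - ∑ π (P f)² = ½ ∑_{x,y} π x P²(x,y) (f x - f y)^2` (reversibility), and for `x ≠ y`
  `P²(x,y) ≥ P x x P x y + P x y P y y ≥ P x y` (laziness); so `Var (P f) ≤ (1 - 1/Γ) Var f`.
* For `f = 1_y * Z / π y` the mean is `1`, `Var f ≤ Z² / π y`, and `(P^t f) x = Pr (iter = y) Z / π y`
  (`Ex_iter_succ`, `Ex_comp`, induction on `t`).  So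
  `π x ((P^t f) x - 1)^2 ≤ (1 - 1/Γ)^t Z² / π y`, i.e.
  `((P^t f) x - 1)^2 ≤ exp (-t/Γ) (Z / π x) (Z / π y) ≤ exp (-t/Γ + 2Λ) ≤ exp (-2K) ≤ 4^{-K}`. -/
theorem mix (Ω : Finset ℕ) (st : ℕ → List Bool → ℕ) (ρ : ℕ) (π : ℕ → ℝ) (Γ Λ : ℝ) (hΓ : 1 ≤ Γ)
    (hπ : ∀ x ∈ Ω, 0 < π x) (hcl : ∀ x ∈ Ω, ∀ ω, ω.length = ρ → st x ω ∈ Ω)
    (hlazy : ∀ x ∈ Ω, 1 / 2 ≤ Pr ρ fun ω => st x ω = x)
    (hrev : ∀ x ∈ Ω, ∀ y ∈ Ω,
      π x * Pr ρ (fun ω => st x ω = y) = π y * Pr ρ fun ω => st y ω = x)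
    (hP : ∀ f : ℕ → ℝ, ∃ c : ℝ, ∑ x ∈ Ω, π x * (f x - c) ^ 2 ≤
      Γ / 2 * ∑ x ∈ Ω, ∑ y ∈ Ω, π x * Pr ρ (fun ω => st x ω = y) * (f x - f y) ^ 2)
    (hΛ : ∀ x ∈ Ω, ∑ y ∈ Ω, π y ≤ Real.exp Λ * π x) (K t : ℕ) (ht : Γ * (2 * Λ + 2 * K) ≤ t)
    (x : ℕ) (hx : x ∈ Ω) (y : ℕ) (hy : y ∈ Ω) :
    |Pr (t * ρ) (fun l => iter st ρ t x l = y) - π y / ∑ z ∈ Ω, π z| ≤
      (1 / 2) ^ K * (π y / ∑ z ∈ Ω, π z) := by
  set Z := ∑ z ∈ Ω, π z with hZ
  have hZ0 : 0 < Z := sum_pos hπ ⟨x, hx⟩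
  set P : ℕ → ℕ → ℝ := fun x y => Pr ρ fun ω => st x ω = y with hPdef
  have h1 : ∀ x ∈ Ω, ∑ y ∈ Ω, P x y = 1 := by
    intro x hx
    have := Ex_comp (n := ρ) (g := st x) (hcl x hx) fun _ => 1
    simp only [Ex_const, mul_one] at this
    exact this.symm
  set g : ℕ → ℕ → ℝ := fun t x => Pr (t * ρ) (fun l => iter st ρ t x l = y) - π y / Z with hg
  have hstep : ∀ t, ∀ x ∈ Ω, g (t + 1) x = ∑ z ∈ Ω, P x z * g t z := by
    intro t x hx
    have e1 := Ex_iter_succ st ρ t x fun s => ind (s = y)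
    have e2 := Ex_comp (n := ρ) (g := st x) (hcl x hx)
      fun s => Ex (t * ρ) fun l => ind (iter st ρ t s l = y)
    simp only [hg, Pr, mul_sub, sum_sub_distrib, ← sum_mul, h1 x hx, one_mul]
    rw [e1, e2]
  have hg0 : ∀ z, g 0 z = (if z = y then 1 else 0) - π y / Z := by
    intro z
    simp only [hg, Pr, iter_zero]
    rw [Ex_const, ind_eq]
  have hΓ0 : 0 < Γ := by linarith
  have hθ : 0 ≤ 1 - 1 / Γ := by
    rw [sub_nonneg, div_le_one hΓ0]; exact hΓ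
  have hind : ∀ t, ∑ x ∈ Ω, π x * g t x = 0 ∧
      ∑ x ∈ Ω, π x * g t x ^ 2 ≤ (1 - 1 / Γ) ^ t * π y := by
    intro t
    induction t with
    | zero =>
      constructor
      · simp only [hg0, mul_sub, sum_sub_distrib, mul_ite, mul_one, mul_zero, sum_ite_eq',
          if_pos hy, ← sum_mul, ← hZ]
        field_simp
        ring
      · have : ∀ z, π z * g 0 z ^ 2 = (if z = y then π y * (1 - 2 * (π y / Z)) else 0) +
            π z * (π y / Z) ^ 2 := by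
          intro z
          rw [hg0]
          split_ifs with h
          · subst h; ring
          · ring
        simp only [this, sum_add_distrib, sum_ite_eq', if_pos hy, ← sum_mul, ← hZ, pow_zero,
          one_mul]
        have e : Z * (π y / Z) ^ 2 = π y * (π y / Z) := by field_simp
        have : 0 ≤ π y * (π y / Z) := mul_nonneg (hπ y hy).le (div_nonneg (hπ y hy).le hZ0.le)
        rw [e]
        linarith
    | succ t ih =>
      constructor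
      · rw [sum_congr rfl fun x hx => by rw [hstep t x hx], mix_stat Ω P π h1 hrev, ih.1]
      · rw [sum_congr rfl fun x hx => by rw [hstep t x hx]]
        refine (mix_contr Ω P π Γ hΓ hπ (fun _ _ => Pr_nonneg _ _) h1 hlazy hrev hP _ ih.1).trans ?_
        rw [pow_succ', mul_assoc]
        exact mul_le_mul_of_nonneg_left ih.2 hθ
  have h2 : π x * g t x ^ 2 ≤ (1 - 1 / Γ) ^ t * π y :=
    (single_le_sum (f := fun x => π x * g t x ^ 2)
      (fun z hz => mul_nonneg (hπ z hz).le (sq_nonneg _)) hx).trans (hind t).2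
  have h3 : (1 - 1 / Γ) ^ t ≤ Real.exp (-(2 * Λ + 2 * K)) := by
    have a : 1 - 1 / Γ ≤ Real.exp (-(1 / Γ)) := by
      have := Real.add_one_le_exp (-(1 / Γ))
      linarith
    refine (pow_le_pow_left₀ hθ a t).trans ?_
    rw [← Real.exp_nat_mul]
    refine Real.exp_le_exp.2 ?_
    have : 2 * Λ + 2 * K ≤ t / Γ := by
      rw [le_div_iff₀ hΓ0]; linarith
    have e : (t : ℝ) * -(1 / Γ) = -(t / Γ) := by ring
    rw [e]
    linarith
  have h4 : Real.exp (-(K : ℝ)) ≤ (1 / 2) ^ K := by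
    have a : Real.exp (-1) ≤ 1 / 2 := by
      rw [Real.exp_neg, one_div]
      refine inv_anti₀ (by norm_num) ?_
      have := Real.add_one_le_exp 1
      linarith
    have := pow_le_pow_left₀ (Real.exp_pos _).le a K
    rwa [← Real.exp_nat_mul, mul_neg, mul_one] at this
  have hπx := hπ x hx
  have hπy := hπ y hy
  have h5 : g t x ^ 2 ≤ (Real.exp (-(K : ℝ)) * (π y / Z)) ^ 2 := by
    have a1 := hΛ x hx
    have a2 := hΛ y hy
    have a3 : Z ^ 2 ≤ Real.exp Λ * π x * (Real.exp Λ * π y) := by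
      rw [sq]; exact mul_le_mul a1 a2 hZ0.le (by positivity)
    have e : Real.exp (-(2 * Λ + 2 * K)) * (Real.exp Λ * Real.exp Λ) =
        Real.exp (-(K : ℝ)) ^ 2 := by
      rw [sq, ← Real.exp_add, ← Real.exp_add, ← Real.exp_add]
      congr 1; ring
    rw [mul_pow, div_pow, ← mul_div_assoc, le_div_iff₀ (by positivity), ← e]
    have b1 : π x * g t x ^ 2 ≤ Real.exp (-(2 * Λ + 2 * K)) * π y :=
      h2.trans (mul_le_mul_of_nonneg_right h3 hπy.le)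
    calc g t x ^ 2 * Z ^ 2 ≤ g t x ^ 2 * (Real.exp Λ * π x * (Real.exp Λ * π y)) :=
          mul_le_mul_of_nonneg_left a3 (sq_nonneg _)
      _ = π x * g t x ^ 2 * (Real.exp Λ * Real.exp Λ * π y) := by ring
      _ ≤ Real.exp (-(2 * Λ + 2 * K)) * π y * (Real.exp Λ * Real.exp Λ * π y) :=
          mul_le_mul_of_nonneg_right b1 (by positivity)
      _ = _ := by ring
  have h6 : |g t x| ≤ Real.exp (-(K : ℝ)) * (π y / Z) :=
    abs_le_of_sq_le_sq' h5 (by positivity) |> fun h => abs_le.2 h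
  exact h6.trans (mul_le_mul_of_nonneg_right h4 (by positivity))

end Crest.Agent.R309
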