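import Crest.Agent.R309.LamOf
import Crest.Agent.R309.Tails

/-!
# R309: the tree cells are within their bounds with high probability
-/

set_option linter.dupNamespace false

namespace Crest.Agent.R309

open Finset Crest.Agent.Lib.PT

namespace Dat

variable {D : Dat} {φ : List ℤ}

theorem at_wt_sig {m : Lam (Fin D.I.nc) (Fin D.I.nv × Bool)} (hm : D.IsLam φ m) (h : D.Good)
    {y : List ℕ} (hy : D.I.IsSol y) (C₀ : Fin D.I.nv × Bool) : m.wt (D.sigOf y) = 1 := by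
  rw [← m.wtS_zero C₀, hm.wtS_eq, Real.exp_eq_one_iff, neg_eq_zero]
  refine Finset.sum_eq_zero fun r _ => ?_
  simp only [ite_self, sub_zero]
  cases hp : D.par r with
  | none => simp [psiL, hp, h.net_sig_root hy hp]
  | some e =>
    have h1 := h.tv_sig hy hp
    rw [tv_eq] at h1
    have h2 : y.getD e 0 ≤ D.I.b e := hy.2.1 e (h.par_lt hp).2.1
    have e1 : max 0 (D.sg r e * D.net (ext (D.sigOf y)) r - (D.I.b e - D.x0 e)) = 0 :=
      max_eq_left (by omega)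
    have e2 : max 0 (- D.sg r e * D.net (ext (D.sigOf y)) r - D.x0 e) = 0 :=
      max_eq_left (by rw [neg_mul]; omega)
    simp only [psiL, hp, Option.elim, e1, e2]
    simp

theorem at_Z_le {m : Lam (Fin D.I.nc) (Fin D.I.nv × Bool)} (hm : D.IsLam φ m) (h : D.Good)
    (hφ : D.GoodPhi φ) : m.Z ≤ Real.exp ((D.G : ℝ) ^ 2) := by
  have h1 := hm.Z_le h
  have h2 : (D.S : ℝ) * D.Zb φ ≤ D.S * D.Om.card :=
    mul_le_mul_of_nonneg_left hφ.2 (by positivity)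
  have h3 : (D.S : ℝ) * D.Om.card ≤ 2 ^ (D.G * (D.G + 1)) := by exact_mod_cast h.S_card_le
  have hG := h.G_geR
  have h4 : (2 : ℝ) ^ (D.G * (D.G + 1) + 1) ≤ Real.exp ((D.G : ℝ) ^ 2) := by
    rw [← Real.exp_log (x := 2) (by norm_num), ← Real.exp_nat_mul]
    refine Real.exp_le_exp.2 ?_
    have := Real.log_two_lt_d9
    push_cast
    nlinarith
  rw [pow_succ] at h4
  linarith

theorem at_tail {m : Lam (Fin D.I.nc) (Fin D.I.nv × Bool)} (hm : D.IsLam φ m) (h : D.Good)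
    (hφ : D.GoodPhi φ) {e : ℕ} (C₀ : Fin D.I.nv × Bool) (he : D.par C₀.1 = some e) (ε hh : ℤ)
    (hε : ε = 1 ∨ ε = -1) (hψ : ∀ s, D.psiL C₀ s = D.kT e * ((max 0 (ε * s - hh) : ℤ) : ℝ))
    {y : List ℕ} (hy : D.I.IsSol y) (hyy : ε * D.net (ext (D.sigOf y)) C₀.1 + D.wd e ≤ hh) :
    ∑ σ ∈ (box D.loF D.hiF).filter (fun σ => hh < ε * D.net (ext σ) C₀.1), D.wb φ (D.blk σ) ≤
      8 / (D.G : ℝ) ^ 3 * (D.S * D.Zb φ) := by
  have hG := h.G_geR
  have hG0 : (0 : ℝ) < D.G := by linarith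
  obtain ⟨hW, hW2⟩ := h.Wp_eq he
  have hw9 := (h.par_lt he).2.2.1
  have hw9R : (D.G : ℝ) ^ 9 ≤ D.wd e := by exact_mod_cast hw9
  have hwpos : (0 : ℝ) < D.wd e := lt_of_lt_of_le (by positivity) hw9R
  have hWR : (D.Wp e : ℝ) * (D.G : ℝ) ^ 7 = D.wd e := by exact_mod_cast hW
  have hWpos : (0 : ℝ) < D.Wp e := by
    have : (D.G : ℝ) ^ 2 ≤ D.Wp e := by exact_mod_cast hW2
    exact lt_of_lt_of_le (by positivity) this
  have hk : (D.G : ℝ) ^ 5 / D.wd e ≤ D.kT e := by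
    have h1 := h.ell_lb
    rw [kT, ← hWR, div_le_div_iff₀ (by positivity) hWpos]
    rw [div_le_iff₀ (by positivity)] at h1
    calc (D.G : ℝ) ^ 5 * D.Wp e = 1 * ((D.G : ℝ) ^ 5 * D.Wp e) := by ring
      _ ≤ (D.ell * (D.G : ℝ) ^ 27) * ((D.G : ℝ) ^ 5 * D.Wp e) :=
        mul_le_mul_of_nonneg_right h1 (by positivity)
      _ = _ := by ring
  have hk0 : 0 ≤ D.kT e := le_trans (by positivity) hk
  have hεε : ε * ε = 1 := by rcases hε with rfl | rfl <;> norm_num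
  have h1 : 1 ≤ m.ZS C₀ (- (ε * (D.wd e : ℕ))) := by
    have e1 : m.wtS C₀ (- (ε * (D.wd e : ℕ))) (D.sigOf y) = 1 := by
      rw [tails_wtS, at_wt_sig hm h hy C₀, one_mul, Real.exp_eq_one_iff, hm.psi, hψ, hψ, hm.net_eq]
      have a1 : max 0 (ε * D.net (ext (D.sigOf y)) C₀.1 - hh) = 0 := max_eq_left (by omega)
      have a2 : max 0 (ε * (D.net (ext (D.sigOf y)) C₀.1 - - (ε * (D.wd e : ℕ))) - hh) = 0 :=
        max_eq_left (by
          have : ε * (D.net (ext (D.sigOf y)) C₀.1 - - (ε * (D.wd e : ℕ))) =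
              ε * D.net (ext (D.sigOf y)) C₀.1 + (ε * ε) * (D.wd e : ℕ) := by ring
          rw [this, hεε]; omega)
      rw [a1, a2]; simp
    rw [← e1, Lam.ZS, hm.lo, hm.hi]
    exact Finset.single_le_sum (f := fun σ => m.wtS C₀ _ σ) (fun _ _ => (Real.exp_pos _).le)
      (h.sig_mem hy)
  have h2 := m.side_tail C₀ (D.kT e) hk0 ε hh hε (by rw [hm.psi]; exact hψ) (D.wd e)
    (by exact_mod_cast hwpos) ((D.G : ℝ) ^ 2)
    (le_trans (pow_le_pow_right₀ (by linarith) (by norm_num)) hw9R) (at_Z_le hm h hφ) h1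
  simp only [hm.net_eq, hm.lo, hm.hi] at h2
  set T := ∑ σ ∈ (box D.loF D.hiF).filter (fun σ => hh < ε * D.net (ext σ) C₀.1), m.wt σ with hT
  have hT0 : 0 ≤ T := Finset.sum_nonneg fun σ _ => (m.wt_pos σ).le
  have hZ := hm.Z_le h
  have h3 : ∑ σ ∈ (box D.loF D.hiF).filter (fun σ => hh < ε * D.net (ext σ) C₀.1),
      D.wb φ (D.blk σ) ≤ 2 * T := by
    rw [hT, Finset.mul_sum]
    exact Finset.sum_le_sum fun σ hσ => (hm.cmp_blk h (Finset.mem_filter.1 hσ).1).2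
  have h4 : (D.G : ℝ) ^ 5 / D.wd e * T ≤ 2 * (D.G : ℝ) ^ 2 / D.wd e * (2 * (D.S * D.Zb φ)) :=
    ((mul_le_mul_of_nonneg_right hk hT0).trans h2).trans
      (mul_le_mul_of_nonneg_left hZ (by positivity))
  have h5 : T ≤ 4 / (D.G : ℝ) ^ 3 * (D.S * D.Zb φ) := by
    have e1 : (D.G : ℝ) ^ 5 / D.wd e * (4 / (D.G : ℝ) ^ 3 * (D.S * D.Zb φ)) =
        2 * (D.G : ℝ) ^ 2 / D.wd e * (2 * (D.S * D.Zb φ)) := by
      field_simp; ring
    rw [← e1] at h4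
    exact le_of_mul_le_mul_left h4 (by positivity)
  calc _ ≤ 2 * T := h3
    _ ≤ 2 * (4 / (D.G : ℝ) ^ 3 * (D.S * D.Zb φ)) := by linarith
    _ = _ := by ring

/-- `Lam.side_tail` at `(r, true)` (`ε = sg r e`, `h = b e - x0 e`) and at `(r, false)` (`ε = - sg r e`, `h = x0 e`), with
`k = kT e ≥ G^5 / wd e`, `j = wd e ≥ G^9`, `Λ = G^2`: `Z ≤ 2 S Zb ≤ 2 S card Om ≤ 2^{G (G+1) + 1} ≤ exp (G^2)`.  `WidthSpec` gives
two solutions `y₁, y₂` (one of them `X0`) with `y₂ e = y₁ e + wd e`; by `wtS_eq`, `net_sig_root`, `tv_sig` the shifted weight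
of `sigOf y₁` (upper tail), resp. `sigOf y₂` (lower tail), is `1`.  So each tail has fine weight at most
`2 Z / G^3`; use `cmp_blk` and `Z_le`: `2 * 2 * 2 * 2 / G^3 ≤ 1 / G^2`. -/
theorem Good.acc_tree (h : D.Good) (hφ : D.GoodPhi φ) {r e : ℕ} (he : D.par r = some e) :
    ∑ σ ∈ (box D.loF D.hiF).filter (fun σ =>
        ¬ (- (D.x0 e : ℤ) ≤ D.tv (ext σ) r e ∧ D.tv (ext σ) r e ≤ D.I.b e - D.x0 e)),
      D.wb φ (D.blk σ) ≤ 1 / (D.G : ℝ) ^ 2 * (D.S * D.Zb φ) := by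
  obtain ⟨m, hm⟩ := h.exists_lam φ
  obtain ⟨hr, he', -, -⟩ := h.par_lt he
  obtain ⟨y₁, y₂, hy₁, hy₂, hyy⟩ : ∃ y₁ y₂, D.I.IsSol y₁ ∧ D.I.IsSol y₂ ∧
      (y₂.getD e 0 : ℤ) = y₁.getD e 0 + D.wd e := by
    obtain ⟨X, hX, hXe⟩ := (h.wid e he').2.1
    rcases abs_eq (by positivity) |>.1 hXe with h1 | h1
    · exact ⟨D.X0, X, h.sol, hX, by unfold wd; omega⟩
    · exact ⟨X, D.X0, hX, h.sol, by unfold wd; omega⟩
  have hsg : D.sg r e = 1 ∨ D.sg r e = -1 := by unfold sg; split_ifs <;> simp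
  have hsg' : - D.sg r e = 1 ∨ - D.sg r e = -1 := by rcases hsg with h1 | h1 <;> simp [h1]
  have t1 := at_tail hm h hφ (⟨r, hr⟩, true) he (D.sg r e) (D.I.b e - D.x0 e) hsg
    (fun s => by simp [psiL, he]) hy₁ (by
      have h1 := h.tv_sig hy₁ he
      rw [tv_eq] at h1
      have h2 : y₂.getD e 0 ≤ D.I.b e := hy₂.2.1 e he'
      simp only
      omega)
  have t2 := at_tail hm h hφ (⟨r, hr⟩, false) he (- D.sg r e) (D.x0 e) hsg'
    (fun s => by simp [psiL, he]) hy₂ (by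
      have h1 := h.tv_sig hy₂ he
      rw [tv_eq] at h1
      simp only [neg_mul]
      omega)
  simp only at t1 t2
  have hG := h.G_geR
  have hZ : (0 : ℝ) ≤ D.S * D.Zb φ := mul_nonneg (by positivity) (h.Zb_pos φ).le
  have hsum : ∑ σ ∈ (box D.loF D.hiF).filter (fun σ =>
        ¬ (- (D.x0 e : ℤ) ≤ D.tv (ext σ) r e ∧ D.tv (ext σ) r e ≤ D.I.b e - D.x0 e)),
      D.wb φ (D.blk σ) ≤
      ∑ σ ∈ (box D.loF D.hiF).filter
        (fun σ => (D.I.b e - D.x0 e : ℤ) < D.sg r e * D.net (ext σ) r), D.wb φ (D.blk σ) +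
      ∑ σ ∈ (box D.loF D.hiF).filter
        (fun σ => (D.x0 e : ℤ) < - D.sg r e * D.net (ext σ) r), D.wb φ (D.blk σ) := by
    simp only [Finset.sum_filter, ← Finset.sum_add_distrib]
    refine Finset.sum_le_sum fun σ _ => ?_
    have := (h.wb_pos φ (D.blk σ)).le
    rw [tv_eq, neg_mul]
    split_ifs <;> first | linarith | omega
  have hfin : 8 / (D.G : ℝ) ^ 3 + 8 / (D.G : ℝ) ^ 3 ≤ 1 / (D.G : ℝ) ^ 2 := by
    rw [← add_div, div_le_div_iff₀ (by positivity) (by positivity)]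
    have : (0 : ℝ) < (D.G : ℝ) ^ 2 := by positivity
    nlinarith
  nlinarith

end Dat

end Crest.Agent.R309
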