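import Crest.Agent.R309.AccRoot
import Crest.Agent.R309.AccTree

/-!
# R309: the acceptance probability
-/

set_option linter.dupNamespace false

namespace Crest.Agent.R309

open Finset Crest.Agent.Lib.PT

namespace Dat

variable {D : Dat} {φ : List ℤ}

theorem ac_down (h : D.Good) {x u : ℕ} (hx : x ∈ D.Om) (hu : u < D.I.nc) (j : ℕ)
    (hj : j ≤ D.dg x u) : j * D.pw u ≤ x ∧ x - j * D.pw u ∈ D.Om ∧
      ∀ u' < D.I.nc, D.dg (x - j * D.pw u) u' + (if u' = u then j else 0) = D.dg x u' := by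
  induction j with
  | zero => simpa using hx
  | succ j ih =>
    obtain ⟨h1, h2, h3⟩ := ih (by omega)
    have h4 := h3 u hu
    rw [if_pos rfl] at h4
    obtain ⟨a1, a2, a3⟩ := h.down_mem h2 hu (by omega)
    have e : x - (j + 1) * D.pw u = x - j * D.pw u - D.pw u := by
      rw [Nat.succ_mul, Nat.sub_add_eq]
    refine ⟨by rw [Nat.succ_mul]; omega, e ▸ a2, fun u' hu' => ?_⟩
    have b1 := a3 u' hu'
    have b2 := h3 u' hu'
    rw [e]
    split_ifs at b1 b2 ⊢ <;> omega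

theorem ac_En (h : D.Good) (φ : List ℤ) {σ σ' : ℕ → ℤ} {u j : ℕ} (hu : u < D.I.nc)
    (hs : D.s u ≠ 1) (hj : j ≤ D.G ^ 2)
    (hc : ∀ u' < D.I.nc, σ u' - σ' u' = if u' = u then (j * D.s u : ℤ) else 0) :
    D.En φ σ' ≤ D.En φ σ + 2 * (D.G : ℤ) ^ 26 := by
  have hl := (large_of_s hs).2
  have hG := h.G_ge
  have key : ∀ r, D.pen φ σ' r ≤ D.pen φ σ r + 2 * (D.G : ℤ) ^ 25 := by
    intro r
    unfold pen
    cases hp : D.par r with
    | none =>
      simp only [Option.elim_none]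
      rw [h.net_root (σ := σ) (σ' := σ') (fun u' hu' hne => ?_) hp]
      · have : (0 : ℤ) ≤ 2 * (D.G : ℤ) ^ 25 := by positivity
        linarith
      · have h1 := hc u' hu'
        split_ifs at h1 with h2
        · rw [h2]; exact hl
        · exact absurd (sub_eq_zero.1 h1) hne
    | some e =>
      simp only [Option.elim_some]
      refine penT_sub_le ?_
      have h1 : |D.net σ r - D.net σ' r| ≤
          if (D.A (D.I.p u) r ↔ D.A (D.I.q u) r) then 0 else (j * D.s u : ℤ) := by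
        refine (abs_net_sub_le σ σ' r).trans (le_of_eq ?_)
        rw [Finset.sum_eq_single_of_mem u (mem_range.2 hu)]
        · rw [hc u hu, if_pos rfl, abs_of_nonneg (by positivity)]
        · intro u' hu' hne
          rw [hc u' (mem_range.1 hu')]; simp [hne]
      have h2 : |D.net σ r - D.net σ' r| ≤ D.Wp e := by
        refine h1.trans ?_
        split_ifs with h3
        · positivity
        · obtain ⟨e', he', hw⟩ := h.cross_large hu hl h3
          rw [hp, Option.some.injEq] at he'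
          subst he'
          have h4 := (h.Wp_eq hp).1
          have h5 := s_mul_le hl
          have h6 : j * D.s u * D.G ^ 7 ≤ D.Wp e * D.G ^ 7 := by
            calc j * D.s u * D.G ^ 7 ≤ D.G ^ 2 * D.s u * D.G ^ 7 :=
                  Nat.mul_le_mul_right _ (Nat.mul_le_mul_right _ hj)
              _ = D.s u * D.G ^ 9 := by ring
              _ ≤ _ := by omega
          exact_mod_cast Nat.le_of_mul_le_mul_right h6 (by positivity)
      unfold tv
      split_ifs
      · rwa [abs_sub_comm]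
      · simpa [sub_eq_add_neg, add_comm] using h2
  have hnv : (D.I.nv : ℤ) ≤ D.G := by exact_mod_cast h.nv_le
  unfold En
  refine (Finset.sum_le_sum fun r _ => key r).trans ?_
  rw [Finset.sum_add_distrib, Finset.sum_const, card_range, nsmul_eq_mul]
  have h4 : (D.I.nv : ℤ) * (2 * (D.G : ℤ) ^ 25) ≤ D.G * (2 * (D.G : ℤ) ^ 25) :=
    mul_le_mul_of_nonneg_right hnv (by positivity)
  have h8 : (D.G : ℤ) * (2 * (D.G : ℤ) ^ 25) = 2 * (D.G : ℤ) ^ 26 := by ring
  linarith

theorem ac_wb (h : D.Good) (φ : List ℤ) {x y : ℕ}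
    (hE : D.En φ (D.cor y) ≤ D.En φ (D.cor x) + 2 * (D.G : ℤ) ^ 26) :
    D.wb φ x ≤ 2 * D.wb φ y := by
  have hG := h.G_geR
  have hE' : (D.En φ (D.cor y) : ℝ) ≤ D.En φ (D.cor x) + 2 * (D.G : ℝ) ^ 26 := by exact_mod_cast hE
  have h1 : D.ell * (2 * (D.G : ℝ) ^ 26) ≤ Real.log 2 := by
    calc D.ell * (2 * (D.G : ℝ) ^ 26) ≤ 2 / (D.G : ℝ) ^ 27 * (2 * (D.G : ℝ) ^ 26) :=
          mul_le_mul_of_nonneg_right h.ell_ub (by positivity)
      _ = 4 / D.G := by field_simp; norm_num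
      _ ≤ 1 / 2 := by rw [div_le_div_iff₀ (by linarith) (by norm_num)]; linarith
      _ ≤ _ := by have := Real.log_two_gt_d9; linarith
  rw [h.wb_eq, h.wb_eq, ← Real.exp_log (show (0 : ℝ) < 2 by norm_num), ← Real.exp_add]
  refine Real.exp_le_exp.2 ?_
  have := mul_le_mul_of_nonneg_left hE' h.ell_pos.le
  linarith

theorem ac_M (h : D.Good) {u : ℕ} (hu : u < D.I.nc) (hs : D.s u ≠ 1) : D.G ^ 2 < D.M u := by
  obtain ⟨ht, hl⟩ := large_of_s hs
  have h1 := h.wd_le_range hu ht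
  have h2 := hi_lt (D := D) u
  have h3 := s_mul_le hl
  have h4 : D.s u * D.G ^ 9 < D.s u * D.M u := by
    have : (D.wd u : ℤ) < D.s u * D.M u := by linarith
    have : D.wd u < D.s u * D.M u := by exact_mod_cast this
    omega
  have h5 := Nat.lt_of_mul_lt_mul_left h4
  have hG := h.G_ge
  exact lt_of_le_of_lt (Nat.pow_le_pow_right (by omega) (by norm_num)) h5

/-- The last block of a cell with `s u ≠ 1` is unlikely.  Here `M u > G^9` (`wd_le_range`, `s_mul`).  For `x ∈ Om` with top digit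
and `j < G^2`, lowering the digit by `j` gives a state `x_j` (via `dg_mem`, `enc`) whose corner differs by
`j * s u ≤ wd u / G^7` in the cell `u` only; roots are unaffected (`net_root`), at the other vertices the net flow changes
by at most `j * s u ≤ Wp e` (`abs_net_sub_le`, `cross_large`, `Wp_eq`), so `En x_j ≤ En x + 2 nv G^25` (`penT_sub_le`) and
`wb x ≤ 2 wb x_j`.  The map `(x, j) ↦ x_j` is injective. -/
theorem Good.acc_top (h : D.Good) (φ : List ℤ) {u : ℕ} (hu : u < D.I.nc) (hs : D.s u ≠ 1) :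
    ∑ x ∈ D.Om.filter (fun x => D.dg x u + 1 = D.M u), D.wb φ x ≤
      2 / (D.G : ℝ) ^ 2 * D.Zb φ := by
  have hG := h.G_geR
  have hM := ac_M h hu hs
  set T := D.Om.filter (fun x => D.dg x u + 1 = D.M u) with hT
  have hdown : ∀ q ∈ T ×ˢ range (D.G ^ 2), q.2 * D.pw u ≤ q.1 ∧ q.1 - q.2 * D.pw u ∈ D.Om ∧
      ∀ u' < D.I.nc, D.dg (q.1 - q.2 * D.pw u) u' + (if u' = u then q.2 else 0) = D.dg q.1 u' := by
    intro q hq
    obtain ⟨h1, h2⟩ := mem_product.1 hq
    obtain ⟨h3, h4⟩ := mem_filter.1 h1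
    have := mem_range.1 h2
    exact ac_down h h3 hu _ (by omega)
  have hinj : Set.InjOn (fun q : ℕ × ℕ => q.1 - q.2 * D.pw u) (T ×ˢ range (D.G ^ 2) : Finset _) := by
    rintro ⟨x, j⟩ hq ⟨x', j'⟩ hq' e
    obtain ⟨a1, -, a3⟩ := hdown _ (mem_coe.1 hq)
    obtain ⟨b1, -, b3⟩ := hdown _ (mem_coe.1 hq')
    have c1 := (mem_filter.1 (mem_product.1 (mem_coe.1 hq)).1).2
    have c2 := (mem_filter.1 (mem_product.1 (mem_coe.1 hq')).1).2
    have a4 := a3 u hu
    have b4 := b3 u hu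
    simp only [if_true] at e a1 b1 a4 b4 c1 c2
    rw [e] at a4
    have : j = j' := by omega
    subst this
    have : x = x' := by omega
    rw [this]
  have h1 : ∑ q ∈ T ×ˢ range (D.G ^ 2), D.wb φ q.1 ≤
      ∑ q ∈ T ×ˢ range (D.G ^ 2), 2 * D.wb φ (q.1 - q.2 * D.pw u) := by
    refine Finset.sum_le_sum fun q hq => ac_wb h φ (ac_En h φ (j := q.2) hu hs
      (mem_range.1 (mem_product.1 hq).2).le fun u' hu' => ?_)
    have := (hdown q hq).2.2 u' hu'
    unfold cor
    rw [← this]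
    split_ifs with h2
    · subst h2; push_cast; ring
    · simp
  have h2 : ∑ q ∈ T ×ˢ range (D.G ^ 2), D.wb φ (q.1 - q.2 * D.pw u) ≤ D.Zb φ := by
    rw [← Finset.sum_image (f := D.wb φ) hinj]
    refine Finset.sum_le_sum_of_subset_of_nonneg (fun y hy => ?_) fun y _ _ => (h.wb_pos φ y).le
    obtain ⟨q, hq, rfl⟩ := mem_image.1 hy
    exact (hdown q hq).2.1
  rw [← Finset.mul_sum, Finset.sum_product] at h1
  simp only [Finset.sum_const, card_range, nsmul_eq_mul] at h1
  rw [← Finset.mul_sum] at h1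
  push_cast at h1
  rw [div_mul_eq_mul_div, le_div_iff₀ (by positivity)]
  linarith

theorem ac_blk (h : D.Good) {σ : Fin D.I.nc → ℤ} (hσ : σ ∈ box D.loF D.hiF) {u : ℕ}
    (hu : u < D.I.nc) : D.cor (D.blk σ) u ≤ ext σ u ∧ ext σ u < D.cor (D.blk σ) u + D.s u := by
  rw [ext_lt σ hu]
  exact (h.blk_eq_iff hσ (h.blk_mem hσ)).1 rfl ⟨u, hu⟩

theorem ac_range {σ : Fin D.I.nc → ℤ} (hσ : σ ∈ box D.loF D.hiF) {u : ℕ} (hu : u < D.I.nc) :
    D.lo u ≤ ext σ u ∧ ext σ u ≤ D.lo u + D.s u * D.M u - 1 := by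
  rw [ext_lt σ hu]
  exact mem_box.1 hσ ⟨u, hu⟩

theorem ac_bad1 (h : D.Good) (hφ : D.GoodPhi φ) {r : ℕ} (hr : r < D.I.nv) :
    ∑ σ ∈ box D.loF D.hiF, (if D.par r = none ∧ D.net (ext σ) r ≠ 0 then D.wb φ (D.blk σ) else 0) ≤
      17 / (D.G : ℝ) ^ 2 * (D.S * D.Zb φ) := by
  have hZ := h.Zb_pos φ
  by_cases hp : D.par r = none
  · have h1 : ∀ σ ∈ box D.loF D.hiF,
        (if D.par r = none ∧ D.net (ext σ) r ≠ 0 then D.wb φ (D.blk σ) else 0) =
        (fun x => if D.net (D.cor x) r ≠ 0 then D.wb φ x else 0) (D.blk σ) := by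
      intro σ hσ
      have : D.net (ext σ) r = D.net (D.cor (D.blk σ)) r := by
        refine h.net_root (fun u hu hne => (large_of_s fun hs => hne ?_).2) hp
        have := ac_blk h hσ hu
        rw [hs] at this
        omega
      simp only [hp, true_and, this]
    rw [Finset.sum_congr rfl h1,
      h.sum_fine (fun x => if D.net (D.cor x) r ≠ 0 then D.wb φ x else 0), ← Finset.sum_filter]
    have h2 := mul_le_mul_of_nonneg_left (h.acc_root hφ hr hp) (Nat.cast_nonneg (α := ℝ) D.S)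
    linarith
  · simp only [hp, false_and, if_false, Finset.sum_const_zero]
    positivity

open Classical in
theorem ac_bad2 (h : D.Good) (hφ : D.GoodPhi φ) (r : ℕ) :
    ∑ σ ∈ box D.loF D.hiF, (if ∃ e, D.par r = some e ∧ ¬ (- (D.x0 e : ℤ) ≤ D.tv (ext σ) r e ∧
      D.tv (ext σ) r e ≤ D.I.b e - D.x0 e) then D.wb φ (D.blk σ) else 0) ≤
      1 / (D.G : ℝ) ^ 2 * (D.S * D.Zb φ) := by
  have hZ := h.Zb_pos φ
  cases hp : D.par r with
  | none =>
    simp only [reduceCtorEq, false_and, exists_false, if_false, Finset.sum_const_zero]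
    positivity
  | some e =>
    refine le_trans (le_of_eq ?_) (h.acc_tree hφ hp)
    rw [Finset.sum_filter]
    refine Finset.sum_congr rfl fun σ _ => ?_
    simp only [Option.some.injEq, exists_eq_left']

theorem ac_bad3 (h : D.Good) (φ : List ℤ) {u : ℕ} (hu : u < D.I.nc) :
    ∑ σ ∈ box D.loF D.hiF, (if D.hi u < ext σ u then D.wb φ (D.blk σ) else 0) ≤
      2 / (D.G : ℝ) ^ 2 * (D.S * D.Zb φ) := by
  have hZ := h.Zb_pos φ
  have ht := top_le (D := D) u
  by_cases hs : D.s u = 1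
  · rw [Finset.sum_eq_zero]
    · positivity
    · intro σ hσ
      have := (ac_range hσ hu).2
      rw [hs] at this ht
      rw [if_neg (by push_cast at *; omega)]
  · have h1 : ∀ σ ∈ box D.loF D.hiF, (if D.hi u < ext σ u then D.wb φ (D.blk σ) else 0) ≤
        (fun x => if D.dg x u + 1 = D.M u then D.wb φ x else 0) (D.blk σ) := by
      intro σ hσ
      simp only
      split_ifs with h2 h3 h3
      · exact le_rfl
      · exfalso
        have h4 := (ac_blk h hσ hu).2
        have h5 := (mem_Om.1 (h.blk_mem hσ)).2 u hu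
        unfold cor at h4
        have h6 : (D.s u : ℤ) * (D.M u - 1) < D.s u * (D.dg (D.blk σ) u + 1) := by linarith
        have h7 := lt_of_mul_lt_mul_left h6 (Int.natCast_nonneg _)
        omega
      · exact (h.wb_pos φ _).le
      · exact le_rfl
    refine (Finset.sum_le_sum h1).trans ?_
    rw [h.sum_fine (fun x => if D.dg x u + 1 = D.M u then D.wb φ x else 0), ← Finset.sum_filter]
    have h2 := mul_le_mul_of_nonneg_left (h.acc_top φ hu hs) (Nat.cast_nonneg (α := ℝ) D.S)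
    linarith

theorem ac_tree0 {σ : Fin D.I.nc → ℤ} (hσ : σ ∈ box D.loF D.hiF) :
    ∀ u < D.I.nc, D.tree u → ext σ u = 0 := by
  intro u hu ht
  have h1 := ac_range hσ hu
  obtain ⟨a1, -, a3, a4⟩ := tree_vals ht
  rw [a1, a3, a4] at h1
  omega

theorem ac_good (h : D.Good) (φ : List ℤ) :
    ∑ σ ∈ box D.loF D.hiF, (if D.ok (ext σ) then D.wb φ (D.blk σ) else 0) ≤ D.I.Sols.card := by
  rw [← Finset.sum_filter]
  have h1 : ∀ σ ∈ (box D.loF D.hiF).filter (fun σ => D.ok (ext σ)),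
      D.sigOf (D.cand (ext σ)) = σ := by
    intro σ hσ
    obtain ⟨a1, a2⟩ := mem_filter.1 hσ
    funext u
    rw [sig_cand (ac_tree0 a1) a2, ext_apply]
  have h2 : ∀ σ ∈ (box D.loF D.hiF).filter (fun σ => D.ok (ext σ)), D.wb φ (D.blk σ) = 1 := by
    intro σ hσ
    have := h.En_sig φ (mem_filter.1 hσ).2.2
    rw [h1 σ hσ] at this
    rw [wb, this, zpow_zero]
  rw [Finset.sum_congr rfl h2, Finset.sum_const, nsmul_eq_mul, mul_one]
  refine Nat.cast_le.2 (card_le_card_of_injOn (fun σ => D.cand (ext σ)) (fun σ hσ => ?_)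
    fun σ hσ σ' hσ' e => ?_)
  · exact mem_coe.2 (Inst.mem_Sols.2 (mem_filter.1 (mem_coe.1 hσ)).2.2)
  · rw [← h1 σ (mem_coe.1 hσ), ← h1 σ' (mem_coe.1 hσ')]
    exact congrArg D.sigOf e

/-- `S Zb = ∑_σ wb (blk σ)` over the fine box (`sum_fine`).  Call `σ` bad if the net flow at some root is nonzero, or some
tree cell is out of bounds, or `hi u < σ u` for some `u` (then `s u ≠ 1` and the digit of `blk σ` is the last one: `top_le`,
`hi_lt`, `blk_eq_iff`).  The bad points have total weight at most `(17 + 1 + 2) / G * S Zb ≤ S Zb / 2`.  A point that is not bad is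
accepted (`ok_of`), `σ = sigOf (cand (ext σ))` (`sig_cand`), so its weight is `1` (`En_sig`), and `σ ↦ cand (ext σ)` is an
injection into `Sols`. -/
theorem Good.acc (h : D.Good) (hφ : D.GoodPhi φ) : 1 / 2 ≤ D.I.Sols.card * D.cst φ := by
  classical
  have hZ := h.Zb_pos φ
  have hS : (0 : ℝ) < D.S := by exact_mod_cast S_pos (D := D)
  have hG := h.G_geR
  have key : ∀ σ ∈ box D.loF D.hiF, D.wb φ (D.blk σ) ≤
      (if D.ok (ext σ) then D.wb φ (D.blk σ) else 0) +
      ∑ r ∈ range D.I.nv, (if D.par r = none ∧ D.net (ext σ) r ≠ 0 then D.wb φ (D.blk σ) else 0) +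
      ∑ r ∈ range D.I.nv, (if ∃ e, D.par r = some e ∧ ¬ (- (D.x0 e : ℤ) ≤ D.tv (ext σ) r e ∧
        D.tv (ext σ) r e ≤ D.I.b e - D.x0 e) then D.wb φ (D.blk σ) else 0) +
      ∑ u ∈ range D.I.nc, (if D.hi u < ext σ u then D.wb φ (D.blk σ) else 0) := by
    intro σ hσ
    have hw := (h.wb_pos φ (D.blk σ)).le
    have nn : ∀ (P : Prop) [Decidable P], 0 ≤ (if P then D.wb φ (D.blk σ) else 0) := by
      intro P _
      split_ifs
      · exact hw
      · exact le_rfl
    have one : ∀ (n : ℕ) (P : ℕ → Prop) [DecidablePred P] (r : ℕ), r < n → P r →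
        D.wb φ (D.blk σ) ≤ ∑ r ∈ range n, (if P r then D.wb φ (D.blk σ) else 0) := by
      intro n P _ r hr hP
      refine le_trans ?_ (Finset.single_le_sum (fun i _ => nn (P i)) (mem_range.2 hr))
      rw [if_pos hP]
    have n0 := nn (D.ok (ext σ))
    have n1 := Finset.sum_nonneg (s := range D.I.nv) fun r _ =>
      nn (D.par r = none ∧ D.net (ext σ) r ≠ 0)
    have n2 := Finset.sum_nonneg (s := range D.I.nv) fun r _ =>
      nn (∃ e, D.par r = some e ∧ ¬ (- (D.x0 e : ℤ) ≤ D.tv (ext σ) r e ∧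
        D.tv (ext σ) r e ≤ D.I.b e - D.x0 e))
    have n3 := Finset.sum_nonneg (s := range D.I.nc) fun u _ => nn (D.hi u < ext σ u)
    by_cases b1 : ∃ r < D.I.nv, D.par r = none ∧ D.net (ext σ) r ≠ 0
    · obtain ⟨r, hr, hP⟩ := b1
      have := one _ (fun r => D.par r = none ∧ D.net (ext σ) r ≠ 0) r hr hP
      linarith
    by_cases b2 : ∃ r < D.I.nv, ∃ e, D.par r = some e ∧ ¬ (- (D.x0 e : ℤ) ≤ D.tv (ext σ) r e ∧
        D.tv (ext σ) r e ≤ D.I.b e - D.x0 e)
    · obtain ⟨r, hr, hP⟩ := b2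
      have := one _ (fun r => ∃ e, D.par r = some e ∧ ¬ (- (D.x0 e : ℤ) ≤ D.tv (ext σ) r e ∧
        D.tv (ext σ) r e ≤ D.I.b e - D.x0 e)) r hr hP
      linarith
    by_cases b3 : ∃ u < D.I.nc, D.hi u < ext σ u
    · obtain ⟨u, hu, hP⟩ := b3
      have := one _ (fun u => D.hi u < ext σ u) u hu hP
      linarith
    have hok : D.ok (ext σ) := by
      refine h.ok_of (ac_tree0 hσ) (fun r hr hp => ?_) (fun r e he => ?_) fun u hu => ?_
      · by_contra hne
        exact b1 ⟨r, hr, hp, hne⟩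
      · by_contra hne
        exact b2 ⟨r, (h.par_lt he).1, e, he, hne⟩
      · exact ⟨(ac_range hσ hu).1, not_lt.1 fun hlt => b3 ⟨u, hu, hlt⟩⟩
    rw [if_pos hok]
    linarith
  have h1 := Finset.sum_le_sum key
  rw [h.sum_fine (D.wb φ), Finset.sum_add_distrib, Finset.sum_add_distrib, Finset.sum_add_distrib,
    Finset.sum_comm, Finset.sum_comm (s := box D.loF D.hiF) (t := range D.I.nv),
    Finset.sum_comm (s := box D.loF D.hiF) (t := range D.I.nc)] at h1
  have h2 := ac_good h φ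
  have h3 := Finset.sum_le_sum (s := range D.I.nv) fun r hr => ac_bad1 h hφ (mem_range.1 hr)
  have h4 := Finset.sum_le_sum (s := range D.I.nv) fun r _ => ac_bad2 h hφ r
  have h5 := Finset.sum_le_sum (s := range D.I.nc) fun u hu => ac_bad3 h φ (mem_range.1 hu)
  rw [Finset.sum_const, card_range, nsmul_eq_mul] at h3 h4 h5
  have hnv : (D.I.nv : ℝ) ≤ D.G := by exact_mod_cast h.nv_le
  have hnc : (D.I.nc : ℝ) ≤ D.G := by exact_mod_cast h.nc_le
  have hSZ : 0 < (D.S : ℝ) * D.Zb φ := mul_pos hS hZ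
  have hc : ∀ (n c : ℝ), n ≤ D.G → 0 ≤ c → n * (c / (D.G : ℝ) ^ 2 * (D.S * D.Zb φ)) ≤
      c / 1024 * (D.S * D.Zb φ) := by
    intro n c hn hc
    rw [← mul_assoc]
    refine mul_le_mul_of_nonneg_right ?_ hSZ.le
    calc n * (c / (D.G : ℝ) ^ 2) ≤ D.G * (c / (D.G : ℝ) ^ 2) :=
          mul_le_mul_of_nonneg_right hn (by positivity)
      _ = c / D.G := by field_simp
      _ ≤ c / 1024 := div_le_div_of_nonneg_left hc (by norm_num) hG
  have h6 := hc _ 17 hnv (by norm_num)
  have h7 := hc _ 1 hnv (by norm_num)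
  have h8 := hc _ 2 hnc (by norm_num)
  have h9 : (D.S : ℝ) * ∑ x ∈ D.Om, D.wb φ x = D.S * D.Zb φ := rfl
  rw [cst, mul_one_div, le_div_iff₀ (mul_pos hZ hS)]
  linarith

end Dat

end Crest.Agent.R309
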