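import Crest.Agent.R309.LamOf
import Crest.Agent.R309.Tails

/-!
# R309: the net flows at the roots vanish with high probability
-/

set_option linter.dupNamespace false

namespace Crest.Agent.R309

open Finset Crest.Agent.Lib.PT

theorem accRoot_geom {κ : ℝ} (h0 : 0 ≤ κ) (h1 : κ ≤ 1 / 4) (s : Finset ℕ) :
    ∑ j ∈ s, (j : ℝ) * κ ^ j ≤ 2 * κ := by
  have h2 : HasSum (fun n : ℕ => (n : ℝ) * κ ^ n) (κ / (1 - κ) ^ 2) :=
    hasSum_coe_mul_geometric_of_norm_lt_one (by rw [Real.norm_of_nonneg h0]; linarith)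
  refine (sum_le_hasSum s (fun j _ => by positivity) h2).trans ?_
  have h3 : 0 < 1 - κ := by linarith
  rw [div_le_iff₀ (by positivity)]
  have h4 : 1 ≤ 2 * (1 - κ) ^ 2 := by nlinarith
  nlinarith

theorem accRoot_abs {α : Type*} (Ω : Finset α) (w : α → ℝ) (hw : ∀ x, 0 ≤ w x) (N : α → ℤ)
    {Z κ η : ℝ} (hZ : 0 ≤ Z) (h0 : 0 ≤ κ) (h1 : κ ≤ 1 / 4)
    (ht : ∀ j : ℕ, ∑ x ∈ Ω.filter (fun x => N x = j), w x ≤ 4 * κ ^ j * Z)
    (hm : |∑ x ∈ Ω, w x * N x| ≤ η) :
    ∑ x ∈ Ω.filter (fun x => N x ≠ 0), w x ≤ 16 * κ * Z + η := by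
  classical
  have e1 : ∑ x ∈ Ω.filter (fun x => N x ≠ 0), w x ≤
      ∑ x ∈ Ω, (2 * (w x * ((N x).toNat : ℝ)) - w x * N x) := by
    rw [sum_filter]
    refine sum_le_sum fun x _ => ?_
    have e : (2 * (w x * ((N x).toNat : ℝ)) - w x * N x) =
        w x * ((2 * ((N x).toNat : ℤ) - N x : ℤ) : ℝ) := by
      rw [Int.cast_sub, Int.cast_mul, Int.cast_natCast]; push_cast; ring
    rw [e]
    split_ifs with hx
    · refine le_mul_of_one_le_right (hw x) ?_
      exact_mod_cast (by omega : (1 : ℤ) ≤ 2 * ((N x).toNat : ℤ) - N x)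
    · refine mul_nonneg (hw x) ?_
      exact_mod_cast (by omega : (0 : ℤ) ≤ 2 * ((N x).toNat : ℤ) - N x)
  have e2 : ∑ x ∈ Ω, w x * ((N x).toNat : ℝ) ≤ 8 * κ * Z := by
    rw [← Finset.sum_fiberwise_of_maps_to (g := fun x => (N x).toNat)
      (t := Ω.image fun x => (N x).toNat) fun x hx => mem_image_of_mem _ hx]
    calc _ ≤ ∑ j ∈ Ω.image (fun x => (N x).toNat), 4 * Z * ((j : ℝ) * κ ^ j) := by
          refine sum_le_sum fun j _ => ?_
          rw [sum_congr rfl (g := fun x => w x * (j : ℝ)) fun x hx => by rw [(mem_filter.1 hx).2],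
            ← sum_mul]
          rcases Nat.eq_zero_or_pos j with rfl | hj
          · simp
          · have : Ω.filter (fun x => (N x).toNat = j) = Ω.filter (fun x => N x = j) :=
              filter_congr fun x _ => by omega
            rw [this]
            calc _ ≤ 4 * κ ^ j * Z * j := mul_le_mul_of_nonneg_right (ht j) (by positivity)
              _ = _ := by ring
      _ ≤ 4 * Z * (2 * κ) := by
          rw [← mul_sum]
          exact mul_le_mul_of_nonneg_left (accRoot_geom h0 h1 _) (by positivity)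
      _ = _ := by ring
  rw [sum_sub_distrib, ← mul_sum] at e1
  linarith [neg_abs_le (∑ x ∈ Ω, w x * N x)]

namespace Dat

variable {D : Dat} {φ : List ℤ}

theorem Good.accRoot_net (h : D.Good) {σ : Fin D.I.nc → ℤ} (hσ : σ ∈ box D.loF D.hiF) {r : ℕ}
    (hp : D.par r = none) : D.net (ext σ) r = D.net (D.cor (D.blk σ)) r := by
  refine h.net_root (fun u hu hne => ?_) hp
  have h1 := (h.blk_eq_iff hσ (h.blk_mem hσ)).1 rfl ⟨u, hu⟩
  refine (large_of_s fun hs => hne ?_).2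
  simp only [hs] at h1
  simp only [ext, dif_pos hu]
  omega

theorem Good.accRoot_kappa (h : D.Good) : Real.exp (- (D.ell * D.Kp)) ≤ 1 / (D.G : ℝ) ^ 2 := by
  have hG := h.G_geR
  have h1 : 2 * (D.g : ℝ) ≤ D.ell * D.Kp := by
    have h2 := h.ell_lb
    rw [div_le_iff₀ (by positivity)] at h2
    have : D.ell * D.Kp = 2 * D.g * (D.ell * (D.G : ℝ) ^ 27) := by
      simp only [Kp]; push_cast; ring
    rw [this]
    exact le_mul_of_one_le_right (by positivity) h2
  have h3 : (D.G : ℝ) ^ 2 ≤ Real.exp (D.ell * D.Kp) := by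
    refine le_trans ?_ (Real.exp_le_exp.2 h1)
    have h4 : (D.G : ℝ) = 2 ^ D.g := by exact_mod_cast h.G_eq
    have h5 : (2 : ℝ) ≤ Real.exp 1 := by linarith [Real.add_one_le_exp 1]
    calc (D.G : ℝ) ^ 2 = 2 ^ (2 * D.g) := by rw [h4, ← pow_mul, mul_comm]
      _ ≤ Real.exp 1 ^ (2 * D.g) := pow_le_pow_left₀ (by norm_num) h5 _
      _ = _ := by rw [← Real.exp_nat_mul]; push_cast; rw [mul_one]
  rw [Real.exp_neg, ← one_div]
  exact one_div_le_one_div_of_le (by positivity) h3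

/-- Let `P j = ∑_{x ∈ Om, net (cor x) r = j} wb x / Zb` and `κ = exp (- ell Kp) ≤ exp (-2 g) ≤ G^{-2}`.  `Lam.abs_tail` at the member
`(r, true)` gives a sign `ε` with `∑_{σ, net = ε j} wt σ ≤ κ^j Z`.  For `σ` in the fine box
`net (ext σ) r = net (cor (blk σ)) r` (`net_root`, `blk_eq_iff`, `large_of_s`), so by `sum_fine`, `cmp_blk`, `Z_le`:
`P (ε j) ≤ 4 κ^j`.  Hence `E (ε net)⁺ ≤ 4 ∑_{j ≥ 1} j κ^j ≤ 8 κ` (the net flow is bounded; `j κ^j ≤ κ (1/2)^{j-1}`),
`E (ε net)⁻ ≤ E (ε net)⁺ + |E net| ≤ 8 κ + G^{-2}`, and `P (net ≠ 0) ≤ E |net| ≤ 17 / G^2`. -/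
theorem Good.acc_root (h : D.Good) (hφ : D.GoodPhi φ) {r : ℕ} (hr : r < D.I.nv)
    (hp : D.par r = none) :
    ∑ x ∈ D.Om.filter (fun x => D.net (D.cor x) r ≠ 0), D.wb φ x ≤
      17 / (D.G : ℝ) ^ 2 * D.Zb φ := by
  obtain ⟨m, hm⟩ := h.exists_lam φ
  obtain ⟨ε, hε, htail⟩ := m.abs_tail (⟨r, hr⟩, true) (D.ell * D.Kp) fun s => by
    rw [hm.psi]; simp [psiL, hp]
  set κ := Real.exp (- (D.ell * D.Kp)) with hκ
  have hG := h.G_geR
  have hκ1 : κ ≤ 1 / (D.G : ℝ) ^ 2 := h.accRoot_kappa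
  have hκ2 : κ ≤ 1 / 4 := hκ1.trans (one_div_le_one_div_of_le (by norm_num) (by nlinarith))
  have hZ := (h.Zb_pos φ).le
  have hS : (0 : ℝ) < D.S := by exact_mod_cast S_pos (D := D)
  have key := accRoot_abs D.Om (D.wb φ) (fun x => (h.wb_pos φ x).le)
    (fun x => ε * D.net (D.cor x) r) (η := D.Zb φ / (D.G : ℝ) ^ 2) hZ (Real.exp_pos _).le hκ2
    (fun j => by
      refine le_of_mul_le_mul_left ?_ hS
      rw [sum_filter, ← h.sum_fine]
      have h1 := htail j
      rw [hm.lo, hm.hi, sum_filter, mul_comm (-(D.ell * D.Kp)), Real.exp_nat_mul] at h1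
      calc _ ≤ ∑ σ ∈ box D.loF D.hiF,
            2 * (if m.net (⟨r, hr⟩, true) σ = ε * j then m.wt σ else 0) := by
            refine sum_le_sum fun σ hσ => ?_
            rw [hm.net_eq, h.accRoot_net hσ hp]
            have e : ε * D.net (D.cor (D.blk σ)) r = j ↔ D.net (D.cor (D.blk σ)) r = ε * j := by
              rcases hε with rfl | rfl <;> omega
            by_cases hc : D.net (D.cor (D.blk σ)) r = ε * j
            · rw [if_pos hc, if_pos (e.2 hc)]
              exact (hm.cmp_blk h hσ).2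
            · rw [if_neg hc, if_neg fun h' => hc (e.1 h'), mul_zero]
        _ ≤ 2 * (κ ^ j * (2 * (D.S * D.Zb φ))) := by
            rw [← mul_sum]
            refine mul_le_mul_of_nonneg_left (h1.trans ?_) (by norm_num)
            exact mul_le_mul_of_nonneg_left (hm.Z_le h) (by positivity)
        _ = _ := by ring)
    (by
      have h1 := hφ.1 r hr hp
      have e : ∑ x ∈ D.Om, D.wb φ x * ((ε * D.net (D.cor x) r : ℤ) : ℝ) =
          ε * ∑ x ∈ D.Om, D.wb φ x * D.net (D.cor x) r := by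
        rw [mul_sum]
        exact sum_congr rfl fun x _ => by push_cast; ring
      rw [e, abs_mul]
      rcases hε with rfl | rfl <;> simpa using h1)
  have e : D.Om.filter (fun x => D.net (D.cor x) r ≠ 0) =
      D.Om.filter (fun x => ε * D.net (D.cor x) r ≠ 0) :=
    filter_congr fun x _ => by rcases hε with rfl | rfl <;> omega
  rw [e]
  refine key.trans ?_
  have h2 : κ * D.Zb φ ≤ 1 / (D.G : ℝ) ^ 2 * D.Zb φ := mul_le_mul_of_nonneg_right hκ1 hZ
  have h3 : 17 / (D.G : ℝ) ^ 2 * D.Zb φ =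
      16 * (1 / (D.G : ℝ) ^ 2 * D.Zb φ) + D.Zb φ / (D.G : ℝ) ^ 2 := by ring
  rw [h3]
  linarith

end Dat

end Crest.Agent.R309
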