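import Crest.Agent.R309.Square

/-!
# R309: the Bochner inequality
-/

set_option linter.dupNamespace false
set_option linter.unusedSectionVars false
set_option linter.unusedVariables false

namespace Crest.Agent.R309

open Finset

variable {U T : Type} [Fintype U] [DecidableEq U] [Fintype T] [DecidableEq T]

section BochAux

variable {E : Type} [Fintype E] [DecidableEq E]

/-- The bilinear form of a matrix. -/
def bochQ (N : E → E → ℝ) (p q : E → ℝ) : ℝ := ∑ a, ∑ b, p a * q b * N a b

/-- The linear form of a vector. -/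
def bochL (n : E → ℝ) (p : E → ℝ) : ℝ := ∑ a, p a * n a

theorem bochL_add (n p q : E → ℝ) : bochL n (p + q) = bochL n p + bochL n q := by
  simp [bochL, add_mul, sum_add_distrib]

theorem bochL_single (n : E → ℝ) (x : E) (g : ℝ) : bochL n (Pi.single x g) = g * n x := by
  unfold bochL
  rw [Finset.sum_eq_single x]
  · simp
  · intro b _ hb
    simp [hb]
  · simp

theorem bochQ_add_left (N : E → E → ℝ) (p p' q : E → ℝ) :
    bochQ N (p + p') q = bochQ N p q + bochQ N p' q := by
  simp [bochQ, add_mul, sum_add_distrib]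

theorem bochQ_add_right (N : E → E → ℝ) (p q q' : E → ℝ) :
    bochQ N p (q + q') = bochQ N p q + bochQ N p q' := by
  simp [bochQ, add_mul, mul_add, sum_add_distrib]

theorem bochQ_comm {N : E → E → ℝ} (hN : ∀ a b, N a b = N b a) (p q : E → ℝ) :
    bochQ N p q = bochQ N q p := by
  unfold bochQ
  rw [Finset.sum_comm]
  refine sum_congr rfl fun a _ => sum_congr rfl fun b _ => ?_
  rw [hN b a]; ring

theorem bochQ_single_right (N : E → E → ℝ) (p : E → ℝ) (x : E) (g : ℝ) :
    bochQ N p (Pi.single x g) = g * bochL (fun a => N a x) p := by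
  unfold bochQ bochL
  rw [mul_sum]
  refine sum_congr rfl fun a _ => ?_
  rw [Finset.sum_eq_single x]
  · simp; ring
  · intro b _ hb
    simp [hb]
  · simp

theorem bochQ_expand {N : E → E → ℝ} (hN : ∀ a b, N a b = N b a) (z ζ : E → ℝ) (x y : E)
    (g h : ℝ) :
    bochQ N (z + ζ + (Pi.single x g + Pi.single y h)) (z + ζ + (Pi.single x g + Pi.single y h)) =
      bochQ N z z + 2 * bochQ N z ζ + bochQ N ζ ζ +
        2 * g * bochL (fun a => N a x) (z + ζ) + 2 * h * bochL (fun a => N a y) (z + ζ) +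
        (g ^ 2 * N x x + 2 * g * h * N x y + h ^ 2 * N y y) := by
  have h1 : bochQ N (z + ζ) (z + ζ) = bochQ N z z + 2 * bochQ N z ζ + bochQ N ζ ζ := by
    rw [bochQ_add_left, bochQ_add_right, bochQ_add_right, bochQ_comm hN ζ z]; ring
  generalize z + ζ = p at h1 ⊢
  have h2 : ∀ q : E → ℝ, bochQ N (p + q) (p + q) = bochQ N p p + 2 * bochQ N p q + bochQ N q q :=
    fun q => by
      rw [bochQ_add_left, bochQ_add_right, bochQ_add_right, bochQ_comm hN q p]; ring
  rw [h2, h1]
  simp only [bochQ_add_right, bochQ_single_right, bochL_add, bochL_single]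
  rw [hN y x]
  ring

end BochAux

theorem boch_grad_split {S : Finset U} {u : U} (hu : u ∈ S) (F : (U → ℤ) → ℝ) (I : U → ℤ) :
    grad (T := T) S F I = grad (S.erase u) F I +
      (Pi.single (eX u) (F (I + dl u) - F I) + Pi.single (eY u) (F (I - dl u) - F I)) := by
  funext a
  rcases a with ⟨v, _ | _⟩ | t
  · by_cases h : v = u
    · subst h
      simp [grad, hu]
    · simp [grad, h]
  · by_cases h : v = u
    · subst h
      simp [grad, hu]
    · simp [grad, h]
  · simp [grad]

theorem boch_grad_shift (S : Finset U) (u : U) (F : (U → ℤ) → ℝ) (I : U → ℤ) :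
    grad (T := T) S F (I + dl u) =
      grad S F I + grad S (fun J => F (J + dl u) - F J) I := by
  funext a
  rcases a with ⟨v, _ | _⟩ | t
  · simp only [grad, Pi.add_apply]
    split_ifs
    · rw [show I + dl u - dl v = I - dl v + dl u by abel]; ring
    · simp
  · simp only [grad, Pi.add_apply]
    split_ifs
    · rw [show I + dl u + dl v = I + dl v + dl u by abel]; ring
    · simp
  · simp [grad]

theorem boch_off_erase {S : Finset U} {u : U} {c₀ : El U T → ℤ} (hc : Off S c₀) (i j : ℤ) :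
    Off (S.erase u) (c₀ + i • dl (eX u) + j • dl (eY u)) := by
  intro v hv
  have hvu : v ≠ u := (mem_erase.1 hv).1
  obtain ⟨h1, h2⟩ := hc v (mem_erase.1 hv).2
  simp [h1, h2, dl_apply, hvu]

theorem boch_add_mem {lo hi : U → ℤ} {S : Finset U} {ρ I : U → ℤ} {u : U} (hu : u ∈ S)
    (hI : I ∈ boxS lo hi S ρ) (h : I u < hi u) : I + dl u ∈ boxS lo hi S ρ := by
  rw [mem_boxS] at hI ⊢
  intro v
  by_cases hv : v = u
  · subst hv
    have := (hI v).1 hu
    refine ⟨fun _ => ?_, fun h' => absurd hu h'⟩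
    simp only [Pi.add_apply, dl_self]
    omega
  · simpa [dl_ne hv] using hI v

/-- The concave weight `(k - lo + 1) (hi - k)`: it vanishes at `lo - 1` and at `hi`, and
`2 w k - w (k-1) - w (k+1) = 2`. -/
def bw (lo hi k : ℤ) : ℝ := ((k - lo + 1) * (hi - k) : ℤ)

/-- Energy bound for the solution of the Poisson equation with data `m I = ∑ a, z a * μ (c₀ + diag I + a)`.
Proof.  Write `c I = c₀ + diag I`, `τ I = c I - eY u`, `Q_I(ξ,ξ') = ∑∑ ξ a * ξ' b * μ (τ I + a + b)`,
`g I = F (I + e_u) - F I`, `g⁻ I = F (I - e_u) - F I`, `ζ I = grad (S.erase u) F I`,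
`ξ I = g I • 1_{eX u} + g⁻ I • 1_{eY u}`, so `η I := z + grad S F I = z + ζ I + ξ I`, and
`k I = μ (c I + eX u)` (the conductance; `k I = 0` if `I u ≥ hi u` or `I u < lo u`).
1. `τ I + eY u = c I ≤ top` and `hF` says `Q_I(η I, 1_{eY u}) = 0`, so `M.lor` gives `Q_I(η I, η I) ≤ 0`
   for `I` in the box.  Multiply by `w I = bw lo hi (I u) ≥ 0` and sum.
2. `Q(η,η) = Q(z,z) + 2 Q(z,ζ) + Q(ζ,ζ) + 2 Q(z+ζ, ξ) + Q(ξ,ξ)`.
   `∑ w Q(z,ζ) = 0` (`green` on `S.erase u ⊆ S`, base `c₀ - eY u`, `G = w`, whose gradient in the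
   directions `u' ≠ u` is zero); `∑ w Q(ζ,ζ) ≥ 0` (`squares`).
3. `Q_I(z+ζ I, 1_Y) = - Q_I(ξ I, 1_Y)` by `hF` at `I`.  For `I u < hi u` (else `w I = 0`),
   `τ I + eX u = c (I + e_u)`, so `hF` at `I + e_u` gives
   `Q_I(z + ζ I, 1_X) = - Q_I(ξ (I+e_u), 1_X) - Q_I(grad (S.erase u) g I, 1_X)`, and
   `- ∑ w g Q_I(grad (S.erase u) g I, 1_X) ≥ 0` by `green` (`F := g`, `G := w * g`, base
   `c₀ - eY u + eX u`).
4. `Q_I(X,X) = k (I+e_u)`, `Q_I(X,Y) = k I`, `Q_I(Y,Y) = k (I-e_u)`, `g⁻ I = - g (I - e_u)`,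
   `g⁻ (I+e_u) = - g I`.  The remaining terms at `I` are
   `k (I+e_u) (g I ^2 - 2 g I g (I+e_u)) + 2 k I (g I)^2 - k (I-e_u) g (I-e_u)^2`.
   Shift the first and the last by `sum_shift`; the total is
   `∑ I, k I * (w (I-e_u) (g (I-e_u) - g I)^2 + (2 w I - w (I-e_u) - w (I+e_u)) (g I)^2) ≥ 2 ene`. -/
theorem bochner (M : Model (El U T)) (S : Finset U) (ρ : U → ℤ) {c₀ : El U T → ℤ} (hc : Off S c₀)
    (hok : ∀ I ∈ M.bx S ρ, c₀ + diag I ≤ M.top) (z : El U T → ℝ)
    (hz : ∀ u ∈ S, z (eX u) = 0 ∧ z (eY u) = 0) (F : (U → ℤ) → ℝ)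
    (hF : ∀ I ∈ M.bx S ρ, ∑ a, z a * M.μ (c₀ + diag I + dl a) +
      ∑ a, grad S F I a * M.μ (c₀ + diag I + dl a) = 0) (u : U) (hu : u ∈ S) :
    2 * ene M.μ c₀ (M.bx S ρ) u F F ≤
      - ∑ I ∈ M.bx S ρ, bw (M.lo u) (M.hi u) (I u) *
        ∑ a, ∑ b, z a * z b * M.μ (c₀ + diag I - dl (eY u) + dl a + dl b) := by
  classical
  set B := M.bx S ρ with hB
  have hBdef : B = boxS M.lo M.hi S ρ := rfl
  set lo := M.lo u with hlo
  set hi := M.hi u with hhi
  set w : (U → ℤ) → ℝ := fun I => bw lo hi (I u) with hw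
  set g : (U → ℤ) → ℝ := fun I => F (I + dl u) - F I with hg
  set k : (U → ℤ) → ℝ := fun I => M.μ (c₀ + diag I + dl (eX u)) with hk
  set N : (U → ℤ) → El U T → El U T → ℝ :=
    fun I a b => M.μ (c₀ + diag I - dl (eY u) + dl a + dl b) with hN
  set ζ : (U → ℤ) → El U T → ℝ := fun I => grad (S.erase u) F I with hζ
  set D : (U → ℤ) → ℝ := fun I => ∑ a, grad (S.erase u) g I a *
    M.μ (c₀ + (1 : ℤ) • dl (eX u) + (-1 : ℤ) • dl (eY u) + diag I + dl a) with hD
  have hNs : ∀ I a b, N I a b = N I b a := fun I a b => by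
    simp only [hN]; congr 1; abel
  have hrange : ∀ I ∈ B, lo ≤ I u ∧ I u ≤ hi := fun I hI => ((mem_boxS.1 hI) u).1 hu
  have hw0 : ∀ I ∈ B, 0 ≤ w I := fun I hI => by
    obtain ⟨h1, h2⟩ := hrange I hI
    simp only [hw, bw]
    exact_mod_cast mul_nonneg (by omega) (by omega)
  have hwm0 : ∀ I ∈ B, 0 ≤ w (I - dl u) := fun I hI => by
    obtain ⟨h1, h2⟩ := hrange I hI
    simp only [hw, bw, Pi.sub_apply, dl_self]
    exact_mod_cast mul_nonneg (by omega) (by omega)
  have hwS : ∀ v ∈ S.erase u, ∀ I, w (I + dl v) = w I := fun v hv I => by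
    have hvu : u ≠ v := (mem_erase.1 hv).1.symm
    simp [hw, dl_ne hvu]
  have hwhi : ∀ I, I u = hi → w I = 0 := fun I h => by simp [hw, bw, h]
  have hwlo : ∀ I, I u = lo → w (I - dl u) = 0 := fun I h => by simp [hw, bw, h]
  have hwc : ∀ I, 2 * w I - w (I - dl u) - w (I + dl u) = 2 := fun I => by
    simp only [hw, bw, Pi.sub_apply, Pi.add_apply, dl_self]
    push_cast; ring
  have hk0 : ∀ I, 0 ≤ k I := fun I => M.nonneg _
  have hkhi : ∀ I, I u = hi → k I = 0 := fun I h => by
    refine M.van S u hu _ (Or.inl ?_)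
    simp [(hc u hu).1, h, hhi]
  have hkm : ∀ I, k (I - dl u) = M.μ (c₀ + diag I + dl (eY u)) := fun I => by
    simp only [hk]; rw [diag_sub_dl]; congr 1; abel
  have hklo : ∀ I, I u = lo → k (I - dl u) = 0 := fun I h => by
    rw [hkm]
    refine M.van S u hu _ (Or.inr ?_)
    simp [(hc u hu).2, h, hlo]
  have hF' : ∀ I ∈ B, bochL (fun a => M.μ (c₀ + diag I + dl a)) (z + ζ I) =
      - (g I * k I - g (I - dl u) * k (I - dl u)) := fun I hI => by
    have h1 := hF I hI
    change bochL (fun a => M.μ (c₀ + diag I + dl a)) z +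
      bochL (fun a => M.μ (c₀ + diag I + dl a)) (grad S F I) = 0 at h1
    rw [boch_grad_split hu F I, bochL_add, bochL_add, bochL_single, bochL_single] at h1
    rw [bochL_add, hkm]
    simp only [hg, hk, hζ, sub_add_cancel]
    linarith
  -- the pointwise inequality
  have hpt : ∀ I ∈ B, w I * bochQ (N I) z z + 2 * (w I * bochQ (N I) z (ζ I)) +
      w I * bochQ (N I) (ζ I) (ζ I) +
      (w I * (k (I + dl u) * (g I ^ 2 - 2 * g I * g (I + dl u))) + 2 * (w I * (k I * g I ^ 2)) -
        w I * (k (I - dl u) * g (I - dl u) ^ 2)) - 2 * (w I * g I * D I) ≤ 0 := by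
    intro I hI
    rcases (hrange I hI).2.eq_or_lt with hIu | hIu
    · simp [hwhi I hIu]
    have hI1 : I + dl u ∈ B := boch_add_mem hu hI hIu
    have hlor : bochQ (N I) (z + grad S F I) (z + grad S F I) ≤ 0 := by
      refine M.lor (c₀ + diag I - dl (eY u)) (eY u) (z + grad S F I) ?_ ?_
      · rw [sub_add_cancel]; exact hok I hI
      · have h1 := hF I hI
        rw [← sum_add_distrib] at h1
        rw [← h1]
        refine sum_congr rfl fun a _ => ?_
        rw [show c₀ + diag I - dl (eY u) + dl a + dl (eY u) = c₀ + diag I + dl a by abel,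
          Pi.add_apply]
        ring
    rw [boch_grad_split hu F I, ← add_assoc, bochQ_expand (hNs I)] at hlor
    have hY : bochL (fun a => N I a (eY u)) (z + grad (S.erase u) F I) =
        - (g I * k I - g (I - dl u) * k (I - dl u)) := by
      rw [← hF' I hI]
      congr 1
      funext a
      simp only [hN]; congr 1; abel
    have hX : bochL (fun a => N I a (eX u)) (z + grad (S.erase u) F I) =
        - (g (I + dl u) * k (I + dl u) - g I * k I) - D I := by
      have h1 := hF' (I + dl u) hI1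
      rw [add_sub_cancel_right] at h1
      simp only [hζ] at h1
      rw [boch_grad_shift, ← add_assoc, bochL_add] at h1
      have e1 : (fun a => N I a (eX u)) = fun a => M.μ (c₀ + diag (I + dl u) + dl a) := by
        funext a
        simp only [hN]; rw [diag_add_dl]; congr 1; abel
      have e2 : D I = bochL (fun a => M.μ (c₀ + diag (I + dl u) + dl a))
          (grad (S.erase u) (fun J => F (J + dl u) - F J) I) := by
        simp only [hD, bochL]
        refine sum_congr rfl fun a _ => ?_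
        rw [diag_add_dl]; congr 2
        rw [one_smul, neg_smul, one_smul]; abel
      rw [e1, e2]
      linarith
    have hXX : N I (eX u) (eX u) = k (I + dl u) := by
      simp only [hN, hk]; rw [diag_add_dl]; congr 1; abel
    have hXY : N I (eX u) (eY u) = k I := by
      simp only [hN, hk]; congr 1; abel
    have hYY : N I (eY u) (eY u) = k (I - dl u) := by
      rw [hkm]; simp only [hN]; congr 1; abel
    have hgm : F (I - dl u) - F I = - g (I - dl u) := by
      simp only [hg, sub_add_cancel]; ring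
    rw [hX, hY, hXX, hXY, hYY, hgm] at hlor
    have := mul_nonpos_of_nonneg_of_nonpos (hw0 I hI) hlor
    change w I * (bochQ (N I) z z + 2 * bochQ (N I) z (ζ I) + bochQ (N I) (ζ I) (ζ I) +
      2 * g I * (- (g (I + dl u) * k (I + dl u) - g I * k I) - D I) +
      2 * (- g (I - dl u)) * (- (g I * k I - g (I - dl u) * k (I - dl u))) +
      (g I ^ 2 * k (I + dl u) + 2 * g I * (- g (I - dl u)) * k I +
        (- g (I - dl u)) ^ 2 * k (I - dl u))) ≤ 0 at this
    nlinarith [this]
  have hsum := sum_nonpos hpt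
  simp only [sum_add_distrib, sum_sub_distrib, ← mul_sum] at hsum
  have hvan : Van M.lo M.hi (S.erase u) M.μ := M.van _
  have hsub : S.erase u ⊆ S := erase_subset _ _
  -- the mixed term vanishes
  have hmix : ∑ I ∈ B, w I * bochQ (N I) z (ζ I) = 0 := by
    have hν : Van M.lo M.hi (S.erase u) (fun c : El U T → ℤ => ∑ a, z a * M.μ (c + dl a)) := by
      intro v hv c hcv
      refine sum_eq_zero fun a _ => ?_
      rw [hvan v hv (c + dl a), mul_zero]
      have h1 := dl_nonneg a (eX v)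
      have h2 := dl_nonneg a (eY v)
      simp only [Pi.add_apply]
      omega
    have h1 := green hsub ρ hν (boch_off_erase (u := u) hc 0 (-1)) F w
    have h2 : ∑ v ∈ S.erase u, ene (fun c : El U T → ℤ => ∑ a, z a * M.μ (c + dl a))
        (c₀ + (0 : ℤ) • dl (eX u) + (-1 : ℤ) • dl (eY u)) (boxS M.lo M.hi S ρ) v F w = 0 := by
      refine sum_eq_zero fun v hv => ?_
      unfold ene
      refine sum_eq_zero fun I _ => ?_
      rw [hwS v hv I]; simp
    rw [h2, neg_zero] at h1
    rw [← h1]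
    refine sum_congr rfl fun I _ => ?_
    congr 1
    rw [bochQ_comm (hNs I)]
    unfold bochQ
    refine sum_congr rfl fun a _ => ?_
    rw [mul_sum]
    refine sum_congr rfl fun b _ => ?_
    simp only [hN, hζ]
    rw [mul_assoc]
    congr 3
    rw [zero_smul, neg_smul, one_smul]; abel
  -- the gradient term
  have hsq : 0 ≤ ∑ I ∈ B, w I * bochQ (N I) (ζ I) (ζ I) := by
    have h1 := squares hsub ρ M.nonneg hvan (boch_off_erase (u := u) hc 0 (-1)) w hw0 hwS F
    refine h1.trans_eq (sum_congr rfl fun I _ => ?_)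
    congr 1
    unfold bochQ
    refine sum_congr rfl fun a _ => sum_congr rfl fun b _ => ?_
    simp only [hN, hζ]
    congr 2
    rw [zero_smul, neg_smul, one_smul]; abel
  -- the cross-derivative term
  have hcross : ∑ I ∈ B, w I * g I * D I ≤ 0 := by
    have h1 := green hsub ρ hvan (boch_off_erase (u := u) hc 1 (-1)) g (fun I => w I * g I)
    refine h1.trans_le (neg_nonpos.2 (sum_nonneg fun v hv => ?_))
    unfold ene
    refine sum_nonneg fun I hI => mul_nonneg (M.nonneg _) ?_
    beta_reduce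
    rw [hwS v hv I, ← mul_sub, mul_left_comm]
    exact mul_nonneg (hw0 I hI) (mul_self_nonneg _)
  -- shifting
  have hs1 : ∑ I ∈ B, w I * (k (I + dl u) * (g I ^ 2 - 2 * g I * g (I + dl u))) =
      ∑ I ∈ B, w (I - dl u) * (k I * (g (I - dl u) ^ 2 - 2 * g (I - dl u) * g I)) := by
    refine sum_shift hu _ _ (fun I _ h => ?_) (fun I _ h => ?_) (fun I _ _ => ?_)
    · rw [hwhi I h, zero_mul]
    · rw [hwlo I h, zero_mul]
    · rw [add_sub_cancel_right]
  have hs2 : ∑ I ∈ B, w (I + dl u) * (k I * g I ^ 2) =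
      ∑ I ∈ B, w I * (k (I - dl u) * g (I - dl u) ^ 2) := by
    refine sum_shift hu _ _ (fun I _ h => ?_) (fun I _ h => ?_) (fun I _ _ => ?_)
    · rw [hkhi I h]; simp
    · rw [hklo I h]; simp
    · rw [add_sub_cancel_right]
  have hmain : 2 * ene M.μ c₀ B u F F ≤
      ∑ I ∈ B, w (I - dl u) * (k I * (g (I - dl u) ^ 2 - 2 * g (I - dl u) * g I)) +
        2 * ∑ I ∈ B, w I * (k I * g I ^ 2) - ∑ I ∈ B, w (I + dl u) * (k I * g I ^ 2) := by
    unfold ene
    rw [mul_sum, mul_sum, ← sum_add_distrib, ← sum_sub_distrib]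
    refine sum_le_sum fun I hI => ?_
    change 2 * (k I * (g I * g I)) ≤ _
    have h1 := mul_nonneg (hwm0 I hI) (mul_nonneg (hk0 I) (sq_nonneg (g (I - dl u) - g I)))
    have h2 : w (I + dl u) = 2 * w I - w (I - dl u) - 2 := by linarith [hwc I]
    rw [h2]
    nlinarith [h1]
  rw [hs1, ← hs2, hmix] at hsum
  change _ ≤ - ∑ I ∈ B, w I * bochQ (N I) z z
  linarith

end Crest.Agent.R309
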