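import Crest.Agent.R309.Digits
import Crest.Agent.R309.Tape2

/-!
# R309: transition probabilities of the chain
-/

set_option linter.dupNamespace false

namespace Crest.Agent.R309

open Finset Crest.Agent.Lib.PT

namespace Dat

variable {D : Dat} {φ : List ℤ}

theorem ch_cor_up (h : D.Good) {x u : ℕ} (hx : x ∈ D.Om) (hu : u < D.I.nc)
    (hd : D.dg x u + 1 < D.M u) {u' : ℕ} (hu' : u' < D.I.nc) :
    D.cor (x + D.pw u) u' - D.cor x u' = if u' = u then (D.s u : ℤ) else 0 := by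
  have := (h.up_mem hx hu hd).2 u' hu'
  unfold cor
  rw [this]
  split_ifs with h1
  · subst h1; push_cast; ring
  · simp

theorem ch_net_le {σ σ' : ℕ → ℤ} {u : ℕ} (hu : u < D.I.nc)
    (hc : ∀ u' < D.I.nc, σ' u' - σ u' = if u' = u then (D.s u : ℤ) else 0) (r : ℕ) :
    |D.net σ' r - D.net σ r| ≤ if (D.A (D.I.p u) r ↔ D.A (D.I.q u) r) then 0 else (D.s u : ℤ) := by
  refine (abs_net_sub_le σ' σ r).trans (le_of_eq ?_)
  rw [Finset.sum_eq_single_of_mem u (mem_range.2 hu)]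
  · rw [hc u hu]; simp
  · intro u' hu' hne
    rw [hc u' (mem_range.1 hu')]; simp [hne]

theorem ch_root_sum (h : D.Good) {v : ℕ} (hv : v < D.I.nv) :
    ∑ r ∈ range D.I.nv, (if D.par r = none ∧ D.A v r then (1 : ℤ) else 0) ≤ 1 := by
  rw [Finset.sum_boole]
  have : ((range D.I.nv).filter fun r => D.par r = none ∧ D.A v r).card ≤ 1 := by
    refine card_le_one.2 fun a ha b hb => ?_
    obtain ⟨-, ha1, ha2⟩ := mem_filter.1 ha
    obtain ⟨-, hb1, hb2⟩ := mem_filter.1 hb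
    exact h.root_unique hv ha2 hb2 ha1 hb1
  exact_mod_cast this

theorem ch_pen_le (h : D.Good) (hφ : D.Adm φ) {σ σ' : ℕ → ℤ} {u : ℕ} (hu : u < D.I.nc)
    (hc : ∀ u' < D.I.nc, σ' u' - σ u' = if u' = u then (D.s u : ℤ) else 0) (r : ℕ) :
    |D.pen φ σ' r - D.pen φ σ r| ≤ ((D.Kp : ℤ) + (D.G : ℤ) ^ 33) *
      ((if D.par r = none ∧ D.A (D.I.p u) r then (1 : ℤ) else 0) +
        (if D.par r = none ∧ D.A (D.I.q u) r then (1 : ℤ) else 0)) + 2 * (D.G : ℤ) ^ 25 := by
  have hn := ch_net_le hu hc r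
  have hG : (1024 : ℤ) ≤ D.G := by exact_mod_cast h.G_ge
  have hlarge : D.s u ≠ 1 → ∀ u' < D.I.nc, σ' u' ≠ σ u' →
      D.G ^ 9 ≤ D.wd u' ∧ |σ' u' - σ u'| ≤ ((1 : ℕ) : ℤ) * D.s u' := by
    intro hs u' hu' hne
    have h1 := hc u' hu'
    split_ifs at h1 with h2
    · subst h2
      refine ⟨(large_of_s hs).2, ?_⟩
      rw [h1]; simp
    · exact absurd (sub_eq_zero.1 h1) hne
  unfold pen
  cases hp : D.par r with
  | none =>
    simp only [Option.elim_none, true_and]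
    have h2 : |D.net σ' r - D.net σ r| ≤ (if D.A (D.I.p u) r then (1 : ℤ) else 0) +
        (if D.A (D.I.q u) r then (1 : ℤ) else 0) := by
      by_cases hs : D.s u = 1
      · refine hn.trans ?_
        rw [hs]
        by_cases a1 : D.A (D.I.p u) r <;> by_cases a2 : D.A (D.I.q u) r <;> simp [a1, a2]
      · rw [h.net_root (fun u' hu' hne => (hlarge hs u' hu' hne).1) hp, sub_self, abs_zero]
        split_ifs <;> norm_num
    have h3 : |D.Kp * |D.net σ' r| + φ.getD r 0 * D.net σ' r -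
        (D.Kp * |D.net σ r| + φ.getD r 0 * D.net σ r)| ≤
        ((D.Kp : ℤ) + (D.G : ℤ) ^ 33) * |D.net σ' r - D.net σ r| := by
      have e : D.Kp * |D.net σ' r| + φ.getD r 0 * D.net σ' r -
          (D.Kp * |D.net σ r| + φ.getD r 0 * D.net σ r) =
          D.Kp * (|D.net σ' r| - |D.net σ r|) + φ.getD r 0 * (D.net σ' r - D.net σ r) := by ring
      rw [e, add_mul]
      refine (abs_add_le _ _).trans (add_le_add ?_ ?_)
      · rw [abs_mul, abs_of_nonneg (Int.natCast_nonneg _)]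
        exact mul_le_mul_of_nonneg_left (abs_abs_sub_abs_le _ _) (Int.natCast_nonneg _)
      · rw [abs_mul]
        exact mul_le_mul_of_nonneg_right (hφ r) (abs_nonneg _)
    have h4 : (0 : ℤ) ≤ 2 * (D.G : ℤ) ^ 25 := by positivity
    have h5 := mul_le_mul_of_nonneg_left h2 (show (0 : ℤ) ≤ D.Kp + (D.G : ℤ) ^ 33 by positivity)
    linarith
  | some e =>
    simp only [Option.elim_some, reduceCtorEq, false_and, if_false, add_zero, mul_zero, zero_add]
    obtain ⟨hW1, hW2⟩ := h.Wp_eq hp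
    have hW2' : (D.G : ℤ) ^ 2 ≤ D.Wp e := by exact_mod_cast hW2
    have hW1' : (D.Wp e : ℤ) * (D.G : ℤ) ^ 7 = D.wd e := by exact_mod_cast hW1
    have h2 : |D.net σ' r - D.net σ r| ≤ D.Wp e := by
      by_cases hs : D.s u = 1
      · refine hn.trans ?_
        rw [hs]
        split_ifs
        · positivity
        · push_cast; nlinarith
      · have h3 := h.net_tree (k := 1) (hlarge hs) hp
        rw [← hW1'] at h3
        have h7 : (0 : ℤ) < (D.G : ℤ) ^ 7 := by positivity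
        have h4 : |D.net σ' r - D.net σ r| * D.G ≤ D.Wp e := by
          refine le_of_mul_le_mul_right ?_ h7
          calc |D.net σ' r - D.net σ r| * D.G * (D.G : ℤ) ^ 7
              = |D.net σ' r - D.net σ r| * (D.G : ℤ) ^ 8 := by ring
            _ ≤ _ := by simpa using h3
        nlinarith [abs_nonneg (D.net σ' r - D.net σ r)]
    have h3 : |D.tv σ' r e - D.tv σ r e| ≤ D.Wp e := by
      unfold tv
      split_ifs
      · exact h2
      · rw [← abs_neg]; simpa [sub_eq_add_neg, add_comm] using h2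
    have h4 := penT_sub_le (D := D) h3
    have h5 := penT_sub_le (D := D) (t := D.tv σ r e) (t' := D.tv σ' r e) (by rwa [abs_sub_comm])
    rw [abs_le]
    constructor <;> linarith

/-- A move changes the corner by `s u` in the cell `u`.  At roots: nothing changes if `u` is large (`net_root`);
otherwise `s u = 1`, and the net flow changes by at most one at the at most two roots above the ends of `u`
(`root_unique`, `abs_net_sub_le`), each contributing at most `Kp + G^33`.  At a vertex with parent cell `e` the net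
flow changes by at most `Wp e` (`net_tree` with `k = 1` if `u` is large, `1 ≤ Wp e` otherwise), so `penT_sub_le`
applies.  `2 (2 g G^27 + G^33) + 2 G^26 ≤ G^35`. -/
theorem Good.En_move (h : D.Good) (hφ : D.Adm φ) {x u : ℕ} (hx : x ∈ D.Om) (hu : u < D.I.nc)
    (hd : D.dg x u + 1 < D.M u) :
    |D.En φ (D.cor (x + D.pw u)) - D.En φ (D.cor x)| ≤ (D.G : ℤ) ^ 35 := by
  have hG : (1024 : ℤ) ≤ D.G := by exact_mod_cast h.G_ge
  have hg : (30 : ℤ) * D.g + 10 ≤ D.G := by exact_mod_cast h.g_le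
  have hnv : (D.I.nv : ℤ) ≤ D.G := by exact_mod_cast h.nv_le
  unfold En
  rw [← Finset.sum_sub_distrib]
  refine (Finset.abs_sum_le_sum_abs _ _).trans ((Finset.sum_le_sum fun r _ =>
    ch_pen_le h hφ hu (fun u' hu' => ch_cor_up h hx hu hd hu') r).trans ?_)
  rw [Finset.sum_add_distrib, ← Finset.mul_sum, Finset.sum_add_distrib, Finset.sum_const, card_range,
    nsmul_eq_mul]
  have h1 := ch_root_sum h (h.fits.wf u hu).1
  have h2 := ch_root_sum h (h.fits.wf u hu).2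
  have h3 := mul_le_mul_of_nonneg_left (add_le_add h1 h2)
    (show (0 : ℤ) ≤ D.Kp + (D.G : ℤ) ^ 33 by positivity)
  have h4 : (D.I.nv : ℤ) * (2 * (D.G : ℤ) ^ 25) ≤ D.G * (2 * (D.G : ℤ) ^ 25) :=
    mul_le_mul_of_nonneg_right hnv (by positivity)
  have h5 : (D.Kp : ℤ) ≤ (D.G : ℤ) ^ 33 := by
    unfold Kp
    push_cast
    have : (2 : ℤ) * D.g ≤ (D.G : ℤ) ^ 6 := by
      calc (2 : ℤ) * D.g ≤ (D.G : ℤ) ^ 1 := by
            have : (0 : ℤ) ≤ D.g := Int.natCast_nonneg _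
            rw [pow_one]; linarith
        _ ≤ _ := pow_le_pow_right₀ (by linarith) (by norm_num)
    calc (2 : ℤ) * D.g * (D.G : ℤ) ^ 27 ≤ (D.G : ℤ) ^ 6 * (D.G : ℤ) ^ 27 :=
          mul_le_mul_of_nonneg_right this (by positivity)
      _ = _ := by ring
  have h6 : (D.G : ℤ) ^ 26 ≤ (D.G : ℤ) ^ 33 := pow_le_pow_right₀ (by linarith) (by norm_num)
  have h7 : 6 * (D.G : ℤ) ^ 33 ≤ (D.G : ℤ) ^ 35 := by
    calc 6 * (D.G : ℤ) ^ 33 ≤ (D.G : ℤ) ^ 2 * (D.G : ℤ) ^ 33 :=
          mul_le_mul_of_nonneg_right (by nlinarith) (by positivity)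
      _ = _ := by ring
  have h8 : (D.G : ℤ) * (2 * (D.G : ℤ) ^ 25) = 2 * (D.G : ℤ) ^ 26 := by ring
  linarith

theorem ch_En_sum (h : D.Good) (hφ : D.Adm φ) (n : ℕ) : ∀ x ∈ D.Om,
    ∑ u ∈ range D.I.nc, D.dg x u = n →
      |D.En φ (D.cor x) - D.En φ (D.cor 0)| ≤ n * (D.G : ℤ) ^ 35 := by
  induction n with
  | zero =>
    intro x hx hs
    have : x = 0 := h.eq_of_dg hx h.zero_mem fun u hu => by
      rw [Finset.sum_eq_zero_iff.1 hs u (mem_range.2 hu)]; simp [dg]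
    subst this; simp
  | succ n ih =>
    intro x hx hs
    obtain ⟨u, hu, hd⟩ : ∃ u ∈ range D.I.nc, D.dg x u ≠ 0 :=
      Finset.exists_ne_zero_of_sum_ne_zero (by omega)
    have hu' := mem_range.1 hu
    obtain ⟨h1, h2, h3⟩ := h.down_mem hx hu' (Nat.pos_of_ne_zero hd)
    have h4 : ∑ u' ∈ range D.I.nc, D.dg (x - D.pw u) u' = n := by
      have : ∑ u' ∈ range D.I.nc, (D.dg (x - D.pw u) u' + if u' = u then 1 else 0) = n + 1 := by
        rw [← hs]; exact Finset.sum_congr rfl fun u' hu' => h3 u' (mem_range.1 hu')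
      rw [Finset.sum_add_distrib, Finset.sum_ite_eq' , if_pos hu] at this
      omega
    have h5 := ih _ h2 h4
    have h6 := h.En_move hφ h2 hu' (by
      have := h3 u hu'
      have := (mem_Om.1 hx).2 u hu'
      simp at *; omega)
    rw [Nat.sub_add_cancel h1] at h6
    have h7 := abs_sub_le (D.En φ (D.cor x)) (D.En φ (D.cor (x - D.pw u))) (D.En φ (D.cor 0))
    push_cast
    linarith

/-- Lower the digits one at a time down to the state `0` (induction on the sum of the digits, which is at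
most `nc G^12`). -/
theorem Good.En_range (h : D.Good) (hφ : D.Adm φ) {x : ℕ} (hx : x ∈ D.Om) :
    |D.En φ (D.cor x) - D.En φ (D.cor 0)| ≤ (D.G : ℤ) ^ 48 := by
  refine (ch_En_sum h hφ _ x hx rfl).trans ?_
  have h1 : ∑ u ∈ range D.I.nc, D.dg x u ≤ D.G ^ 13 := by
    calc ∑ u ∈ range D.I.nc, D.dg x u ≤ ∑ _u ∈ range D.I.nc, D.G ^ 12 :=
          Finset.sum_le_sum fun u hu =>
            ((mem_Om.1 hx).2 u (mem_range.1 hu)).le.trans (h.M_le (mem_range.1 hu))
      _ = D.I.nc * D.G ^ 12 := by simp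
      _ ≤ D.G * D.G ^ 12 := Nat.mul_le_mul_right _ h.nc_le
      _ = _ := by ring
  have h2 : ((∑ u ∈ range D.I.nc, D.dg x u : ℕ) : ℤ) ≤ (D.G : ℤ) ^ 13 := by exact_mod_cast h1
  calc _ ≤ (D.G : ℤ) ^ 13 * (D.G : ℤ) ^ 35 := mul_le_mul_of_nonneg_right h2 (by positivity)
    _ = _ := by ring

theorem step_lt (D : Dat) (φ : List ℤ) (x : ℕ) (ω : List Bool) : D.step φ x ω < 2 ^ D.G ^ 3 :=
  Nat.mod_lt _ (by positivity)

theorem ch_prop_mem (h : D.Good) {x : ℕ} (hx : x ∈ D.Om) (b : Bool) {u : ℕ} (hu : u < D.I.nc) :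
    D.prop x b u ∈ D.Om := by
  unfold prop
  split_ifs with h1 h2 h3
  · exact (h.up_mem hx hu h2).1
  · exact hx
  · exact (h.down_mem hx hu h3).2.1
  · exact hx

theorem ch_step_eq (h : D.Good) {x : ℕ} (hx : x ∈ D.Om) (ω : List Bool) :
    D.step φ x ω = if ω.getD 0 false = true ∧ D.cell ω < D.I.nc ∧
      ofBits ((ω.drop (2 + D.g)).take (27 * D.g * D.G ^ 35)) <
        D.thr (D.En φ (D.cor (D.prop x (ω.getD 1 false) (D.cell ω))) - D.En φ (D.cor x)).toNat
    then D.prop x (ω.getD 1 false) (D.cell ω) else x := by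
  unfold step
  refine Nat.mod_eq_of_lt (h.lt_of_mem ?_)
  split_ifs with h1
  · exact ch_prop_mem h hx _ h1.2.1
  · exact hx

theorem Good.step_mem (h : D.Good) {x : ℕ} (hx : x ∈ D.Om) (ω : List Bool) :
    D.step φ x ω ∈ D.Om := by
  rw [ch_step_eq h hx]
  split_ifs with h1
  · exact ch_prop_mem h hx _ h1.2.1
  · exact hx

theorem ch_len (h : D.Good) : 2 + D.g + 27 * D.g * D.G ^ 35 ≤ D.G ^ 37 := by
  have h1 := h.g_le
  have h2 := h.G_ge
  have h3 : 1 ≤ D.G ^ 35 := Nat.one_le_pow _ _ (by omega)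
  calc 2 + D.g + 27 * D.g * D.G ^ 35 ≤ (30 * D.g + 10) * D.G ^ 35 := by nlinarith
    _ ≤ D.G * D.G ^ 35 := Nat.mul_le_mul_right _ h1
    _ = D.G ^ 36 := by ring
    _ ≤ D.G ^ 37 := Nat.pow_le_pow_right (by omega) (by norm_num)

theorem ch_Pr4 {ρ g N u t : ℕ} (b : Bool) (h : 2 + g + N ≤ ρ) (hu : u < 2 ^ g) (ht : t ≤ 2 ^ N) :
    Pr ρ (fun ω => ω.getD 0 false = true ∧ ω.getD 1 false = b ∧
      ofBits ((ω.drop 2).take g) = u ∧ ofBits ((ω.drop (2 + g)).take N) < t) =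
      1 / 4 * (1 / 2 ^ g) * (t / 2 ^ N) := by
  obtain ⟨m, rfl⟩ : ∃ m, ρ = m + 1 + 1 := ⟨ρ - 2, by omega⟩
  have key : Ex m (fun l => ind (ofBits (l.take g) = u ∧ ofBits ((l.drop g).take N) < t)) =
      (1 / 2 ^ g) * (t / 2 ^ N) := by
    simp only [ind_and]
    rw [Ex_take_drop (k := g) (by omega)
      (fun l l' => ind (ofBits l = u) * ind (ofBits (l'.take N) < t))]
    simp only [Ex_mul_left]
    rw [Ex_mul_right]
    have e1 := Pr_ofBits_eq hu
    have e2 := (Pr_take (k := N) (n := m - g) (by omega) fun l => ofBits l < t).trans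
      (Pr_ofBits_lt ht)
    unfold Pr at e1 e2
    rw [e1, e2]
  have e : ∀ (c d : Bool) (l : List Bool), (c :: d :: l).drop (2 + g) = l.drop g := by
    intro c d l
    rw [Nat.add_comm]; rfl
  have z : Ex m (fun _ => ind False) = 0 := by rw [ind_neg not_false, Ex_const]
  unfold Pr
  cases b <;> simp [Ex, e, key, z] <;> ring

theorem ch_two_pow (h : D.Good) : 2 ^ (27 * D.g * D.G ^ 35) = (D.G ^ 27) ^ D.G ^ 35 := by
  rw [pow_mul, mul_comm 27, pow_mul, ← h.G_eq]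

theorem ch_thr_le (h : D.Good) {k : ℕ} (hk : k ≤ D.G ^ 35) :
    D.thr k ≤ 2 ^ (27 * D.g * D.G ^ 35) := by
  rw [ch_two_pow h, thr, min_eq_left hk]
  calc (D.G ^ 27 - 1) ^ k * (D.G ^ 27) ^ (D.G ^ 35 - k)
      ≤ (D.G ^ 27) ^ k * (D.G ^ 27) ^ (D.G ^ 35 - k) :=
        Nat.mul_le_mul_right _ (Nat.pow_le_pow_left (Nat.sub_le _ _) _)
    _ = _ := by rw [← pow_add, Nat.add_sub_cancel' hk]

theorem ch_thr_eq (h : D.Good) {k : ℕ} (hk : k ≤ D.G ^ 35) :
    (D.thr k : ℝ) / 2 ^ (27 * D.g * D.G ^ 35) = D.qq ^ k := by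
  have h1 : (2 : ℝ) ^ (27 * D.g * D.G ^ 35) = ((D.G : ℝ) ^ 27) ^ D.G ^ 35 := by
    exact_mod_cast ch_two_pow h
  have h2 : 1 ≤ D.G ^ 27 := Nat.one_le_pow _ _ (by have := h.G_ge; omega)
  have h3 : (0 : ℝ) < (D.G : ℝ) ^ 27 := by have := h.G_geR; positivity
  obtain ⟨j, hj⟩ := Nat.exists_eq_add_of_le hk
  rw [h1, thr, min_eq_left hk, hj, Nat.add_sub_cancel_left, qq, pow_add]
  push_cast [Nat.cast_sub h2]
  rw [one_sub_div h3.ne', div_pow]
  field_simp

theorem ch_min {q : ℝ} (h0 : 0 < q) (h1 : q ≤ 1) (a b : ℤ) :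
    q ^ a * q ^ (b - a).toNat = min (q ^ a) (q ^ b) := by
  rcases le_total a b with hab | hab
  · rw [min_eq_right (zpow_le_zpow_right_of_le_one₀ h0 h1 hab), ← zpow_natCast,
      Int.toNat_of_nonneg (sub_nonneg.2 hab), ← zpow_add₀ h0.ne']
    congr 1; ring
  · rw [min_eq_left (zpow_le_zpow_right_of_le_one₀ h0 h1 hab),
      Int.toNat_eq_zero.2 (sub_nonpos.2 hab)]
    simp

theorem ch_move (h : D.Good) {ρ : ℕ} (hρ : D.G ^ 37 ≤ ρ) {x y u : ℕ} {b : Bool} (hx : x ∈ D.Om)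
    (hu : u < D.I.nc) (hy : D.prop x b u = y) (hne : y ≠ x)
    (huniq : ∀ b' u', u' < D.I.nc → D.prop x b' u' = y → b' = b ∧ u' = u)
    (hE : |D.En φ (D.cor y) - D.En φ (D.cor x)| ≤ (D.G : ℤ) ^ 35) :
    D.wb φ x * Pr ρ (fun ω => D.step φ x ω = y) = min (D.wb φ x) (D.wb φ y) / (4 * D.G) := by
  set k := (D.En φ (D.cor y) - D.En φ (D.cor x)).toNat with hk
  have hkG : k ≤ D.G ^ 35 := by
    rw [hk, Int.toNat_le]
    push_cast
    exact (le_abs_self _).trans hE
  have h1 : Pr ρ (fun ω => D.step φ x ω = y) = Pr ρ (fun ω => ω.getD 0 false = true ∧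
      ω.getD 1 false = b ∧ ofBits ((ω.drop 2).take D.g) = u ∧
        ofBits ((ω.drop (2 + D.g)).take (27 * D.g * D.G ^ 35)) < D.thr k) := by
    refine Pr_congr fun ω _ => ?_
    rw [ch_step_eq h hx]
    constructor
    · intro h2
      split_ifs at h2 with h3
      · obtain ⟨e1, e2⟩ := huniq _ _ h3.2.1 h2
        refine ⟨h3.1, e1, e2, ?_⟩
        have := h3.2.2
        rwa [h2] at this
      · exact absurd h2.symm hne
    · rintro ⟨a1, a2, a3, a4⟩
      have a3' : D.cell ω = u := a3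
      rw [a2, a3', hy, if_pos ⟨a1, hu, a4⟩]
  rw [h1, ch_Pr4 b ((ch_len h).trans hρ) (by rw [← h.G_eq]; exact hu.trans_le h.nc_le)
    (ch_thr_le h hkG), ch_thr_eq h hkG]
  have h2 : (2 : ℝ) ^ D.g = D.G := by exact_mod_cast h.G_eq.symm
  have h3 := ch_min h.qq_pos h.qq_lt.le (D.En φ (D.cor x)) (D.En φ (D.cor y))
  have h4 : (D.G : ℝ) ≠ 0 := by have := h.G_geR; positivity
  unfold wb
  rw [← h3, h2, ← hk]
  field_simp

theorem ch_pw_pos (h : D.Good) (u : ℕ) : 0 < D.pw u := by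
  have := h.G_ge
  unfold pw; positivity

theorem ch_pw_inj (h : D.Good) {u u' : ℕ} (hu : u < D.I.nc) (hu' : u' < D.I.nc)
    (e : D.pw u' = D.pw u) : u' = u := by
  rw [h.pw_eq hu, h.pw_eq hu'] at e
  refine Nat.pow_right_injective (a := D.G ^ 12) ?_ e
  have := h.G_ge
  calc 2 ≤ D.G ^ 1 := by rw [pow_one]; omega
    _ ≤ _ := Nat.pow_le_pow_right (by omega) (by norm_num)

/-- If the first bit is `false` the state does not move. -/
theorem Good.step_lazy (h : D.Good) {ρ : ℕ} (hρ : D.G ^ 37 ≤ ρ) {x : ℕ} (hx : x ∈ D.Om) :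
    1 / 2 ≤ Pr ρ fun ω => D.step φ x ω = x := by
  have h1 := ch_len h
  obtain ⟨m, rfl⟩ : ∃ m, ρ = m + 1 := ⟨ρ - 1, by omega⟩
  have h2 : Ex m (fun l => ind (D.step φ x (false :: l) = x)) = 1 :=
    Pr_true fun l _ => by rw [ch_step_eq h hx, if_neg (by simp)]
  have h3 : 0 ≤ Ex m (fun l => ind (D.step φ x (true :: l) = x)) := Pr_nonneg _ _
  unfold Pr
  simp only [Ex]
  linarith

/-- The first two bits, the cell and the uniform number are independent (`Ex_take_drop`; `2 + g + 27 g G^35 ≤ G^37`).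
From `x`, the state `y = x + pw u` is reached exactly when the bits are `true, true`, the cell is `u` and the proposal is
accepted (compare digits: `up_mem`, `down_mem`): probability `1/4 * 1/G * thr k / 2^{27 g G^35} = q^k / (4 G)` with
`k = (En y - En x).toNat ≤ G^35` (`Pr_ofBits_eq`, `Pr_ofBits_lt`, `En_move`), and `wb x * q^k = min (wb x) (wb y)`.
Symmetrically from `y` to `x` with the bits `true, false`. -/
theorem Good.step_up (h : D.Good) (hφ : D.Adm φ) {ρ : ℕ} (hρ : D.G ^ 37 ≤ ρ) {x u : ℕ}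
    (hx : x ∈ D.Om) (hu : u < D.I.nc) (hd : D.dg x u + 1 < D.M u) :
    D.wb φ x * Pr ρ (fun ω => D.step φ x ω = x + D.pw u) =
        min (D.wb φ x) (D.wb φ (x + D.pw u)) / (4 * D.G) ∧
      D.wb φ (x + D.pw u) * Pr ρ (fun ω => D.step φ (x + D.pw u) ω = x) =
        min (D.wb φ x) (D.wb φ (x + D.pw u)) / (4 * D.G) := by
  have hp := ch_pw_pos h u
  have hE := h.En_move hφ hx hu hd
  obtain ⟨hy, hdy⟩ := h.up_mem hx hu hd
  constructor
  · refine ch_move (b := true) h hρ hx hu (by simp [prop, hd]) (by omega) ?_ hE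
    intro b' u' hu' e
    unfold prop at e
    split_ifs at e with h1 h2 h3
    · exact ⟨h1, ch_pw_inj h hu hu' (by omega)⟩
    all_goals omega
  · rw [min_comm]
    have h0 : 0 < D.dg (x + D.pw u) u := by rw [hdy u hu]; simp
    refine ch_move (b := false) h hρ hy hu (by simp [prop, h0]) (by omega) ?_
      (by rwa [abs_sub_comm])
    intro b' u' hu' e
    unfold prop at e
    split_ifs at e with h1 h2 h3
    · omega
    · omega
    · have := (h.down_mem hy hu' h3).1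
      exact ⟨by simpa using h1, ch_pw_inj h hu hu' (by omega)⟩
    · omega

theorem ch_zero (h : D.Good) {ρ x y : ℕ} (hx : x ∈ D.Om) (hne : x ≠ y)
    (h1 : ¬ ∃ u < D.I.nc, D.dg x u + 1 < D.M u ∧ y = x + D.pw u)
    (h2 : ¬ ∃ u < D.I.nc, D.dg y u + 1 < D.M u ∧ x = y + D.pw u) :
    Pr ρ (fun ω => D.step φ x ω = y) = 0 := by
  refine Pr_false fun ω _ e => ?_
  rw [ch_step_eq h hx] at e
  split_ifs at e with h3
  · have hu := h3.2.1
    unfold prop at e
    split_ifs at e with h4 h5 h6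
    · exact h1 ⟨_, hu, h5, e.symm⟩
    · exact hne e
    · obtain ⟨a1, -, a3⟩ := h.down_mem hx hu h6
      refine h2 ⟨_, hu, ?_, by omega⟩
      have a4 := a3 _ hu
      have a5 := (mem_Om.1 hx).2 _ hu
      rw [if_pos rfl, e] at a4
      omega
    · exact hne e
  · exact hne e

/-- If `x ≠ y` and neither is obtained from the other by raising a digit, both probabilities vanish. -/
theorem Good.step_rev (h : D.Good) (hφ : D.Adm φ) {ρ : ℕ} (hρ : D.G ^ 37 ≤ ρ) {x y : ℕ}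
    (hx : x ∈ D.Om) (hy : y ∈ D.Om) :
    D.wb φ x * Pr ρ (fun ω => D.step φ x ω = y) = D.wb φ y * Pr ρ fun ω => D.step φ y ω = x := by
  by_cases hne : x = y
  · rw [hne]
  by_cases h1 : ∃ u < D.I.nc, D.dg x u + 1 < D.M u ∧ y = x + D.pw u
  · obtain ⟨u, hu, hd, rfl⟩ := h1
    obtain ⟨a1, a2⟩ := h.step_up hφ hρ hx hu hd
    rw [a1, a2]
  by_cases h2 : ∃ u < D.I.nc, D.dg y u + 1 < D.M u ∧ x = y + D.pw u
  · obtain ⟨u, hu, hd, rfl⟩ := h2
    obtain ⟨a1, a2⟩ := h.step_up hφ hρ hy hu hd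
    rw [a1, a2]
  rw [ch_zero h hx hne h1 h2, ch_zero h hy (Ne.symm hne) h2 h1, mul_zero, mul_zero]

end Dat

end Crest.Agent.R309
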