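import Crest.Agent.R309.Model

/-!
# R309: one-dimensional block arithmetic and push-forward sums for `Coarse`
-/

set_option linter.dupNamespace false
set_option linter.unusedSectionVars false

namespace Crest.Agent.R309.Coarse

open Finset

/-- Clamped block index. -/
def blk (lo : ℤ) (s M : ℕ) (x : ℤ) : ℤ := max 0 (min ((M : ℤ) - 1) ((x - lo) / s))

/-- Half width of the window of shifts. -/
def hw (s : ℕ) : ℤ := ((s : ℤ) - 1) / 2

/-- The window of shifts. -/
noncomputable def win (s : ℕ) : Finset ℤ := Icc (- hw s) (hw s)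

/-- The fine range. -/
noncomputable def fin (lo : ℤ) (s M : ℕ) : Finset ℤ := Icc lo (lo + s * M - 1)

theorem hw_nonneg {s : ℕ} (hs : 0 < s) : 0 ≤ hw s := by unfold hw; omega

theorem two_hw_lt {s : ℕ} (hs : 0 < s) : 2 * hw s + 1 ≤ s := by unfold hw; omega

theorem le_two_hw {s : ℕ} : (s : ℤ) ≤ 2 * hw s + 2 := by unfold hw; omega

theorem zero_mem_win {s : ℕ} (hs : 0 < s) : (0 : ℤ) ∈ win s := by
  have := hw_nonneg hs
  simp [win, this]

theorem card_win {s : ℕ} (hs : 0 < s) : ((win s).card : ℤ) = 2 * hw s + 1 := by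
  have := hw_nonneg hs
  simp only [win, Int.card_Icc]
  omega

theorem card_win_pos {s : ℕ} (hs : 0 < s) : 0 < (win s).card :=
  card_pos.2 ⟨0, zero_mem_win hs⟩

theorem le_two_card_win {s : ℕ} (hs : 0 < s) : (s : ℝ) ≤ 2 * (win s).card := by
  have h1 := card_win hs
  have h2 := le_two_hw (s := s)
  have h3 := hw_nonneg hs
  have : (s : ℤ) ≤ 2 * (win s).card := by omega
  exact_mod_cast this

theorem blk_mem (lo : ℤ) (s : ℕ) {M : ℕ} (hM : 0 < M) (x : ℤ) :
    blk lo s M x ∈ Icc (0 : ℤ) ((M : ℤ) - 1) := by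
  simp only [blk, mem_Icc]
  omega

theorem div_range {lo : ℤ} {s M : ℕ} (hs : 0 < s) {x : ℤ} (hx : x ∈ fin lo s M) :
    0 ≤ (x - lo) / s ∧ (x - lo) / s ≤ (M : ℤ) - 1 := by
  simp only [fin, mem_Icc] at hx
  have hs' : (0 : ℤ) < s := by exact_mod_cast hs
  refine ⟨Int.ediv_nonneg (by omega) hs'.le, ?_⟩
  have : (x - lo) / s < M := by
    rw [Int.ediv_lt_iff_lt_mul hs']
    nlinarith [hx.2]
  omega

theorem blk_fin {lo : ℤ} {s M : ℕ} (hs : 0 < s) {x : ℤ} (hx : x ∈ fin lo s M) :
    blk lo s M x = (x - lo) / s := by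
  have := div_range hs hx
  unfold blk
  omega

theorem div_shift {s : ℕ} (hs : 0 < s) (y t : ℤ) (ht : t ∈ win s) :
    y / s - 1 ≤ (y + t) / s ∧ (y + t) / s ≤ y / s + 1 := by
  have hs' : (0 : ℤ) < s := by exact_mod_cast hs
  simp only [win, mem_Icc] at ht
  have h2 := two_hw_lt hs
  have h3 := hw_nonneg hs
  constructor
  · have : (y + (-1) * s) / s ≤ (y + t) / s := Int.ediv_le_ediv hs' (by omega)
    rw [Int.add_mul_ediv_right _ _ hs'.ne'] at this
    omega
  · have : (y + t) / s ≤ (y + 1 * s) / s := Int.ediv_le_ediv hs' (by omega)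
    rw [Int.add_mul_ediv_right _ _ hs'.ne'] at this
    omega

theorem blk_close {lo : ℤ} {s M : ℕ} (hs : 0 < s) {x t : ℤ} (hx : x ∈ fin lo s M)
    (ht : t ∈ win s) :
    |(x - lo) / s - blk lo s M (x + t)| ≤ 1 ∧ (s = 1 → blk lo s M (x + t) = x - lo) := by
  have h1 := div_range hs hx
  have h2 := div_shift hs (x - lo) t ht
  have e : x + t - lo = x - lo + t := by ring
  constructor
  · rw [abs_le]
    unfold blk
    rw [e]
    omega
  · intro h
    subst h
    have : t = 0 := by
      simp only [win, hw, mem_Icc] at ht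
      omega
    subst this
    rw [add_zero, blk_fin hs hx]
    simp

theorem blk_near {lo : ℤ} {s M : ℕ} (hs : 0 < s) {x t : ℤ} (hx : x ∈ fin lo s M)
    (ht : t ∈ win s) :
    blk lo s M x - 1 ≤ blk lo s M (x + t) ∧ blk lo s M (x + t) ≤ blk lo s M x + 1 := by
  have h := (blk_close hs hx ht).1
  rw [abs_le, ← blk_fin hs hx] at h
  omega

theorem blk_cross {lo : ℤ} {s M : ℕ} (hs : 0 < s) {z : ℤ}
    (h : blk lo s M (z + 1) ≠ blk lo s M z) :
    blk lo s M (z + 1) = blk lo s M z + 1 ∧ z + 1 - lo = s * (blk lo s M z + 1) := by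
  have hs' : (0 : ℤ) < s := by exact_mod_cast hs
  have h1 := Int.emod_add_mul_ediv (z - lo) s
  have h2 := Int.emod_nonneg (z - lo) hs'.ne'
  have h3 := Int.emod_lt_of_pos (z - lo) hs'
  set q := (z - lo) / s with hq
  set r := (z - lo) % s with hr
  by_cases hc : r + 1 < s
  · exfalso
    apply h
    have : (z + 1 - lo) / s = q := by
      have e : z + 1 - lo = (r + 1) + s * q := by omega
      rw [e, Int.add_mul_ediv_left _ _ hs'.ne', Int.ediv_eq_zero_of_lt (by omega) hc, zero_add]
    unfold blk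
    rw [this]
  · have e : z + 1 - lo = s * (q + 1) := by
      have : r + 1 = s := by omega
      rw [mul_add]; omega
    have hq' : (z + 1 - lo) / s = q + 1 := by
      rw [e, Int.mul_ediv_cancel_left _ hs'.ne']
    have hb : blk lo s M z = q := by
      unfold blk at h ⊢
      rw [hq'] at h
      omega
    refine ⟨?_, by rw [hb, e]⟩
    unfold blk at h ⊢
    rw [hq'] at h ⊢
    omega

theorem card_cross_le_one (lo : ℤ) {s : ℕ} (M : ℕ) (hs : 0 < s) (x : ℤ) :
    ((win s).filter fun t => blk lo s M (x + t + 1) ≠ blk lo s M (x + t)).card ≤ 1 := by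
  rw [card_le_one]
  intro a ha b hb
  rw [mem_filter] at ha hb
  have h1 := (blk_cross hs ha.2).2
  have h2 := (blk_cross hs hb.2).2
  have ha1 := ha.1
  have hb1 := hb.1
  simp only [win, mem_Icc] at ha1 hb1
  have h3 := two_hw_lt hs
  set A := blk lo s M (x + a)
  set B := blk lo s M (x + b)
  have e : a - b = s * (A - B) := by rw [mul_sub]; linarith [mul_add (s : ℤ) A 1, mul_add (s : ℤ) B 1]
  have hs' : (0 : ℤ) < s := by exact_mod_cast hs
  rcases lt_trichotomy A B with h | h | h
  · nlinarith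
  · rw [h] at e; omega
  · nlinarith

theorem card_fib_cross (lo : ℤ) {s : ℕ} (M : ℕ) (hs : 0 < s) (j : ℤ) :
    ((fin lo s M ×ˢ win s).filter fun p =>
      blk lo s M (p.1 + p.2 + 1) ≠ blk lo s M (p.1 + p.2) ∧ blk lo s M (p.1 + p.2) = j).card
      ≤ (win s).card := by
  refine card_le_card_of_injOn (fun p => p.2) (fun p hp => ?_) (fun p hp q hq h => ?_)
  · simp only [coe_filter, mem_product, Set.mem_ofPred_eq] at hp
    exact hp.1.2
  · simp only [coe_filter, mem_product, Set.mem_ofPred_eq] at hp hq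
    have h1 := (blk_cross hs hp.2.1).2
    have h2 := (blk_cross hs hq.2.1).2
    rw [hp.2.2] at h1
    rw [hq.2.2] at h2
    have h' : p.2 = q.2 := h
    exact Prod.ext (by omega) h'

theorem card_block {lo : ℤ} {s M : ℕ} (hs : 0 < s) {j : ℤ} (hj : j ∈ Icc (0 : ℤ) ((M : ℤ) - 1)) :
    ((fin lo s M).filter fun x => blk lo s M x = j).card = s := by
  have hs' : (0 : ℤ) < s := by exact_mod_cast hs
  rw [mem_Icc] at hj
  have : ((fin lo s M).filter fun x => blk lo s M x = j) = Ico (lo + s * j) (lo + s * j + s) := by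
    ext x
    rw [mem_filter, mem_Ico]
    constructor
    · rintro ⟨hx, h⟩
      rw [blk_fin hs hx] at h
      have h1 := Int.emod_add_mul_ediv (x - lo) s
      have h2 := Int.emod_nonneg (x - lo) hs'.ne'
      have h3 := Int.emod_lt_of_pos (x - lo) hs'
      rw [h] at h1
      omega
    · rintro ⟨h1, h2⟩
      have hx : x ∈ fin lo s M := by
        simp only [fin, mem_Icc]
        constructor
        · nlinarith [hj.1]
        · nlinarith [hj.2]
      refine ⟨hx, ?_⟩
      rw [blk_fin hs hx]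
      have e : x - lo = (x - lo - s * j) + s * j := by ring
      rw [e, Int.add_mul_ediv_left _ _ hs'.ne', Int.ediv_eq_zero_of_lt (by omega) (by omega),
        zero_add]
  rw [this, Int.card_Ico]
  omega

theorem card_block_le (lo : ℤ) {s M : ℕ} (hs : 0 < s) (hM : 0 < M) (j : ℤ) :
    ((fin lo s M).filter fun x => blk lo s M x = j).card ≤ s := by
  by_cases hj : j ∈ Icc (0 : ℤ) ((M : ℤ) - 1)
  · exact (card_block hs hj).le
  · rw [filter_eq_empty_iff.2]
    · simp
    · intro x _ h
      exact hj (h ▸ blk_mem lo s hM x)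

theorem card_fib_fst (lo : ℤ) {s M : ℕ} (hs : 0 < s) (hM : 0 < M) (j : ℤ) :
    ((fin lo s M ×ˢ win s).filter fun p => blk lo s M p.1 = j).card ≤ s * (win s).card := by
  rw [filter_product_left (p := fun x => blk lo s M x = j), card_product]
  exact Nat.mul_le_mul_right _ (card_block_le lo hs hM j)

theorem card_fib_min (lo : ℤ) {s M : ℕ} (hs : 0 < s) (hM : 0 < M) (j : ℤ) :
    ((fin lo s M ×ˢ win s).filter fun p =>
      blk lo s M (p.1 + p.2) ≠ blk lo s M p.1 ∧
        min (blk lo s M (p.1 + p.2)) (blk lo s M p.1) = j).card ≤ 2 * (s * (win s).card) := by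
  have hsub : ((fin lo s M ×ˢ win s).filter fun p =>
      blk lo s M (p.1 + p.2) ≠ blk lo s M p.1 ∧
        min (blk lo s M (p.1 + p.2)) (blk lo s M p.1) = j) ⊆
      ((fin lo s M ×ˢ win s).filter fun p => blk lo s M p.1 = j) ∪
        ((fin lo s M ×ˢ win s).filter fun p => blk lo s M p.1 = j + 1) := by
    intro p hp
    rw [mem_filter] at hp
    have hp1 := mem_product.1 hp.1
    have := blk_near hs hp1.1 hp1.2
    rw [mem_union, mem_filter, mem_filter]
    have h2 := hp.2.2
    by_cases h : blk lo s M p.1 = j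
    · exact Or.inl ⟨hp.1, h⟩
    · exact Or.inr ⟨hp.1, by omega⟩
  refine (card_le_card hsub).trans ((card_union_le _ _).trans ?_)
  have h1 := card_fib_fst lo hs hM j
  have h2 := card_fib_fst lo hs hM (j + 1)
  omega

theorem sum_win (s : ℕ) : ∑ t ∈ win s, t = 0 := by
  have : ∑ t ∈ win s, t = ∑ t ∈ win s, - t := by
    refine sum_nbij' (fun t => - t) (fun t => - t) ?_ ?_ ?_ ?_ ?_ <;> simp only [win, mem_Icc]
    · intro a ha; omega
    · intro a ha; omega
    · intro a _; ring
    · intro a _; ring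
    · intro a _; ring
  rw [sum_neg_distrib] at this
  omega

theorem card_shift_le (lo : ℤ) {s M : ℕ} (hs : 0 < s) {j : ℤ}
    (hj : j ∈ Icc (0 : ℤ) ((M : ℤ) - 1)) {t : ℤ} (ht : t ∈ win s) :
    (((fin lo s M).filter fun x => blk lo s M (x + t) = j).card : ℤ) ≤
      s + (if 0 < j then t else 0) - (if j < (M : ℤ) - 1 then t else 0) := by
  have hs' : (0 : ℤ) < s := by exact_mod_cast hs
  rw [mem_Icc] at hj
  simp only [win, mem_Icc] at ht
  have h2 := two_hw_lt hs
  have h3 := hw_nonneg hs
  have hsub : ((fin lo s M).filter fun x => blk lo s M (x + t) = j) ⊆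
      Ico (lo + s * j - (if 0 < j then t else 0))
        (lo + s * j + s - (if j < (M : ℤ) - 1 then t else 0)) := by
    intro x hx
    rw [mem_filter] at hx
    obtain ⟨hx, h⟩ := hx
    simp only [fin, mem_Icc] at hx
    have h1 := Int.emod_add_mul_ediv (x + t - lo) s
    have h4 := Int.emod_nonneg (x + t - lo) hs'.ne'
    have h5 := Int.emod_lt_of_pos (x + t - lo) hs'
    unfold blk at h
    set q := (x + t - lo) / s
    rw [mem_Ico]
    constructor
    · split_ifs with h0
      · have : j ≤ q := by omega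
        nlinarith
      · have : j = 0 := by omega
        rw [this]; omega
    · split_ifs with h0
      · have : q ≤ j := by omega
        nlinarith
      · have : j = M - 1 := by omega
        rw [this]; nlinarith
  have := card_le_card hsub
  rw [Int.card_Ico] at this
  split_ifs at this ⊢ <;> omega

theorem card_fib_shift (lo : ℤ) {s M : ℕ} (hs : 0 < s) {j : ℤ}
    (hj : j ∈ Icc (0 : ℤ) ((M : ℤ) - 1)) :
    ((fin lo s M ×ˢ win s).filter fun p => blk lo s M (p.1 + p.2) = j).card ≤
      s * (win s).card := by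
  have h1 : ((fin lo s M ×ˢ win s).filter fun p => blk lo s M (p.1 + p.2) = j).card =
      ∑ t ∈ win s, ((fin lo s M).filter fun x => blk lo s M (x + t) = j).card := by
    rw [card_filter, sum_product_right]
    refine sum_congr rfl fun t _ => ?_
    rw [card_filter]
  have h2 : ((∑ t ∈ win s, ((fin lo s M).filter fun x => blk lo s M (x + t) = j).card : ℕ) : ℤ) ≤
      ∑ t ∈ win s, ((s : ℤ) + (if 0 < j then t else 0) - (if j < (M : ℤ) - 1 then t else 0)) := by
    push_cast
    exact sum_le_sum fun t ht => card_shift_le lo hs hj ht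
  have h3 : ∑ t ∈ win s, ((s : ℤ) + (if 0 < j then t else 0) - (if j < (M : ℤ) - 1 then t else 0))
      = s * (win s).card := by
    rw [sum_sub_distrib, sum_add_distrib]
    have e1 : ∑ t ∈ win s, (if 0 < j then t else 0) = 0 := by
      split_ifs
      · exact sum_win s
      · simp
    have e2 : ∑ t ∈ win s, (if j < (M : ℤ) - 1 then t else 0) = 0 := by
      split_ifs
      · exact sum_win s
      · simp
    rw [e1, e2]
    simp [mul_comm]
  rw [h1]
  rw [h3] at h2
  exact_mod_cast h2

variable {U : Type} [Fintype U] [DecidableEq U]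

/-- Push-forward of a sum over a product set along a product map. -/
theorem push_eq {Z : Type} [DecidableEq Z] (P : U → Finset Z) (J : U → Finset ℤ) (φ : U → Z → ℤ)
    (hφ : ∀ u z, φ u z ∈ J u) (H : (U → ℤ) → ℝ) :
    ∑ p ∈ Fintype.piFinset P, H (fun u => φ u (p u)) =
      ∑ a ∈ Fintype.piFinset J, (∏ u, (((P u).filter fun z => φ u z = a u).card : ℝ)) * H a := by
  rw [← sum_fiberwise_of_maps_to (s := Fintype.piFinset P) (t := Fintype.piFinset J)
    (g := fun p u => φ u (p u)) (fun p _ => Fintype.mem_piFinset.2 fun u => hφ u _)]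
  refine sum_congr rfl fun a _ => ?_
  rw [sum_congr rfl (g := fun _ => H a) (fun p hp => by rw [(mem_filter.1 hp).2]), sum_const,
    nsmul_eq_mul]
  congr 1
  have : ((Fintype.piFinset P).filter fun p => (fun u => φ u (p u)) = a) =
      Fintype.piFinset fun u => (P u).filter fun z => φ u z = a u := by
    ext p
    simp only [mem_filter, Fintype.mem_piFinset, funext_iff, forall_and]
  rw [this, Fintype.card_piFinset]
  push_cast
  rfl

theorem push_le (X T J : U → Finset ℤ) (φ : U → ℤ → ℤ → ℤ) (u : U) (R : ℤ → ℤ → Prop)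
    [DecidableRel R] (N : U → ℝ) (hφ : ∀ v x t, φ v x t ∈ J v)
    (hN : ∀ v, v ≠ u → ∀ j ∈ J v,
      (((X v ×ˢ T v).filter fun p => φ v p.1 p.2 = j).card : ℝ) ≤ N v)
    (hNu : ∀ j ∈ J u, (((X u ×ˢ T u).filter fun p => R p.1 p.2 ∧ φ u p.1 p.2 = j).card : ℝ) ≤ N u)
    (H : (U → ℤ) → ℝ) (hH : ∀ a, 0 ≤ H a) :
    ∑ σ ∈ Fintype.piFinset X, ∑ t ∈ Fintype.piFinset T,
      (if R (σ u) (t u) then H (fun v => φ v (σ v) (t v)) else 0) ≤
      (∏ v, N v) * ∑ a ∈ Fintype.piFinset J, H a := by
  classical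
  set P : U → Finset (ℤ × ℤ) := fun v => (X v ×ˢ T v).filter fun p => v = u → R p.1 p.2 with hP
  have e : ∑ σ ∈ Fintype.piFinset X, ∑ t ∈ Fintype.piFinset T,
      (if R (σ u) (t u) then H (fun v => φ v (σ v) (t v)) else 0) =
      ∑ p ∈ Fintype.piFinset P, H (fun v => φ v (p v).1 (p v).2) := by
    rw [← sum_product', ← sum_filter]
    refine sum_nbij' (fun q v => (q.1 v, q.2 v)) (fun p => (fun v => (p v).1, fun v => (p v).2))
      ?_ ?_ ?_ ?_ ?_
    · intro q hq
      simp only [mem_filter, mem_product, Fintype.mem_piFinset, hP] at hq ⊢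
      intro v
      refine ⟨⟨hq.1.1 v, hq.1.2 v⟩, ?_⟩
      rintro rfl
      exact hq.2
    · intro p hp
      simp only [mem_filter, mem_product, Fintype.mem_piFinset, hP] at hp ⊢
      exact ⟨⟨fun v => (hp v).1.1, fun v => (hp v).1.2⟩, (hp u).2 rfl⟩
    · intro q _; rfl
    · intro p _; rfl
    · intro q _; rfl
  rw [e, push_eq P J (fun v p => φ v p.1 p.2) (fun v p => hφ v _ _) H, mul_sum]
  refine sum_le_sum fun a ha => mul_le_mul_of_nonneg_right ?_ (hH a)
  refine prod_le_prod (fun v _ => Nat.cast_nonneg _) fun v _ => ?_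
  have hav := Fintype.mem_piFinset.1 ha v
  by_cases hv : v = u
  · subst hv
    refine le_trans (le_of_eq ?_) (hNu _ hav)
    simp only [hP, filter_filter, forall_true_left]
  · refine le_trans (le_of_eq ?_) (hN v hv _ hav)
    simp only [hP, filter_filter, hv, false_imp_iff, true_and]

end Crest.Agent.R309.Coarse
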