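import Crest.Agent.R309.CoarseAux1

/-!
# R309: the smoothed coarse function and its Dirichlet forms
-/

set_option linter.dupNamespace false
set_option linter.unusedSectionVars false

namespace Crest.Agent.R309.Coarse

open Finset

variable {U : Type} [Fintype U] [DecidableEq U]

/-- The block vector of `σ + t`. -/
def Bk (lo : U → ℤ) (s M : U → ℕ) (σ t : U → ℤ) : U → ℤ :=
  fun v => blk (lo v) (s v) (M v) (σ v + t v)

/-- The product window. -/
noncomputable def Tb (s : U → ℕ) : Finset (U → ℤ) := Fintype.piFinset fun v => win (s v)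

/-- The summand of the coarse Dirichlet form. -/
noncomputable def Hd (M : U → ℕ) (πb F : (U → ℤ) → ℝ) (u : U) (a : U → ℤ) : ℝ :=
  if a u < (M u : ℤ) - 1 then min (πb a) (πb (a + dl u)) * (F (a + dl u) - F a) ^ 2 else 0

/-- Restriction of a shift to a set of coordinates. -/
def res (W : Finset U) (t : U → ℤ) : U → ℤ := fun v => if v ∈ W then t v else 0

theorem box_fin (lo : U → ℤ) (s M : U → ℕ) :
    box lo (fun u => lo u + s u * M u - 1) =
      Fintype.piFinset fun u => fin (lo u) (s u) (M u) := rfl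

theorem box_coarse (M : U → ℕ) :
    box 0 (fun u => (M u : ℤ) - 1) = Fintype.piFinset fun u => Icc (0 : ℤ) ((M u : ℤ) - 1) := rfl

theorem card_Tb (s : U → ℕ) : ((Tb s).card : ℝ) = ∏ v, ((win (s v)).card : ℝ) := by
  rw [Tb, Fintype.card_piFinset]; push_cast; rfl

theorem card_Tb_pos {s : U → ℕ} (hs : ∀ u, 0 < s u) : (0 : ℝ) < (Tb s).card := by
  rw [card_Tb]
  exact prod_pos fun v _ => by exact_mod_cast card_win_pos (hs v)

theorem res_mem {s : U → ℕ} (hs : ∀ u, 0 < s u) (W : Finset U) {t : U → ℤ} (ht : t ∈ Tb s) :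
    res W t ∈ Tb s := by
  rw [Tb, Fintype.mem_piFinset] at ht ⊢
  intro v
  unfold res
  split_ifs
  · exact ht v
  · exact zero_mem_win (hs v)

theorem Bk_mem (lo : U → ℤ) (s : U → ℕ) {M : U → ℕ} (hM : ∀ u, 0 < M u) (σ t : U → ℤ) :
    Bk lo s M σ t ∈ box 0 (fun u => (M u : ℤ) - 1) :=
  Fintype.mem_piFinset.2 fun v => blk_mem _ _ (hM v) _

theorem Hd_nonneg (M : U → ℕ) {πb : (U → ℤ) → ℝ} (hπb : ∀ a, 0 ≤ πb a) (F : (U → ℤ) → ℝ) (u : U)
    (a : U → ℤ) : 0 ≤ Hd M πb F u a := by
  unfold Hd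
  split_ifs
  · exact mul_nonneg (le_min (hπb _) (hπb _)) (sq_nonneg _)
  · exact le_rfl

theorem sum_Hd (M : U → ℕ) (πb F : (U → ℤ) → ℝ) (u : U) :
    ∑ a ∈ box 0 (fun u => (M u : ℤ) - 1), Hd M πb F u a =
      dir 0 (fun u => (M u : ℤ) - 1) πb u F := by
  rw [dir, sum_filter]; rfl

theorem dir_nonneg (lo hi : U → ℤ) {π : (U → ℤ) → ℝ} (hπ : ∀ a, 0 ≤ π a) (u : U)
    (F : (U → ℤ) → ℝ) : 0 ≤ dir lo hi π u F :=
  sum_nonneg fun _ _ => mul_nonneg (le_min (hπ _) (hπ _)) (sq_nonneg _)

theorem prod_ite_mul (u : U) (c : ℝ) (g : U → ℝ) :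
    (∏ v, if v = u then c else g v) * g u = c * ∏ v, g v := by
  rw [← mul_prod_erase univ (fun v => if v = u then c else g v) (mem_univ u),
    ← mul_prod_erase univ g (mem_univ u), if_pos rfl,
    prod_congr rfl (g := g) fun v hv => if_neg (ne_of_mem_erase hv)]
  ring

section

variable {lo : U → ℤ} {s M : U → ℕ} {π πb : (U → ℤ) → ℝ} {A : ℝ}

theorem card_crossT (hs : ∀ u, 0 < s u) (σ : U → ℤ) (u : U) :
    (((Tb s).filter fun t => blk (lo u) (s u) (M u) (σ u + t u + 1) ≠
      blk (lo u) (s u) (M u) (σ u + t u)).card : ℝ) * (win (s u)).card ≤ (Tb s).card := by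
  have hsub : ((Tb s).filter fun t => blk (lo u) (s u) (M u) (σ u + t u + 1) ≠
      blk (lo u) (s u) (M u) (σ u + t u)) ⊆ Fintype.piFinset fun v =>
        if v = u then (win (s u)).filter fun y => blk (lo u) (s u) (M u) (σ u + y + 1) ≠
          blk (lo u) (s u) (M u) (σ u + y) else win (s v) := by
    intro t ht
    rw [mem_filter, Tb, Fintype.mem_piFinset] at ht
    rw [Fintype.mem_piFinset]
    intro v
    split_ifs with hv
    · subst hv
      exact mem_filter.2 ⟨ht.1 v, ht.2⟩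
    · exact ht.1 v
  have h1 := card_le_card hsub
  rw [Fintype.card_piFinset] at h1
  have h2 : (((Tb s).filter fun t => blk (lo u) (s u) (M u) (σ u + t u + 1) ≠
      blk (lo u) (s u) (M u) (σ u + t u)).card : ℝ) ≤
      ∏ v, if v = u then (1 : ℝ) else ((win (s v)).card : ℝ) := by
    refine le_trans (Nat.cast_le.2 h1) ?_
    push_cast
    refine prod_le_prod (fun v _ => Nat.cast_nonneg _) fun v _ => ?_
    split_ifs
    · exact_mod_cast card_cross_le_one (lo u) (M u) (hs u) (σ u)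
    · exact le_rfl
  have h3 := prod_ite_mul u 1 fun v => ((win (s v)).card : ℝ)
  rw [card_Tb, ← one_mul (∏ v, ((win (s v)).card : ℝ)), ← h3]
  exact mul_le_mul_of_nonneg_right h2 (Nat.cast_nonneg _)

theorem Bk_add_dl (σ t : U → ℤ) (u v : U) :
    Bk lo s M (σ + dl u) t v = if v = u then blk (lo u) (s u) (M u) (σ u + t u + 1)
      else Bk lo s M σ t v := by
  unfold Bk
  split_ifs with h
  · subst h
    simp only [Pi.add_apply, dl_self]
    congr 1; ring
  · simp only [Pi.add_apply, dl_ne h, add_zero]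

theorem step_term (hs : ∀ u, 0 < s u) (hM : ∀ u, 0 < M u) (hA : 0 ≤ A) (hπ : ∀ σ, 0 ≤ π σ)
    (hπb : ∀ a, 0 ≤ πb a)
    (hc : ∀ σ ∈ box lo (fun u => lo u + s u * M u - 1), ∀ t ∈ Tb s, π σ ≤ A * πb (Bk lo s M σ t))
    (F : (U → ℤ) → ℝ) (u : U) {σ : U → ℤ} (hσ : σ ∈ box lo (fun u => lo u + s u * M u - 1))
    (hσu : σ u < lo u + s u * M u - 1) :
    min (π σ) (π (σ + dl u)) *
      ((∑ t ∈ Tb s, F (Bk lo s M (σ + dl u) t)) / (Tb s).card -
        (∑ t ∈ Tb s, F (Bk lo s M σ t)) / (Tb s).card) ^ 2 ≤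
      A / ((Tb s).card * (win (s u)).card) * ∑ t ∈ Tb s,
        (if blk (lo u) (s u) (M u) (σ u + t u + 1) ≠ blk (lo u) (s u) (M u) (σ u + t u)
          then Hd M πb F u (Bk lo s M σ t) else 0) := by
  have hT := card_Tb_pos hs
  have hn : (0 : ℝ) < (win (s u)).card := by exact_mod_cast card_win_pos (hs u)
  have hσ' : σ + dl u ∈ box lo (fun u => lo u + s u * M u - 1) := by
    rw [mem_box] at hσ ⊢
    intro v
    have := hσ v
    by_cases hv : v = u
    · subst hv
      simp only [Pi.add_apply, dl_self]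
      omega
    · simpa only [Pi.add_apply, dl_ne hv, add_zero] using this
  set T' := (Tb s).filter fun t => blk (lo u) (s u) (M u) (σ u + t u + 1) ≠
      blk (lo u) (s u) (M u) (σ u + t u) with hT'
  have hm : 0 ≤ min (π σ) (π (σ + dl u)) := le_min (hπ _) (hπ _)
  have e1 : (∑ t ∈ Tb s, F (Bk lo s M (σ + dl u) t)) - ∑ t ∈ Tb s, F (Bk lo s M σ t) =
      ∑ t ∈ T', (F (Bk lo s M (σ + dl u) t) - F (Bk lo s M σ t)) := by
    rw [← sum_sub_distrib, hT', sum_filter]
    refine sum_congr rfl fun t _ => ?_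
    split_ifs with h
    · rfl
    · have : Bk lo s M (σ + dl u) t = Bk lo s M σ t := by
        funext v
        rw [Bk_add_dl]
        split_ifs with hv
        · subst hv
          exact not_not.1 h
        · rfl
      rw [this, sub_self]
  have e2 : ∀ t ∈ T', min (π σ) (π (σ + dl u)) *
      (F (Bk lo s M (σ + dl u) t) - F (Bk lo s M σ t)) ^ 2 ≤ A * Hd M πb F u (Bk lo s M σ t) := by
    intro t ht
    rw [hT', mem_filter] at ht
    have hcr := (blk_cross (hs u) ht.2).1
    have hB : Bk lo s M (σ + dl u) t = Bk lo s M σ t + dl u := by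
      funext v
      rw [Bk_add_dl]
      split_ifs with hv
      · subst hv
        simp only [Pi.add_apply, dl_self]
        exact hcr
      · simp only [Pi.add_apply, dl_ne hv, add_zero]
    have hlt : Bk lo s M σ t u < (M u : ℤ) - 1 := by
      have := mem_Icc.1 (blk_mem (lo u) (s u) (hM u) (σ u + t u + 1))
      unfold Bk
      omega
    have h1 := hc σ hσ t ht.1
    have h2 := hc _ hσ' t ht.1
    rw [hB] at h2 ⊢
    rw [Hd, if_pos hlt, ← mul_assoc]
    refine mul_le_mul_of_nonneg_right ?_ (sq_nonneg _)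
    rw [mul_min_of_nonneg _ _ hA]
    exact min_le_min h1 h2
  have e3 := sq_sum_le_card_mul_sum_sq (s := T')
    (f := fun t => F (Bk lo s M (σ + dl u) t) - F (Bk lo s M σ t))
  have e4 : (T'.card : ℝ) * (win (s u)).card ≤ (Tb s).card := card_crossT hs σ u
  have e5 : min (π σ) (π (σ + dl u)) *
      ∑ t ∈ T', (F (Bk lo s M (σ + dl u) t) - F (Bk lo s M σ t)) ^ 2 ≤
      A * ∑ t ∈ T', Hd M πb F u (Bk lo s M σ t) := by
    rw [mul_sum, mul_sum]
    exact sum_le_sum e2
  rw [← sub_div, e1, div_pow, ← sum_filter, ← hT']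
  have hQ : 0 ≤ A * ∑ t ∈ T', Hd M πb F u (Bk lo s M σ t) :=
    mul_nonneg hA (sum_nonneg fun t _ => Hd_nonneg M hπb F u _)
  have e6 : min (π σ) (π (σ + dl u)) *
      (∑ t ∈ T', (F (Bk lo s M (σ + dl u) t) - F (Bk lo s M σ t))) ^ 2 ≤
      T'.card * (A * ∑ t ∈ T', Hd M πb F u (Bk lo s M σ t)) := by
    refine (mul_le_mul_of_nonneg_left e3 hm).trans ?_
    rw [mul_left_comm]
    exact mul_le_mul_of_nonneg_left e5 (Nat.cast_nonneg _)
  rw [← mul_div_assoc, div_le_iff₀ (by positivity)]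
  refine e6.trans ?_
  have e7 : (T'.card : ℝ) ≤ (Tb s).card / (win (s u)).card := by rw [le_div_iff₀ hn]; exact e4
  refine (mul_le_mul_of_nonneg_right e7 hQ).trans (le_of_eq ?_)
  field_simp

theorem dir_le (hs : ∀ u, 0 < s u) (hM : ∀ u, 0 < M u) (hA : 0 ≤ A) (hπ : ∀ σ, 0 ≤ π σ)
    (hπb : ∀ a, 0 ≤ πb a)
    (hc : ∀ σ ∈ box lo (fun u => lo u + s u * M u - 1), ∀ t ∈ Tb s, π σ ≤ A * πb (Bk lo s M σ t))
    (F : (U → ℤ) → ℝ) (u : U) :
    dir lo (fun u => lo u + s u * M u - 1) π u
      (fun σ => (∑ t ∈ Tb s, F (Bk lo s M σ t)) / (Tb s).card) ≤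
      2 * A * (∏ v, (s v : ℝ)) / (s u : ℝ) ^ 2 * dir 0 (fun u => (M u : ℤ) - 1) πb u F := by
  have hT := card_Tb_pos hs
  have hn : (0 : ℝ) < (win (s u)).card := by exact_mod_cast card_win_pos (hs u)
  have hsu : (0 : ℝ) < s u := by exact_mod_cast hs u
  have hD := dir_nonneg 0 (fun u => (M u : ℤ) - 1) hπb u F
  have hpush := push_le (fun v => fin (lo v) (s v) (M v)) (fun v => win (s v))
    (fun v => Icc (0 : ℤ) ((M v : ℤ) - 1)) (fun v x t => blk (lo v) (s v) (M v) (x + t)) u
    (fun x t => blk (lo u) (s u) (M u) (x + t + 1) ≠ blk (lo u) (s u) (M u) (x + t))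
    (fun v => if v = u then ((win (s u)).card : ℝ) else s v * (win (s v)).card)
    (fun v x t => blk_mem _ _ (hM v) _)
    (fun v hv j hj => by
      rw [if_neg hv]
      exact_mod_cast card_fib_shift (lo v) (hs v) hj)
    (fun j _ => by
      rw [if_pos rfl]
      exact_mod_cast card_fib_cross (lo u) (M u) (hs u) j)
    (Hd M πb F u) (Hd_nonneg M hπb F u)
  rw [← box_coarse, sum_Hd, ← box_fin] at hpush
  have hN := prod_ite_mul u ((win (s u)).card : ℝ) fun v => (s v : ℝ) * (win (s v)).card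
  rw [prod_mul_distrib, ← card_Tb] at hN
  set N := ∏ v, if v = u then ((win (s u)).card : ℝ) else s v * (win (s v)).card
  have hN' : N = (∏ v, (s v : ℝ)) * (Tb s).card / s u := by
    field_simp
    have : (N * s u) * (win (s u)).card = ((∏ v, (s v : ℝ)) * (Tb s).card) * (win (s u)).card := by
      linarith
    exact mul_right_cancel₀ hn.ne' this
  have hS : (0 : ℝ) < ∏ v, (s v : ℝ) := prod_pos fun v _ => by exact_mod_cast hs v
  unfold dir
  refine (sum_le_sum fun σ hσ => step_term hs hM hA hπ hπb hc F u (mem_filter.1 hσ).1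
    (mem_filter.1 hσ).2).trans ?_
  rw [← mul_sum]
  have hnn : ∀ σ : U → ℤ, 0 ≤ ∑ t ∈ Tb s,
      (if blk (lo u) (s u) (M u) (σ u + t u + 1) ≠ blk (lo u) (s u) (M u) (σ u + t u)
          then Hd M πb F u (Bk lo s M σ t) else 0) := fun σ => sum_nonneg fun t _ => by
    split_ifs
    · exact Hd_nonneg M hπb F u _
    · exact le_rfl
  have h1 := (sum_le_sum_of_subset_of_nonneg (filter_subset (fun σ : U → ℤ =>
    σ u < lo u + s u * M u - 1) (box lo (fun u => lo u + s u * M u - 1)))
    fun σ _ _ => hnn σ).trans hpush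
  refine (mul_le_mul_of_nonneg_left h1 (by positivity)).trans ?_
  rw [← mul_assoc]
  refine mul_le_mul_of_nonneg_right ?_ hD
  rw [hN']
  have h2 := le_two_card_win (hs u)
  rw [div_mul_div_comm, div_le_div_iff₀ (by positivity) (by positivity)]
  have h3 : 0 ≤ A * (∏ v, (s v : ℝ)) * (Tb s).card * s u := by positivity
  nlinarith [mul_le_mul_of_nonneg_left h2 h3]

theorem tele_step (hs : ∀ u, 0 < s u) (hM : ∀ u, 0 < M u) (hA : 0 ≤ A)
    (hπb : ∀ a, 0 ≤ πb a)
    (hc : ∀ σ ∈ box lo (fun u => lo u + s u * M u - 1), ∀ t ∈ Tb s, π σ ≤ A * πb (Bk lo s M σ t))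
    (F : (U → ℤ) → ℝ) (W : Finset U) (u : U) (hu : u ∉ W) :
    ∑ σ ∈ box lo (fun u => lo u + s u * M u - 1), ∑ t ∈ Tb s,
      π σ * (F (Bk lo s M σ (res W t)) - F (Bk lo s M σ (res (insert u W) t))) ^ 2 ≤
      2 * A * (∏ v, (s v : ℝ)) * (Tb s).card * dir 0 (fun u => (M u : ℤ) - 1) πb u F := by
  have hn : (0 : ℝ) < (win (s u)).card := by exact_mod_cast card_win_pos (hs u)
  have hsu : (0 : ℝ) < s u := by exact_mod_cast hs u
  set φ : U → ℤ → ℤ → ℤ := fun v x t =>
    if v = u then min (blk (lo v) (s v) (M v) (x + t)) (blk (lo v) (s v) (M v) x)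
    else if v ∈ W then blk (lo v) (s v) (M v) (x + t) else blk (lo v) (s v) (M v) x with hφ
  have hpush := push_le (fun v => fin (lo v) (s v) (M v)) (fun v => win (s v))
    (fun v => Icc (0 : ℤ) ((M v : ℤ) - 1)) φ u
    (fun x t => blk (lo u) (s u) (M u) (x + t) ≠ blk (lo u) (s u) (M u) x)
    (fun v => if v = u then 2 * (s u * ((win (s u)).card : ℝ)) else s v * (win (s v)).card)
    (fun v x t => by
      have h1 := mem_Icc.1 (blk_mem (lo v) (s v) (hM v) (x + t))
      have h2 := mem_Icc.1 (blk_mem (lo v) (s v) (hM v) x)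
      simp only [hφ, mem_Icc]
      split_ifs <;> omega)
    (fun v hv j hj => by
      rw [if_neg hv]
      by_cases hW : v ∈ W
      · simp only [hφ, if_neg hv, if_pos hW]
        exact_mod_cast card_fib_shift (lo v) (hs v) hj
      · simp only [hφ, if_neg hv, if_neg hW]
        exact_mod_cast card_fib_fst (lo v) (hs v) (hM v) j)
    (fun j _ => by
      simp only [hφ, if_pos rfl]
      exact_mod_cast card_fib_min (lo u) (hs u) (hM u) j)
    (Hd M πb F u) (Hd_nonneg M hπb F u)
  rw [← box_coarse, sum_Hd, ← box_fin] at hpush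
  have hN := prod_ite_mul u (2 * (s u * ((win (s u)).card : ℝ)))
    fun v => (s v : ℝ) * (win (s v)).card
  rw [prod_mul_distrib, ← card_Tb] at hN
  set N := ∏ v, if v = u then 2 * (s u * ((win (s u)).card : ℝ)) else s v * (win (s v)).card
  have hN' : N = 2 * (∏ v, (s v : ℝ)) * (Tb s).card := by
    have : N * (s u * (win (s u)).card) =
        (2 * (∏ v, (s v : ℝ)) * (Tb s).card) * (s u * (win (s u)).card) := by
      linarith
    exact mul_right_cancel₀ (by positivity) this
  have key : ∀ σ ∈ box lo (fun u => lo u + s u * M u - 1), ∀ t ∈ Tb s,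
      π σ * (F (Bk lo s M σ (res W t)) - F (Bk lo s M σ (res (insert u W) t))) ^ 2 ≤
      A * (if blk (lo u) (s u) (M u) (σ u + t u) ≠ blk (lo u) (s u) (M u) (σ u)
        then Hd M πb F u (fun v => φ v (σ v) (t v)) else 0) := by
    intro σ hσ t ht
    have h1 := hc σ hσ _ (res_mem hs W ht)
    have h2 := hc σ hσ _ (res_mem hs (insert u W) ht)
    have hb1 : ∀ v, Bk lo s M σ (res W t) v =
        if v = u then blk (lo u) (s u) (M u) (σ u) else φ v (σ v) (t v) := by
      intro v
      by_cases hv : v = u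
      · subst hv
        simp [Bk, res, hu]
      · by_cases hW : v ∈ W <;> simp [Bk, res, hφ, hv, hW]
    have hb2 : ∀ v, Bk lo s M σ (res (insert u W) t) v =
        if v = u then blk (lo u) (s u) (M u) (σ u + t u) else φ v (σ v) (t v) := by
      intro v
      by_cases hv : v = u
      · subst hv
        simp [Bk, res]
      · by_cases hW : v ∈ W <;> simp [Bk, res, hφ, hv, hW]
    have hφu : φ u (σ u) (t u) =
        min (blk (lo u) (s u) (M u) (σ u + t u)) (blk (lo u) (s u) (M u) (σ u)) := by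
      simp only [hφ, if_pos rfl]
    have hnear := blk_near (hs u) (Fintype.mem_piFinset.1 hσ u) (Fintype.mem_piFinset.1 ht u)
    have hr1 := mem_Icc.1 (blk_mem (lo u) (s u) (hM u) (σ u + t u))
    have hr2 := mem_Icc.1 (blk_mem (lo u) (s u) (hM u) (σ u))
    have lowc : ∀ (b : U → ℤ) (z : ℤ), (∀ v, b v = if v = u then z else φ v (σ v) (t v)) →
        z = φ u (σ u) (t u) → b = fun v => φ v (σ v) (t v) := by
      intro b z hb hz
      funext v
      rw [hb v]
      split_ifs with hv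
      · rw [hv, hz]
      · rfl
    have highc : ∀ (b : U → ℤ) (z : ℤ), (∀ v, b v = if v = u then z else φ v (σ v) (t v)) →
        z = φ u (σ u) (t u) + 1 → b = (fun v => φ v (σ v) (t v)) + dl u := by
      intro b z hb hz
      funext v
      rw [hb v]
      split_ifs with hv
      · rw [hv, hz]; simp
      · simp [dl_ne hv]
    split_ifs with hne
    · have hlt : (fun v => φ v (σ v) (t v)) u < (M u : ℤ) - 1 := by
        show φ u (σ u) (t u) < _
        omega
      rw [Hd, if_pos hlt, ← mul_assoc, mul_min_of_nonneg _ _ hA]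
      rcases lt_or_gt_of_ne hne with h | h
      · rw [highc _ _ hb1 (by omega)] at h1 ⊢
        rw [lowc _ _ hb2 (by omega)] at h2 ⊢
        exact mul_le_mul_of_nonneg_right (le_min h2 h1) (sq_nonneg _)
      · rw [lowc _ _ hb1 (by omega)] at h1 ⊢
        rw [highc _ _ hb2 (by omega)] at h2 ⊢
        rw [← neg_sub, neg_sq]
        exact mul_le_mul_of_nonneg_right (le_min h1 h2) (sq_nonneg _)
    · have hne' := not_not.1 hne
      rw [lowc _ _ hb1 (by omega), lowc _ _ hb2 (by omega)]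
      simp
  refine (sum_le_sum fun σ hσ => sum_le_sum fun t ht => key σ hσ t ht).trans ?_
  simp only [← mul_sum]
  refine (mul_le_mul_of_nonneg_left hpush hA).trans (le_of_eq ?_)
  rw [hN']; ring

theorem tele (hs : ∀ u, 0 < s u) (hM : ∀ u, 0 < M u) (hA : 0 ≤ A) (hπ : ∀ σ, 0 ≤ π σ)
    (hπb : ∀ a, 0 ≤ πb a)
    (hc : ∀ σ ∈ box lo (fun u => lo u + s u * M u - 1), ∀ t ∈ Tb s, π σ ≤ A * πb (Bk lo s M σ t))
    (F : (U → ℤ) → ℝ) (W : Finset U) :
    ∑ σ ∈ box lo (fun u => lo u + s u * M u - 1), ∑ t ∈ Tb s,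
      π σ * (F (Bk lo s M σ 0) - F (Bk lo s M σ (res W t))) ^ 2 ≤
      W.card * ∑ u ∈ W,
        2 * A * (∏ v, (s v : ℝ)) * (Tb s).card * dir 0 (fun u => (M u : ℤ) - 1) πb u F := by
  have h0 : ∀ t : U → ℤ, res ∅ t = 0 := fun t => by funext v; simp [res]
  induction W using Finset.induction_on with
  | empty => simp [h0]
  | insert u W hu ih =>
    have hstep := tele_step hs hM hA hπb hc F W u hu
    rw [card_insert_of_notMem hu, sum_insert hu]
    rcases Nat.eq_zero_or_pos W.card with hW | hW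
    · rw [card_eq_zero] at hW
      subst hW
      simpa [h0] using hstep
    · have hm : (0 : ℝ) < W.card := by exact_mod_cast hW
      push_cast
      generalize (W.card : ℝ) = m at hm ih ⊢
      have key : m * ∑ σ ∈ box lo (fun u => lo u + s u * M u - 1), ∑ t ∈ Tb s,
          π σ * (F (Bk lo s M σ 0) - F (Bk lo s M σ (res (insert u W) t))) ^ 2 ≤
          (m + 1) * ∑ σ ∈ box lo (fun u => lo u + s u * M u - 1), ∑ t ∈ Tb s,
            π σ * (F (Bk lo s M σ 0) - F (Bk lo s M σ (res W t))) ^ 2 +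
          m * (m + 1) * ∑ σ ∈ box lo (fun u => lo u + s u * M u - 1), ∑ t ∈ Tb s,
            π σ * (F (Bk lo s M σ (res W t)) - F (Bk lo s M σ (res (insert u W) t))) ^ 2 := by
        simp only [mul_sum, ← sum_add_distrib]
        refine sum_le_sum fun σ _ => sum_le_sum fun t _ => ?_
        set x := F (Bk lo s M σ 0) - F (Bk lo s M σ (res W t))
        set y := F (Bk lo s M σ (res W t)) - F (Bk lo s M σ (res (insert u W) t))
        have e : F (Bk lo s M σ 0) - F (Bk lo s M σ (res (insert u W) t)) = x + y := by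
          simp only [x, y]; ring
        rw [e]
        nlinarith [mul_nonneg (hπ σ) (sq_nonneg (x - m * y))]
      have h1 := mul_le_mul_of_nonneg_left ih (by positivity : 0 ≤ m + 1)
      have h2 := mul_le_mul_of_nonneg_left hstep (by positivity : 0 ≤ m * (m + 1))
      refine le_of_mul_le_mul_left ?_ hm
      nlinarith

end

end Crest.Agent.R309.Coarse
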