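import Crest.Agent.R309.Dat

/-!
# R309: the chain is polynomial time
-/

set_option linter.dupNamespace false

namespace Crest.Agent.R309

open Finset Crest.Agent.Lib.PT

namespace Dat

section lemmas

variable {α : Type} [Enc α] {D : α → Dat} {u v x k : α → ℕ} {σ : α → ℕ → ℤ} {φ : α → List ℤ}
  {ω : α → List Bool}

@[fun_prop] theorem g_pt (h : PT D) : PT fun a => (D a).g := by unfold g; fun_prop
@[fun_prop] theorem g_pb (h : PT D) : PB fun a => (D a).g := by unfold g; fun_prop
@[fun_prop] theorem x0_pt (h : PT D) (hu : PT u) : PT fun a => (D a).x0 (u a) := by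
  unfold x0; fun_prop
@[fun_prop] theorem wd_pt (h : PT D) (hu : PT u) : PT fun a => (D a).wd (u a) := by
  unfold wd; fun_prop
@[fun_prop] theorem par_pt (h : PT D) (hu : PT u) : PT fun a => (D a).par (u a) := by
  unfold par; fun_prop
@[fun_prop] theorem A_pt (h : PT D) (hu : PT u) (hv : PT v) :
    PT fun a => (D a).A (u a) (v a) := by
  unfold A; fun_prop
@[fun_prop] theorem tree_pt (h : PT D) (hu : PT u) : PT fun a => (D a).tree (u a) := by
  unfold tree; fun_prop
@[fun_prop] theorem lo_pt (h : PT D) (hu : PT u) : PT fun a => (D a).lo (u a) := by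
  unfold lo; fun_prop
@[fun_prop] theorem hi_pt (h : PT D) (hu : PT u) : PT fun a => (D a).hi (u a) := by
  unfold hi; fun_prop
@[fun_prop] theorem s_pt (h : PT D) (hu : PT u) : PT fun a => (D a).s (u a) := by
  unfold s; fun_prop
@[fun_prop] theorem M_pt (h : PT D) (hu : PT u) : PT fun a => (D a).M (u a) := by
  unfold M; fun_prop
@[fun_prop] theorem pw_pt (h : PT D) (hu : PT u) : PT fun a => (D a).pw (u a) := by
  unfold pw
  exact PT.nat_pow (by fun_prop) (by fun_prop) (PB.min_right _ (by fun_prop))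
@[fun_prop] theorem dg_pt (h : PT D) (hx : PT x) (hu : PT u) :
    PT fun a => (D a).dg (x a) (u a) := by
  unfold dg; fun_prop
@[fun_prop] theorem cor_pt (h : PT D) (hx : PT x) (hu : PT u) :
    PT fun a => (D a).cor (x a) (u a) := by
  unfold cor; fun_prop
@[fun_prop] theorem net_pt (h : PT D) (hσ : PT fun p : α × ℕ => σ p.1 p.2) (hu : PT u) :
    PT fun a => (D a).net (σ a) (u a) := by
  unfold net; fun_prop
@[fun_prop] theorem tv_pt (h : PT D) (hσ : PT fun p : α × ℕ => σ p.1 p.2) (hu : PT u)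
    (hv : PT v) : PT fun a => (D a).tv (σ a) (u a) (v a) := by
  unfold tv; fun_prop
@[fun_prop] theorem Kp_pt (h : PT D) : PT fun a => (D a).Kp := by unfold Kp; fun_prop
@[fun_prop] theorem Wp_pt (h : PT D) (hu : PT u) : PT fun a => (D a).Wp (u a) := by
  unfold Wp; fun_prop
@[fun_prop] theorem penT_pt {t : α → ℤ} (h : PT D) (hu : PT u) (ht : PT t) :
    PT fun a => (D a).penT (u a) (t a) := by
  unfold penT; fun_prop
@[fun_prop] theorem pen_pt (h : PT D) (hφ : PT φ) (hσ : PT fun p : α × ℕ => σ p.1 p.2)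
    (hu : PT u) : PT fun a => (D a).pen (φ a) (σ a) (u a) := by
  unfold pen; fun_prop
@[fun_prop] theorem En_pt (h : PT D) (hφ : PT φ) (hσ : PT fun p : α × ℕ => σ p.1 p.2) :
    PT fun a => (D a).En (φ a) (σ a) := by
  unfold En; fun_prop
@[fun_prop] theorem prop_pt {up : α → Bool} (h : PT D) (hx : PT x) (hup : PT up) (hu : PT u) :
    PT fun a => (D a).prop (x a) (up a) (u a) := by
  unfold prop; fun_prop
@[fun_prop] theorem thr_pt (h : PT D) (hk : PT k) : PT fun a => (D a).thr (k a) := by
  unfold thr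
  exact PT.nat_mul (PT.nat_pow (by fun_prop) (by fun_prop) (PB.min_right _ (by fun_prop)))
    (by fun_prop)
@[fun_prop] theorem cell_pt (h : PT D) (hω : PT ω) : PT fun a => (D a).cell (ω a) := by
  unfold cell; fun_prop
@[fun_prop] theorem step_pt' (h : PT D) (hφ : PT φ) (hx : PT x) (hω : PT ω) :
    PT fun a => (D a).step (φ a) (x a) (ω a) := by
  unfold step; fun_prop
@[fun_prop] theorem fine_pt (h : PT D) (hx : PT x) (hω : PT ω) (hu : PT u) :
    PT fun a => (D a).fine (x a) (ω a) (u a) := by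
  unfold fine; fun_prop
@[fun_prop] theorem dev_pt (h : PT D) (hσ : PT fun p : α × ℕ => σ p.1 p.2) (hu : PT u) :
    PT fun a => (D a).dev (σ a) (u a) := by
  unfold dev; fun_prop
@[fun_prop] theorem cand_pt (h : PT D) (hσ : PT fun p : α × ℕ => σ p.1 p.2) :
    PT fun a => (D a).cand (σ a) := by
  unfold cand; fun_prop
@[fun_prop] theorem ok_pt (h : PT D) (hσ : PT fun p : α × ℕ => σ p.1 p.2) :
    PT fun a => (D a).ok (σ a) := by
  unfold ok
  exact PT.and (PT.ball_lt (by fun_prop) (by fun_prop) (by fun_prop)) (by fun_prop)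
@[fun_prop] theorem out_pt' (h : PT D) (hx : PT x) (hω : PT ω) :
    PT fun a => (D a).out (x a) (ω a) := by
  unfold out; fun_prop

theorem corePT_step_lt (D : Dat) (φ : List ℤ) (x : ℕ) (ω : List Bool) :
    D.step φ x ω < 2 ^ D.G ^ 3 := Nat.mod_lt _ (by positivity)

@[fun_prop] theorem sample_pt (h : PT D) (hφ : PT φ) (hω : PT ω) :
    PT fun a => (D a).sample (φ a) (ω a) := by
  unfold sample
  exact iter_pt (f := fun a => (D a).step (φ a)) (by fun_prop) (by fun_prop) (by fun_prop)
    (by fun_prop) (PT.const 0) hω (fun a _ x => x < 2 ^ (D a).G ^ 3) (fun a => by positivity)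
    (fun a _ x ω _ => corePT_step_lt _ _ _ _) (B := fun a => 4 * (D a).G ^ 3 + 1) (by fun_prop)
    fun a _ x _ h => sz_nat_le_of_lt h

@[fun_prop] theorem est_pt (h : PT D) (hφ : PT φ) (hω : PT ω) (hu : PT u) :
    PT fun a => (D a).est (φ a) (ω a) (u a) := by
  unfold est; fun_prop

@[fun_prop] theorem upd_pt {c : α → List ℤ × Bool} (h : PT D) (hc : PT c) (hω : PT ω) :
    PT fun a => (D a).upd (c a) (ω a) := by
  unfold upd; fun_prop

theorem corePT_upd_inv (D : Dat) (k : ℕ) (c : List ℤ × Bool) (l : List Bool)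
    (h : c.1.length = D.I.nv ∧ ∀ z ∈ c.1, z.natAbs ≤ k) :
    (D.upd c l).1.length = D.I.nv ∧ ∀ z ∈ (D.upd c l).1, z.natAbs ≤ k + 1 := by
  obtain ⟨h1, h2⟩ := h
  have h3 : ∀ z ∈ c.1, z.natAbs ≤ k + 1 := fun z hz => (h2 z hz).trans (Nat.le_succ k)
  unfold upd
  split_ifs
  · exact ⟨h1, h3⟩
  · generalize (List.range D.I.nv).find? _ = o
    cases o with
    | none => exact ⟨h1, h3⟩
    | some r =>
      refine ⟨by simpa using h1, fun z hz => ?_⟩
      simp only [Option.elim_some] at hz
      rcases List.mem_or_eq_of_mem_set hz with hz | rfl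
      · exact h3 z hz
      · have h4 : (c.1.getD r 0).natAbs ≤ k := by
          rw [List.getD_eq_getElem?_getD]
          cases hr : c.1[r]? with
          | none => simp
          | some y => exact h2 y (List.mem_of_getElem? hr)
        have h5 : (D.est c.1 l r).sign.natAbs ≤ 1 := by
          rw [Int.natAbs_sign]; split_ifs <;> simp
        exact (Int.natAbs_add_le _ _).trans (Nat.add_le_add h4 h5)

@[fun_prop] theorem learn_pt' (h : PT D) (hω : PT ω) : PT fun a => (D a).learn (ω a) := by
  unfold learn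
  refine PT.fst ?_
  refine iter_pt (f := fun a => (D a).upd) (by fun_prop) (by fun_prop) (by fun_prop)
    (by fun_prop) (by fun_prop) hω
    (fun a k c => c.1.length = (D a).I.nv ∧ ∀ z ∈ c.1, z.natAbs ≤ k)
    (fun a => ⟨by simp, fun z hz => by rw [List.eq_of_mem_replicate hz]; simp⟩)
    (fun a k c ω hc => corePT_upd_inv _ k c ω hc)
    (B := fun a => (D a).I.nv * (8 * (D a).G ^ 33 + 7) + 5) (by fun_prop) fun a k c hk hc => ?_
  obtain ⟨h1, h2⟩ := hc
  have h3 : sz c.1 ≤ _ := sz_list_le (B := 8 * (D a).G ^ 33 + 6) fun z hz => by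
    have := sz_int_le_of_le ((h2 z hz).trans hk)
    have := sz_nat_le_self ((D a).G ^ 33)
    omega
  have h4 := sz_bool_le c.2
  rw [h1] at h3
  have h5 : 8 * (D a).G ^ 33 + 6 + 1 = 8 * (D a).G ^ 33 + 7 := rfl
  rw [h5] at h3
  rw [sz_prod]
  omega

end lemmas

/-- Prove `@[fun_prop]` lemmas for all the definitions of `Dat.lean` in turn, in the style of `Inst.div_pt` for those
that take a function `σ` (hypothesis `PT fun p : α × ℕ => σ p.1 p.2`); exponents `min u G`, `min k (G^35)` are `PB` by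
`PB.min_right`; bounded quantifiers by `PT.ball_lt`. -/
theorem step_pt : PT fun p : (Dat × List ℤ) × ℕ × List Bool => p.1.1.step p.1.2 p.2.1 p.2.2 :=
  step_pt' (by fun_prop) (by fun_prop) (by fun_prop) (by fun_prop)

theorem out_pt : PT fun p : (Dat × List ℤ) × ℕ × List Bool => p.1.1.out p.2.1 p.2.2 :=
  out_pt' (by fun_prop) (by fun_prop) (by fun_prop)

/-- `iter_pt` twice: states of the chain are below `2 ^ G^3`; after `k` rounds the field has length `nv` and
entries of absolute value at most `k`. -/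
theorem learn_pt : PT fun p : Dat × List Bool => p.1.learn p.2 :=
  learn_pt' (by fun_prop) (by fun_prop)

end Dat

end Crest.Agent.R309
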