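import Crest.Agent.R309.Desc

/-!
# R309: learning the field
-/

set_option linter.dupNamespace false

namespace Crest.Agent.R309

open Finset Crest.Agent.Lib.PT

namespace Dat

variable {D : Dat}

theorem learn_getD_set (φ : List ℤ) (r r' : ℕ) (a : ℤ) :
    (φ.set r a).getD r' 0 = a ∨ (φ.set r a).getD r' 0 = φ.getD r' 0 := by
  simp only [List.getD_eq_getElem?_getD, List.getElem?_set]
  split_ifs with h1 h2
  · left; rfl
  · right; subst h1; rw [List.getElem?_eq_none (by omega)]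
  · right; rfl

theorem learn_abs_sign (a : ℤ) : |a.sign| ≤ 1 := by
  rcases lt_trichotomy a 0 with h | h | h
  · rw [Int.sign_eq_neg_one_of_neg h]; simp
  · subst h; simp
  · rw [Int.sign_eq_one_of_pos h]; simp

theorem learn_set_bound {φ : List ℤ} {k : ℕ} (h : ∀ r, |φ.getD r 0| ≤ (k : ℤ)) (r : ℕ) (a : ℤ) :
    ∀ r', |(φ.set r (φ.getD r 0 + a.sign)).getD r' 0| ≤ ((k + 1 : ℕ) : ℤ) := by
  intro r'
  push_cast
  rcases learn_getD_set φ r r' (φ.getD r 0 + a.sign) with e | e <;> rw [e]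
  · have h1 := h r
    have h2 := learn_abs_sign a
    have h3 := abs_add_le (φ.getD r 0) a.sign
    omega
  · have := h r'; omega

/-- The two possible outcomes of a round with the flag unset. -/
theorem learn_upd_cases (D : Dat) (c : List ℤ × Bool) (l : List Bool) (hc : c.2 = false) :
    (D.upd c l = (c.1, true) ∧ ∀ r < D.I.nv, D.par r = none →
      2 * (D.G : ℤ) ^ 2 * |D.est c.1 l r| ≤ (D.G : ℤ) ^ 64) ∨
    ∃ r < D.I.nv, D.par r = none ∧ (D.G : ℤ) ^ 64 < 2 * (D.G : ℤ) ^ 2 * |D.est c.1 l r| ∧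
      D.upd c l = (c.1.set r (c.1.getD r 0 + (D.est c.1 l r).sign), false) := by
  unfold upd
  rw [if_neg (by simp [hc])]
  cases hf : (List.range D.I.nv).find? fun r =>
      decide (D.par r = none ∧ (D.G : ℤ) ^ 64 < 2 * (D.G : ℤ) ^ 2 * |D.est c.1 l r|) with
  | none =>
    left
    refine ⟨rfl, fun r hr hp => ?_⟩
    have := List.find?_eq_none.1 hf r (List.mem_range.2 hr)
    simp only [decide_eq_true_eq, not_and, not_lt] at this
    exact this hp
  | some r =>
    right
    have h1 := List.find?_some hf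
    have h2 := List.mem_range.1 (List.mem_of_find?_eq_some hf)
    simp only [decide_eq_true_eq] at h1
    exact ⟨r, h2, h1.1, h1.2, rfl⟩

theorem learn_upd_true (D : Dat) (c : List ℤ × Bool) (l : List Bool) (hc : c.2 = true) :
    D.upd c l = c := by
  unfold upd; rw [if_pos hc]

/-- Each round changes an entry by at most one (`iter_inv'`). -/
theorem learn_adm (D : Dat) (l : List Bool) : D.Adm (D.learn l) := by
  have := iter_inv' D.upd (D.G ^ 201) (J := fun k c => ∀ r, |c.1.getD r 0| ≤ (k : ℤ))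
    (s := (List.replicate D.I.nv 0, false)) (fun k s ω hs => by
      cases hc : s.2 with
      | true =>
        rw [learn_upd_true D s ω hc]
        intro r; have := hs r; push_cast; omega
      | false =>
        rcases learn_upd_cases D s ω hc with ⟨e, -⟩ | ⟨r, -, -, -, e⟩ <;> rw [e]
        · intro r; have := hs r; push_cast; omega
        · exact learn_set_bound hs r _)
    (fun r => by
      simp only [List.getD_eq_getElem?_getD, List.getElem?_replicate]
      split_ifs <;> simp) (D.G ^ 33) l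
  intro r
  have h := this r
  push_cast at h
  exact h

/-- The invariant of the learning loop. -/
def LearnInv (D : Dat) (k : ℕ) (c : List ℤ × Bool) : Prop :=
  c.1.length = D.I.nv ∧ (∀ r, |c.1.getD r 0| ≤ (k : ℤ)) ∧ D.Zb c.1 ≤ D.Om.card ∧
    (c.2 = true → ∀ r < D.I.nv, D.par r = none → |D.mean c.1 r| ≤ 1 / (D.G : ℝ) ^ 2) ∧
    (c.2 = false → D.Zb c.1 ≤ (1 - 1 / (8 * (D.G : ℝ) ^ 29)) ^ k * D.Om.card)

theorem Good.learn_c (h : D.Good) :
    0 ≤ 1 - 1 / (8 * (D.G : ℝ) ^ 29) ∧ 1 - 1 / (8 * (D.G : ℝ) ^ 29) ≤ 1 := by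
  have hG := h.G_geR
  have h1 : (1 : ℝ) ≤ (D.G : ℝ) ^ 29 := one_le_pow₀ (by linarith)
  constructor
  · rw [sub_nonneg, div_le_one (by positivity)]; linarith
  · have : 0 ≤ 1 / (8 * (D.G : ℝ) ^ 29) := by positivity
    linarith

/-- With accurate estimates the invariant is kept. -/
theorem Good.learn_step_det (h : D.Good) {k : ℕ} {c : List ℤ × Bool} (hJ : D.LearnInv k c)
    (hc : c.2 = false) {l : List Bool}
    (ha : ∀ r < D.I.nv, D.par r = none → |(D.est c.1 l r : ℝ) - (D.G : ℝ) ^ 64 * D.mean c.1 r| <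
      (D.G : ℝ) ^ 64 / (4 * (D.G : ℝ) ^ 2)) : D.LearnInv (k + 1) (D.upd c l) := by
  obtain ⟨h1, h2, h3, -, h5⟩ := hJ
  have hG := h.G_geR
  have hG0 : (0 : ℝ) < D.G := by linarith
  have hN : (0 : ℝ) < (D.G : ℝ) ^ 64 := by positivity
  have hG2 : (0 : ℝ) < (D.G : ℝ) ^ 2 := by positivity
  rcases learn_upd_cases D c l hc with ⟨e, hb⟩ | ⟨r, hr, hp, hb, e⟩ <;> rw [e]
  · refine ⟨h1, fun r => ?_, h3, fun _ r hr hp => ?_, fun h' => by simp at h'⟩
    · have := h2 r; push_cast; omega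
    · have b1 : 2 * (D.G : ℝ) ^ 2 * |(D.est c.1 l r : ℝ)| ≤ (D.G : ℝ) ^ 64 := by
        exact_mod_cast hb r hr hp
      have b2 := ha r hr hp
      show |D.mean c.1 r| ≤ _
      generalize D.mean c.1 r = m at b2 ⊢
      generalize (D.est c.1 l r : ℝ) = x at b1 b2
      generalize (D.G : ℝ) ^ 64 = N at b1 b2 hN
      generalize (D.G : ℝ) ^ 2 = A at b1 b2 hG2 ⊢
      rw [lt_div_iff₀ (by positivity)] at b2
      rw [le_div_iff₀ hG2]
      have b3 : |N * m| ≤ |x| + |x - N * m| := by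
        have := abs_sub x (x - N * m)
        rwa [sub_sub_cancel] at this
      rw [abs_mul, abs_of_pos hN] at b3
      have b4 : N * |m| * A ≤ (|x| + |x - N * m|) * A := mul_le_mul_of_nonneg_right b3 hG2.le
      have b5 : N * (|m| * A) ≤ N * 1 := by nlinarith
      exact le_of_mul_le_mul_left b5 hN
  · have b1 : (D.G : ℝ) ^ 64 < 2 * (D.G : ℝ) ^ 2 * |(D.est c.1 l r : ℝ)| := by exact_mod_cast hb
    have b2 := ha r hr hp
    have hne : D.est c.1 l r ≠ 0 := by
      intro h0; rw [h0] at b1; simp at b1; linarith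
    have hε : (D.est c.1 l r).sign = 1 ∨ (D.est c.1 l r).sign = -1 := by
      rcases lt_or_gt_of_ne hne with h' | h'
      · exact Or.inr (Int.sign_eq_neg_one_of_neg h')
      · exact Or.inl (Int.sign_eq_one_of_pos h')
    have hm : 1 / (4 * (D.G : ℝ) ^ 2) ≤ ((D.est c.1 l r).sign : ℤ) * D.mean c.1 r := by
      have hs : (((D.est c.1 l r).sign : ℤ) : ℝ) * (D.est c.1 l r : ℝ) = |(D.est c.1 l r : ℝ)| := by
        have := Int.sign_mul_self_eq_abs (D.est c.1 l r)
        exact_mod_cast this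
      have hε' : (((D.est c.1 l r).sign : ℤ) : ℝ) = 1 ∨ (((D.est c.1 l r).sign : ℤ) : ℝ) = -1 := by
        rcases hε with h' | h' <;> rw [h'] <;> simp
      generalize (((D.est c.1 l r).sign : ℤ) : ℝ) = s at hs hε' ⊢
      generalize D.mean c.1 r = m at b2 ⊢
      generalize (D.est c.1 l r : ℝ) = x at b1 b2 hs
      generalize (D.G : ℝ) ^ 64 = N at b1 b2 hN
      generalize (D.G : ℝ) ^ 2 = A at b1 b2 hG2 ⊢
      rw [lt_div_iff₀ (by positivity)] at b2
      rw [div_le_iff₀ (by positivity)]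
      have b3 : s * (x - N * m) ≤ |x - N * m| := by
        rcases hε' with h' | h' <;> rw [h']
        · rw [one_mul]; exact le_abs_self _
        · rw [neg_one_mul]; exact neg_le_abs _
      have b4 : s * (x - N * m) * (4 * A) ≤ |x - N * m| * (4 * A) :=
        mul_le_mul_of_nonneg_right b3 (by positivity)
      have b5 : N * 1 ≤ N * (s * m * (4 * A)) := by
        have : s * (x - N * m) * (4 * A) = s * x * (4 * A) - N * (s * m * (4 * A)) := by ring
        rw [this, hs] at b4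
        nlinarith
      exact le_of_mul_le_mul_left b5 hN
    have hd := h.descent h1 hr hp hε hm
    obtain ⟨c0, c1⟩ := h.learn_c
    have hZ := (h.Zb_pos c.1).le
    refine ⟨by simpa using h1, learn_set_bound h2 r _, ?_, fun h' => by simp at h', fun _ => ?_⟩
    · refine hd.trans (le_trans ?_ h3)
      nlinarith
    · refine hd.trans ?_
      rw [pow_succ' _ k, mul_assoc]
      exact mul_le_mul_of_nonneg_left (h5 hc) c0

theorem Good.learn_step (h : D.Good) {k : ℕ} (hk : k < D.G ^ 33) {c : List ℤ × Bool}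
    (hJ : D.LearnInv k c) :
    1 - 1 / (D.G : ℝ) ^ 34 ≤ Pr (D.G ^ 201) fun ω => D.LearnInv (k + 1) (D.upd c ω) := by
  have hG := h.G_geR
  have hG0 : (0 : ℝ) < D.G := by linarith
  cases hc : c.2 with
  | true =>
    rw [Pr_true]
    · have : 0 ≤ 1 / (D.G : ℝ) ^ 34 := by positivity
      linarith
    · intro l _
      rw [learn_upd_true D c l hc]
      obtain ⟨h1, h2, h3, h4, -⟩ := hJ
      refine ⟨h1, fun r => ?_, h3, h4, fun h' => by simp [hc] at h'⟩
      have := h2 r; push_cast; omega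
  | false =>
    have hadm : D.Adm c.1 := fun r => (hJ.2.1 r).trans (by exact_mod_cast hk.le)
    have hu := Pr_exists_le (D.G ^ 201) ((range D.I.nv).filter fun r => D.par r = none)
      fun r l => (D.G : ℝ) ^ 64 / (4 * (D.G : ℝ) ^ 2) ≤
        |(D.est c.1 l r : ℝ) - (D.G : ℝ) ^ 64 * D.mean c.1 r|
    have hs : ∑ r ∈ (range D.I.nv).filter fun r => D.par r = none,
        Pr (D.G ^ 201) (fun l => (D.G : ℝ) ^ 64 / (4 * (D.G : ℝ) ^ 2) ≤
          |(D.est c.1 l r : ℝ) - (D.G : ℝ) ^ 64 * D.mean c.1 r|) ≤ 1 / (D.G : ℝ) ^ 34 := by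
      refine (Finset.sum_le_card_nsmul _ _ (1 / (D.G : ℝ) ^ 35)
        fun r hr => h.est_acc hadm (mem_filter.1 hr).2).trans ?_
      have hcard : (((range D.I.nv).filter fun r => D.par r = none).card : ℝ) ≤ D.G := by
        have := (Finset.card_filter_le (range D.I.nv) fun r => D.par r = none)
        rw [card_range] at this
        exact_mod_cast this.trans h.nv_le
      rw [nsmul_eq_mul]
      calc _ ≤ (D.G : ℝ) * (1 / (D.G : ℝ) ^ 35) := mul_le_mul_of_nonneg_right hcard (by positivity)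
        _ = 1 / (D.G : ℝ) ^ 34 := by field_simp
    have hn := Pr_not (D.G ^ 201) fun l => ∃ r ∈ (range D.I.nv).filter fun r => D.par r = none,
      (D.G : ℝ) ^ 64 / (4 * (D.G : ℝ) ^ 2) ≤ |(D.est c.1 l r : ℝ) - (D.G : ℝ) ^ 64 * D.mean c.1 r|
    refine le_trans (by linarith) (hn.ge.trans (Pr_mono fun l _ hl => ?_))
    refine h.learn_step_det hJ hc fun r hr hp => ?_
    by_contra hcon
    exact hl ⟨r, mem_filter.2 ⟨mem_range.2 hr, hp⟩, not_lt.1 hcon⟩

/-- After `G^33` rounds of descent the partition function would be below one. -/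
theorem Good.learn_end (h : D.Good) :
    (1 - 1 / (8 * (D.G : ℝ) ^ 29)) ^ (D.G ^ 33) * D.Om.card < 1 := by
  have hG := h.G_geR
  have hG0 : (0 : ℝ) < D.G := by linarith
  obtain ⟨c0, -⟩ := h.learn_c
  have e1 : 1 - 1 / (8 * (D.G : ℝ) ^ 29) ≤ Real.exp (- (1 / (8 * (D.G : ℝ) ^ 29))) := by
    have := Real.add_one_le_exp (- (1 / (8 * (D.G : ℝ) ^ 29)))
    linarith
  have e2 : (1 - 1 / (8 * (D.G : ℝ) ^ 29)) ^ (D.G ^ 33) ≤ Real.exp (- ((D.G : ℝ) ^ 4 / 8)) := by
    refine (pow_le_pow_left₀ c0 e1 _).trans (le_of_eq ?_)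
    rw [← Real.exp_nat_mul]
    congr 1
    push_cast
    field_simp
  have e3 : (D.Om.card : ℝ) ≤ Real.exp ((D.G : ℝ) ^ 3) := by
    have h1 : (D.Om.card : ℝ) ≤ 2 ^ (D.G ^ 3) := by exact_mod_cast h.card_le
    refine h1.trans ?_
    have h2 : (2 : ℝ) ≤ Real.exp 1 := by
      have := Real.add_one_le_exp (1 : ℝ); linarith
    refine (pow_le_pow_left₀ (by norm_num) h2 _).trans (le_of_eq ?_)
    rw [← Real.exp_nat_mul]; push_cast; rw [mul_one]
  calc _ ≤ Real.exp (- ((D.G : ℝ) ^ 4 / 8)) * Real.exp ((D.G : ℝ) ^ 3) :=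
        mul_le_mul e2 e3 (by positivity) (Real.exp_pos _).le
    _ = Real.exp (- ((D.G : ℝ) ^ 4 / 8) + (D.G : ℝ) ^ 3) := (Real.exp_add _ _).symm
    _ < 1 := by
        rw [Real.exp_lt_one_iff]
        have h3 : (0 : ℝ) < (D.G : ℝ) ^ 3 := by positivity
        have : (D.G : ℝ) ^ 4 = D.G * (D.G : ℝ) ^ 3 := by ring
        rw [this]; nlinarith

/-- `iter_good` with `δ = G^{-34}` (union bound over the roots, `est_acc`) and the invariant, after `k` rounds:
`φ.length = nv`, all `|φ r| ≤ k`, `Zb φ ≤ card Om`, if the flag is set then `|mean φ r| ≤ G^{-2}` at all roots, and if not then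
`Zb φ ≤ (1 - 1 / (8 G^29))^k card Om`.  When all estimates are accurate: if no root passes the test, then
`|est| ≤ G^64 / (2 G²)` and `|mean| ≤ 3 / (4 G²)`; otherwise `sign est * mean ≥ 1 / (4 G²)` and `descent` applies.  After
`G^33` rounds the flag is set, since otherwise `1 ≤ Zb φ ≤ exp (- G^4 / 8) 2^{G^3} < 1` (`one_le_Zb`, `card_le`). -/
theorem Good.learn_good (h : D.Good) {n : ℕ} (hn : D.G ^ 234 ≤ n) :
    1 / 2 ≤ Pr n fun l => D.GoodPhi (D.learn l) := by
  have hG := h.G_geR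
  have hG0 : (0 : ℝ) < D.G := by linarith
  have h0 : D.LearnInv 0 (List.replicate D.I.nv 0, false) := by
    refine ⟨by simp, fun r => ?_, h.Zb_zero, fun h' => by simp at h', fun _ => ?_⟩
    · simp only [List.getD_eq_getElem?_getD, List.getElem?_replicate]
      split_ifs <;> simp
    · simpa using h.Zb_zero
  have hg := iter_good D.upd (D.G ^ 201) (J := D.LearnInv) (δ := 1 / (D.G : ℝ) ^ 34)
    (by positivity) (t := D.G ^ 33) (fun k hk s hs => h.learn_step hk hs) h0
  have hn' : D.G ^ 33 * D.G ^ 201 ≤ n := by rw [← pow_add]; exact hn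
  have e := Ex_iter D.upd (D.G ^ 201) hn' (List.replicate D.I.nv 0, false)
    fun c => ind (D.GoodPhi c.1)
  have e' : (Pr n fun l => D.GoodPhi (D.learn l)) = Pr (D.G ^ 33 * D.G ^ 201) fun l =>
      D.GoodPhi (iter D.upd (D.G ^ 201) (D.G ^ 33) (List.replicate D.I.nv 0, false) l).1 := e
  rw [e']
  refine le_trans ?_ (hg.trans (Pr_mono fun l _ hl => ?_))
  · have : ((D.G ^ 33 : ℕ) : ℝ) * (1 / (D.G : ℝ) ^ 34) = 1 / D.G := by
      push_cast; field_simp
    rw [this]
    have : 1 / (D.G : ℝ) ≤ 1 / 2 := one_div_le_one_div_of_le (by norm_num) (by linarith)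
    linarith
  · generalize iter D.upd (D.G ^ 201) (D.G ^ 33) (List.replicate D.I.nv 0, false) l = c at hl ⊢
    obtain ⟨-, -, h3, h4, h5⟩ := hl
    have hc : c.2 = true := by
      by_contra hc
      have h6 := h5 (by simpa using hc)
      have h7 := h.one_le_Zb c.1
      have h8 := h.learn_end
      linarith
    refine ⟨fun r hr hp => ?_, h3⟩
    have h6 := h4 hc r hr hp
    have hZ := h.Zb_pos c.1
    unfold mean at h6
    rw [abs_div, abs_of_pos hZ, div_le_iff₀ hZ] at h6
    refine h6.trans (le_of_eq ?_)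
    ring

end Dat

end Crest.Agent.R309
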