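import Crest.Agent.R309.Reach

/-!
# R309: widths of the cells
-/

set_option linter.dupNamespace false

namespace Crest.Agent.R309

open Finset Crest.Agent.Lib.PT

namespace Width

/-- The type of reachability procedures. -/
abbrev Rch : Type := Inst × List Bool × List Bool × List Bool → List (Option (List ℤ))

/-- Cells usable forwards. -/
def fwL (I : Inst) (X0 : List ℕ) (u θ : ℕ) : List Bool :=
  (List.range I.nc).map fun u' => decide (u' ≠ u) && decide (θ ≤ I.b u' - X0.getD u' 0)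

/-- Cells usable backwards. -/
def bwL (I : Inst) (X0 : List ℕ) (u θ : ℕ) : List Bool :=
  (List.range I.nc).map fun u' => decide (u' ≠ u) && decide (θ ≤ X0.getD u' 0)

/-- A single source. -/
def srcL (I : Inst) (s : ℕ) : List Bool := (List.range I.nv).map fun v => decide (v = s)

/-- `t` is reached from `s`. -/
def rch (reach : Rch) (I : Inst) (X0 : List ℕ) (u θ s t : ℕ) : Bool :=
  ((reach (I, fwL I X0 u θ, bwL I X0 u θ, srcL I s)).getD t none).isSome

/-- The cell `u` can be changed by `θ` along a cycle. -/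
def ok (reach : Rch) (I : Inst) (X0 : List ℕ) (u θ : ℕ) : Bool :=
  (decide (θ ≤ I.b u - X0.getD u 0) && rch reach I X0 u θ (I.q u) (I.p u)) ||
    (decide (θ ≤ X0.getD u 0) && rch reach I X0 u θ (I.p u) (I.q u))

/-- The powers of two up to the size of `n`. -/
def pows (n : ℕ) : List ℕ := (List.range (n.size + 1)).map fun j => 2 ^ j

/-- The width of one cell. -/
def wd (reach : Rch) (I : Inst) (X0 : List ℕ) (u : ℕ) : ℕ :=
  ((pows (I.b u)).filter (ok reach I X0 u)).foldr max 0

section pt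

variable {α : Type} [Enc α] {I : α → Inst} {u θ s t : α → ℕ} {X : α → List ℕ}
  {reach : Inst × List Bool × List Bool × List Bool → List (Option (List ℤ))}

@[fun_prop] theorem fwL_pt (hI : PT I) (hX : PT X) (hu : PT u) (hθ : PT θ) :
    PT fun a => fwL (I a) (X a) (u a) (θ a) := by
  unfold fwL; fun_prop

@[fun_prop] theorem bwL_pt (hI : PT I) (hX : PT X) (hu : PT u) (hθ : PT θ) :
    PT fun a => bwL (I a) (X a) (u a) (θ a) := by
  unfold bwL; fun_prop

@[fun_prop] theorem srcL_pt (hI : PT I) (hs : PT s) : PT fun a => srcL (I a) (s a) := by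
  unfold srcL; fun_prop

theorem rch_pt (hr : PT reach) (hI : PT I) (hX : PT X) (hu : PT u) (hθ : PT θ) (hs : PT s)
    (ht : PT t) : PT fun a => rch reach (I a) (X a) (u a) (θ a) (s a) (t a) := by
  unfold rch
  exact PT.isSome (PT.getD (hr.comp (by fun_prop)) ht (PT.const _))

theorem ok_pt (hr : PT reach) (hI : PT I) (hX : PT X) (hu : PT u) (hθ : PT θ) :
    PT fun a => ok reach (I a) (X a) (u a) (θ a) := by
  have h1 := rch_pt hr hI hX hu hθ (Inst.q_pt hI hu) (Inst.p_pt hI hu)
  have h2 := rch_pt hr hI hX hu hθ (Inst.p_pt hI hu) (Inst.q_pt hI hu)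
  unfold ok
  fun_prop

theorem pows_pt (hs : PT s) : PT fun a => pows (s a) := by
  unfold pows
  exact PT.map_range (f := fun _ j => 2 ^ j) (by fun_prop) (by fun_prop)
    (PT.nat_pow (by fun_prop) (by fun_prop)
      (PB.idx (n := fun a => (s a).size + 1) (by fun_prop)))

theorem wd_pt (hr : PT reach) (hI : PT I) (hX : PT X) (hu : PT u) :
    PT fun a => wd reach (I a) (X a) (u a) := by
  unfold wd
  exact PT.nat_foldr_max (PT.filter (f := fun a θ => ok reach (I a) (X a) (u a) θ)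
    (pows_pt (by fun_prop)) (ok_pt hr (by fun_prop) (by fun_prop) (by fun_prop) (by fun_prop)))
    (PT.const _)

end pt

theorem getD_map_range {β : Type} (f : ℕ → β) {n i : ℕ} (hi : i < n) (d : β) :
    ((List.range n).map f).getD i d = f i := by
  simp [List.getD_eq_getElem?_getD, hi]

theorem foldr_max_mem (l : List ℕ) : l.foldr max 0 = 0 ∨ l.foldr max 0 ∈ l := by
  induction l with
  | nil => exact Or.inl rfl
  | cons a l ih =>
    rw [List.foldr_cons]
    rcases max_choice a (l.foldr max 0) with h | h <;> rw [h]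
    · exact Or.inr List.mem_cons_self
    · exact ih.imp_right (List.mem_cons_of_mem _)

theorem le_foldr_max {l : List ℕ} {a : ℕ} (h : a ∈ l) : a ≤ l.foldr max 0 := by
  induction l with
  | nil => cases h
  | cons b l ih =>
    rw [List.foldr_cons]
    rcases List.mem_cons.1 h with rfl | h
    · exact le_max_left _ _
    · exact (ih h).trans (le_max_right _ _)

variable {I : Inst} {X0 : List ℕ} {u θ : ℕ}

theorem fwL_iff {u' : ℕ} (h : u' < I.nc) :
    (fwL I X0 u θ).getD u' false = true ↔ u' ≠ u ∧ θ ≤ I.b u' - X0.getD u' 0 := by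
  rw [fwL, getD_map_range _ h]
  simp only [Bool.and_eq_true, decide_eq_true_eq]

theorem bwL_iff {u' : ℕ} (h : u' < I.nc) :
    (bwL I X0 u θ).getD u' false = true ↔ u' ≠ u ∧ θ ≤ X0.getD u' 0 := by
  rw [bwL, getD_map_range _ h]
  simp only [Bool.and_eq_true, decide_eq_true_eq]

theorem srcL_iff {s v : ℕ} (h : v < I.nv) : (srcL I s).getD v false = true ↔ v = s := by
  rw [srcL, getD_map_range _ h]
  simp only [decide_eq_true_eq]

theorem exists_sol (h0 : I.IsSol X0) (Z : ℕ → ℤ)
    (hb : ∀ u < I.nc, 0 ≤ (X0.getD u 0 : ℤ) + Z u ∧ (X0.getD u 0 : ℤ) + Z u ≤ I.b u)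
    (hd : ∀ v < I.nv, I.div Z v = 0) :
    ∃ X, I.IsSol X ∧ ∀ u < I.nc, (X.getD u 0 : ℤ) = X0.getD u 0 + Z u := by
  have key : ∀ u < I.nc, ((((List.range I.nc).map fun u =>
      ((X0.getD u 0 : ℤ) + Z u).toNat).getD u 0 : ℕ) : ℤ) = X0.getD u 0 + Z u := fun u hu => by
    rw [getD_map_range _ hu, Int.toNat_of_nonneg (hb u hu).1]
  refine ⟨_, ⟨by simp, fun u hu => ?_, fun v hv => ?_⟩, key⟩
  · have h1 := key u hu
    have h2 := (hb u hu).2
    omega
  · rw [Inst.div_congr key, Inst.div_add, hd v hv, h0.2.2 v hv, add_zero]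

theorem div_single (hu : u < I.nc) (c : ℤ) (x : ℕ) :
    I.div (fun u' => if u' = u then c else 0) x =
      (if I.p u = x then c else 0) - (if I.q u = x then c else 0) := by
  unfold Inst.div
  rw [sum_eq_single u]
  · simp
  · intro b _ hb; simp [hb]
  · intro h; exact absurd (mem_range.2 hu) h

/-- Augmentation along the cycle formed by the path and the cell `u`. -/
theorem augment (h0 : I.IsSol X0) (hu : u < I.nc) {s t : ℕ} {D : List (Option (List ℤ))}
    (hD : ReachSpec I (fwL I X0 u θ) (bwL I X0 u θ) (srcL I s) D) (ht : t < I.nv)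
    (hr : (D.getD t none).isSome = true) (c : ℤ)
    (hc : (c = 1 ∧ θ ≤ I.b u - X0.getD u 0 ∧ s = I.q u ∧ t = I.p u) ∨
      (c = -1 ∧ θ ≤ X0.getD u 0 ∧ s = I.p u ∧ t = I.q u)) :
    ∃ X, I.IsSol X ∧ |(X.getD u 0 : ℤ) - X0.getD u 0| = θ := by
  obtain ⟨f, hf⟩ := Option.isSome_iff_exists.1 hr
  obtain ⟨-, h2, s', hs', h3, h4⟩ := hD.path t ht f hf
  obtain rfl := (srcL_iff hs').1 h3
  have hfu : f.getD u 0 = 0 := by
    rcases h2 u hu with h | h | h
    · exact h
    · exact absurd rfl ((fwL_iff hu).1 h.2).1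
    · exact absurd rfl ((bwL_iff hu).1 h.2).1
  obtain ⟨X, hX, hX'⟩ := exists_sol h0 (fun u' => θ * (f.getD u' 0 + if u' = u then c else 0))
    (fun u' hu' => by
      have hb := h0.2.1 u' hu'
      by_cases e : u' = u
      · subst e
        rw [hfu, if_pos rfl]
        rcases hc with ⟨rfl, h, -⟩ | ⟨rfl, h, -⟩ <;> omega
      · rw [if_neg e]
        rcases h2 u' hu' with h | h | h
        · rw [h]; omega
        · have := ((fwL_iff hu').1 h.2).2
          rw [h.1]; omega
        · have := ((bwL_iff hu').1 h.2).2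
          rw [h.1]; omega)
    (fun v hv => by
      rw [Inst.div_mul, Inst.div_add, h4 v hv, div_single hu]
      rcases hc with ⟨rfl, -, rfl, rfl⟩ | ⟨rfl, -, rfl, rfl⟩
      · simp only [@eq_comm _ v]; ring
      · simp only [@eq_comm _ v]; split_ifs <;> ring)
  refine ⟨X, hX, ?_⟩
  rw [hX' u hu, hfu, if_pos rfl]
  rcases hc with ⟨rfl, -⟩ | ⟨rfl, -⟩ <;> simp

/-- The cut bound. -/
theorem cut_bound (hI : I.WF) (h0 : I.IsSol X0) (hu : u < I.nc) (hθ : 1 ≤ θ) {src : List Bool}
    {D : List (Option (List ℤ))} (hD : ReachSpec I (fwL I X0 u θ) (bwL I X0 u θ) src D)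
    {X : List ℕ} (hX : I.IsSol X) :
    (if (D.getD (I.q u) none).isSome = true then (X.getD u 0 : ℤ) - X0.getD u 0 else 0) -
      (if (D.getD (I.p u) none).isSome = true then (X.getD u 0 : ℤ) - X0.getD u 0 else 0) ≤
      I.nc * ((θ : ℤ) - 1) := by
  have h1 := Inst.sum_div hI (fun u => (X.getD u 0 : ℤ) - X0.getD u 0)
    fun v => (D.getD v none).isSome = true
  rw [sum_eq_zero (fun v hv => by
    rw [Inst.div_sub, hX.2.2 v (mem_range.1 hv), h0.2.2 v (mem_range.1 hv)]; simp),
    ← add_sum_erase _ _ (mem_range.2 hu)] at h1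
  have h2 := sum_le_card_nsmul ((range I.nc).erase u)
    (fun u => (if (D.getD (I.p u) none).isSome = true then (X.getD u 0 : ℤ) - X0.getD u 0 else 0) -
      (if (D.getD (I.q u) none).isSome = true then (X.getD u 0 : ℤ) - X0.getD u 0 else 0))
    ((θ : ℤ) - 1) fun u' hu' => by
      obtain ⟨e, hu'⟩ := mem_erase.1 hu'
      rw [mem_range] at hu'
      have g1 := hD.fw_closed u' hu'
      have g2 := hD.bw_closed u' hu'
      rw [fwL_iff hu'] at g1
      rw [bwL_iff hu'] at g2
      have g3 := hX.2.1 u' hu'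
      have g4 := h0.2.1 u' hu'
      split_ifs with a b b
      · omega
      · have : ¬ θ ≤ I.b u' - X0.getD u' 0 := fun h => b (g1 ⟨e, h⟩ a)
        omega
      · have : ¬ θ ≤ X0.getD u' 0 := fun h => a (g2 ⟨e, h⟩ b)
        omega
      · omega
  have h3 : (#((range I.nc).erase u) : ℤ) ≤ I.nc := by
    exact_mod_cast card_erase_le.trans (card_range _).le
  have h4 := mul_le_mul_of_nonneg_right h3 (show (0 : ℤ) ≤ (θ : ℤ) - 1 by omega)
  rw [nsmul_eq_mul] at h2
  linarith

variable {reach : Rch}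

theorem ok_sol (hr : ∀ I fw bw src, I.WF → ReachSpec I fw bw src (reach (I, fw, bw, src)))
    (hI : I.WF) (h0 : I.IsSol X0) (hu : u < I.nc) (h : ok reach I X0 u θ = true) :
    ∃ X, I.IsSol X ∧ |(X.getD u 0 : ℤ) - X0.getD u 0| = θ := by
  simp only [ok, Bool.or_eq_true, Bool.and_eq_true, decide_eq_true_eq] at h
  rcases h with h | h
  · exact augment h0 hu (hr _ _ _ _ hI) (hI u hu).1 h.2 1 (Or.inl ⟨rfl, h.1, rfl, rfl⟩)
  · exact augment h0 hu (hr _ _ _ _ hI) (hI u hu).2 h.2 (-1) (Or.inr ⟨rfl, h.1, rfl, rfl⟩)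

theorem not_ok_bound (hr : ∀ I fw bw src, I.WF → ReachSpec I fw bw src (reach (I, fw, bw, src)))
    (hI : I.WF) (h0 : I.IsSol X0) (hu : u < I.nc) (hθ : 1 ≤ θ) (h : ¬ ok reach I X0 u θ = true)
    {X : List ℕ} (hX : I.IsSol X) : |(X.getD u 0 : ℤ) - X0.getD u 0| ≤ I.nc * ((θ : ℤ) - 1) := by
  simp only [ok, rch, Bool.or_eq_true, Bool.and_eq_true, decide_eq_true_eq, not_or, not_and] at h
  have g3 := hX.2.1 u hu
  have g4 := h0.2.1 u hu
  have g5 : (θ : ℤ) - 1 ≤ I.nc * ((θ : ℤ) - 1) :=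
    le_mul_of_one_le_left (by omega) (by omega)
  rw [abs_le]
  constructor
  · by_cases e : θ ≤ X0.getD u 0
    · have hD := hr I (fwL I X0 u θ) (bwL I X0 u θ) (srcL I (I.p u)) hI
      have := cut_bound hI h0 hu hθ hD hX
      rw [if_neg (h.2 e), if_pos (hD.src_mem _ (hI u hu).1 ((srcL_iff (hI u hu).1).2 rfl))] at this
      linarith
    · omega
  · by_cases e : θ ≤ I.b u - X0.getD u 0
    · have hD := hr I (fwL I X0 u θ) (bwL I X0 u θ) (srcL I (I.q u)) hI
      have := cut_bound hI h0 hu hθ hD hX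
      rw [if_neg (h.1 e), if_pos (hD.src_mem _ (hI u hu).2 ((srcL_iff (hI u hu).2).2 rfl))] at this
      linarith
    · omega

theorem le_wd (h0 : I.IsSol X0) (hu : u < I.nc) {j : ℕ} (h : ok reach I X0 u (2 ^ j) = true) :
    2 ^ j ≤ wd reach I X0 u := by
  refine le_foldr_max (List.mem_filter.2 ⟨List.mem_map.2 ⟨j, List.mem_range.2 ?_, rfl⟩, h⟩)
  have g4 := h0.2.1 u hu
  simp only [ok, Bool.or_eq_true, Bool.and_eq_true, decide_eq_true_eq] at h
  have : j < (I.b u).size := Nat.lt_size.2 (by omega)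
  omega

theorem wd_cases : wd reach I X0 u = 0 ∨
    ∃ j, wd reach I X0 u = 2 ^ j ∧ ok reach I X0 u (2 ^ j) = true := by
  refine (foldr_max_mem _).imp_right fun h => ?_
  obtain ⟨h1, h2⟩ := List.mem_filter.1 h
  obtain ⟨j, -, hj⟩ := List.mem_map.1 h1
  exact ⟨j, hj.symm, hj ▸ h2⟩

end Width

/-- For a cell `u` and a threshold `θ = 2^j` let `fw u' = (u' ≠ u ∧ θ ≤ b u' - X0 u')`,
`bw u' = (u' ≠ u ∧ θ ≤ X0 u')`.  Say `ok u j` if `θ ≤ b u - X0 u` and `p u` is reached from the source `q u`,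
or `θ ≤ X0 u` and `q u` is reached from the source `p u`.  Let `w u` be the largest `2^j` with `ok u j`,
`j ≤ size (b u)`, and `0` if there is none (`ok u j` fails as soon as `2^j > b u`).
* If `ok u j` with the path `f`, then `X0 + θ (f ± e_u)` is a solution (`f u = 0`); if `w u = 0` take `X0`.
* If `ok u j` fails, every solution `X` has `|X u - X0 u| ≤ nc (θ - 1)`: let `D = X - X0`, of divergence `0`.
  Upper bound: either `b u - X0 u < θ`, or the set `R` reached from `q u` misses `p u`; by `Inst.sum_div`,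
  `D u = ∑_{u' leaving R} D u' - ∑_{u' ≠ u entering R} D u'`, and cells leaving `R` have `b - X0 < θ`, cells
  `u' ≠ u` entering `R` have `X0 < θ`.  The lower bound is symmetric.  Take `θ = 2 w u`, or `θ = 1` if
  `w u = 0`. -/
theorem exists_width : ∃ wid : Inst × List ℕ → List ℕ, PT wid ∧ ∀ (I : Inst) (X0 : List ℕ),
    I.WF → I.IsSol X0 → WidthSpec I X0 (wid (I, X0)) := by
  obtain ⟨reach, hp, hr⟩ := exists_reach
  refine ⟨fun a => (List.range a.1.nc).map (Width.wd reach a.1 a.2), PT.map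
    (f := fun (a : Inst × List ℕ) u => Width.wd reach a.1 a.2 u) (by fun_prop)
    (Width.wd_pt hp (by fun_prop) (by fun_prop) (by fun_prop)), fun I X0 hI h0 u hu => ?_⟩
  simp only [Width.getD_map_range _ hu]
  rcases Width.wd_cases (reach := reach) (I := I) (X0 := X0) (u := u) with h | ⟨j, h, hj⟩
  · refine ⟨Or.inl h, ⟨X0, h0, by simp [h]⟩, fun X hX => ?_⟩
    have := Width.not_ok_bound hr hI h0 hu (θ := 2 ^ 0) (by simp)
      (fun hh => by have := Width.le_wd h0 hu hh; omega) hX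
    simpa [h] using this
  · refine ⟨Or.inr ⟨j, h⟩, h ▸ Width.ok_sol hr hI h0 hu hj, fun X hX => ?_⟩
    have hp : 0 < 2 ^ j := Nat.two_pow_pos j
    have := Width.not_ok_bound hr hI h0 hu (θ := 2 ^ (j + 1)) (by omega)
      (fun hh => by have := Width.le_wd h0 hu hh; omega) hX
    rw [h]
    refine this.trans ?_
    push_cast
    have h1 : (0 : ℤ) ≤ I.nc := by positivity
    rw [pow_succ]
    nlinarith

end Crest.Agent.R309
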