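import Crest.Agent.R309.Out
import Crest.Agent.R309.Acc
import Crest.Agent.R309.Learn
import Crest.Agent.R309.CorePT
import Crest.Agent.R309.Width
import Crest.Agent.R309.Prim

/-!
# R309: the core exists
-/

set_option linter.dupNamespace false

namespace Crest.Agent.R309

open Finset Crest.Agent.Lib.PT

theorem exists_core : Nonempty Core := by
  obtain ⟨wid, wid_pt, hwid⟩ := exists_width
  obtain ⟨tr, tr_pt, htr⟩ := exists_tree
  let dat : Un × Inst × List ℕ × List Bool → Dat := fun a =>
    ⟨a.1.n, a.2.1, a.2.2.1, wid (a.2.1, a.2.2.1),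
      (tr (a.2.1, wid (a.2.1, a.2.2.1), a.1.n ^ 9)).1,
      (tr (a.2.1, wid (a.2.1, a.2.2.1), a.1.n ^ 9)).2⟩
  have hw : PT fun a : Un × Inst × List ℕ × List Bool => wid (a.2.1, a.2.2.1) :=
    wid_pt.comp (by fun_prop)
  have ht : PT fun a : Un × Inst × List ℕ × List Bool =>
      tr (a.2.1, wid (a.2.1, a.2.2.1), a.1.n ^ 9) :=
    tr_pt.comp (PT.pair (by fun_prop) (PT.pair hw (by fun_prop)))
  have hd : PT dat := Dat.mk_pt (G := fun a => a.1) (by fun_prop) (by fun_prop) (by fun_prop) hw
    ht.fst ht.snd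
  have hgood : ∀ (G : Un) (I : Inst) (X0 : List ℕ) (l : List Bool), Fits G.n I → I.IsSol X0 →
      (dat (G, I, X0, l)).Good := fun G I X0 l hF h0 =>
    ⟨hF, h0, hwid I X0 hF.wf h0, htr I _ _ hF.wf⟩
  refine ⟨{
    Ctx := Dat × List ℤ
    e := 234
    mk' := fun a => (dat a, (dat a).learn a.2.2.2)
    gs := fun c => c.1.G
    st := fun c => c.1.step c.2
    out := fun c => c.1.out
    cst := fun c => max 0 (c.1.cst c.2)
    e_pos := by norm_num
    mk_pt := hd.pair (Dat.learn_pt.comp (f := fun a => (dat a, a.2.2.2)) (hd.pair (by fun_prop)))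
    gs_pt := by fun_prop
    gs_pb := by fun_prop
    st_pt := Dat.step_pt
    out_pt := Dat.out_pt
    gs_mk := fun _ => rfl
    st_lt := fun c x ω => ?_
    out_sol := fun G I X0 l x ω X h => Dat.out_sol h
    cst_nonneg := fun c => le_max_left _ _
    unif := fun G I X0 hF h0 l _ K t hK y hy => ?_
    acc := fun G I X0 hF h0 => ?_ }⟩
  · refine (Dat.step_lt _ _ _ _).trans_le (Nat.pow_le_pow_right (by omega) ?_)
    rcases Nat.eq_zero_or_pos c.1.G with h | h
    · simp [h]
    · exact Nat.pow_le_pow_right h (by omega)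
  · have h := hgood G I X0 l hF h0
    have hG : 1 ≤ G.n := le_trans (by norm_num) h.G_ge
    have hc : 0 ≤ (dat (G, I, X0, l)).cst ((dat (G, I, X0, l)).learn l) := by
      have := h.Zb_pos ((dat (G, I, X0, l)).learn l)
      unfold Dat.cst; positivity
    simp only [max_eq_right hc]
    exact h.unif (Dat.learn_adm _ l) (Nat.pow_le_pow_right hG (by omega))
      ((Nat.mul_le_mul_right _ (Nat.pow_le_pow_right hG (by omega))).trans hK) hy
  · have h := hgood G I X0 [] hF h0
    have h1 := h.learn_good (n := G.n ^ 234) le_rfl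
    have h2 : Ex (G.n ^ 234) (fun l => 1 / 2 * ind ((dat (G, I, X0, [])).GoodPhi
        ((dat (G, I, X0, [])).learn l))) ≤ Ex (G.n ^ 234) fun l => I.Sols.card *
          max 0 ((dat (G, I, X0, l)).cst ((dat (G, I, X0, l)).learn l)) := by
      refine Ex_mono fun l _ => ?_
      by_cases hg : (dat (G, I, X0, [])).GoodPhi ((dat (G, I, X0, [])).learn l)
      · rw [ind_pos hg, mul_one]
        exact (h.acc hg).trans (mul_le_mul_of_nonneg_left (le_max_right _ _) (by positivity))
      · rw [ind_neg hg, mul_zero]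
        exact mul_nonneg (by positivity) (le_max_left _ _)
    rw [Ex_mul_left] at h2
    unfold Pr at h1
    linarith

end Crest.Agent.R309
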