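import Crest.Agent.R309.Reach

/-!
# R309: finding a solution (capacity scaling)
-/

set_option linter.dupNamespace false

namespace Crest.Agent.R309

open Finset Crest.Agent.Lib.PT

namespace Feas

/-- Within the bounds. -/
def Bd (J : Inst) (X : ℕ → ℤ) : Prop := ∀ u < J.nc, 0 ≤ X u ∧ X u ≤ J.b u

/-- Total violation of the demands. -/
def Psi (J : Inst) (X : ℕ → ℤ) : ℤ := ∑ v ∈ range J.nv, |J.d v - J.div X v|

/-- Bounded with least violation. -/
def Mn (J : Inst) (X : ℕ → ℤ) : Prop := Bd J X ∧ ∀ Y, Bd J Y → Psi J X ≤ Psi J Y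

/-- A list as a function. -/
def fn (X : List ℕ) (u : ℕ) : ℤ := X.getD u 0

theorem Psi_nonneg (J : Inst) (X : ℕ → ℤ) : 0 ≤ Psi J X := sum_nonneg fun _ _ => abs_nonneg _

theorem Psi_congr {J : Inst} {X Y : ℕ → ℤ} (h : ∀ u < J.nc, X u = Y u) : Psi J X = Psi J Y :=
  sum_congr rfl fun v _ => by rw [Inst.div_congr h]

/-- A cut certifies minimality. -/
theorem min_of_cut {J : Inst} (hJ : J.WF) {X : ℕ → ℤ} (hX : Bd J X) (R : ℕ → Prop)
    [DecidablePred R] (h1 : ∀ v < J.nv, R v → J.div X v ≤ J.d v)
    (h2 : ∀ v < J.nv, ¬ R v → J.d v ≤ J.div X v)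
    (h3 : ∀ u < J.nc, R (J.p u) → ¬ R (J.q u) → X u = J.b u)
    (h4 : ∀ u < J.nc, ¬ R (J.p u) → R (J.q u) → X u = 0) : Mn J X := by
  refine ⟨hX, fun Y hY => ?_⟩
  have key : ∀ Z : ℕ → ℤ, ∑ v ∈ range J.nv, (if R v then J.d v - J.div Z v else J.div Z v - J.d v) =
      ∑ v ∈ range J.nv, (if R v then J.d v else - J.d v) -
        2 * ∑ u ∈ range J.nc, ((if R (J.p u) then Z u else 0) - (if R (J.q u) then Z u else 0)) := by
    intro Z
    have e0 := Inst.sum_div hJ Z fun _ => True
    simp only [if_true, sub_self, sum_const_zero] at e0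
    have e1 : ∑ v ∈ range J.nv, (if R v then J.d v - J.div Z v else J.div Z v - J.d v) =
        ∑ v ∈ range J.nv, ((if R v then J.d v else - J.d v) -
          2 * (if R v then J.div Z v else 0) + J.div Z v) :=
      sum_congr rfl fun v _ => by split_ifs <;> ring
    rw [← Inst.sum_div hJ Z R, e1, sum_add_distrib, sum_sub_distrib, e0, ← mul_sum, add_zero]
  have eX : Psi J X =
      ∑ v ∈ range J.nv, (if R v then J.d v - J.div X v else J.div X v - J.d v) :=
    sum_congr rfl fun v hv => by
      split_ifs with h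
      · exact abs_of_nonneg (sub_nonneg.2 (h1 v (mem_range.1 hv) h))
      · rw [abs_sub_comm]; exact abs_of_nonneg (sub_nonneg.2 (h2 v (mem_range.1 hv) h))
  have eY : ∑ v ∈ range J.nv, (if R v then J.d v - J.div Y v else J.div Y v - J.d v) ≤ Psi J Y :=
    sum_le_sum fun v _ => by
      split_ifs
      · exact le_abs_self _
      · rw [abs_sub_comm]; exact le_abs_self _
  have le : ∑ u ∈ range J.nc, ((if R (J.p u) then Y u else 0) - (if R (J.q u) then Y u else 0)) ≤
      ∑ u ∈ range J.nc, ((if R (J.p u) then X u else 0) - (if R (J.q u) then X u else 0)) :=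
    sum_le_sum fun u hu => by
      have hu := mem_range.1 hu
      have := hY u hu
      split_ifs with a b b
      · simp
      · rw [h3 u hu a b]; omega
      · rw [h4 u hu a b]; omega
      · simp
  rw [eX, key]
  rw [key] at eY
  omega

theorem Psi_aug {J : Inst} {X f : ℕ → ℤ} {s v : ℕ} (hs : s < J.nv) (hv : v < J.nv)
    (h1 : J.div X s < J.d s) (h2 : J.d v < J.div X v)
    (hf : ∀ x < J.nv, J.div f x = (if x = s then 1 else 0) - (if x = v then 1 else 0)) :
    Psi J (fun u => X u + f u) = Psi J X - 2 := by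
  have hne : s ≠ v := fun e => by subst e; omega
  have e : ∀ x ∈ range J.nv, |J.d x - J.div (fun u => X u + f u) x| =
      |J.d x - J.div X x| - ((if x = s then 1 else 0) + (if x = v then 1 else 0)) := by
    intro x hx
    rw [Inst.div_add, hf x (mem_range.1 hx)]
    by_cases a : x = s
    · subst a
      rw [if_pos rfl, if_neg hne, abs_of_nonneg (by omega), abs_of_nonneg (by omega)]; ring
    · by_cases b : x = v
      · subst b
        rw [if_neg a, if_pos rfl, abs_of_nonpos (by omega), abs_of_nonpos (by omega)]; ring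
      · simp [a, b]
  rw [Psi, sum_congr rfl e, sum_sub_distrib, sum_add_distrib]
  simp [hs, hv, Psi]

/-- The instance with bounds and demands divided by `s`. -/
def scale (I : Inst) (s : ℕ) : Inst :=
  (I.1.map fun c => (c.1, c.2.1, c.2.2 / s), I.2.map fun z => z / (s : ℤ))

@[simp] theorem scale_nc (I : Inst) (s : ℕ) : (scale I s).nc = I.nc := by simp [scale, Inst.nc]
@[simp] theorem scale_nv (I : Inst) (s : ℕ) : (scale I s).nv = I.nv := by simp [scale, Inst.nv]

theorem scale_getD (I : Inst) (s u : ℕ) :
    (scale I s).1.getD u (0, 0, 0) = (I.p u, I.q u, I.b u / s) := by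
  simp only [scale, Inst.p, Inst.q, Inst.b, List.getD_eq_getElem?_getD, List.getElem?_map]
  cases I.1[u]? <;> simp

@[simp] theorem scale_p (I : Inst) (s u : ℕ) : (scale I s).p u = I.p u := by
  rw [Inst.p, scale_getD]
@[simp] theorem scale_q (I : Inst) (s u : ℕ) : (scale I s).q u = I.q u := by
  rw [Inst.q, scale_getD]
@[simp] theorem scale_b (I : Inst) (s u : ℕ) : (scale I s).b u = I.b u / s := by
  rw [Inst.b, scale_getD]
@[simp] theorem scale_d (I : Inst) (s v : ℕ) : (scale I s).d v = I.d v / (s : ℤ) := by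
  simp only [scale, Inst.d, List.getD_eq_getElem?_getD, List.getElem?_map]
  cases I.2[v]? <;> simp
@[simp] theorem scale_div (I : Inst) (s : ℕ) (X : ℕ → ℤ) (v : ℕ) :
    (scale I s).div X v = I.div X v := by simp [Inst.div]

theorem scale_wf {I : Inst} (h : I.WF) (s : ℕ) : (scale I s).WF := fun u hu => by
  simpa using h u (by simpa using hu)

theorem sum_abs_div_le {I : Inst} (X : ℕ → ℤ) (hX : ∀ u, 0 ≤ X u ∧ X u ≤ 1) :
    ∑ v ∈ range I.nv, |I.div X v| ≤ 2 * I.nc := by
  have h1 : ∀ v ∈ range I.nv, |I.div X v| ≤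
      ∑ u ∈ range I.nc, ((if I.p u = v then (1 : ℤ) else 0) + (if I.q u = v then 1 else 0)) :=
    fun v _ => (abs_sum_le_sum_abs _ _).trans (sum_le_sum fun u _ => by
      have := hX u
      split_ifs <;> rw [abs_le] <;> omega)
  refine (sum_le_sum h1).trans ?_
  rw [sum_comm]
  refine (sum_le_card_nsmul _ _ 2 fun u _ => ?_).trans (by simp [mul_comm])
  rw [sum_add_distrib, sum_ite_eq, sum_ite_eq]
  split_ifs <;> omega

/-- Doubling a minimiser of the coarser instance is almost optimal. -/
theorem double {I : Inst} {s : ℕ} {X : ℕ → ℤ} (hX : Mn (scale I (s * 2)) X) :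
    Bd (scale I s) (fun u => 2 * X u) ∧ ∀ Y, Bd (scale I s) Y →
      Psi (scale I s) (fun u => 2 * X u) ≤ Psi (scale I s) Y + 2 * (I.nc + I.nv) := by
  have eb : ∀ u, I.b u / (s * 2) = I.b u / s / 2 := fun u => (Nat.div_div_eq_div_mul _ _ _).symm
  have ed : ∀ v, I.d v / ((s * 2 : ℕ) : ℤ) = I.d v / (s : ℤ) / 2 := fun v => by
    rw [Int.ediv_ediv_of_nonneg (by positivity)]; push_cast; rfl
  refine ⟨fun u hu => ?_, fun Y hY => ?_⟩
  · have := hX.1 u (by simpa using hu)
    rw [scale_b, eb] at this
    rw [scale_b]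
    beta_reduce
    generalize I.b u / s = c at *
    omega
  · have h1 := hX.2 (fun u => Y u / 2) fun u hu => by
      have := hY u (by simpa using hu)
      rw [scale_b] at this
      rw [scale_b, eb]
      beta_reduce
      generalize I.b u / s = c at *
      omega
    have h2 : Psi (scale I s) (fun u => 2 * X u) ≤ 2 * Psi (scale I (s * 2)) X + I.nv := by
      simp only [Psi, scale_nv, scale_d, scale_div, ed, Inst.div_mul, mul_sum]
      refine (sum_le_sum (g := fun v => 2 * |I.d v / (s : ℤ) / 2 - I.div X v| + 1)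
        fun v _ => ?_).trans (by simp [sum_add_distrib])
      rw [abs_le]
      cases abs_cases (I.d v / (s : ℤ) / 2 - I.div X v) <;> omega
    have h3 : 2 * Psi (scale I (s * 2)) (fun u => Y u / 2) ≤
        Psi (scale I s) Y + I.nv + ∑ v ∈ range I.nv, |I.div (fun u => Y u % 2) v| := by
      simp only [Psi, scale_nv, scale_d, scale_div, ed, mul_sum]
      refine (sum_le_sum (g := fun v => |I.d v / (s : ℤ) - I.div Y v| + 1 +
        |I.div (fun u => Y u % 2) v|) fun v _ => ?_).trans (by simp [sum_add_distrib])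
      have e : I.div Y v = 2 * I.div (fun u => Y u / 2) v + I.div (fun u => Y u % 2) v := by
        rw [← Inst.div_mul, ← Inst.div_add]
        exact Inst.div_congr (fun u _ => by omega) v
      cases abs_cases (I.d v / (s : ℤ) / 2 - I.div (fun u => Y u / 2) v) <;>
        cases abs_cases (I.d v / (s : ℤ) - I.div Y v) <;>
        cases abs_cases (I.div (fun u => Y u % 2) v) <;> omega
    have h4 := sum_abs_div_le (I := I) (fun u => Y u % 2) fun u => by omega
    omega

section alg

variable (reach : Inst × List Bool × List Bool × List Bool → List (Option (List ℤ)))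

/-- The reachability table of the residual graph. -/
def tab (J : Inst) (X : List ℕ) : List (Option (List ℤ)) :=
  reach (J, (List.range J.nc).map fun u => decide (X.getD u 0 < J.b u),
    (List.range J.nc).map fun u => decide (0 < X.getD u 0),
    (List.range J.nv).map fun v => decide (J.div (fun u => (X.getD u 0 : ℤ)) v < J.d v))

/-- An augmenting path, if there is one. -/
def path (J : Inst) (X : List ℕ) : Option (List ℤ) :=
  (List.range J.nv).findSome? fun v =>
    if J.d v < J.div (fun u => (X.getD u 0 : ℤ)) v then (tab reach J X).getD v none else none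

/-- One attempted augmentation. -/
def aug (J : Inst) (X : List ℕ) : List ℕ :=
  (List.range J.nc).map fun u =>
    min (J.b u) ((X.getD u 0 : ℤ) + ((path reach J X).getD []).getD u 0).toNat

/-- One scaling phase. -/
def phase (J : Inst) (X : List ℕ) : List ℕ :=
  (aug reach J)^[J.nc + J.nv + 1] (X.map fun x => 2 * x)

/-- All phases. -/
def run (I : Inst) : ℕ → List ℕ
  | 0 => []
  | k + 1 => phase reach (scale I (2 ^ ((toBits I).length - (k + 1)))) (run I k)

variable {reach}

theorem getD_map_range {β : Type} (n : ℕ) (f : ℕ → β) (d : β) {u : ℕ} (hu : u < n) :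
    ((List.range n).map f).getD u d = f u := by
  simp [List.getD_eq_getElem?_getD, hu]

theorem aug_spec (hr : ∀ I fw bw src, I.WF → ReachSpec I fw bw src (reach (I, fw, bw, src)))
    {J : Inst} (hJ : J.WF) {X : List ℕ} (hX : Bd J (fn X)) :
    Bd J (fn (aug reach J X)) ∧ (Psi J (fn (aug reach J X)) = Psi J (fn X) - 2 ∨
      Mn J (fn (aug reach J X))) := by
  have hb : Bd J (fn (aug reach J X)) := fun u hu => by
    rw [fn, aug, getD_map_range _ _ _ hu]
    exact ⟨Nat.cast_nonneg _, by exact_mod_cast min_le_left _ _⟩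
  refine ⟨hb, ?_⟩
  have H : ReachSpec J _ _ _ (tab reach J X) := hr J _ _ _ hJ
  cases hp : path reach J X with
  | some f =>
    left
    obtain ⟨v, hv, e⟩ := List.exists_of_findSome?_eq_some hp
    have hv := List.mem_range.1 hv
    split_ifs at e with h2
    obtain ⟨-, h3, s, hs, h4, h5⟩ := H.path v hv f e
    rw [getD_map_range _ _ _ hs, decide_eq_true_eq] at h4
    refine (Psi_congr fun u hu => ?_).trans (Psi_aug (X := fn X) hs hv h4 h2 h5)
    have h6 := h3 u hu
    have h7 := hX u hu
    rw [getD_map_range _ _ _ hu, getD_map_range _ _ _ hu, decide_eq_true_eq,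
      decide_eq_true_eq] at h6
    rw [fn, aug, getD_map_range _ _ _ hu, hp, Option.getD_some]
    simp only [fn] at h7 ⊢
    omega
  | none =>
    right
    have e : ∀ u < J.nc, fn (aug reach J X) u = fn X u := fun u hu => by
      have h7 := hX u hu
      rw [fn, aug, getD_map_range _ _ _ hu, hp, Option.getD_none, List.getD_nil]
      simp only [fn] at h7 ⊢
      omega
    have hm : Mn J (fn X) := by
      refine min_of_cut hJ hX (fun v => ((tab reach J X).getD v none).isSome = true)
        (fun v hv h => ?_) (fun v hv h => ?_) (fun u hu a b => ?_) (fun u hu a b => ?_)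
      · by_contra hlt
        have := List.findSome?_eq_none_iff.1 hp v (List.mem_range.2 hv)
        rw [(if_pos (not_le.1 hlt)).symm.trans this] at h
        exact absurd h (by simp)
      · by_contra hlt
        exact h (H.src_mem v hv (by
          rw [getD_map_range _ _ _ hv, decide_eq_true_eq]; exact not_le.1 hlt))
      · by_contra hne
        have := hX u hu
        refine b (H.fw_closed u hu ?_ a)
        rw [getD_map_range _ _ _ hu, decide_eq_true_eq]
        simp only [fn] at this hne
        omega
      · by_contra hne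
        refine a (H.bw_closed u hu ?_ b)
        rw [getD_map_range _ _ _ hu, decide_eq_true_eq]
        simp only [fn] at hne
        omega
    exact ⟨hb, fun Y hY => (Psi_congr e).trans_le (hm.2 Y hY)⟩

theorem iter_spec (hr : ∀ I fw bw src, I.WF → ReachSpec I fw bw src (reach (I, fw, bw, src)))
    {J : Inst} (hJ : J.WF) {X : List ℕ} (hX : Bd J (fn X)) (k : ℕ) :
    Bd J (fn ((aug reach J)^[k] X)) ∧ (Psi J (fn ((aug reach J)^[k] X)) = Psi J (fn X) - 2 * k ∨
      Mn J (fn ((aug reach J)^[k] X))) := by
  induction k with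
  | zero => exact ⟨hX, Or.inl (by simp)⟩
  | succ k ih =>
    rw [Function.iterate_succ_apply']
    obtain ⟨h1, h2⟩ := aug_spec hr hJ ih.1
    refine ⟨h1, ?_⟩
    rcases h2 with h2 | h2
    · rcases ih.2 with h3 | h3
      · left; rw [h2, h3]; push_cast; ring
      · have := h3.2 _ h1
        omega
    · exact Or.inr h2

theorem phase_spec (hr : ∀ I fw bw src, I.WF → ReachSpec I fw bw src (reach (I, fw, bw, src)))
    {I : Inst} (hI : I.WF) {s : ℕ} {X : List ℕ} (hX : Mn (scale I (s * 2)) (fn X)) :
    Mn (scale I s) (fn (phase reach (scale I s) X)) := by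
  obtain ⟨h1, h2⟩ := double hX
  have e : fn (X.map fun x => 2 * x) = fun u => 2 * fn X u := by
    funext u
    simp only [fn, List.getD_eq_getElem?_getD, List.getElem?_map]
    cases X[u]? <;> simp
  obtain ⟨h3, h4⟩ := iter_spec hr (scale_wf hI s) (e ▸ h1) ((scale I s).nc + (scale I s).nv + 1)
  refine h4.resolve_left fun h5 => ?_
  have := h2 _ h3
  rw [h5, e, scale_nc, scale_nv] at this
  push_cast at this
  omega

theorem b_lt (I : Inst) (u : ℕ) : I.b u < 2 ^ sz I := by
  refine (lt_two_pow_sz _).trans_le (Nat.pow_le_pow_right two_pos ?_)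
  have h0 : sz I.1 ≤ sz I := by rw [sz_prod]; omega
  unfold Inst.b
  rcases Nat.lt_or_ge u I.1.length with h | h
  · have h1 := sz_le_of_mem (List.getElem_mem h)
    rw [List.getD_eq_getElem _ _ h]
    rw [sz_prod, sz_prod I.1[u].2] at h1
    omega
  · rw [List.getD_eq_default _ _ h]
    exact one_le_sz I

theorem run_spec (hr : ∀ I fw bw src, I.WF → ReachSpec I fw bw src (reach (I, fw, bw, src)))
    {I : Inst} (hI : I.WF) (k : ℕ) (hk : k ≤ sz I) :
    Mn (scale I (2 ^ (sz I - k))) (fn (run reach I k)) := by
  induction k with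
  | zero =>
    have e : ∀ u, (scale I (2 ^ (sz I - 0))).b u = 0 := fun u => by
      rw [scale_b]; exact Nat.div_eq_of_lt (b_lt I u)
    refine ⟨fun u _ => by rw [e]; simp [fn, run], fun Y hY => (Psi_congr fun u hu => ?_).le⟩
    have := hY u hu
    rw [e] at this
    simp only [fn, run, List.getD_nil]
    omega
  | succ k ih =>
    rw [run, length_toBits]
    refine phase_spec hr hI ?_
    rw [← pow_succ, show sz I - (k + 1) + 1 = sz I - k by omega]
    exact ih (by omega)

theorem sz_aug (J : Inst) (X : List ℕ) {m : ℕ} (h : ∀ u, J.b u < 2 ^ m) :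
    sz (aug reach J X) ≤ J.nc * (4 * m + 2) + 1 := by
  have := sz_list_le (l := aug reach J X) (B := 4 * m + 1) fun x hx => by
    obtain ⟨u, -, rfl⟩ := List.mem_map.1 hx
    exact sz_nat_le_of_lt ((min_le_left _ _).trans_lt (h u))
  simpa [aug] using this

theorem length_phase (J : Inst) (X : List ℕ) : (phase reach J X).length = J.nc := by
  rw [phase, Function.iterate_succ_apply']; simp [aug]

theorem aug_pt (hr : PT reach) : PT fun p : Inst × List ℕ => aug reach p.1 p.2 := by
  have h1 : PT fun p : Inst × List ℕ => tab reach p.1 p.2 := by unfold tab; fun_prop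
  have h2 : PT fun p : Inst × List ℕ => path reach p.1 p.2 := by
    unfold path
    exact PT.findSome? (by fun_prop) (PT.ite (by fun_prop)
      (PT.getD (h1.comp PT.id.fst) (by fun_prop) (by fun_prop)) (by fun_prop))
  unfold aug
  exact PT.map (by fun_prop) (PT.nat_min (by fun_prop) (PT.int_toNat (PT.int_add (by fun_prop)
    (PT.getD (PT.option_getD (h2.comp PT.id.fst) (by fun_prop)) (by fun_prop) (by fun_prop)))))

theorem phase_pt (hr : PT reach) : PT fun p : Inst × List ℕ => phase reach p.1 p.2 := by
  unfold phase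
  refine PT.iterate (f := fun p : Inst × List ℕ => aug reach p.1) (by fun_prop) (by fun_prop)
    (by fun_prop) ((aug_pt hr).comp (f := fun q : (Inst × List ℕ) × List ℕ => (q.1.1, q.2))
      (by fun_prop))
    (B := fun p => sz (p.2.map fun x => 2 * x) + (p.1.nc * (4 * sz p.1 + 2) + 1)) (by fun_prop)
    fun p k _ => ?_
  cases k with
  | zero => exact Nat.le_add_right _ _
  | succ k =>
    rw [Function.iterate_succ_apply']
    exact (sz_aug _ _ (b_lt p.1)).trans (Nat.le_add_left _ _)

theorem run_pt (hr : PT reach) : PT fun I : Inst => run reach I (toBits I).length := by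
  have h0 : PT fun p : Inst × ℕ => scale p.1 p.2 := by unfold scale; fun_prop
  have h1 : PT fun p : Inst × ℕ × List ℕ => 2 ^ ((toBits p.1).length - (p.2.1 + 1)) := by fun_prop
  have hs : PT fun p : Inst × ℕ × List ℕ => scale p.1 (2 ^ ((toBits p.1).length - (p.2.1 + 1))) :=
    h0.comp (PT.id.fst.pair h1)
  have h2 : PT fun p : Inst × ℕ × List ℕ =>
      phase reach (scale p.1 (2 ^ ((toBits p.1).length - (p.2.1 + 1)))) p.2.2 :=
    (phase_pt hr).comp_eq (fun p : Inst × ℕ × List ℕ =>
      (scale p.1 (2 ^ ((toBits p.1).length - (p.2.1 + 1))), p.2.2)) (hs.pair PT.id.snd.snd)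
      fun _ => rfl
  have h3 : PT fun I : Inst => (toBits I).length := by fun_prop
  have h4 : PB fun I : Inst => (toBits I).length := by fun_prop
  have h5 : PB fun I : Inst => I.nc * (4 * sz I + 2) + 1 := by fun_prop
  refine PT.nat_rec (F := run reach) (z := fun _ => [])
    (f := fun I k X => phase reach (scale I (2 ^ ((toBits I).length - (k + 1)))) X)
    h3 h4 (PT.const _) h2 (fun _ => by rw [run]) (fun _ _ _ => by rw [run]) h5 fun I k _ => ?_
  cases k with
  | zero => simp [run]
  | succ k =>
    rw [run, phase, Function.iterate_succ_apply']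
    refine (sz_aug (m := sz I) _ _ fun u => ?_).trans (by simp)
    rw [scale_b]
    exact (Nat.div_le_self _ _).trans_lt (b_lt I u)

end alg

end Feas

/-- For a scale `j` let `I_j` have the bounds `b u / 2^j` and the demands `d v / 2^j` (floor division), and for
`X` within the bounds of an instance let `Ψ X = ∑_{v < nv} |d v - div X v|`.
* Augmentation: run `reach` with sources `{v | div X v < d v}`, `fw u = (X u < b u)`, `bw u = (0 < X u)`.  If some
  `v` with `d v < div X v` is reached by `f`, then `X + f` is within the bounds and `Ψ` drops by `2`.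
  Otherwise `X` minimises `Ψ`: with `R` the reached set, `d ≥ div X` on `R`, `d ≤ div X` off `R`, cells leaving
  `R` are full and cells entering `R` are empty, so for every bounded `Y`
  `Ψ Y ≥ ∑_R (d - div Y) - ∑_{Rᶜ} (d - div Y) ≥ ∑_R (d - div X) - ∑_{Rᶜ} (d - div X) = Ψ X` (`Inst.sum_div`).
* Scaling: if `X` minimises `Ψ` for `I_{j+1}`, then `2 X` is bounded for `I_j`, `Ψ_j (2X) ≤ 2 Ψ_{j+1} X + nv`, and for
  every bounded `Y` of `I_j`, `2 Ψ_{j+1} X ≤ 2 Ψ_{j+1} (Y / 2) ≤ Ψ_j Y + 2 nc + nv`.  So among `nc + nv + 1`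
  attempted augmentations from `2 X` one fails, and the result minimises `Ψ_j`.
* Start at `j = size (∑ b)` with `X = 0` (all bounds are `0`), go down to `j = 0`, and test `IsSol`: if a
  solution exists, the minimum of `Ψ` is `0`.
For the size bounds clamp the entries (`min (X u) (b u)`) or use an invariant valid without `WF`. -/
theorem exists_feas : ∃ feas : Inst → Option (List ℕ), PT feas ∧ ∀ I : Inst, I.WF →
    (∀ X, feas I = some X → I.IsSol X) ∧ (feas I = none → ∀ X, ¬ I.IsSol X) := by
  obtain ⟨reach, h1, h2⟩ := exists_reach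
  have h3 := Feas.run_pt h1
  refine ⟨fun I => if I.IsSol (Feas.run reach I (toBits I).length) then
    some (Feas.run reach I (toBits I).length) else none, by fun_prop, fun I hI => ⟨?_, ?_⟩⟩
  · intro X hX
    beta_reduce at hX
    split_ifs at hX with h
    exact Option.some.inj hX ▸ h
  · intro hX Y hY
    beta_reduce at hX
    split_ifs at hX with h
    apply h
    have hm := Feas.run_spec h2 hI (sz I) le_rfl
    rw [Nat.sub_self, pow_zero] at hm
    rw [length_toBits]
    have h0 : Feas.Psi (Feas.scale I 1) (Feas.fn Y) = 0 :=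
      sum_eq_zero fun v hv => by
        have := hY.2.2 v (by simpa using hv)
        simp only [Feas.scale_d, Feas.scale_div, Nat.cast_one, Int.ediv_one, abs_eq_zero]
        exact sub_eq_zero.2 this.symm
    have h4 := hm.2 (Feas.fn Y) fun u hu => by
      have := hY.2.1 u (by simpa using hu)
      simp only [Feas.fn, Feas.scale_b, Nat.div_one]
      omega
    rw [h0] at h4
    have h5 := (sum_eq_zero_iff_of_nonneg fun _ _ => abs_nonneg _).1
      (le_antisymm h4 (Feas.Psi_nonneg _ _))
    refine ⟨?_, fun u hu => ?_, fun v hv => ?_⟩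
    · obtain ⟨k, hk⟩ : ∃ k, sz I = k + 1 := ⟨sz I - 1, by have := one_le_sz I; omega⟩
      rw [hk, Feas.run, Feas.length_phase, Feas.scale_nc]
    · have := (hm.1 u (by simpa using hu)).2
      simp only [Feas.fn, Feas.scale_b, Nat.div_one] at this
      exact_mod_cast this
    · have := h5 v (by simpa using hv)
      simp only [Feas.scale_d, Feas.scale_div, Nat.cast_one, Int.ediv_one, abs_eq_zero] at this
      exact (sub_eq_zero.1 this).symm

end Crest.Agent.R309
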