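import Crest.Agent.R309.Iface
import Crest.Agent.R309.Feas
import Crest.Agent.R309.Tape2

/-!
# R309: the median trick
-/

set_option linter.dupNamespace false

namespace Crest.Agent.R309

open Finset Crest.Agent.Lib.PT

/-- A median of a list. -/
private def med (L : List ℚ) : ℚ :=
  (L.find? fun z => decide (L.length ≤ 2 * L.countP fun y => decide (y ≤ z)) &&
    decide (L.length ≤ 2 * L.countP fun y => decide (z ≤ y))).getD 0

private theorem med_pt {α : Type} [Enc α] {L : α → List ℚ} (hL : PT L) :
    PT fun a => med (L a) := by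
  unfold med; fun_prop

private theorem exists_med {L : List ℚ} (hL : L ≠ []) :
    ∃ z ∈ L, L.length ≤ 2 * L.countP (fun y => decide (y ≤ z)) ∧
      L.length ≤ 2 * L.countP (fun y => decide (z ≤ y)) := by
  classical
  obtain ⟨m, hm, hmax⟩ := L.toFinset.exists_max_image id (by simpa using hL)
  obtain ⟨z, hz, hmin⟩ := (L.toFinset.filter fun z =>
    L.length ≤ 2 * L.countP (fun y => decide (y ≤ z))).exists_min_image id ⟨m, by
      refine mem_filter.2 ⟨hm, ?_⟩
      rw [List.countP_eq_length.2 fun a ha => by simpa using hmax a (by simpa using ha)]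
      omega⟩
  obtain ⟨hz1, hz2⟩ := mem_filter.1 hz
  refine ⟨z, by simpa using hz1, hz2, ?_⟩
  have e := List.length_eq_countP_add_countP (fun y => decide (z ≤ y)) (l := L)
  by_cases h0 : (L.toFinset.filter fun y => y < z).Nonempty
  · obtain ⟨w, hw, hwmax⟩ := (L.toFinset.filter fun y => y < z).exists_max_image id h0
    obtain ⟨hw1, hw2⟩ := mem_filter.1 hw
    have h1 : ¬ L.length ≤ 2 * L.countP (fun y => decide (y ≤ w)) := fun h =>
      absurd (hmin w (mem_filter.2 ⟨hw1, h⟩)) (not_le.2 hw2)
    have h2 : L.countP (fun a => decide ¬ (decide (z ≤ a) = true)) ≤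
        L.countP (fun y => decide (y ≤ w)) :=
      List.countP_mono_left fun a ha h => by
        simpa using hwmax a (mem_filter.2 ⟨by simpa using ha, by simpa using h⟩)
    omega
  · have h2 : L.countP (fun a => decide ¬ (decide (z ≤ a) = true)) = 0 :=
      List.countP_eq_zero.2 fun a ha h =>
        h0 ⟨a, mem_filter.2 ⟨by simpa using ha, by simpa using h⟩⟩
    omega

private theorem med_spec {L : List ℚ} (hL : L ≠ []) :
    L.length ≤ 2 * L.countP (fun y => decide (y ≤ med L)) ∧
      L.length ≤ 2 * L.countP (fun y => decide (med L ≤ y)) := by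
  obtain ⟨z, hz, h1, h2⟩ := exists_med hL
  unfold med
  cases h : L.find? fun z => decide (L.length ≤ 2 * L.countP fun y => decide (y ≤ z)) &&
    decide (L.length ≤ 2 * L.countP fun y => decide (z ≤ y)) with
  | none => exact absurd (by simpa using ⟨h1, h2⟩) (List.find?_eq_none.1 h z hz)
  | some w => simpa using List.find?_some h

private theorem med_nonneg {L : List ℚ} (h : ∀ z ∈ L, 0 ≤ z) : 0 ≤ med L := by
  unfold med
  cases h' : L.find? fun z => decide (L.length ≤ 2 * L.countP fun y => decide (y ≤ z)) &&
    decide (L.length ≤ 2 * L.countP fun y => decide (z ≤ y)) with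
  | none => exact le_rfl
  | some w => exact h w (List.mem_of_find?_eq_some h')

private theorem med_good {L : List ℚ} (hL : L ≠ []) (c r : ℝ) (bad : ℚ → Bool)
    (hbad : ∀ z : ℚ, ¬ |(z : ℝ) - c| ≤ r → bad z = true) (h : ¬ L.length ≤ 2 * L.countP bad) :
    |(med L : ℝ) - c| ≤ r := by
  obtain ⟨h1, h2⟩ := med_spec hL
  by_contra hc
  apply h
  rcases lt_abs.1 (not_le.1 hc) with h3 | h3
  · refine h2.trans (Nat.mul_le_mul_left 2 (List.countP_mono_left fun a _ ha => hbad a ?_))
    have : (med L : ℝ) ≤ a := by exact_mod_cast of_decide_eq_true ha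
    exact not_le.2 (lt_abs.2 (Or.inl (by linarith)))
  · refine h1.trans (Nat.mul_le_mul_left 2 (List.countP_mono_left fun a _ ha => hbad a ?_))
    have : (a : ℝ) ≤ med L := by exact_mod_cast of_decide_eq_true ha
    exact not_le.2 (lt_abs.2 (Or.inr (by linarith)))

/-- Run `feas` (`exists_feas`); output `0` if it fails.  Otherwise, with the solution `X0`, compute the list `L` of
`N = 2 D + 1` estimates on the blocks `chunks ((G E)^e) N l`, and output a median: the first `z ∈ L` with
`N ≤ 2 * countP (· ≤ z)` and `N ≤ 2 * countP (z ≤ ·)` (`find?`, default `0`; a median exists: take the least `z ∈ L`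
with `N ≤ 2 * countP (· ≤ z)`).  If fewer than half of the estimates are bad, the median is good (if it
were too large, all `z' ≥ z` would be bad); `major_chunks` bounds the failure probability by
`(3/5)^N ≤ (1/2)^D`.  When `feas` fails there is no solution and the output `0` is exact. -/
theorem exists_count {est : Un × Inst × List ℕ × Un × List Bool → ℚ} {e : ℕ}
    (h : EstSpec est e) : ∃ cnt e', CountSpec cnt e' := by
  classical
  obtain ⟨feas, hf, hfeas⟩ := exists_feas
  have hpt := h.pt
  refine ⟨fun a => (feas a.2.1).elim 0 fun X0 => med ((chunks ((a.1.n * a.2.2.1.n) ^ e)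
    (2 * a.2.2.2.1.n + 1) a.2.2.2.2).map fun ω => est (a.1, a.2.1, X0, a.2.2.1, ω)), e + 2,
    ?_, ?_, ?_, ?_⟩
  · exact PT.option_elim (by fun_prop) (by fun_prop) (med_pt (by fun_prop))
  · intro a
    cases feas a.2.1 with
    | none => exact le_rfl
    | some X0 =>
      refine med_nonneg fun z hz => ?_
      obtain ⟨ω, -, rfl⟩ := List.mem_map.1 hz
      exact h.nonneg _
  · intro G I E D l hI h0
    cases hX : feas I with
    | none => rfl
    | some X0 =>
      have := Inst.mem_Sols.2 ((hfeas I hI).1 X0 hX)
      rw [card_eq_zero.1 h0] at this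
      exact absurd this (notMem_empty _)
  · intro G I E D hG hE n hn
    cases hX : feas I with
    | none =>
      have h0 : I.Sols.card = 0 := card_eq_zero.2 (eq_empty_of_forall_notMem fun X hX' =>
        (hfeas I hG.wf).2 hX X (Inst.mem_Sols.1 hX'))
      rw [Pr_true fun l _ => by simp [hX, h0]]
      have : (0 : ℝ) ≤ (1 / 2) ^ D.n := by positivity
      linarith
    | some X0 =>
      simp only [hX, Option.elim]
      have hsol := (hfeas I hG.wf).1 X0 hX
      set ρ := (G.n * E.n) ^ e with hρ
      set N := 2 * D.n + 1 with hN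
      have hG2 : 2 ≤ G.n := by
        have h1 := hG.pow
        have h2 := hG.ten
        calc 2 = 2 ^ 1 := rfl
          _ ≤ 2 ^ Nat.log 2 G.n := Nat.pow_le_pow_right (by norm_num) (by omega)
          _ = G.n := h1.symm
      have hle : N * ρ ≤ n := by
        refine le_trans ?_ hn
        have h1 : G.n * E.n ≤ G.n * E.n * (D.n + 1) := Nat.le_mul_of_pos_right _ (by omega)
        have h2 : 2 * (D.n + 1) ≤ G.n * E.n * (D.n + 1) :=
          Nat.mul_le_mul_right _ (by nlinarith)
        rw [pow_add, mul_comm]
        exact Nat.mul_le_mul (Nat.pow_le_pow_left h1 e) (by nlinarith)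
      let bad : ℚ → Bool := fun z =>
        decide (¬ |(z : ℝ) - I.Sols.card| ≤ (I.Sols.card : ℝ) / E.n)
      have hb : Pr ρ (fun ω => bad (est (G, I, X0, E, ω)) = true) ≤ 1 / 16 := by
        have := h.good G I X0 E hG hsol hE ρ le_rfl
        simp only [bad, decide_eq_true_eq]
        rw [Pr_not]
        linarith
      have hm := major_chunks ρ N _ hb
      rw [← Pr_take hle] at hm
      simp only [chunks_take le_rfl] at hm
      have h35 : (3 / 5 : ℝ) ^ N ≤ (1 / 2) ^ D.n := by
        rw [hN, pow_succ, pow_mul]
        have : ((3 / 5 : ℝ) ^ 2) ^ D.n ≤ (1 / 2) ^ D.n :=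
          pow_le_pow_left₀ (by positivity) (by norm_num) _
        have h' : (0 : ℝ) ≤ ((3 / 5 : ℝ) ^ 2) ^ D.n := by positivity
        linarith
      refine le_trans ?_ (Pr_mono (E := fun l => ¬ N ≤ 2 * (chunks ρ N l).countP
        fun ω => bad (est (G, I, X0, E, ω))) fun l _ hl => ?_)
      · rw [Pr_not]; linarith
      · refine med_good (List.ne_nil_of_length_pos (by simp [hN])) _ _ bad
          (fun z hz => decide_eq_true hz) ?_
        rwa [List.length_map, length_chunks, List.countP_map]

end Crest.Agent.R309
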