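import Mathlib

/-!
# R309: the relaxed model (definitions only)

Cells `u : U` carry two integer values `α u` (value seen by the row end) and `β u` (value seen by the
column end).  A configuration is a count vector `c : El U T → ℤ` with `c (eX u) = α u` and
`c (eY u) = - β u`; `T` indexes extra "terminal" elements.  Adding the element `eX u` raises `α u`,
adding `eY u` lowers `β u`.  `diag I` is the configuration `α = β = I`.
Key identity: `diag (I + dl u) + dl (eY u) = diag I + dl (eX u)`.
-/

set_option linter.dupNamespace false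
set_option linter.unusedSectionVars false

namespace Crest.Agent.R309

open Finset

/-- Unit vector. -/
def dl {E : Type} [DecidableEq E] (a : E) : E → ℤ := Pi.single a 1

theorem dl_apply {E : Type} [DecidableEq E] (a b : E) : dl a b = if b = a then 1 else 0 := by
  simp [dl, Pi.single_apply]

@[simp] theorem dl_self {E : Type} [DecidableEq E] (a : E) : dl a a = 1 := by simp [dl]

theorem dl_ne {E : Type} [DecidableEq E] {a b : E} (h : b ≠ a) : dl a b = 0 := by
  simp [dl_apply, h]

theorem dl_nonneg {E : Type} [DecidableEq E] (a b : E) : 0 ≤ dl a b := by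
  rw [dl_apply]; split_ifs <;> simp

/-- Elements: two per cell, and the terminals. -/
abbrev El (U T : Type) : Type := (U × Bool) ⊕ T

/-- The element raising `α u`. -/
abbrev eX {U T : Type} (u : U) : El U T := Sum.inl (u, true)

/-- The element lowering `β u`. -/
abbrev eY {U T : Type} (u : U) : El U T := Sum.inl (u, false)

/-- The diagonal configuration `α = β = I`. -/
def diag {U T : Type} (I : U → ℤ) : El U T → ℤ
  | Sum.inl (u, true) => I u
  | Sum.inl (u, false) => - I u
  | Sum.inr _ => 0

@[simp] theorem diag_X {U T : Type} (I : U → ℤ) (u : U) : diag (T := T) I (eX u) = I u := rfl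
@[simp] theorem diag_Y {U T : Type} (I : U → ℤ) (u : U) : diag (T := T) I (eY u) = - I u := rfl
@[simp] theorem diag_T {U T : Type} (I : U → ℤ) (t : T) : diag I (Sum.inr t) = 0 := rfl

theorem diag_add_dl {U T : Type} [DecidableEq U] [DecidableEq T] (I : U → ℤ) (u : U) :
    diag (T := T) (I + dl u) = diag I + dl (eX u) - dl (eY u) := by
  funext a
  rcases a with ⟨v, _ | _⟩ | t
  · by_cases h : v = u <;> simp [diag, dl_apply, h]
    ring
  · by_cases h : v = u <;> simp [diag, dl_apply, h]
  · simp [diag, dl_apply]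

theorem diag_sub_dl {U T : Type} [DecidableEq U] [DecidableEq T] (I : U → ℤ) (u : U) :
    diag (T := T) (I - dl u) = diag I - dl (eX u) + dl (eY u) := by
  have := diag_add_dl (T := T) (I - dl u) u
  rw [sub_add_cancel] at this
  rw [this]; abel

/-- A weight on count vectors, positive exactly below `top`, whose link matrices
`(a, b) ↦ μ (τ + a + b)` have at most one positive eigenvalue, in the form that is used. -/
structure Model (E : Type) [Fintype E] [DecidableEq E] where
  /-- the weight -/
  μ : (E → ℤ) → ℝ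
  /-- the largest admissible counts -/
  top : E → ℤ
  pos : ∀ c, c ≤ top → 0 < μ c
  zero : ∀ c, ¬ c ≤ top → μ c = 0
  lor : ∀ (τ : E → ℤ) (y : E) (η : E → ℝ), τ + dl y ≤ top →
    ∑ a, η a * μ (τ + dl a + dl y) = 0 → ∑ a, ∑ b, η a * η b * μ (τ + dl a + dl b) ≤ 0

theorem Model.nonneg {E : Type} [Fintype E] [DecidableEq E] (M : Model E) (c : E → ℤ) :
    0 ≤ M.μ c := by
  by_cases h : c ≤ M.top
  · exact (M.pos c h).le
  · exact (M.zero c h).ge

variable {U T : Type} [Fintype U] [DecidableEq U] [Fintype T] [DecidableEq T]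

/-- The box in which the cells of `S` range over `[lo, hi]` and the others are pinned at `ρ`. -/
noncomputable def boxS (lo hi : U → ℤ) (S : Finset U) (ρ : U → ℤ) : Finset (U → ℤ) :=
  Fintype.piFinset fun u => if u ∈ S then Icc (lo u) (hi u) else {ρ u}

theorem mem_boxS {lo hi : U → ℤ} {S : Finset U} {ρ I : U → ℤ} :
    I ∈ boxS lo hi S ρ ↔ ∀ u, (u ∈ S → lo u ≤ I u ∧ I u ≤ hi u) ∧ (u ∉ S → I u = ρ u) := by
  simp only [boxS, Fintype.mem_piFinset]
  refine forall_congr' fun u => ?_
  by_cases h : u ∈ S <;> simp [h]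

/-- The full box. -/
noncomputable def box (lo hi : U → ℤ) : Finset (U → ℤ) := Fintype.piFinset fun u => Icc (lo u) (hi u)

theorem mem_box {lo hi I : U → ℤ} : I ∈ box lo hi ↔ ∀ u, lo u ≤ I u ∧ I u ≤ hi u := by
  simp [box, Fintype.mem_piFinset]

theorem boxS_univ (lo hi ρ : U → ℤ) : boxS lo hi univ ρ = box lo hi := by
  simp [boxS, box]

/-- `c` has no count on the elements of the cells of `S`. -/
def Off (S : Finset U) (c : El U T → ℤ) : Prop := ∀ u ∈ S, c (eX u) = 0 ∧ c (eY u) = 0

/-- `ν` vanishes as soon as a cell of `S` has `α u > hi u` or `β u < lo u`. -/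
def Van (lo hi : U → ℤ) (S : Finset U) (ν : (El U T → ℤ) → ℝ) : Prop :=
  ∀ u ∈ S, ∀ c, (hi u < c (eX u) ∨ - lo u < c (eY u)) → ν c = 0

/-- The gradient of `F` at `I` in the directions of `S`, as a vector on the elements. -/
def grad (S : Finset U) (F : (U → ℤ) → ℝ) (I : U → ℤ) : El U T → ℝ
  | Sum.inl (u, true) => if u ∈ S then F (I + dl u) - F I else 0
  | Sum.inl (u, false) => if u ∈ S then F (I - dl u) - F I else 0
  | Sum.inr _ => 0

@[simp] theorem grad_X (S : Finset U) (F : (U → ℤ) → ℝ) (I : U → ℤ) (u : U) :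
    grad (T := T) S F I (eX u) = if u ∈ S then F (I + dl u) - F I else 0 := rfl
@[simp] theorem grad_Y (S : Finset U) (F : (U → ℤ) → ℝ) (I : U → ℤ) (u : U) :
    grad (T := T) S F I (eY u) = if u ∈ S then F (I - dl u) - F I else 0 := rfl
@[simp] theorem grad_T (S : Finset U) (F : (U → ℤ) → ℝ) (I : U → ℤ) (t : T) :
    grad S F I (Sum.inr t) = 0 := rfl

/-- The Dirichlet form in direction `u` on the set `B`, with conductances
`ν (c₀ + diag I + eX u)` on the edge from `I` to `I + e_u`. -/
def ene (ν : (El U T → ℤ) → ℝ) (c₀ : El U T → ℤ) (B : Finset (U → ℤ)) (u : U)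
    (F G : (U → ℤ) → ℝ) : ℝ :=
  ∑ I ∈ B, ν (c₀ + diag I + dl (eX u)) * ((F (I + dl u) - F I) * (G (I + dl u) - G I))

namespace Model

variable (M : Model (El U T))

/-- Lower end of the range of a cell. -/
def lo (u : U) : ℤ := - M.top (eY u)

/-- Upper end of the range of a cell. -/
def hi (u : U) : ℤ := M.top (eX u)

/-- The box of the model. -/
noncomputable def bx (S : Finset U) (ρ : U → ℤ) : Finset (U → ℤ) := boxS M.lo M.hi S ρ

theorem van (S : Finset U) : Van M.lo M.hi S M.μ := by
  intro u _ c h
  refine M.zero c fun hc => ?_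
  rcases h with h | h
  · exact absurd (hc (eX u)) (not_le.2 h)
  · exact absurd (hc (eY u)) (not_le.2 (by simpa [lo] using h))

end Model

/-- A laminar model: cells `U` with a row end `(u, true)` and a column end `(u, false)`, a laminar
family `L` of sets of ends, a convex Lipschitz penalty `ψ C` of the net flow into each member, a
linear field `γ`, and a range `[lo u, hi u]` for each cell. -/
structure Lam (U L : Type) where
  /-- membership of an end in a member of the family -/
  mem : U × Bool → L → Bool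
  /-- penalties -/
  ψ : L → ℤ → ℝ
  /-- Lipschitz constants -/
  lip : L → ℝ
  /-- fields -/
  γ : U → ℝ
  /-- lower ends -/
  lo : U → ℤ
  /-- upper ends -/
  hi : U → ℤ
  lam : ∀ C C', (∃ a, mem a C = true ∧ mem a C' = true) →
    (∀ a, mem a C = true → mem a C' = true) ∨ (∀ a, mem a C' = true → mem a C = true)
  cvx : ∀ C s, 2 * ψ C s ≤ ψ C (s - 1) + ψ C (s + 1)
  lips : ∀ C s, |ψ C (s + 1) - ψ C s| ≤ lip C
  le : ∀ u, lo u ≤ hi u

namespace Lam

variable {L : Type} [Fintype L] [DecidableEq L] (m : Lam U L)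

/-- Net flow into a member of the family. -/
def net (C : L) (σ : U → ℤ) : ℤ :=
  ∑ u, ((if m.mem (u, false) C then σ u else 0) - (if m.mem (u, true) C then σ u else 0))

/-- The weight with the penalty of the member `C₀` shifted by `j`. -/
noncomputable def wtS (C₀ : L) (j : ℤ) (σ : U → ℤ) : ℝ :=
  Real.exp (∑ u, m.γ u * σ u - ∑ C, m.ψ C (m.net C σ - if C = C₀ then j else 0))

/-- The weight of a diagonal configuration. -/
noncomputable def wt (σ : U → ℤ) : ℝ :=
  Real.exp (∑ u, m.γ u * σ u - ∑ C, m.ψ C (m.net C σ))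

/-- The partition function. -/
noncomputable def Z : ℝ := ∑ σ ∈ box m.lo m.hi, m.wt σ

/-- The partition function with one penalty shifted. -/
noncomputable def ZS (C₀ : L) (j : ℤ) : ℝ := ∑ σ ∈ box m.lo m.hi, m.wtS C₀ j σ

theorem wt_pos (σ : U → ℤ) : 0 < m.wt σ := Real.exp_pos _

theorem wtS_zero (C₀ : L) (σ : U → ℤ) : m.wtS C₀ 0 σ = m.wt σ := by simp [wtS, wt]

theorem ZS_zero (C₀ : L) : m.ZS C₀ 0 = m.Z := by simp [ZS, Z, wtS_zero]

end Lam

/-- The Dirichlet form in direction `u` of the box with the weights `min (π σ) (π (σ + e_u))`. -/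
noncomputable def dir (lo hi : U → ℤ) (π : (U → ℤ) → ℝ) (u : U) (f : (U → ℤ) → ℝ) : ℝ :=
  ∑ σ ∈ (box lo hi).filter (fun σ => σ u < hi u),
    min (π σ) (π (σ + dl u)) * (f (σ + dl u) - f σ) ^ 2

end Crest.Agent.R309
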