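import Crest.Agent.R309.Iface
import Crest.Agent.R309.Model

/-!
# R309: the concrete chain (definitions)

Everything is measured as a deviation from the known solution `X0`.  The cells of the forest ("tree
cells") are eliminated: their values are read off the net flow into the set of descendants of a vertex.
A free cell `u` ranges over `[lo u, lo u + s u * M u)`, cut into `M u` blocks of length `s u`; a state of the
chain is a number whose digits in base `B = G^12` are the block indices.  The weight of a state is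
`q ^ En` with `q = 1 - G^{-27}`.
-/

set_option linter.dupNamespace false

namespace Crest.Agent.R309

open Finset Crest.Agent.Lib.PT

/-- The preprocessed instance. -/
structure Dat where
  /-- size parameter -/
  G : ℕ
  /-- instance -/
  I : Inst
  /-- known solution -/
  X0 : List ℕ
  /-- widths -/
  w : List ℕ
  /-- parent cells -/
  pc : List (Option ℕ)
  /-- ancestor lists -/
  an : List (List ℕ)

/-- The tuple of fields. -/
def Dat.tup (D : Dat) : Un × Inst × List ℕ × List ℕ × List (Option ℕ) × List (List ℕ) :=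
  (⟨D.G⟩, D.I, D.X0, D.w, D.pc, D.an)

instance : Enc Dat := Enc.ofInj Dat.tup (by
  rintro ⟨_, _, _, _, _, _⟩ ⟨_, _, _, _, _, _⟩ h
  simp only [Dat.tup, Prod.mk.injEq, Un.mk.injEq] at h
  obtain ⟨rfl, rfl, rfl, rfl, rfl, rfl⟩ := h
  rfl)

namespace Dat

variable (D : Dat)

/-- The hypotheses on the data. -/
structure Good : Prop where
  fits : Fits D.G D.I
  sol : D.I.IsSol D.X0
  wid : WidthSpec D.I D.X0 D.w
  tr : TreeSpec D.I D.w (D.G ^ 9) D.pc D.an

/-- `G = 2 ^ g`. -/
def g : ℕ := Nat.log 2 D.G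
/-- The known solution. -/
def x0 (u : ℕ) : ℕ := D.X0.getD u 0
/-- The width. -/
def wd (u : ℕ) : ℕ := D.w.getD u 0
/-- The parent cell. -/
def par (r : ℕ) : Option ℕ := D.pc.getD r none
/-- `r` is an ancestor of `v`. -/
def A (v r : ℕ) : Prop := r ∈ D.an.getD v []
instance (v r : ℕ) : Decidable (D.A v r) := by unfold A; infer_instance
/-- Tree cells. -/
def tree (u : ℕ) : Prop := some u ∈ D.pc
instance (u : ℕ) : Decidable (D.tree u) := by unfold tree; infer_instance
/-- Smallest deviation. -/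
def lo (u : ℕ) : ℤ := if D.tree u then 0 else - ((min (D.x0 u) (D.G ^ 2 * D.wd u) : ℕ) : ℤ)
/-- Largest deviation. -/
def hi (u : ℕ) : ℤ := if D.tree u then 0 else ((min (D.I.b u - D.x0 u) (D.G ^ 2 * D.wd u) : ℕ) : ℤ)
/-- Block length. -/
def s (u : ℕ) : ℕ := if D.tree u then 1 else max 1 (D.wd u / D.G ^ 9)
/-- Number of blocks. -/
def M (u : ℕ) : ℕ := (D.hi u - D.lo u).toNat / D.s u + 1
/-- Place value of the digit `u`. -/
def pw (u : ℕ) : ℕ := (D.G ^ 12) ^ min u D.G
/-- The digit `u`. -/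
def dg (x u : ℕ) : ℕ := x / D.pw u % D.G ^ 12
/-- The corner of the block. -/
def cor (x u : ℕ) : ℤ := D.lo u + D.s u * D.dg x u
/-- Net flow into the set of descendants of `r`. -/
def net (σ : ℕ → ℤ) (r : ℕ) : ℤ := ∑ u ∈ range D.I.nc,
  ((if D.A (D.I.q u) r then σ u else 0) - (if D.A (D.I.p u) r then σ u else 0))
/-- The deviation of the parent cell `e` of `r` that balances the descendants of `r`. -/
def tv (σ : ℕ → ℤ) (r e : ℕ) : ℤ := if D.I.p e = r then D.net σ r else - D.net σ r
/-- Strength of the penalty at roots. -/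
def Kp : ℕ := 2 * D.g * D.G ^ 27
/-- Unit of the penalty for tree cells. -/
def Wp (e : ℕ) : ℕ := D.wd e / D.G ^ 7
/-- The penalty of a tree cell at deviation `t`. -/
def penT (e : ℕ) (t : ℤ) : ℕ :=
  D.G ^ 25 * ((t - (D.I.b e - D.x0 e : ℤ)).toNat / D.Wp e + (- (D.x0 e : ℤ) - t).toNat / D.Wp e)
/-- The energy at the vertex `r`. -/
def pen (φ : List ℤ) (σ : ℕ → ℤ) (r : ℕ) : ℤ :=
  (D.par r).elim (D.Kp * |D.net σ r| + φ.getD r 0 * D.net σ r) fun e => D.penT e (D.tv σ r e)
/-- The energy. -/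
def En (φ : List ℤ) (σ : ℕ → ℤ) : ℤ := ∑ r ∈ range D.I.nv, D.pen φ σ r

/-- The proposed move. -/
def prop (x : ℕ) (up : Bool) (u : ℕ) : ℕ :=
  if up then (if D.dg x u + 1 < D.M u then x + D.pw u else x)
  else (if 0 < D.dg x u then x - D.pw u else x)
/-- `thr k / 2^(27 g G^35) = q ^ k` for `k ≤ G^35`. -/
def thr (k : ℕ) : ℕ := (D.G ^ 27 - 1) ^ min k (D.G ^ 35) * (D.G ^ 27) ^ (D.G ^ 35 - k)
/-- The cell chosen by the tape. -/
def cell (ω : List Bool) : ℕ := ofBits ((ω.drop 2).take D.g)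
/-- One step of the lazy Metropolis chain. -/
def step (φ : List ℤ) (x : ℕ) (ω : List Bool) : ℕ :=
  (if ω.getD 0 false = true ∧ D.cell ω < D.I.nc ∧
      ofBits ((ω.drop (2 + D.g)).take (27 * D.g * D.G ^ 35)) <
        D.thr (D.En φ (D.cor (D.prop x (ω.getD 1 false) (D.cell ω))) - D.En φ (D.cor x)).toNat
    then D.prop x (ω.getD 1 false) (D.cell ω) else x) % 2 ^ D.G ^ 3

/-- A uniform point of the block. -/
def fine (x : ℕ) (ω : List Bool) (u : ℕ) : ℤ :=
  D.cor x u + ((ofBits ((ω.drop (u * D.G)).take D.G) % D.s u : ℕ) : ℤ)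
/-- The deviation of every cell, tree cells included. -/
def dev (σ : ℕ → ℤ) (u : ℕ) : ℤ :=
  if D.tree u then ∑ r ∈ range D.I.nv, (if D.par r = some u then D.tv σ r u else 0) else σ u
/-- The candidate solution. -/
def cand (σ : ℕ → ℤ) : List ℕ := (List.range D.I.nc).map fun u => (D.x0 u + D.dev σ u).toNat
/-- The candidate is accepted. -/
def ok (σ : ℕ → ℤ) : Prop := (∀ u < D.I.nc, 0 ≤ D.x0 u + D.dev σ u) ∧ D.I.IsSol (D.cand σ)
instance (σ : ℕ → ℤ) : Decidable (D.ok σ) := by unfold ok; infer_instance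
/-- The output map. -/
def out (x : ℕ) (ω : List Bool) : Option (List ℕ) :=
  if D.ok (D.fine x ω) then some (D.cand (D.fine x ω)) else none

/-- One sample of the chain, from `G^137` bits. -/
def sample (φ : List ℤ) (ω : List Bool) : ℕ := iter (D.step φ) (D.G ^ 37) (D.G ^ 100) 0 ω
/-- The sum of the net flows at `r` over `G^64` samples. -/
def est (φ : List ℤ) (l : List Bool) (r : ℕ) : ℤ :=
  ((chunks (D.G ^ 137) (D.G ^ 64) l).map fun ω => D.net (D.cor (D.sample φ ω)) r).sum
/-- One round of learning the field. -/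
def upd (c : List ℤ × Bool) (l : List Bool) : List ℤ × Bool :=
  if c.2 = true then c else
    ((List.range D.I.nv).find? fun r =>
      decide (D.par r = none ∧ (D.G : ℤ) ^ 64 < 2 * (D.G : ℤ) ^ 2 * |D.est c.1 l r|)).elim (c.1, true)
      fun r => (c.1.set r (c.1.getD r 0 + (D.est c.1 l r).sign), false)
/-- The learnt field, from `G^234` bits. -/
def learn (l : List Bool) : List ℤ :=
  (iter D.upd (D.G ^ 201) (D.G ^ 33) (List.replicate D.I.nv 0, false) l).1

/-! ### Mathematical objects -/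

/-- The state space. -/
def Om : Finset ℕ :=
  (range ((D.G ^ 12) ^ D.I.nc)).filter fun x => ∀ u < D.I.nc, D.dg x u < D.M u
/-- The base of the weights. -/
noncomputable def qq : ℝ := 1 - 1 / (D.G : ℝ) ^ 27
/-- `q = exp (- ell)`. -/
noncomputable def ell : ℝ := - Real.log D.qq
/-- The weight of a state. -/
noncomputable def wb (φ : List ℤ) (x : ℕ) : ℝ := D.qq ^ D.En φ (D.cor x)
/-- The partition function. -/
noncomputable def Zb (φ : List ℤ) : ℝ := ∑ x ∈ D.Om, D.wb φ x
/-- The volume of a block. -/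
def S : ℕ := ∏ u ∈ range D.I.nc, D.s u
/-- The limiting probability of each solution. -/
noncomputable def cst (φ : List ℤ) : ℝ := 1 / (D.Zb φ * D.S)
/-- Admissible fields. -/
def Adm (φ : List ℤ) : Prop := ∀ r, |φ.getD r 0| ≤ (D.G : ℤ) ^ 33
/-- Good fields. -/
def GoodPhi (φ : List ℤ) : Prop :=
  (∀ r < D.I.nv, D.par r = none →
    |∑ x ∈ D.Om, D.wb φ x * D.net (D.cor x) r| ≤ D.Zb φ / (D.G : ℝ) ^ 2) ∧ D.Zb φ ≤ D.Om.card

/-- Extension by zero. -/
def ext {n : ℕ} (σ : Fin n → ℤ) (u : ℕ) : ℤ := if h : u < n then σ ⟨u, h⟩ else 0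
/-- Lower corner of the fine box. -/
def loF (u : Fin D.I.nc) : ℤ := D.lo u
/-- Upper corner of the fine box. -/
def hiF (u : Fin D.I.nc) : ℤ := D.lo u + D.s u * D.M u - 1
/-- Upper corner of the coarse box. -/
def hiC (u : Fin D.I.nc) : ℤ := (D.M u : ℤ) - 1
/-- The state with the given digits. -/
def enc (a : Fin D.I.nc → ℤ) : ℕ := ∑ u, (a u).toNat * D.pw u
/-- The state of the block containing a point of the fine box. -/
def blk (σ : Fin D.I.nc → ℤ) : ℕ := D.enc fun u => (σ u - D.lo u) / D.s u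
/-- The point of the fine box that corresponds to a solution. -/
def sigOf (y : List ℕ) (u : Fin D.I.nc) : ℤ := if D.tree u then 0 else (y.getD u 0 : ℤ) - D.x0 u

/-- The sign relating the deviation of a tree cell to the net flow. -/
def sg (r e : ℕ) : ℤ := if D.I.p e = r then 1 else -1
/-- Slope of the penalty of a tree cell in the fine model. -/
noncomputable def kT (e : ℕ) : ℝ := D.ell * (D.G : ℝ) ^ 25 / D.Wp e
/-- Membership in the laminar family: each vertex `r` gives two copies of its set of descendants. -/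
def memL (a : Fin D.I.nc × Bool) (C : Fin D.I.nv × Bool) : Bool :=
  if a.2 then decide (D.A (D.I.p a.1) C.1) else decide (D.A (D.I.q a.1) C.1)
/-- Penalties of the fine model. -/
noncomputable def psiL (C : Fin D.I.nv × Bool) (t : ℤ) : ℝ :=
  (D.par C.1).elim (if C.2 then D.ell * D.Kp * |(t : ℝ)| else 0) fun e =>
    if C.2 then D.kT e * ((max 0 (D.sg C.1 e * t - (D.I.b e - D.x0 e)) : ℤ) : ℝ)
    else D.kT e * ((max 0 (- D.sg C.1 e * t - D.x0 e) : ℤ) : ℝ)
/-- Lipschitz constants of the fine model. -/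
noncomputable def lipL (C : Fin D.I.nv × Bool) : ℝ :=
  (D.par C.1).elim (if C.2 then D.ell * D.Kp else 0) fun e => D.kT e
/-- Fields of the fine model. -/
noncomputable def gamL (φ : List ℤ) (u : Fin D.I.nc) : ℝ :=
  D.ell * ∑ r ∈ range D.I.nv, (if D.par r = none then (φ.getD r 0 : ℝ) *
    ((if D.A (D.I.p u) r then 1 else 0) - (if D.A (D.I.q u) r then 1 else 0)) else 0)
/-- `m` is the fine model of the data. -/
structure IsLam (φ : List ℤ) (m : Lam (Fin D.I.nc) (Fin D.I.nv × Bool)) : Prop where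
  mem : m.mem = D.memL
  psi : m.ψ = D.psiL
  lip : m.lip = D.lipL
  gam : m.γ = D.gamL φ
  lo : m.lo = D.loF
  hi : m.hi = D.hiF

section pt

variable {α : Type} [Enc α] {D : α → Dat}

theorem tup_pt (h : PT D) : PT fun a => (D a).tup := h.of_enc_eq fun _ => rfl
@[fun_prop] theorem G_pt (h : PT D) : PT fun a => (D a).G := (tup_pt h).fst.un_n
@[fun_prop] theorem G_pb (h : PT D) : PB fun a => (D a).G := PB.un (tup_pt h).fst
@[fun_prop] theorem I_pt (h : PT D) : PT fun a => (D a).I := (tup_pt h).snd.fst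
@[fun_prop] theorem X0_pt (h : PT D) : PT fun a => (D a).X0 := (tup_pt h).snd.snd.fst
@[fun_prop] theorem w_pt (h : PT D) : PT fun a => (D a).w := (tup_pt h).snd.snd.snd.fst
@[fun_prop] theorem pc_pt (h : PT D) : PT fun a => (D a).pc := (tup_pt h).snd.snd.snd.snd.fst
@[fun_prop] theorem an_pt (h : PT D) : PT fun a => (D a).an := (tup_pt h).snd.snd.snd.snd.snd

theorem mk_pt {G : α → Un} {I : α → Inst} {X0 w : α → List ℕ} {pc : α → List (Option ℕ)}
    {an : α → List (List ℕ)} (h1 : PT G) (h2 : PT I) (h3 : PT X0) (h4 : PT w) (h5 : PT pc)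
    (h6 : PT an) : PT fun a => (⟨(G a).n, I a, X0 a, w a, pc a, an a⟩ : Dat) :=
  (h1.pair (h2.pair (h3.pair (h4.pair (h5.pair h6))))).of_enc_eq fun _ => rfl

end pt

end Dat

end Crest.Agent.R309
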