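import Crest.Agent.R309.Gap

/-!
# R309: one step of the descent, and accuracy of the estimates
-/

set_option linter.dupNamespace false

namespace Crest.Agent.R309

open Finset Crest.Agent.Lib.PT

namespace Dat

variable {D : Dat} {φ : List ℤ}

/-- The mean net flow. -/
noncomputable def mean (D : Dat) (φ : List ℤ) (r : ℕ) : ℝ :=
  (∑ x ∈ D.Om, D.wb φ x * D.net (D.cor x) r) / D.Zb φ

theorem desc_abs_net (h : D.Good) {x : ℕ} (hx : x ∈ D.Om) {r : ℕ} (hp : D.par r = none) :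
    |(D.net (D.cor x) r : ℝ)| ≤ (D.G : ℝ) ^ 12 := by
  have := h.abs_net_root (σ := D.cor x) (fun u hu => by
    have h1 := cor_range hx hu
    have h2 : (0 : ℤ) < D.s u := by exact_mod_cast s_pos u
    exact ⟨h1.1, by omega⟩) hp
  exact_mod_cast this

theorem desc_En_set (hl : φ.length = D.I.nv) {r : ℕ} (hr : r < D.I.nv) (hp : D.par r = none)
    (ε : ℤ) (σ : ℕ → ℤ) :
    D.En (φ.set r (φ.getD r 0 + ε)) σ = D.En φ σ + ε * D.net σ r := by
  have e : ∀ r' ∈ range D.I.nv, D.pen (φ.set r (φ.getD r 0 + ε)) σ r' =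
      D.pen φ σ r' + if r' = r then ε * D.net σ r else 0 := by
    intro r' _
    by_cases hrr : r' = r
    · subst hrr
      have : (φ.set r' (φ.getD r' 0 + ε)).getD r' 0 = φ.getD r' 0 + ε := by
        rw [List.getD_eq_getElem?_getD, List.getElem?_set_self (by omega)]; rfl
      simp only [pen, hp, Option.elim, this, if_true]
      ring
    · have : (φ.set r (φ.getD r 0 + ε)).getD r' 0 = φ.getD r' 0 := by
        rw [List.getD_eq_getElem?_getD, List.getElem?_set_ne (Ne.symm hrr),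
          ← List.getD_eq_getElem?_getD]
      simp only [pen, this, if_neg hrr, add_zero]
  unfold En
  rw [Finset.sum_congr rfl e, Finset.sum_add_distrib, Finset.sum_ite_eq' , if_pos (mem_range.2 hr)]

/-- With the zero field the energy is nonnegative. -/
theorem Good.Zb_zero (h : D.Good) : D.Zb (List.replicate D.I.nv 0) ≤ D.Om.card := by
  have e : ∀ x ∈ D.Om, D.wb (List.replicate D.I.nv 0) x ≤ 1 := by
    intro x _
    rw [h.wb_eq, Real.exp_le_one_iff]
    have : 0 ≤ D.En (List.replicate D.I.nv 0) (D.cor x) := by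
      refine Finset.sum_nonneg fun r _ => ?_
      have h0 : (List.replicate D.I.nv (0 : ℤ)).getD r 0 = 0 := by
        rw [List.getD_eq_getElem?_getD, List.getElem?_replicate]
        split_ifs <;> rfl
      unfold pen
      cases D.par r with
      | none => simp only [Option.elim, h0, zero_mul, add_zero]; positivity
      | some e => simp only [Option.elim]; positivity
    have h1 : (0 : ℝ) ≤ D.En (List.replicate D.I.nv 0) (D.cor x) := by exact_mod_cast this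
    nlinarith [h.ell_pos]
  simpa [Zb] using Finset.sum_le_card_nsmul _ _ _ e

/-- The energy changes by `ε * net`, so `wb φ' x = wb φ x * exp (- ell ε net)`, with `|ell * net| ≤ 2 G^{-27} G^{12} ≤ 1`
(`abs_net_root`, `cor_range`) and `exp y ≤ 1 + y + y²` for `|y| ≤ 1`; `ell² G^{24} ≤ ell / (8 G²)`, `ell ≥ G^{-27}`. -/
theorem Good.descent (h : D.Good) (hl : φ.length = D.I.nv) {r : ℕ} (hr : r < D.I.nv)
    (hp : D.par r = none) {ε : ℤ} (hε : ε = 1 ∨ ε = -1)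
    (hm : 1 / (4 * (D.G : ℝ) ^ 2) ≤ ε * D.mean φ r) :
    D.Zb (φ.set r (φ.getD r 0 + ε)) ≤ (1 - 1 / (8 * (D.G : ℝ) ^ 29)) * D.Zb φ := by
  have hG := h.G_geR
  have hG0 : (0 : ℝ) < D.G := by linarith
  have hε1 : |(ε : ℝ)| = 1 := by rcases hε with rfl | rfl <;> simp
  have hl0 := h.ell_pos
  have hlu := h.ell_ub
  have hll := h.ell_lb
  have hZ := h.Zb_pos φ
  have h12 : D.ell * (D.G : ℝ) ^ 12 ≤ 1 := by
    refine (mul_le_mul_of_nonneg_right hlu (by positivity)).trans ?_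
    rw [div_mul_eq_mul_div, div_le_one (by positivity)]
    have : (D.G : ℝ) ^ 27 = (D.G : ℝ) ^ 15 * (D.G : ℝ) ^ 12 := by ring
    rw [this]
    refine mul_le_mul_of_nonneg_right ?_ (by positivity)
    calc (2 : ℝ) ≤ D.G := by linarith
      _ ≤ (D.G : ℝ) ^ 15 := le_self_pow₀ (by linarith) (by norm_num)
  have e : ∀ x ∈ D.Om, D.wb (φ.set r (φ.getD r 0 + ε)) x ≤
      D.wb φ x - D.ell * ε * (D.wb φ x * D.net (D.cor x) r) +
        (D.ell * (D.G : ℝ) ^ 12) ^ 2 * D.wb φ x := by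
    intro x hx
    have hn := desc_abs_net h hx hp
    set y : ℝ := - D.ell * (ε * D.net (D.cor x) r) with hy
    have hy1 : |y| ≤ D.ell * (D.G : ℝ) ^ 12 := by
      rw [hy, abs_mul, abs_mul, hε1, one_mul, abs_neg, abs_of_pos hl0]
      exact mul_le_mul_of_nonneg_left hn hl0.le
    have hy2 := (abs_le.1 (Real.abs_exp_sub_one_sub_id_le (hy1.trans h12))).2
    have hy3 : y ^ 2 ≤ (D.ell * (D.G : ℝ) ^ 12) ^ 2 := by
      rw [← sq_abs]; exact pow_le_pow_left₀ (abs_nonneg _) hy1 2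
    have : D.wb (φ.set r (φ.getD r 0 + ε)) x = D.wb φ x * Real.exp y := by
      rw [h.wb_eq, h.wb_eq, desc_En_set hl hr hp, ← Real.exp_add, hy]
      push_cast
      ring_nf
    rw [this]
    have hw := h.wb_pos φ x
    have : Real.exp y ≤ 1 + y + (D.ell * (D.G : ℝ) ^ 12) ^ 2 := by linarith
    calc D.wb φ x * Real.exp y ≤ D.wb φ x * (1 + y + (D.ell * (D.G : ℝ) ^ 12) ^ 2) :=
          mul_le_mul_of_nonneg_left this hw.le
      _ = _ := by rw [hy]; ring
  have hs := Finset.sum_le_sum e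
  rw [Finset.sum_add_distrib, Finset.sum_sub_distrib, ← Finset.mul_sum, ← Finset.mul_sum] at hs
  have hmean : ∑ x ∈ D.Om, D.wb φ x * D.net (D.cor x) r = D.mean φ r * D.Zb φ := by
    unfold mean; field_simp
  rw [hmean] at hs
  refine le_trans hs ?_
  change D.Zb φ - D.ell * ε * (D.mean φ r * D.Zb φ) + (D.ell * (D.G : ℝ) ^ 12) ^ 2 * D.Zb φ ≤ _
  have h1 : (D.ell * (D.G : ℝ) ^ 12) ^ 2 ≤ D.ell * (1 / (8 * (D.G : ℝ) ^ 2)) := by
    have : D.ell * (D.G : ℝ) ^ 24 ≤ 1 / (8 * (D.G : ℝ) ^ 2) := by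
      refine (mul_le_mul_of_nonneg_right hlu (by positivity)).trans ?_
      rw [div_mul_eq_mul_div, div_le_div_iff₀ (by positivity) (by positivity)]
      have : (D.G : ℝ) ^ 27 = D.G * (D.G : ℝ) ^ 26 := by ring
      rw [this]
      have : (0 : ℝ) < (D.G : ℝ) ^ 26 := by positivity
      nlinarith
    calc _ = D.ell * (D.ell * (D.G : ℝ) ^ 24) := by ring
      _ ≤ _ := mul_le_mul_of_nonneg_left this hl0.le
  have h2 : D.ell * (1 / (4 * (D.G : ℝ) ^ 2)) ≤ D.ell * (ε * D.mean φ r) :=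
    mul_le_mul_of_nonneg_left hm hl0.le
  have h3 : 1 / (8 * (D.G : ℝ) ^ 29) ≤ D.ell * (1 / (8 * (D.G : ℝ) ^ 2)) := by
    refine le_trans (le_of_eq ?_) (mul_le_mul_of_nonneg_right hll (by positivity))
    field_simp
  have h4 : 1 / (4 * (D.G : ℝ) ^ 2) = 2 * (1 / (8 * (D.G : ℝ) ^ 2)) := by field_simp; norm_num
  rw [h4] at h2
  have : 1 - D.ell * (ε * D.mean φ r) + (D.ell * (D.G : ℝ) ^ 12) ^ 2 ≤
      1 - 1 / (8 * (D.G : ℝ) ^ 29) := by linarith
  calc _ = (1 - D.ell * (ε * D.mean φ r) + (D.ell * (D.G : ℝ) ^ 12) ^ 2) * D.Zb φ := by ring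
    _ ≤ _ := mul_le_mul_of_nonneg_right this hZ.le

/-- Let `X ω = net (cor (sample φ ω)) r`, `|X| ≤ G^12` (`step_mem`, `iter_inv`).  By `mixing` with `K = 20 g`
(`G^99 (20 g + 1) ≤ G^100`, `2^{-K} = G^{-20}`) and `Ex_comp`, `|Ex X - mean| ≤ G^{12 - 20} ≤ 1 / (8 G²)`; by `cheb_chunks` with
`N = G^64`, `a = N / (8 G²)` the sum deviates from `N Ex X` by `a` with probability at most `64 G^{28} / G^{64}`. -/
theorem Good.est_acc (h : D.Good) (hφ : D.Adm φ) {r : ℕ} (hp : D.par r = none) :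
    Pr (D.G ^ 201) (fun l => (D.G : ℝ) ^ 64 / (4 * (D.G : ℝ) ^ 2) ≤
      |(D.est φ l r : ℝ) - (D.G : ℝ) ^ 64 * D.mean φ r|) ≤ 1 / (D.G : ℝ) ^ 35 := by
  have hG := h.G_geR
  have hG0 : (0 : ℝ) < D.G := by linarith
  have hZ := h.Zb_pos φ
  set X : List Bool → ℝ := fun ω => (D.net (D.cor (D.sample φ ω)) r : ℝ) with hX
  have e137 : D.G ^ 137 = D.G ^ 100 * D.G ^ 37 := by ring
  have hmem : ∀ ω : List Bool, ω.length = D.G ^ 137 → D.sample φ ω ∈ D.Om := fun ω hω =>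
    iter_inv (f := D.step φ) (ρ := D.G ^ 37) (J := fun x => x ∈ D.Om)
      (fun s ω _ hs => h.step_mem hs ω) h.zero_mem (by rw [hω, e137])
  have hb : ∀ ω : List Bool, ω.length = D.G ^ 137 → |X ω| ≤ (D.G : ℝ) ^ 12 := fun ω hω =>
    desc_abs_net h (hmem ω hω) hp
  have hK : D.G ^ 99 * (20 * D.g + 1) ≤ D.G ^ 100 := by
    rw [pow_succ _ 99]
    exact Nat.mul_le_mul_left _ (by have := h.g_le; omega)
  have h20 : ((1 : ℝ) / 2) ^ (20 * D.g) = 1 / (D.G : ℝ) ^ 20 := by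
    have : (D.G : ℝ) = 2 ^ D.g := by exact_mod_cast h.G_eq
    rw [this, ← pow_mul, mul_comm D.g 20, one_div_pow]
  have hE : |Ex (D.G ^ 137) X - D.mean φ r| ≤ 1 / (8 * (D.G : ℝ) ^ 2) := by
    rw [hX, Ex_comp hmem fun y => (D.net (D.cor y) r : ℝ), mean, Finset.sum_div,
      ← Finset.sum_sub_distrib]
    refine (Finset.abs_sum_le_sum_abs _ _).trans ?_
    have e : ∀ y ∈ D.Om, |Pr (D.G ^ 137) (fun l => D.sample φ l = y) * (D.net (D.cor y) r : ℝ) -
        D.wb φ y * D.net (D.cor y) r / D.Zb φ| ≤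
        1 / (D.G : ℝ) ^ 20 * (D.G : ℝ) ^ 12 / D.Zb φ * D.wb φ y := by
      intro y hy
      have h1 := h.mixing hφ le_rfl hK hy
      rw [← e137, h20] at h1
      have h2 := desc_abs_net h hy hp
      calc _ = |Pr (D.G ^ 137) (fun l => D.sample φ l = y) - D.wb φ y / D.Zb φ| *
            |(D.net (D.cor y) r : ℝ)| := by rw [← abs_mul]; congr 1; ring
        _ ≤ (1 / (D.G : ℝ) ^ 20 * (D.wb φ y / D.Zb φ)) * (D.G : ℝ) ^ 12 :=
            mul_le_mul h1 h2 (abs_nonneg _) ((abs_nonneg _).trans h1)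
        _ = _ := by ring
    refine (Finset.sum_le_sum e).trans ?_
    rw [← Finset.mul_sum]
    change _ / D.Zb φ * D.Zb φ ≤ _
    rw [div_mul_cancel₀ _ hZ.ne', div_mul_eq_mul_div, one_mul,
      div_le_div_iff₀ (by positivity) (by positivity)]
    have : (D.G : ℝ) ^ 20 = (D.G : ℝ) ^ 6 * (D.G : ℝ) ^ 14 := by ring
    rw [this]
    have h6 : (8 : ℝ) ≤ (D.G : ℝ) ^ 6 :=
      le_trans (by linarith) (le_self_pow₀ (a := (D.G : ℝ)) (by linarith) (by norm_num))
    have : (0 : ℝ) < (D.G : ℝ) ^ 14 := by positivity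
    nlinarith
  have hc := cheb_chunks (D.G ^ 137) (D.G ^ 64) X _ hb ((D.G : ℝ) ^ 64 / (8 * (D.G : ℝ) ^ 2))
    (by positivity)
  have e201 : D.G ^ 201 = D.G ^ 64 * D.G ^ 137 := by ring
  rw [e201]
  refine le_trans (Pr_mono fun l _ hl => ?_) (hc.trans ?_)
  · have e : (D.est φ l r : ℝ) = ((chunks (D.G ^ 137) (D.G ^ 64) l).map X).sum := by
      rw [est, Int.cast_list_sum, List.map_map]; rfl
    rw [e] at hl
    push_cast
    have h1 : |(D.G : ℝ) ^ 64 * Ex (D.G ^ 137) X - (D.G : ℝ) ^ 64 * D.mean φ r| ≤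
        (D.G : ℝ) ^ 64 / (8 * (D.G : ℝ) ^ 2) := by
      rw [← mul_sub, abs_mul, abs_of_pos (by positivity : (0 : ℝ) < (D.G : ℝ) ^ 64), div_eq_mul_one_div]
      exact mul_le_mul_of_nonneg_left hE (by positivity)
    have h2 := abs_sub_le (((chunks (D.G ^ 137) (D.G ^ 64) l).map X).sum)
      ((D.G : ℝ) ^ 64 * Ex (D.G ^ 137) X) ((D.G : ℝ) ^ 64 * D.mean φ r)
    have h3 : (D.G : ℝ) ^ 64 / (4 * (D.G : ℝ) ^ 2) = 2 * ((D.G : ℝ) ^ 64 / (8 * (D.G : ℝ) ^ 2)) := by
      field_simp; norm_num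
    linarith
  · push_cast
    rw [div_le_div_iff₀ (by positivity) (by positivity), div_pow, one_mul,
      le_div_iff₀ (by positivity)]
    have : ((D.G : ℝ) ^ 64) ^ 2 = D.G * (D.G : ℝ) ^ 127 := by ring
    rw [this]
    have : (0 : ℝ) < (D.G : ℝ) ^ 127 := by positivity
    nlinarith

end Dat

end Crest.Agent.R309
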