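import Crest.Agent.R309.Par

/-!
# R309: states as digit strings
-/

set_option linter.dupNamespace false

namespace Crest.Agent.R309

open Finset Crest.Agent.Lib.PT

theorem dig_lt {B n : ℕ} (f : Fin n → ℕ) (hf : ∀ i, f i < B) :
    ∑ i, f i * B ^ (i : ℕ) < B ^ n :=
  (finFunctionFinEquiv fun i => (⟨f i, hf i⟩ : Fin B)).2

theorem dig_get {B n : ℕ} (f : Fin n → ℕ) (hf : ∀ i, f i < B) (j : Fin n) :
    (∑ i, f i * B ^ (i : ℕ)) / B ^ (j : ℕ) % B = f j := by
  have := congrArg (fun g : Fin n → Fin B => (g j : ℕ))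
    (finFunctionFinEquiv.symm_apply_apply fun i => (⟨f i, hf i⟩ : Fin B))
  simpa only [finFunctionFinEquiv_symm_apply_val, finFunctionFinEquiv_apply] using this

theorem dig_rec {B n x : ℕ} (hx : x < B ^ n) :
    ∑ i : Fin n, x / B ^ (i : ℕ) % B * B ^ (i : ℕ) = x := by
  have := congrArg (fun y : Fin (B ^ n) => (y : ℕ))
    (finFunctionFinEquiv.apply_symm_apply (⟨x, hx⟩ : Fin (B ^ n)))
  simpa only [finFunctionFinEquiv_symm_apply_val, finFunctionFinEquiv_apply] using this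

namespace Dat

variable {D : Dat}

theorem mem_Om {x : ℕ} :
    x ∈ D.Om ↔ x < (D.G ^ 12) ^ D.I.nc ∧ ∀ u < D.I.nc, D.dg x u < D.M u := by
  simp [Om]

theorem Good.pw_eq (h : D.Good) {u : ℕ} (hu : u < D.I.nc) : D.pw u = (D.G ^ 12) ^ u := by
  rw [pw, min_eq_left (hu.le.trans h.nc_le)]

theorem Good.dig_top (h : D.Good) : (D.G ^ 12) ^ D.I.nc ≤ 2 ^ D.G ^ 3 := by
  have h1 := h.G_ge
  have h2 := h.g_le
  have h3 := h.nc_le
  calc (D.G ^ 12) ^ D.I.nc = 2 ^ (D.g * 12 * D.I.nc) := by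
        rw [pow_mul, pow_mul, ← h.G_eq]
    _ ≤ 2 ^ D.G ^ 3 := by
        refine Nat.pow_le_pow_right (by omega) ?_
        calc D.g * 12 * D.I.nc ≤ D.G * D.G := Nat.mul_le_mul (by omega) h3
          _ = D.G * D.G * 1 := (mul_one _).symm
          _ ≤ D.G * D.G * D.G := Nat.mul_le_mul_left _ (by omega)
          _ = D.G ^ 3 := by ring

theorem Good.dig_enc (h : D.Good) (a : Fin D.I.nc → ℤ) :
    D.enc a = ∑ u : Fin D.I.nc, (a u).toNat * (D.G ^ 12) ^ (u : ℕ) :=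
  Finset.sum_congr rfl fun u _ => by rw [h.pw_eq u.2]

theorem Good.dig_toNat_lt (h : D.Good) {a : Fin D.I.nc → ℤ} (ha : a ∈ box 0 D.hiC)
    (u : Fin D.I.nc) : (a u).toNat < D.G ^ 12 := by
  have h1 := (mem_box.1 ha u).2
  have h2 := h.M_le u.2
  have h3 := M_pos (D := D) u
  simp only [hiC] at h1
  omega

theorem Good.dig_rec (h : D.Good) {x : ℕ} (hx : x ∈ D.Om) :
    ∑ u : Fin D.I.nc, D.dg x u * (D.G ^ 12) ^ (u : ℕ) = x := by
  conv_rhs => rw [← Crest.Agent.R309.dig_rec (mem_Om.1 hx).1]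
  exact Finset.sum_congr rfl fun u _ => by rw [dg, h.pw_eq u.2]

theorem Good.zero_mem (h : D.Good) : 0 ∈ D.Om := by
  rw [mem_Om]
  have := h.G_ge
  refine ⟨by positivity, fun u _ => ?_⟩
  simp [dg, M_pos]

theorem Good.lt_of_mem (h : D.Good) {x : ℕ} (hx : x ∈ D.Om) : x < 2 ^ D.G ^ 3 := by
  exact (mem_Om.1 hx).1.trans_le h.dig_top

theorem Good.card_le (h : D.Good) : D.Om.card ≤ 2 ^ D.G ^ 3 := by
  refine le_trans ?_ h.dig_top
  refine (card_filter_le _ _).trans ?_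
  rw [card_range]

/-- A state is determined by its digits. -/
theorem Good.eq_of_dg (h : D.Good) {x y : ℕ} (hx : x ∈ D.Om) (hy : y ∈ D.Om)
    (e : ∀ u < D.I.nc, D.dg x u = D.dg y u) : x = y := by
  rw [← h.dig_rec hx, ← h.dig_rec hy]
  exact Finset.sum_congr rfl fun u _ => by rw [e u u.2]

theorem Good.dg_enc (h : D.Good) {a : Fin D.I.nc → ℤ} (ha : a ∈ box 0 D.hiC) (u : Fin D.I.nc) :
    (D.dg (D.enc a) u : ℤ) = a u := by
  rw [dg, h.pw_eq u.2, h.dig_enc, dig_get _ (h.dig_toNat_lt ha)]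
  exact Int.toNat_of_nonneg (mem_box.1 ha u).1

theorem Good.enc_mem (h : D.Good) {a : Fin D.I.nc → ℤ} (ha : a ∈ box 0 D.hiC) : D.enc a ∈ D.Om := by
  rw [mem_Om]
  refine ⟨by rw [h.dig_enc]; exact dig_lt _ (h.dig_toNat_lt ha), fun u hu => ?_⟩
  have h1 := h.dg_enc ha ⟨u, hu⟩
  have h2 := (mem_box.1 ha ⟨u, hu⟩).2
  simp only [hiC] at h1 h2
  omega

theorem Good.dg_mem (h : D.Good) {x : ℕ} (hx : x ∈ D.Om) :
    (fun u : Fin D.I.nc => (D.dg x u : ℤ)) ∈ box 0 D.hiC ∧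
      D.enc (fun u : Fin D.I.nc => (D.dg x u : ℤ)) = x := by
  refine ⟨mem_box.2 fun u => ⟨by simp, ?_⟩, ?_⟩
  · have := (mem_Om.1 hx).2 u u.2
    simp only [hiC]
    omega
  · rw [h.dig_enc]
    simpa using h.dig_rec hx

theorem Good.sum_Om (h : D.Good) (F : ℕ → ℝ) :
    ∑ x ∈ D.Om, F x = ∑ a ∈ box 0 D.hiC, F (D.enc a) := by
  symm
  refine Finset.sum_bij' (fun a _ => D.enc a) (fun x _ => fun u : Fin D.I.nc => (D.dg x u : ℤ))
    (fun a ha => h.enc_mem ha) (fun x hx => (h.dg_mem hx).1) (fun a ha => ?_)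
    (fun x hx => (h.dg_mem hx).2) (fun a _ => rfl)
  funext u
  exact h.dg_enc ha u

theorem enc_add {a : Fin D.I.nc → ℤ} (u : Fin D.I.nc) (ha : 0 ≤ a u) :
    D.enc (a + dl u) = D.enc a + D.pw u := by
  have e : ∀ v : Fin D.I.nc, ((a + dl u) v).toNat * D.pw v =
      (a v).toNat * D.pw v + if v = u then D.pw v else 0 := by
    intro v
    rw [Pi.add_apply, dl_apply]
    split_ifs with hv
    · subst hv
      rw [Int.toNat_add ha (by norm_num)]
      simp [add_mul]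
    · simp
  simp only [enc, e, Finset.sum_add_distrib, Finset.sum_ite_eq', mem_univ, if_true]

theorem Good.up_mem (h : D.Good) {x u : ℕ} (hx : x ∈ D.Om) (hu : u < D.I.nc)
    (hd : D.dg x u + 1 < D.M u) : x + D.pw u ∈ D.Om ∧
      ∀ u' < D.I.nc, D.dg (x + D.pw u) u' = D.dg x u' + if u' = u then 1 else 0 := by
  obtain ⟨h1, h2⟩ := h.dg_mem hx
  have hb : ((fun v : Fin D.I.nc => (D.dg x v : ℤ)) + dl (⟨u, hu⟩ : Fin D.I.nc)) ∈
      box 0 D.hiC := by
    refine mem_box.2 fun v => ?_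
    have := mem_box.1 h1 v
    rw [Pi.add_apply, dl_apply]
    split_ifs with hv
    · subst hv
      simp only [hiC, Pi.zero_apply] at this ⊢
      omega
    · simpa using this
  have he := enc_add (a := fun v : Fin D.I.nc => (D.dg x v : ℤ)) ⟨u, hu⟩ (by simp)
  rw [h2] at he
  simp only at he
  refine ⟨he ▸ h.enc_mem hb, fun u' hu' => ?_⟩
  have h3 := h.dg_enc hb ⟨u', hu'⟩
  rw [he, Pi.add_apply, dl_apply] at h3
  simp only [Fin.mk.injEq] at h3
  split_ifs at h3 ⊢ <;> omega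

theorem Good.down_mem (h : D.Good) {x u : ℕ} (hx : x ∈ D.Om) (hu : u < D.I.nc)
    (hd : 0 < D.dg x u) : D.pw u ≤ x ∧ x - D.pw u ∈ D.Om ∧
      ∀ u' < D.I.nc, D.dg (x - D.pw u) u' + (if u' = u then 1 else 0) = D.dg x u' := by
  obtain ⟨h1, h2⟩ := h.dg_mem hx
  have hb : ((fun v : Fin D.I.nc => (D.dg x v : ℤ)) - dl (⟨u, hu⟩ : Fin D.I.nc)) ∈
      box 0 D.hiC := by
    refine mem_box.2 fun v => ?_
    have := mem_box.1 h1 v
    rw [Pi.sub_apply, dl_apply]
    split_ifs with hv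
    · subst hv
      simp only [hiC, Pi.zero_apply] at this ⊢
      omega
    · simpa using this
  have he := enc_add (a := (fun v : Fin D.I.nc => (D.dg x v : ℤ)) - dl (⟨u, hu⟩ : Fin D.I.nc))
    ⟨u, hu⟩ (mem_box.1 hb ⟨u, hu⟩).1
  rw [sub_add_cancel, h2] at he
  simp only at he
  have he' : x - D.pw u =
      D.enc ((fun v : Fin D.I.nc => (D.dg x v : ℤ)) - dl (⟨u, hu⟩ : Fin D.I.nc)) := by omega
  refine ⟨by omega, he' ▸ h.enc_mem hb, fun u' hu' => ?_⟩
  have h3 := h.dg_enc hb ⟨u', hu'⟩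
  rw [← he', Pi.sub_apply, dl_apply] at h3
  simp only [Fin.mk.injEq] at h3
  split_ifs at h3 ⊢ <;> omega

theorem cor_range {x : ℕ} (hx : x ∈ D.Om) {u : ℕ} (hu : u < D.I.nc) :
    D.lo u ≤ D.cor x u ∧ D.cor x u + D.s u ≤ D.lo u + D.s u * D.M u := by
  have h1 : (D.dg x u : ℤ) + 1 ≤ D.M u := by exact_mod_cast (mem_Om.1 hx).2 u hu
  have h2 : (0 : ℤ) ≤ D.s u := by positivity
  have h3 : (0 : ℤ) ≤ D.dg x u := by positivity
  unfold cor
  constructor <;> nlinarith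

theorem div_mem {σ : Fin D.I.nc → ℤ} (hσ : σ ∈ box D.loF D.hiF) :
    (fun u => (σ u - D.lo u) / D.s u) ∈ box 0 D.hiC := by
  refine mem_box.2 fun u => ?_
  obtain ⟨h1, h2⟩ := mem_box.1 hσ u
  simp only [loF, hiF, hiC, Pi.zero_apply] at h1 h2 ⊢
  have hs : (0 : ℤ) < D.s u := by exact_mod_cast s_pos (D := D) u
  refine ⟨Int.ediv_nonneg (by omega) hs.le, ?_⟩
  have : (σ u - D.lo u) / D.s u < D.M u := by
    rw [Int.ediv_lt_iff_lt_mul hs]
    linarith
  omega

theorem Good.blk_mem (h : D.Good) {σ : Fin D.I.nc → ℤ} (hσ : σ ∈ box D.loF D.hiF) :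
    D.blk σ ∈ D.Om := h.enc_mem (div_mem hσ)

/-- The block of a point is the state whose block contains it. -/
theorem Good.blk_eq_iff (h : D.Good) {σ : Fin D.I.nc → ℤ} (hσ : σ ∈ box D.loF D.hiF) {x : ℕ}
    (hx : x ∈ D.Om) :
    D.blk σ = x ↔ ∀ u : Fin D.I.nc, D.cor x u ≤ σ u ∧ σ u < D.cor x u + D.s u := by
  have key : ∀ u : Fin D.I.nc, (σ u - D.lo u) / D.s u = D.dg x u ↔
      D.cor x u ≤ σ u ∧ σ u < D.cor x u + D.s u := by
    intro u
    have hs : (0 : ℤ) < D.s u := by exact_mod_cast s_pos (D := D) u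
    unfold cor
    constructor
    · intro e
      have h1 : (D.dg x u : ℤ) ≤ (σ u - D.lo u) / D.s u := e.ge
      have h2 : (σ u - D.lo u) / D.s u < D.dg x u + 1 := by omega
      rw [Int.le_ediv_iff_mul_le hs] at h1
      rw [Int.ediv_lt_iff_lt_mul hs] at h2
      constructor <;> nlinarith
    · rintro ⟨h1, h2⟩
      have h3 : (D.dg x u : ℤ) ≤ (σ u - D.lo u) / D.s u := by
        rw [Int.le_ediv_iff_mul_le hs]; nlinarith
      have h4 : (σ u - D.lo u) / D.s u < D.dg x u + 1 := by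
        rw [Int.ediv_lt_iff_lt_mul hs]; nlinarith
      omega
  constructor
  · intro e u
    rw [← key u, ← e]
    exact (h.dg_enc (div_mem hσ) u).symm
  · intro e
    have : (fun u : Fin D.I.nc => (σ u - D.lo u) / D.s u) = fun u : Fin D.I.nc => (D.dg x u : ℤ) :=
      funext fun u => (key u).2 (e u)
    rw [blk, this]
    exact (h.dg_mem hx).2

theorem Good.dig_fibre (h : D.Good) {x : ℕ} (hx : x ∈ D.Om) :
    ((box D.loF D.hiF).filter fun σ => D.blk σ = x).card = D.S := by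
  have e : ((box D.loF D.hiF).filter fun σ => D.blk σ = x) =
      box (fun u : Fin D.I.nc => D.cor x u) (fun u => D.cor x u + D.s u - 1) := by
    ext σ
    rw [mem_filter]
    constructor
    · rintro ⟨h1, h2⟩
      refine mem_box.2 fun u => ?_
      have := (h.blk_eq_iff h1 hx).1 h2 u
      constructor <;> omega
    · intro h1
      have h2 : σ ∈ box D.loF D.hiF := by
        refine mem_box.2 fun u => ?_
        have h3 := mem_box.1 h1 u
        have h4 := cor_range hx u.2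
        simp only [loF, hiF]
        constructor <;> omega
      refine ⟨h2, (h.blk_eq_iff h2 hx).2 fun u => ?_⟩
      have h3 := mem_box.1 h1 u
      constructor <;> omega
  rw [e, box, Fintype.card_piFinset, S, ← Fin.prod_univ_eq_prod_range (fun u => D.s u)]
  refine Finset.prod_congr rfl fun u _ => ?_
  rw [Int.card_Icc]
  omega

/-- Every block has `S` points. -/
theorem Good.sum_fine (h : D.Good) (H : ℕ → ℝ) :
    ∑ σ ∈ box D.loF D.hiF, H (D.blk σ) = D.S * ∑ x ∈ D.Om, H x := by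
  rw [← Finset.sum_fiberwise_of_maps_to (g := D.blk) (t := D.Om) fun σ hσ => h.blk_mem hσ,
    Finset.mul_sum]
  refine Finset.sum_congr rfl fun x hx => ?_
  rw [Finset.sum_congr rfl (g := fun _ => H x) fun σ hσ => by rw [(mem_filter.1 hσ).2],
    Finset.sum_const, h.dig_fibre hx, nsmul_eq_mul]

/-- `S * card Om = ∏ s u * M u`. -/
theorem Good.S_card_le (h : D.Good) : D.S * D.Om.card ≤ 2 ^ (D.G * (D.G + 1)) := by
  have h1 : (D.Om.card : ℝ) = ∏ u : Fin D.I.nc, (D.M u : ℝ) := by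
    have := h.sum_Om fun _ => 1
    simp only [Finset.sum_const, nsmul_eq_mul, mul_one] at this
    rw [this, box, Fintype.card_piFinset]
    push_cast
    refine Finset.prod_congr rfl fun u _ => ?_
    simp [hiC]
  have h2 : D.Om.card = ∏ u : Fin D.I.nc, D.M u := by exact_mod_cast h1
  rw [h2, S, ← Fin.prod_univ_eq_prod_range (fun u => D.s u), ← Finset.prod_mul_distrib]
  refine (Finset.prod_le_pow_card _ _ (2 ^ (D.G + 1)) fun u _ => h.sM_le u.2).trans ?_
  rw [card_univ, Fintype.card_fin, ← pow_mul, mul_comm]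
  exact Nat.pow_le_pow_right (by omega) (Nat.mul_le_mul_right _ h.nc_le)

theorem Good.Zb_pos (h : D.Good) (φ : List ℤ) : 0 < D.Zb φ :=
  Finset.sum_pos (fun x _ => h.wb_pos φ x) ⟨0, h.zero_mem⟩

end Dat

end Crest.Agent.R309
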