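import Crest.Agent.R309.EstAux1

/-!
# R309: counting from sampling, analysis of one round (helper68)
-/

set_option linter.dupNamespace false

namespace Crest.Agent.R309

open Finset Crest.Agent.Lib.PT

/-- The potential: total number of bits of the bounds. -/
def estPot (I : Inst) : ℕ := ∑ u ∈ range I.nc, (I.b u).size

theorem size_half {b b' : ℕ} (hb : 0 < b) (h : 2 * b' ≤ b) : b'.size + 1 ≤ b.size := by
  obtain ⟨m, hm⟩ : ∃ m, b.size = m + 1 := ⟨b.size - 1, by have := Nat.size_pos.2 hb; omega⟩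
  have h1 : b < 2 ^ (m + 1) := hm ▸ Nat.lt_size_self b
  rw [hm, Nat.add_le_add_iff_right, Nat.size_le]
  rw [pow_succ] at h1; omega

theorem estPot_lt {I I' : Inst} {u b' : ℕ} (hu : u < I.nc) (hnc : I'.nc = I.nc)
    (hb : ∀ u', I'.b u' = if u' = u then b' else I.b u') (h0 : 0 < I.b u) (h : 2 * b' ≤ I.b u) :
    estPot I' + 1 ≤ estPot I := by
  unfold estPot
  rw [hnc, ← Finset.add_sum_erase _ _ (mem_range.2 hu), ← Finset.add_sum_erase _ _ (mem_range.2 hu),
    hb u, if_pos rfl]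
  have h1 : ∑ x ∈ (range I.nc).erase u, (I'.b x).size = ∑ x ∈ (range I.nc).erase u, (I.b x).size :=
    Finset.sum_congr rfl fun x hx => by rw [hb x, if_neg (Finset.ne_of_mem_erase hx)]
  have := size_half h0 h
  omega

theorem estPot_le {G : ℕ} {I : Inst} (h : Fits G I) : estPot I ≤ G ^ 2 := by
  unfold estPot
  calc ∑ u ∈ range I.nc, (I.b u).size ≤ ∑ _u ∈ range I.nc, G :=
        Finset.sum_le_sum fun u hu => Nat.size_le.2 (h.b u (mem_range.1 hu))
    _ = I.nc * G := by simp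
    _ ≤ G ^ 2 := by rw [sq]; exact Nat.mul_le_mul_right _ h.nc

theorem estPot_zero {I : Inst} (h : estPot I = 0) : ∀ u < I.nc, I.b u = 0 := fun u hu =>
  Nat.size_eq_zero.1 (Finset.sum_eq_zero_iff.1 h u (mem_range.2 hu))

theorem estPot_eq_zero {I : Inst} (h : ∀ u < I.nc, I.b u = 0) : estPot I = 0 :=
  Finset.sum_eq_zero fun u hu => by rw [h u (mem_range.1 hu)]; simp

/-- The ratio between a true and an empirical frequency that is at least `1 / 2`. -/
theorem est_ratio {T B c N ξ : ℝ} (hT : 0 < T) (hN : 0 < N) (hc : N ≤ 2 * c) (hξ : 0 ≤ ξ)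
    (h : |c / N - B / T| ≤ ξ) : (1 - 2 * ξ) * T ≤ N / c * B ∧ N / c * B ≤ (1 + 2 * ξ) * T := by
  have hc0 : 0 < c := by linarith
  obtain ⟨h1, h2⟩ := abs_le.1 h
  have h3 : ξ ≤ 2 * ξ * (c / N) := by
    have : 1 ≤ 2 * (c / N) := by
      rw [← mul_div_assoc, le_div_iff₀ hN]; linarith
    nlinarith
  have e : N / c * B = (B / T) / (c / N) * T := by field_simp
  have hp : 0 < c / N := by positivity
  rw [e]
  constructor
  · gcongr
    rw [le_div_iff₀ hp]; linarith
  · gcongr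
    rw [div_le_iff₀ hp]; linarith

/-- The invariant after `j` rounds. -/
structure EstInv (G : ℕ) (T₀ ξ : ℝ) (j : ℕ) (s : ESt) : Prop where
  fits : Fits G s.1
  sol : s.1.IsSol s.2.1
  pot : estPot s.1 ≤ G ^ 2 - j
  nonneg : 0 ≤ s.2.2
  lo : (1 - 2 * ξ) ^ j * T₀ ≤ s.2.2 * s.1.Sols.card
  hi : (s.2.2 : ℝ) * s.1.Sols.card ≤ (1 + 2 * ξ) ^ j * T₀

theorem est_mul {z T T₀ r ξ : ℝ} {j : ℕ} (hz : 0 ≤ z) (hξ : 0 ≤ ξ) (hξ' : 2 * ξ ≤ 1)
    (h1 : (1 - 2 * ξ) ^ j * T₀ ≤ z * T) (h2 : z * T ≤ (1 + 2 * ξ) ^ j * T₀)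
    (h : (1 - 2 * ξ) * T ≤ r ∧ r ≤ (1 + 2 * ξ) * T) :
    (1 - 2 * ξ) ^ (j + 1) * T₀ ≤ z * r ∧ z * r ≤ (1 + 2 * ξ) ^ (j + 1) * T₀ := by
  constructor
  · calc (1 - 2 * ξ) ^ (j + 1) * T₀ = (1 - 2 * ξ) * ((1 - 2 * ξ) ^ j * T₀) := by ring
      _ ≤ (1 - 2 * ξ) * (z * T) := mul_le_mul_of_nonneg_left h1 (by linarith)
      _ = z * ((1 - 2 * ξ) * T) := by ring
      _ ≤ z * r := mul_le_mul_of_nonneg_left h.1 hz
  · calc z * r ≤ z * ((1 + 2 * ξ) * T) := mul_le_mul_of_nonneg_left h.2 hz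
      _ = (1 + 2 * ξ) * (z * T) := by ring
      _ ≤ (1 + 2 * ξ) * ((1 + 2 * ξ) ^ j * T₀) := mul_le_mul_of_nonneg_left h2 (by linarith)
      _ = (1 + 2 * ξ) ^ (j + 1) * T₀ := by ring

theorem EstInv.upd {G : ℕ} {T₀ ξ : ℝ} {j : ℕ} {s : ESt} (h : EstInv G T₀ ξ j s) (hξ : 0 ≤ ξ)
    (hξ' : 2 * ξ ≤ 1) {N : ℕ} (hN : 0 < N) {L : List (List ℕ)} (hL : L.length = N)
    (hsol : ∀ X ∈ L, s.1.IsSol X)
    (hc : |(estC s.1 L : ℝ) / N -
      ((s.1.Sols.filter fun X => X.getD (estU s.1) 0 ≤ estH s.1).card : ℝ) / s.1.Sols.card| ≤ ξ) :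
    EstInv G T₀ ξ (j + 1) (estUpd N s L) := by
  have hT : (0 : ℝ) < s.1.Sols.card :=
    Nat.cast_pos.2 (Finset.card_pos.2 ⟨_, Inst.mem_Sols.2 h.sol⟩)
  have hN' : (0 : ℝ) < N := Nat.cast_pos.2 hN
  have hz : (0 : ℝ) ≤ s.2.2 := by exact_mod_cast h.nonneg
  have hnn := estUpd_nonneg (N := N) h.nonneg L
  have hpot := h.pot
  unfold estUpd at hnn ⊢
  split_ifs at hnn ⊢ with hu hc2
  · have hh := estH_lt hu
    have hb := estU_spec hu
    have h1 := est_mul hz hξ hξ' h.lo h.hi (est_ratio hT hN' (by exact_mod_cast hc2) hξ hc)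
    rw [← s.1.card_lower hu (by omega)] at h1
    have h2 : (s.1.lower (estU s.1) (estH s.1)).IsSol (estLo s.1 L) := by
      have h3 : 0 < estC s.1 L := by omega
      obtain ⟨X, hX, hX'⟩ := List.countP_pos_iff.1 h3
      obtain ⟨Y, hY⟩ := Option.isSome_iff_exists.1 ((List.find?_isSome
        (p := fun X : List ℕ => decide (X.getD (estU s.1) 0 ≤ estH s.1))).2 ⟨X, hX, hX'⟩)
      rw [estLo, hY, Option.getD_some, s.1.isSol_lower hu (by omega)]
      exact ⟨hsol Y (List.mem_of_find?_eq_some hY), by simpa using List.find?_some hY⟩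
    refine ⟨h.fits.lower hu (by omega), ?_, ?_, hnn, ?_, ?_⟩
    · simp only [estFix, if_pos h2]; exact h2
    · have := estPot_lt (I' := s.1.lower (estU s.1) (estH s.1)) hu (by simp) (s.1.b_lower hu _) hb
        (by unfold estH; omega)
      simp only; omega
    · refine h1.1.trans_eq ?_
      push_cast; ring
    · refine le_of_eq_of_le ?_ h1.2
      push_cast; ring
  · have hh := estH_lt hu
    have hb := estU_spec hu
    have hcl : estC s.1 L ≤ N := hL ▸ estC_le _ _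
    have hsum : (s.1.Sols.filter fun X => X.getD (estU s.1) 0 ≤ estH s.1).card +
        (s.1.Sols.filter fun X => estH s.1 + 1 ≤ X.getD (estU s.1) 0).card = s.1.Sols.card := by
      rw [← Finset.card_filter_add_card_filter_not (s := s.1.Sols)
        (fun X => X.getD (estU s.1) 0 ≤ estH s.1)]
      congr 2
      ext X; simp
    have hc' : |((N - estC s.1 L : ℕ) : ℝ) / N -
        ((s.1.Sols.filter fun X => estH s.1 + 1 ≤ X.getD (estU s.1) 0).card : ℝ) /
          s.1.Sols.card| ≤ ξ := by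
      rw [abs_sub_comm] at hc
      refine le_of_eq_of_le ?_ hc
      congr 1
      have e : ((s.1.Sols.filter fun X => estH s.1 + 1 ≤ X.getD (estU s.1) 0).card : ℝ) =
          s.1.Sols.card - (s.1.Sols.filter fun X => X.getD (estU s.1) 0 ≤ estH s.1).card := by
        rw [← hsum]; push_cast; ring
      rw [e, Nat.cast_sub hcl]
      field_simp
      ring
    have h1 := est_mul hz hξ hξ' h.lo h.hi (est_ratio hT hN'
      (by exact_mod_cast (by omega : N ≤ 2 * (N - estC s.1 L))) hξ hc')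
    rw [← s.1.card_upper hu hh] at h1
    have h2 : (s.1.upper (estU s.1) (estH s.1 + 1)).IsSol
        ((estHi s.1 L).set (estU s.1) ((estHi s.1 L).getD (estU s.1) 0 - (estH s.1 + 1))) := by
      have h3 : estC s.1 L < L.length := by omega
      obtain ⟨X, hX, hX'⟩ := List.countP_lt_length_iff.1 h3
      obtain ⟨Y, hY⟩ := Option.isSome_iff_exists.1 ((List.find?_isSome
        (p := fun X : List ℕ => decide (estH s.1 + 1 ≤ X.getD (estU s.1) 0))).2
        ⟨X, hX, by simpa using hX'⟩)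
      rw [estHi, hY, Option.getD_some]
      exact s.1.isSol_upper hu (hsol Y (List.mem_of_find?_eq_some hY))
        (by simpa using List.find?_some hY)
    refine ⟨h.fits.upper hu _, ?_, ?_, hnn, ?_, ?_⟩
    · simp only [estFix, if_pos h2]; exact h2
    · have := estPot_lt (I' := s.1.upper (estU s.1) (estH s.1 + 1)) hu (by simp)
        (s.1.b_upper hu _) hb (by unfold estH; omega)
      simp only; omega
    · refine h1.1.trans_eq ?_
      simp only [Rat.cast_div, Rat.cast_mul, Rat.cast_natCast]; ring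
    · refine le_of_eq_of_le ?_ h1.2
      simp only [Rat.cast_div, Rat.cast_mul, Rat.cast_natCast]; ring
  · have h1 := est_mul (r := s.1.Sols.card) hz hξ hξ' h.lo h.hi ⟨by nlinarith, by nlinarith⟩
    exact ⟨h.fits, h.sol, by rw [estPot_eq_zero (estU_none hu)]; omega, hnn, h1.1, h1.2⟩

theorem countP_eq_sum {β : Type} (p : β → Prop) [DecidablePred p] (f : List Bool → β)
    (l : List (List Bool)) :
    (((l.map f).countP fun X => decide (p X) : ℕ) : ℝ) = (l.map fun w => ind (p (f w))).sum := by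
  induction l with
  | nil => simp
  | cons w l ih =>
    rw [List.map_cons, List.countP_cons, List.map_cons, List.sum_cons, ← ih, ind_eq]
    by_cases h : p (f w) <;> simp [h, add_comm]

/-- The mean of an indicator under an almost uniform law. -/
theorem est_mean {n : ℕ} {g : List Bool → List ℕ} {S : Finset (List ℕ)} {η : ℝ}
    (hg : ∀ l, g l ∈ S) (p : List ℕ → Prop) [DecidablePred p]
    (h : ∑ y ∈ S, |Pr n (fun l => g l = y) - 1 / S.card| ≤ η) :
    |Ex n (fun l => ind (p (g l))) - ((S.filter p).card : ℝ) / S.card| ≤ η := by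
  rw [Ex_comp (s := S) (fun l _ => hg l) fun y => ind (p y)]
  have e : ((S.filter p).card : ℝ) / S.card = ∑ y ∈ S, 1 / S.card * ind (p y) := by
    rw [← Finset.mul_sum]
    simp only [ind_eq, Finset.sum_boole]
    ring
  rw [e, ← Finset.sum_sub_distrib]
  refine (Finset.abs_sum_le_sum_abs _ _).trans (le_trans (Finset.sum_le_sum fun y _ => ?_) h)
  rw [← sub_mul, abs_mul, abs_of_nonneg (ind_nonneg _)]
  exact mul_le_of_le_one_right (abs_nonneg _) (ind_le_one _)

/-- One round keeps the invariant with high probability. -/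
theorem est_round {smp : Un × Inst × List ℕ × Un × List Bool → List ℕ} {e : ℕ}
    (h : SamplerSpec smp e) {G k : Un} {T₀ ξ : ℝ} {j N : ℕ} {s : ESt} (hs : EstInv G.n T₀ ξ j s)
    (hξ : 0 < ξ) (hξ' : 2 * ξ ≤ 1) (hN : 0 < N) (hk : (1 / 2) ^ k.n ≤ ξ / 2) :
    1 - 4 / (N * ξ ^ 2) ≤ Pr (N * (G.n * (k.n + 1)) ^ e) fun ω =>
      EstInv G.n T₀ ξ (j + 1) (estStep smp G k ((G.n * (k.n + 1)) ^ e) N s ω) := by
  have hN' : (0 : ℝ) < N := Nat.cast_pos.2 hN
  have h1 := cheb_chunks ((G.n * (k.n + 1)) ^ e) N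
    (fun w => ind ((smp (G, s.1, s.2.1, k, w)).getD (estU s.1) 0 ≤ estH s.1)) 1
    (fun ω _ => by rw [abs_of_nonneg (ind_nonneg _)]; exact ind_le_one _) (N * ξ / 2)
    (by positivity)
  have h2 := est_mean (g := fun w => smp (G, s.1, s.2.1, k, w))
    (fun l => Inst.mem_Sols.2 (h.sol _ _ _ _ l hs.sol))
    (fun X => X.getD (estU s.1) 0 ≤ estH s.1) (h.tv G s.1 s.2.1 k hs.fits hs.sol _ le_rfl)
  have e1 : (N : ℝ) * 1 ^ 2 / (N * ξ / 2) ^ 2 = 4 / (N * ξ ^ 2) := by field_simp; norm_num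
  rw [e1] at h1
  refine le_trans ((sub_le_sub_left h1 1).trans_eq (Pr_not _ _).symm) (Pr_mono fun ω _ hω => ?_)
  refine hs.upd hξ.le hξ' hN (by simp) (fun X hX => ?_) ?_
  · obtain ⟨w, -, rfl⟩ := List.mem_map.1 hX
    exact h.sol _ _ _ _ w hs.sol
  · rw [estC, countP_eq_sum (fun X : List ℕ => X.getD (estU s.1) 0 ≤ estH s.1)]
    rw [not_le] at hω
    have h3 : ∀ a μ f : ℝ, |a - N * μ| < N * ξ / 2 → |μ - f| ≤ (1 / 2) ^ k.n → |a / N - f| ≤ ξ := by
      intro a μ f ha hμ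
      have e2 : a / N - f = (a - N * μ) / N + (μ - f) := by field_simp; ring
      have h4 : |(a - N * μ) / N| ≤ ξ / 2 := by
        rw [abs_div, abs_of_pos hN', div_le_iff₀ hN']; linarith
      rw [e2]
      exact (abs_add_le _ _).trans (by linarith)
    exact h3 _ _ _ hω h2

end Crest.Agent.R309
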