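import Crest.Agent.R309.Flow

/-!
# R309: splitting the range of a cell
-/

set_option linter.dupNamespace false

namespace Crest.Agent.R309

open Finset Crest.Agent.Lib.PT

namespace Inst

variable (I : Inst)

/-- Keep the values `≤ h` of the cell `u`. -/
def lower (u h : ℕ) : Inst := (I.1.set u (I.p u, I.q u, h), I.2)

/-- Keep the values `≥ h` of the cell `u`, and subtract `h`. -/
def upper (u h : ℕ) : Inst := (I.1.set u (I.p u, I.q u, I.b u - h),
  (List.range I.nv).map fun v =>
    I.d v - (if I.p u = v then (h : ℤ) else 0) + (if I.q u = v then (h : ℤ) else 0))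

@[simp] theorem nc_lower (u h : ℕ) : (I.lower u h).nc = I.nc := by simp [lower, nc]
@[simp] theorem nv_lower (u h : ℕ) : (I.lower u h).nv = I.nv := rfl
@[simp] theorem nc_upper (u h : ℕ) : (I.upper u h).nc = I.nc := by simp [upper, nc]
@[simp] theorem nv_upper (u h : ℕ) : (I.upper u h).nv = I.nv := by simp [upper, nv]

theorem sp_getD_set {β : Type} (l : List β) (u u' : ℕ) (x e : β) :
    (l.set u x).getD u' e = if u' = u ∧ u < l.length then x else l.getD u' e := by
  simp only [List.getD_eq_getElem?_getD, List.getElem?_set]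
  by_cases h : u = u'
  · subst h
    by_cases h2 : u < l.length
    · simp [h2]
    · simp [h2]
  · simp [h, Ne.symm h]

theorem sp_d_upper (u h v : ℕ) : (I.upper u h).d v = if v < I.nv then
    I.d v - (if I.p u = v then (h : ℤ) else 0) + (if I.q u = v then (h : ℤ) else 0) else 0 := by
  unfold upper
  rw [d]
  by_cases hv : v < I.nv
  · simp [List.getD_eq_getElem?_getD, hv]
  · simp [List.getD_eq_getElem?_getD, hv]

@[simp] theorem p_lower (u h u' : ℕ) : (I.lower u h).p u' = I.p u' := by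
  unfold lower
  rw [p, sp_getD_set]
  split_ifs with h
  · rw [h.1]
  · rfl
@[simp] theorem q_lower (u h u' : ℕ) : (I.lower u h).q u' = I.q u' := by
  unfold lower
  rw [q, sp_getD_set]
  split_ifs with h
  · rw [h.1]
  · rfl
@[simp] theorem p_upper (u h u' : ℕ) : (I.upper u h).p u' = I.p u' := by
  unfold upper
  rw [p, sp_getD_set]
  split_ifs with h
  · rw [h.1]
  · rfl
@[simp] theorem q_upper (u h u' : ℕ) : (I.upper u h).q u' = I.q u' := by
  unfold upper
  rw [q, sp_getD_set]
  split_ifs with h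
  · rw [h.1]
  · rfl

theorem b_lower {u : ℕ} (hu : u < I.nc) (h u' : ℕ) :
    (I.lower u h).b u' = if u' = u then h else I.b u' := by
  unfold lower
  rw [b, sp_getD_set]
  by_cases e : u' = u
  · rw [if_pos ⟨e, hu⟩, if_pos e]
  · rw [if_neg fun h => e h.1, if_neg e]; rfl

theorem b_upper {u : ℕ} (hu : u < I.nc) (h u' : ℕ) :
    (I.upper u h).b u' = if u' = u then I.b u - h else I.b u' := by
  unfold upper
  rw [b, sp_getD_set]
  by_cases e : u' = u
  · rw [if_pos ⟨e, hu⟩, if_pos e]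
  · rw [if_neg fun h => e h.1, if_neg e]; rfl

theorem sp_div_lower (u h : ℕ) (X : ℕ → ℤ) (v : ℕ) : (I.lower u h).div X v = I.div X v := by
  simp only [div, nc_lower, p_lower, q_lower]

theorem sp_div_upper (u h : ℕ) (X : ℕ → ℤ) (v : ℕ) : (I.upper u h).div X v = I.div X v := by
  simp only [div, nc_upper, p_upper, q_upper]

theorem sp_div_single {u : ℕ} (hu : u < I.nc) (c : ℤ) (v : ℕ) :
    I.div (fun u' => if u' = u then c else 0) v =
      (if I.p u = v then c else 0) - (if I.q u = v then c else 0) := by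
  unfold div
  rw [Finset.sum_eq_single u (fun u' _ h => by simp [h]) fun h => absurd (mem_range.2 hu) h]
  simp

theorem sp_upper_inv {u h : ℕ} (hu : u < I.nc) (hh : h ≤ I.b u) {Y : List ℕ}
    (hY : (I.upper u h).IsSol Y) : I.IsSol (Y.set u (Y.getD u 0 + h)) := by
  obtain ⟨h1, h2, h3⟩ := hY
  rw [nc_upper] at h1 h2
  rw [nv_upper] at h3
  refine ⟨by rw [List.length_set, h1], fun u' hu' => ?_, fun v hv => ?_⟩
  · have := h2 u' hu'
    rw [I.b_upper hu] at this
    rw [sp_getD_set]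
    by_cases e : u' = u
    · subst e
      rw [if_pos rfl] at this
      rw [if_pos ⟨rfl, by omega⟩]
      omega
    · rw [if_neg e] at this
      rwa [if_neg fun h => e h.1]
  · have e : I.div (fun u' => (((Y.set u (Y.getD u 0 + h)).getD u' 0 : ℕ) : ℤ)) v =
        I.div (fun u' => ((Y.getD u' 0 : ℕ) : ℤ) + if u' = u then (h : ℤ) else 0) v := by
      refine div_congr (fun u' _ => ?_) v
      rw [sp_getD_set]
      by_cases e : u' = u
      · subst e
        rw [if_pos ⟨rfl, by omega⟩, if_pos rfl]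
        push_cast; rfl
      · rw [if_neg fun h => e h.1, if_neg e, add_zero]
    have := h3 v hv
    rw [sp_div_upper, sp_d_upper, if_pos hv] at this
    rw [e, div_add, this, I.sp_div_single hu]
    ring

theorem isSol_lower {u h : ℕ} (hu : u < I.nc) (hh : h ≤ I.b u) (X : List ℕ) :
    (I.lower u h).IsSol X ↔ I.IsSol X ∧ X.getD u 0 ≤ h := by
  unfold IsSol
  simp only [nc_lower, nv_lower, sp_div_lower, I.b_lower hu]
  constructor
  · rintro ⟨h1, h2, h3⟩
    have hu' := h2 u hu
    rw [if_pos rfl] at hu'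
    refine ⟨⟨h1, fun u' h' => ?_, h3⟩, hu'⟩
    have := h2 u' h'
    split_ifs at this with e
    · subst e; omega
    · exact this
  · rintro ⟨⟨h1, h2, h3⟩, h4⟩
    refine ⟨h1, fun u' h' => ?_, h3⟩
    split_ifs with e
    · subst e; exact h4
    · exact h2 u' h'

theorem isSol_upper {u h : ℕ} (hu : u < I.nc) {X : List ℕ} (hX : I.IsSol X)
    (hh : h ≤ X.getD u 0) : (I.upper u h).IsSol (X.set u (X.getD u 0 - h)) := by
  obtain ⟨h1, h2, h3⟩ := hX
  refine ⟨by rw [List.length_set, h1, nc_upper], fun u' hu' => ?_, fun v hv => ?_⟩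
  · rw [nc_upper] at hu'
    have := h2 u' hu'
    rw [I.b_upper hu, sp_getD_set]
    by_cases e : u' = u
    · subst e
      rw [if_pos rfl, if_pos ⟨rfl, by omega⟩]
      omega
    · rwa [if_neg e, if_neg fun h => e h.1]
  · rw [nv_upper] at hv
    have e : I.div (fun u' => (((X.set u (X.getD u 0 - h)).getD u' 0 : ℕ) : ℤ)) v =
        I.div (fun u' => ((X.getD u' 0 : ℕ) : ℤ) - if u' = u then (h : ℤ) else 0) v := by
      refine div_congr (fun u' _ => ?_) v
      rw [sp_getD_set]
      by_cases e : u' = u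
      · subst e
        rw [if_pos ⟨rfl, by omega⟩, if_pos rfl]
        omega
      · rw [if_neg fun h => e h.1, if_neg e, sub_zero]
    rw [sp_div_upper, sp_d_upper, if_pos hv, e, div_sub, h3 v hv, I.sp_div_single hu]
    ring

theorem card_lower {u h : ℕ} (hu : u < I.nc) (hh : h ≤ I.b u) :
    (I.lower u h).Sols.card = (I.Sols.filter fun X => X.getD u 0 ≤ h).card := by
  congr 1
  ext X
  rw [mem_filter, mem_Sols, mem_Sols, I.isSol_lower hu hh]

/-- `X ↦ X.set u (X u - h)` is a bijection, with inverse `Y ↦ Y.set u (Y u + h)`. -/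
theorem card_upper {u h : ℕ} (hu : u < I.nc) (hh : h ≤ I.b u) :
    (I.upper u h).Sols.card = (I.Sols.filter fun X => h ≤ X.getD u 0).card := by
  refine Finset.card_nbij' (fun Y => Y.set u (Y.getD u 0 + h)) (fun X => X.set u (X.getD u 0 - h))
    ?_ ?_ ?_ ?_
  · intro Y hY
    have hY' := mem_Sols.1 (mem_coe.1 hY)
    have hl : u < Y.length := by rw [hY'.1, nc_upper]; exact hu
    refine mem_coe.2 (mem_filter.2 ⟨mem_Sols.2 (I.sp_upper_inv hu hh hY'), ?_⟩)
    rw [sp_getD_set, if_pos ⟨rfl, hl⟩]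
    omega
  · intro X hX
    obtain ⟨h1, h2⟩ := mem_filter.1 (mem_coe.1 hX)
    exact mem_coe.2 (mem_Sols.2 (I.isSol_upper hu (mem_Sols.1 h1) h2))
  · intro Y hY
    have hY' := mem_Sols.1 (mem_coe.1 hY)
    have hl : u < Y.length := by rw [hY'.1, nc_upper]; exact hu
    simp only
    rw [sp_getD_set, if_pos ⟨rfl, hl⟩, List.set_set, Nat.add_sub_cancel]
    simp [List.getD_eq_getElem?_getD, List.getElem?_eq_getElem hl]
  · intro X hX
    obtain ⟨h1, h2⟩ := mem_filter.1 (mem_coe.1 hX)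
    have hl : u < X.length := by rw [(mem_Sols.1 h1).1]; exact hu
    simp only
    rw [sp_getD_set, if_pos ⟨rfl, hl⟩, List.set_set, Nat.sub_add_cancel h2]
    simp [List.getD_eq_getElem?_getD, List.getElem?_eq_getElem hl]

theorem card_eq_one {X : List ℕ} (hX : I.IsSol X) (h : ∀ u < I.nc, I.b u = 0) :
    I.Sols.card = 1 := by
  refine Finset.card_eq_one.2 ⟨X, Finset.eq_singleton_iff_unique_mem.2 ⟨mem_Sols.2 hX, fun Y hY => ?_⟩⟩
  have hY' := mem_Sols.1 hY
  refine List.ext_getElem (by rw [hY'.1, hX.1]) fun i h1 h2 => ?_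
  have hi : i < I.nc := by rw [← hX.1]; exact h2
  have a1 := hY'.2.1 i hi
  have a2 := hX.2.1 i hi
  rw [h i hi] at a1 a2
  simp only [List.getD_eq_getElem?_getD, List.getElem?_eq_getElem h1, List.getElem?_eq_getElem h2,
    Option.getD_some] at a1 a2
  omega

@[fun_prop] theorem lower_pt {α : Type} [Enc α] {I : α → Inst} {u h : α → ℕ} (hI : PT I)
    (hu : PT u) (hh : PT h) : PT fun a => (I a).lower (u a) (h a) := by
  unfold lower; fun_prop

@[fun_prop] theorem upper_pt {α : Type} [Enc α] {I : α → Inst} {u h : α → ℕ} (hI : PT I)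
    (hu : PT u) (hh : PT h) : PT fun a => (I a).upper (u a) (h a) := by
  unfold upper; fun_prop

/-- All numbers of the instance have at most `k` bits. -/
def Bd (k : ℕ) : Prop :=
  (∀ u, I.p u < 2 ^ k ∧ I.q u < 2 ^ k ∧ I.b u < 2 ^ k) ∧ ∀ v, (I.d v).natAbs < 2 ^ k

theorem bd_sz : I.Bd (sz I) := by
  have hs : sz I = sz I.1 + sz I.2 + 1 := sz_prod I
  have pw : ∀ {n a : ℕ}, n < 2 ^ a → a ≤ sz I → n < 2 ^ sz I := fun h1 h2 =>
    h1.trans_le (Nat.pow_le_pow_right (by omega) h2)
  refine ⟨fun u => ?_, fun v => ?_⟩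
  · unfold p q b
    by_cases hu : u < I.1.length
    · have hm : I.1.getD u (0, 0, 0) ∈ I.1 := by
        simp [List.getD_eq_getElem?_getD, List.getElem?_eq_getElem hu]
      have h1 := sz_le_of_mem hm
      generalize I.1.getD u (0, 0, 0) = t at h1
      obtain ⟨x, y, z⟩ := t
      simp only [sz_mk] at h1
      exact ⟨pw (lt_two_pow_sz x) (by omega), pw (lt_two_pow_sz y) (by omega),
        pw (lt_two_pow_sz z) (by omega)⟩
    · rw [List.getD_eq_default _ _ (not_lt.1 hu)]
      exact ⟨Nat.two_pow_pos _, Nat.two_pow_pos _, Nat.two_pow_pos _⟩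
  · unfold d
    by_cases hv : v < I.2.length
    · have hm : I.2.getD v 0 ∈ I.2 := by
        simp [List.getD_eq_getElem?_getD, List.getElem?_eq_getElem hv]
      have h1 := sz_le_of_mem hm
      exact pw (natAbs_lt_two_pow_sz _) (by omega)
    · rw [List.getD_eq_default _ _ (not_lt.1 hv)]
      exact Nat.two_pow_pos _

theorem Bd.mono {I : Inst} {k k' : ℕ} (h : I.Bd k) (hk : k ≤ k') : I.Bd k' := by
  have hp : 2 ^ k ≤ 2 ^ k' := Nat.pow_le_pow_right (by omega) hk
  exact ⟨fun u => ⟨(h.1 u).1.trans_le hp, (h.1 u).2.1.trans_le hp, (h.1 u).2.2.trans_le hp⟩,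
    fun v => (h.2 v).trans_le hp⟩

theorem Bd.sz_le {I : Inst} {k : ℕ} (h : I.Bd k) : sz I ≤ (I.nc + I.nv + 1) * (12 * k + 20) := by
  have h1 : sz I.1 ≤ I.1.length * (12 * k + 5 + 1) + 1 := sz_list_le fun a ha => by
    obtain ⟨u, hu, rfl⟩ := List.getElem_of_mem ha
    have := h.1 u
    unfold p q b at this
    simp only [List.getD_eq_getElem?_getD, List.getElem?_eq_getElem hu, Option.getD_some] at this
    have a1 := sz_nat_le_of_lt this.1
    have a2 := sz_nat_le_of_lt this.2.1
    have a3 := sz_nat_le_of_lt this.2.2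
    rw [sz_prod, sz_prod (I.1[u]).2]
    omega
  have h2 : sz I.2 ≤ I.2.length * (4 * k + 5 + 1) + 1 := sz_list_le fun a ha => by
    obtain ⟨v, hv, rfl⟩ := List.getElem_of_mem ha
    have := h.2 v
    unfold d at this
    simp only [List.getD_eq_getElem?_getD, List.getElem?_eq_getElem hv, Option.getD_some] at this
    exact sz_int_le_of_lt this
  rw [sz_prod I]
  unfold nc nv
  nlinarith [Nat.zero_le (I.1.length * k), Nat.zero_le (I.2.length * k)]

theorem Bd.lower {I : Inst} {k : ℕ} (hI : I.Bd k) (u : ℕ) {h : ℕ} (hh : h < 2 ^ k) :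
    (I.lower u h).Bd k := by
  refine ⟨fun u' => ⟨by rw [p_lower]; exact (hI.1 u').1, by rw [q_lower]; exact (hI.1 u').2.1, ?_⟩,
    hI.2⟩
  unfold Inst.lower
  rw [b, sp_getD_set]
  split_ifs
  · exact hh
  · exact (hI.1 u').2.2

theorem Bd.upper {I : Inst} {k : ℕ} (hI : I.Bd k) (u : ℕ) {h : ℕ} (hh : h < 2 ^ k) :
    (I.upper u h).Bd (k + 2) := by
  have hp : 2 ^ k ≤ 2 ^ (k + 2) := Nat.pow_le_pow_right (by omega) (by omega)
  refine ⟨fun u' => ⟨by rw [p_upper]; exact (hI.1 u').1.trans_le hp,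
    by rw [q_upper]; exact (hI.1 u').2.1.trans_le hp, ?_⟩, fun v => ?_⟩
  · unfold Inst.upper
    rw [b, sp_getD_set]
    split_ifs
    · exact (Nat.sub_le _ _).trans_lt ((hI.1 u).2.2.trans_le hp)
    · exact (hI.1 u').2.2.trans_le hp
  · rw [sp_d_upper]
    have := hI.2 v
    rw [pow_add]
    split_ifs <;> omega

end Inst

theorem Fits.lower {G : ℕ} {I : Inst} (hI : Fits G I) {u h : ℕ} (hu : u < I.nc) (hh : h ≤ I.b u) :
    Fits G (I.lower u h) := by
  refine ⟨fun u' hu' => ?_, hI.pow, hI.ten, hI.nv, by rw [Inst.nc_lower]; exact hI.nc,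
    fun u' hu' => ?_⟩
  · rw [Inst.nc_lower] at hu'
    rw [Inst.p_lower, Inst.q_lower, Inst.nv_lower]
    exact hI.wf u' hu'
  · rw [Inst.nc_lower] at hu'
    rw [I.b_lower hu]
    split_ifs
    · exact hh.trans_lt (hI.b u hu)
    · exact hI.b u' hu'

theorem Fits.upper {G : ℕ} {I : Inst} (hI : Fits G I) {u : ℕ} (hu : u < I.nc) (h : ℕ) :
    Fits G (I.upper u h) := by
  refine ⟨fun u' hu' => ?_, hI.pow, hI.ten, by rw [Inst.nv_upper]; exact hI.nv,
    by rw [Inst.nc_upper]; exact hI.nc, fun u' hu' => ?_⟩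
  · rw [Inst.nc_upper] at hu'
    rw [Inst.p_upper, Inst.q_upper, Inst.nv_upper]
    exact hI.wf u' hu'
  · rw [Inst.nc_upper] at hu'
    rw [I.b_upper hu]
    split_ifs
    · exact (Nat.sub_le _ _).trans_lt (hI.b u hu)
    · exact hI.b u' hu'

end Crest.Agent.R309
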