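import Crest.Agent.R309.Iface
import Crest.Agent.R309.Split
import Crest.Agent.R309.Tape2
import Crest.Agent.R309.EstAux2

/-!
# R309: counting from sampling (self-reduction by halving)
-/

set_option linter.dupNamespace false

namespace Crest.Agent.R309

open Finset Crest.Agent.Lib.PT

theorem est_tape {G E e : ℕ} (hG : 1024 ≤ G) (hE : 1 ≤ E) :
    G ^ 2 * (estN G E * (G * (estK G E + 1)) ^ e) ≤ (G * E) ^ (10 + 4 * e) := by
  have hE2 : E ≤ E ^ 4 := Nat.le_self_pow (by norm_num) E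
  have h1 : G * (estK G E + 1) ≤ (G * E) ^ 4 := by
    have h2 : 1 ≤ G ^ 2 * E := Nat.one_le_iff_ne_zero.2 (by positivity)
    have h3 : estK G E + 1 ≤ G * (G ^ 2 * E) := by
      unfold estK
      calc 16 * G ^ 2 * E + 1 ≤ 17 * (G ^ 2 * E) := by rw [mul_assoc]; omega
        _ ≤ G * (G ^ 2 * E) := Nat.mul_le_mul_right _ (by omega)
    calc G * (estK G E + 1) ≤ G * (G * (G ^ 2 * E)) := Nat.mul_le_mul_left _ h3
      _ = G ^ 4 * E := by ring
      _ ≤ G ^ 4 * E ^ 4 := Nat.mul_le_mul_left _ hE2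
      _ = (G * E) ^ 4 := by ring
  have h4 : G ^ 2 * estN G E ≤ (G * E) ^ 10 := by
    have h5 : 4096 ≤ G ^ 2 := le_trans (by norm_num) (Nat.pow_le_pow_left hG 2)
    have h6 : E ^ 2 ≤ E ^ 10 := Nat.pow_le_pow_right hE (by norm_num)
    unfold estN
    calc G ^ 2 * (4096 * G ^ 6 * E ^ 2) ≤ G ^ 2 * (G ^ 2 * G ^ 6 * E ^ 10) := by gcongr
      _ = (G * E) ^ 10 := by ring
  rw [← mul_assoc, pow_add, pow_mul]
  exact Nat.mul_le_mul h4 (Nat.pow_le_pow_left h1 _)

theorem est_final {z T E x : ℝ} {H : ℕ} (hT : 0 ≤ T) (hE : 1 ≤ E) (hx : 0 ≤ x) (hx1 : x ≤ 1)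
    (hH : H * x = 1 / (4 * E)) (h1 : (1 - x) ^ H * T ≤ z) (h2 : z ≤ (1 + x) ^ H * T) :
    |z - T| ≤ T / E := by
  have hE0 : 0 < E := by linarith
  have hb : 1 - 1 / (4 * E) ≤ (1 - x) ^ H := by
    have := one_add_mul_le_pow (a := -x) (by linarith) H
    rw [← hH]; simpa [sub_eq_add_neg] using this
  have hy : 1 / (4 * E) ≤ 1 / 4 := by gcongr; linarith
  have hy0 : 0 < 1 / (4 * E) := by positivity
  have e : T / E = 4 * (1 / (4 * E)) * T := by field_simp
  have hc : (1 + x) ^ H ≤ 1 + 4 * (1 / (4 * E)) := by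
    have h3 : (1 + x) ^ H * (1 - x) ^ H ≤ 1 := by
      rw [← mul_pow]
      exact pow_le_one₀ (mul_nonneg (by linarith) (by linarith)) (by nlinarith)
    have h4 : (1 + x) ^ H * (1 - 1 / (4 * E)) ≤ 1 :=
      (mul_le_mul_of_nonneg_left hb (by positivity)).trans h3
    generalize 1 / (4 * E) = y at *
    generalize (1 + x) ^ H = w at *
    by_contra hw
    push Not at hw
    nlinarith
  rw [e, abs_le]
  constructor
  · nlinarith
  · nlinarith

/-- State `(I, X0, z)`, initially `z = 1`; `H = G^2` rounds (`iter`), each with `N` samples.  A round: find the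
first `u < nc` with `0 < b u` (if there is none keep the state); `h = (b u - 1) / 2`; draw the list `L` of `N` samples
`smp (G, I, X0, k, ω)`, `ω ∈ chunks n₀ N l`, `n₀ = (G (k+1))^e`; let `c = L.countP (X u ≤ h)`.  If `N ≤ 2 c` go to
`(I.lower u h, a sample with X u ≤ h, z * N / c)`, else to
`(I.upper u (h+1), (a sample with h+1 ≤ X u).set u (X u - (h+1)), z * N / (N - c))`.  Output the last `z`.
Deterministic invariant: `Fits`, `IsSol`, `0 ≤ z`, and `∑_u size (b u) ≤ G^2 - (number of rounds)` until all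
bounds vanish (both new bounds are `≤ b u / 2`), so at the end `card Sols = 1` (`card_eq_one`).
Probabilistic invariant (`iter_good`): `(1-2ξ)^j T₀ ≤ z * card Sols ≤ (1+2ξ)^j T₀` after `j` rounds, where
`ξ = 1 / (8 G^2 E)`.  Indeed with `f` the fraction of solutions with `X u ≤ h`, the indicator of `X u ≤ h` has
mean within `2^{-k} ≤ ξ/2` of `f` (`tv`, `Ex_comp`; `k = G + E` works, or `k = size (16 G^2 E)`), and by `cheb_chunks`
`|c / N - mean| < ξ/2` except with probability `4 / (N ξ²) ≤ 1 / (16 G^2)` for `N = 2^12 G^6 E^2`; the chosen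
side has empirical frequency `f̂ ≥ 1/2` and true frequency within `ξ` of it (`card_lower`, `card_upper`),
so their ratio is in `[1-2ξ, 1+2ξ]`.  Finally `(1+2ξ)^H ≤ exp (1/(4E)) ≤ 1 + 1/E` and
`(1-2ξ)^H ≥ 1 - 1/(4E)`.
Sizes (needed on all inputs): the invariant `Inst.Bd` (`bd_sz`, `Bd.lower`, `Bd.upper`, `Bd.sz_le`; `h + 1 ≤ b u`); the new `X0` may be
clamped too (`take G`, entries `min · (2^G)`: no change under `Fits` and `IsSol`); the height `ratH z`
is multiplied by at most `2 N + 1` in a round. -/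
theorem exists_est {smp : Un × Inst × List ℕ × Un × List Bool → List ℕ} {e : ℕ}
    (h : SamplerSpec smp e) : ∃ est e', EstSpec est e' := by
  refine ⟨fun a => (estRun smp e a).2.2, 10 + 4 * e, (estRun_pt h.pt e).snd.snd, fun a => ?_, ?_⟩
  · exact iter_inv' _ _ (J := fun _ (s : ESt) => 0 ≤ s.2.2) (fun _ _ _ hs => estUpd_nonneg hs _)
      (by simp) _ _
  · intro G I X0 E hI hX hE n hn
    have hG : 1024 ≤ G.n := by
      rw [hI.pow]; exact le_trans (by norm_num) (Nat.pow_le_pow_right (by norm_num) hI.ten)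
    have hG' : (1 : ℝ) ≤ G.n := by exact_mod_cast (by omega : 1 ≤ G.n)
    have hE' : (1 : ℝ) ≤ E.n := by exact_mod_cast hE
    have hG2 : (1 : ℝ) ≤ (G.n : ℝ) ^ 2 * E.n := one_le_mul_of_one_le_of_one_le (one_le_pow₀ hG') hE'
    have hξ : (0 : ℝ) < 1 / (8 * (G.n : ℝ) ^ 2 * E.n) := by positivity
    have hξ' : 2 * (1 / (8 * (G.n : ℝ) ^ 2 * E.n)) ≤ 1 := by
      rw [mul_one_div, div_le_one (by positivity)]; linarith
    have hN : 0 < estN G.n E.n := by unfold estN; positivity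
    have hk : (1 / 2 : ℝ) ^ estK G.n E.n ≤ 1 / (8 * (G.n : ℝ) ^ 2 * E.n) / 2 := by
      have h1 : ((estK G.n E.n : ℕ) : ℝ) ≤ 2 ^ estK G.n E.n := by
        exact_mod_cast (Nat.lt_two_pow_self).le
      have h2 : ((estK G.n E.n : ℕ) : ℝ) = 8 * (G.n : ℝ) ^ 2 * E.n * 2 := by
        unfold estK; push_cast; ring
      rw [one_div_pow, div_div, ← h2]
      exact one_div_le_one_div_of_le (by rw [h2]; positivity) h1
    have h1 := iter_good (estStep smp G ⟨estK G.n E.n⟩ ((G.n * (estK G.n E.n + 1)) ^ e)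
      (estN G.n E.n)) (estN G.n E.n * (G.n * (estK G.n E.n + 1)) ^ e)
      (J := EstInv G.n I.Sols.card (1 / (8 * (G.n : ℝ) ^ 2 * E.n))) (by positivity) (t := G.n ^ 2)
      (fun j _ s hs => est_round h (k := ⟨estK G.n E.n⟩) hs hξ hξ' hN hk) (s := (I, X0, 1))
      ⟨hI, hX, estPot_le hI, by simp, by simp, by simp⟩
    have e1 : (1 : ℝ) - ((G.n ^ 2 : ℕ) : ℝ) *
        (4 / (estN G.n E.n * (1 / (8 * (G.n : ℝ) ^ 2 * E.n)) ^ 2)) = 15 / 16 := by
      unfold estN; push_cast; field_simp; norm_num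
    rw [e1, Pr, ← Ex_iter _ _ ((est_tape hG hE).trans hn) _ fun s =>
      ind (EstInv G.n I.Sols.card (1 / (8 * (G.n : ℝ) ^ 2 * E.n)) (G.n ^ 2) s)] at h1
    refine h1.trans (Pr_mono fun l _ hl => ?_)
    have h2 := Inst.card_eq_one _ hl.sol (estPot_zero (by simpa using hl.pot))
    have h3 := hl.lo
    have h4 := hl.hi
    rw [h2, Nat.cast_one, mul_one] at h3 h4
    exact est_final (Nat.cast_nonneg _) hE' (by positivity) hξ' (by push_cast; field_simp; norm_num)
      h3 h4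

end Crest.Agent.R309
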