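import Crest.Agent.R309.Iface
import Crest.Agent.R309.Split
import Crest.Agent.R309.Tape2

/-!
# R309: counting from sampling, the algorithm and its running time (helper68)
-/

set_option linter.dupNamespace false

namespace Crest.Agent.R309

open Finset Crest.Agent.Lib.PT

/-- States `(I, X0, z)` of the estimator. -/
abbrev ESt : Type := Inst × List ℕ × ℚ

/-- The first cell with a positive bound (`nc` if there is none). -/
def estU (I : Inst) : ℕ := (List.range I.nc).findIdx fun u => decide (0 < I.b u)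

/-- The splitting point. -/
def estH (I : Inst) : ℕ := (I.b (estU I) - 1) / 2

/-- The number of samples in the lower half. -/
def estC (I : Inst) (L : List (List ℕ)) : ℕ :=
  L.countP fun X => decide (X.getD (estU I) 0 ≤ estH I)

/-- Forget lists that are not solutions. -/
def estFix (I : Inst) (X : List ℕ) : List ℕ := if I.IsSol X then X else []

/-- A sample in the lower half. -/
def estLo (I : Inst) (L : List (List ℕ)) : List ℕ :=
  (L.find? fun X => decide (X.getD (estU I) 0 ≤ estH I)).getD []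

/-- A sample in the upper half. -/
def estHi (I : Inst) (L : List (List ℕ)) : List ℕ :=
  (L.find? fun X => decide (estH I + 1 ≤ X.getD (estU I) 0)).getD []

/-- One round, given the list of samples. -/
def estUpd (N : ℕ) (s : ESt) (L : List (List ℕ)) : ESt :=
  if estU s.1 < s.1.nc then
    if N ≤ 2 * estC s.1 L then
      (s.1.lower (estU s.1) (estH s.1), estFix (s.1.lower (estU s.1) (estH s.1)) (estLo s.1 L),
        s.2.2 * N / (estC s.1 L : ℕ))
    else
      (s.1.upper (estU s.1) (estH s.1 + 1), estFix (s.1.upper (estU s.1) (estH s.1 + 1))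
        ((estHi s.1 L).set (estU s.1) ((estHi s.1 L).getD (estU s.1) 0 - (estH s.1 + 1))),
        s.2.2 * N / (N - estC s.1 L : ℕ))
  else s

/-- One round. -/
def estStep (smp : Un × Inst × List ℕ × Un × List Bool → List ℕ) (G k : Un) (n₀ N : ℕ) (s : ESt)
    (ω : List Bool) : ESt :=
  estUpd N s ((chunks n₀ N ω).map fun w => smp (G, s.1, s.2.1, k, w))

/-- Accuracy parameter of the sampler. -/
def estK (G E : ℕ) : ℕ := 16 * G ^ 2 * E

/-- Number of samples in a round. -/
def estN (G E : ℕ) : ℕ := 4096 * G ^ 6 * E ^ 2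

/-- The whole run. -/
def estRun (smp : Un × Inst × List ℕ × Un × List Bool → List ℕ) (e : ℕ)
    (a : Un × Inst × List ℕ × Un × List Bool) : ESt :=
  iter (estStep smp a.1 ⟨estK a.1.n a.2.2.2.1.n⟩ ((a.1.n * (estK a.1.n a.2.2.2.1.n + 1)) ^ e)
      (estN a.1.n a.2.2.2.1.n))
    (estN a.1.n a.2.2.2.1.n * (a.1.n * (estK a.1.n a.2.2.2.1.n + 1)) ^ e) (a.1.n ^ 2)
    (a.2.1, a.2.2.1, 1) a.2.2.2.2

theorem estU_spec {I : Inst} (h : estU I < I.nc) : 0 < I.b (estU I) := by
  have h' : (List.range I.nc).findIdx (fun u => decide (0 < I.b u)) < (List.range I.nc).length := by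
    simpa [estU] using h
  have := List.findIdx_getElem (w := h')
  simpa [estU] using this

theorem estU_none {I : Inst} (h : ¬ estU I < I.nc) : ∀ u < I.nc, I.b u = 0 := by
  intro u hu
  by_contra hb
  apply h
  have : (List.range I.nc).findIdx (fun u => decide (0 < I.b u)) < (List.range I.nc).length :=
    List.findIdx_lt_length_of_exists ⟨u, List.mem_range.2 hu, by simp; omega⟩
  simpa [estU] using this

theorem estH_lt {I : Inst} (h : estU I < I.nc) : estH I + 1 ≤ I.b (estU I) := by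
  have := estU_spec h
  unfold estH; omega

theorem estC_le (I : Inst) (L : List (List ℕ)) : estC I L ≤ L.length := List.countP_le_length

section pt

variable {α : Type} [Enc α] {I : α → Inst} {L : α → List (List ℕ)} {X : α → List ℕ}

@[fun_prop] theorem estU_pt (hI : PT I) : PT fun a => estU (I a) := by unfold estU; fun_prop
@[fun_prop] theorem estH_pt (hI : PT I) : PT fun a => estH (I a) := by unfold estH; fun_prop
@[fun_prop] theorem estC_pt (hI : PT I) (hL : PT L) : PT fun a => estC (I a) (L a) := by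
  unfold estC; fun_prop
@[fun_prop] theorem estFix_pt (hI : PT I) (hX : PT X) : PT fun a => estFix (I a) (X a) := by
  unfold estFix; fun_prop
@[fun_prop] theorem estLo_pt (hI : PT I) (hL : PT L) : PT fun a => estLo (I a) (L a) := by
  unfold estLo; fun_prop
@[fun_prop] theorem estHi_pt (hI : PT I) (hL : PT L) : PT fun a => estHi (I a) (L a) := by
  unfold estHi; fun_prop

attribute [local irreducible] Inst.lower Inst.upper estU estH estC estFix estLo estHi

theorem estUpd_pt {N : α → ℕ} {s : α → ESt} (hN : PT N) (hs : PT s) (hL : PT L) :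
    PT fun a => estUpd (N a) (s a) (L a) := by
  unfold estUpd; fun_prop

end pt

theorem sz_estFix {I : Inst} {k : ℕ} (h : I.Bd k) (X : List ℕ) :
    sz (estFix I X) ≤ I.nc * (4 * k + 2) + 1 := by
  unfold estFix
  split_ifs with hX
  · rw [← hX.1]
    refine sz_list_le fun x hx => ?_
    obtain ⟨i, hi, rfl⟩ := List.getElem_of_mem hx
    have h1 := hX.2.1 i (hX.1 ▸ hi)
    rw [List.getD_eq_getElem _ _ hi] at h1
    exact sz_nat_le_of_lt (h1.trans_lt (h.1 i).2.2)
  · simp

theorem ratH_step {z : ℚ} {N c m : ℕ} (hc : c ≤ N) (hz : ratH z < 2 ^ m) :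
    ratH (z * N / (c : ℕ)) < 2 ^ (m + 2 * N) := by
  have h1 := ratH_div_le (z * N) c
  have h2 := ratH_mul_le z N
  rw [ratH_natCast] at h1 h2
  have h3 : N + 1 ≤ 2 ^ N := Nat.lt_two_pow_self
  have h4 : ratH (z * N / (c : ℕ)) ≤ ratH z * 2 ^ N * 2 ^ N :=
    h1.trans (Nat.mul_le_mul (h2.trans (Nat.mul_le_mul_left _ h3)) (by omega))
  calc ratH (z * N / (c : ℕ)) ≤ ratH z * 2 ^ N * 2 ^ N := h4
    _ < 2 ^ m * 2 ^ N * 2 ^ N := by gcongr
    _ = 2 ^ (m + 2 * N) := by rw [two_mul, pow_add, pow_add, mul_assoc]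

/-- The size invariant. -/
def EstSz (I₀ : Inst) (X₀ : List ℕ) (N j : ℕ) (s : ESt) : Prop :=
  s.1.Bd (sz I₀ + 2 * j) ∧ s.1.nc = I₀.nc ∧ s.1.nv = I₀.nv ∧
    sz s.2.1 ≤ sz X₀ + I₀.nc * (4 * (sz I₀ + 2 * j) + 2) + 1 ∧ ratH s.2.2 < 2 ^ (2 + 2 * N * j)

theorem EstSz.upd {I₀ : Inst} {X₀ : List ℕ} {N j : ℕ} {s : ESt} (h : EstSz I₀ X₀ N j s)
    {L : List (List ℕ)} (hL : L.length = N) : EstSz I₀ X₀ N (j + 1) (estUpd N s L) := by
  obtain ⟨h1, h2, h3, h4, h5⟩ := h
  have e1 : 2 + 2 * N * (j + 1) = 2 + 2 * N * j + 2 * N := by ring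
  unfold estUpd
  split_ifs with hu hc
  · have hh := estH_lt hu
    have hb := (h1.1 (estU s.1)).2.2
    have h6 : (s.1.lower (estU s.1) (estH s.1)).Bd (sz I₀ + 2 * (j + 1)) :=
      (h1.lower _ (by omega)).mono (by omega)
    refine ⟨h6, by simpa using h2, by simpa using h3, ?_, ?_⟩
    · have := sz_estFix h6 (estLo s.1 L)
      rw [Inst.nc_lower, h2] at this
      exact this.trans (by omega)
    · rw [e1]; exact ratH_step (hL ▸ estC_le _ _) h5
  · have hh := estH_lt hu
    have hb := (h1.1 (estU s.1)).2.2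
    have h6 : (s.1.upper (estU s.1) (estH s.1 + 1)).Bd (sz I₀ + 2 * (j + 1)) :=
      (h1.upper _ (by omega)).mono (by omega)
    refine ⟨h6, by simpa using h2, by simpa using h3, ?_, ?_⟩
    · have := sz_estFix h6
        ((estHi s.1 L).set (estU s.1) ((estHi s.1 L).getD (estU s.1) 0 - (estH s.1 + 1)))
      rw [Inst.nc_upper, h2] at this
      exact this.trans (by omega)
    · rw [e1]; exact ratH_step (Nat.sub_le _ _) h5
  · refine ⟨h1.mono (by omega), h2, h3, h4.trans ?_, h5.trans_le ?_⟩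
    · gcongr; omega
    · exact Nat.pow_le_pow_right (by norm_num) (by omega)

attribute [local irreducible] estUpd

theorem estRun_pt {smp : Un × Inst × List ℕ × Un × List Bool → List ℕ} (h : PT smp) (e : ℕ) :
    PT (estRun smp e) := by
  have hK : PT fun a : Un × Inst × List ℕ × Un × List Bool => estK a.1.n a.2.2.2.1.n := by
    unfold estK; fun_prop
  have bK : PB fun a : Un × Inst × List ℕ × Un × List Bool => estK a.1.n a.2.2.2.1.n := by
    unfold estK; fun_prop
  have hN : PT fun a : Un × Inst × List ℕ × Un × List Bool => estN a.1.n a.2.2.2.1.n := by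
    unfold estN; fun_prop
  have bN : PB fun a : Un × Inst × List ℕ × Un × List Bool => estN a.1.n a.2.2.2.1.n := by
    unfold estN; fun_prop
  have h0 : PT fun a : Un × Inst × List ℕ × Un × List Bool =>
      (a.1.n * (estK a.1.n a.2.2.2.1.n + 1)) ^ e := by fun_prop
  have hU : PT fun a : Un × Inst × List ℕ × Un × List Bool => Un.mk (estK a.1.n a.2.2.2.1.n) :=
    PT.un_mk hK bK
  unfold estRun
  refine iter_pt (f := fun a : Un × Inst × List ℕ × Un × List Bool =>
      estStep smp a.1 ⟨estK a.1.n a.2.2.2.1.n⟩ ((a.1.n * (estK a.1.n a.2.2.2.1.n + 1)) ^ e)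
        (estN a.1.n a.2.2.2.1.n)) ?_ (hN.nat_mul h0) (by fun_prop) (by fun_prop) (by fun_prop)
    (by fun_prop) (fun a j s => EstSz a.2.1 a.2.2.1 (estN a.1.n a.2.2.2.1.n) j s) ?_ ?_
    (B := fun a => (a.2.1.nc + a.2.1.nv + 1) * (12 * (sz a.2.1 + 2 * a.1.n ^ 2) + 20) +
      (sz a.2.2.1 + a.2.1.nc * (4 * (sz a.2.1 + 2 * a.1.n ^ 2) + 2) + 1) +
      (8 * (2 + 2 * estN a.1.n a.2.2.2.1.n * a.1.n ^ 2) + 7) + 2) (by fun_prop) ?_
  · unfold estStep
    have h1 : PT fun p : (Un × Inst × List ℕ × Un × List Bool) × ESt × List Bool => p.1 := by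
      fun_prop
    refine estUpd_pt (hN.comp h1) (by fun_prop) (PT.map (PT.chunks (h0.comp h1) (hN.comp h1)
      (bN.comp h1) (by fun_prop)) ?_)
    have h2 : PT fun q : ((Un × Inst × List ℕ × Un × List Bool) × ESt × List Bool) × List Bool =>
        q.1.1 := by fun_prop
    exact h.comp_eq (fun q : ((Un × Inst × List ℕ × Un × List Bool) × ESt × List Bool) × List Bool =>
      (q.1.1.1, q.1.2.1.1, q.1.2.1.2.1, Un.mk (estK q.1.1.1.n q.1.1.2.2.2.1.n), q.2))
      (PT.pair (by fun_prop) (PT.pair (by fun_prop) (PT.pair (by fun_prop)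
        (PT.pair (hU.comp h2) (by fun_prop)))))
  · intro a
    refine ⟨by simpa using a.2.1.bd_sz, rfl, rfl, by simp only; omega, by simp⟩
  · intro a j s ω hs
    exact hs.upd (by simp)
  · rintro a j s hj ⟨h1, h2, h3, h4, h5⟩
    have h6 := h1.sz_le
    have h7 := sz_rat_le_of_lt h5
    rw [h2, h3] at h6
    have h8 : (a.2.1.nc + a.2.1.nv + 1) * (12 * (sz a.2.1 + 2 * j) + 20) ≤
        (a.2.1.nc + a.2.1.nv + 1) * (12 * (sz a.2.1 + 2 * a.1.n ^ 2) + 20) := by gcongr
    have h9 : a.2.1.nc * (4 * (sz a.2.1 + 2 * j) + 2) ≤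
        a.2.1.nc * (4 * (sz a.2.1 + 2 * a.1.n ^ 2) + 2) := by gcongr
    have h10 : 2 * estN a.1.n a.2.2.2.1.n * j ≤ 2 * estN a.1.n a.2.2.2.1.n * a.1.n ^ 2 := by gcongr
    rw [sz_prod s, sz_prod s.2]
    omega

theorem estUpd_nonneg {N : ℕ} {s : ESt} (h : 0 ≤ s.2.2) (L : List (List ℕ)) :
    0 ≤ (estUpd N s L).2.2 := by
  unfold estUpd
  split_ifs
  · positivity
  · positivity
  · exact h

end Crest.Agent.R309
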