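import Crest.Agent.R309.Iface

/-!
# R309: one round of the exact sampler (definitions)

The tape of a round is cut into `Q` bits (context), `K` bits (branch) and the rest.  Unless the `K` bits all
vanish, the chain is run (`shotF`).  Otherwise a candidate `y` is drawn and accepted with a probability
computed exactly by dynamic programming (`H`), so that all solutions get the same total probability.
-/

set_option linter.dupNamespace false

namespace Crest.Agent.R309

open Finset Crest.Agent.Lib.PT

/-- `(G, I, X0)`. -/
abbrev Job : Type := Un × Inst × List ℕ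

namespace Core

variable (C : Core)

/-- Block length, and number of bits of a state. -/
def Q (a : Job) : ℕ := a.1.n ^ C.e
/-- The slow branch has probability `2^{-K}`. -/
def K (a : Job) : ℕ := 2 * C.Q a
/-- Number of bits of a candidate. -/
def bb (a : Job) : ℕ := a.2.1.nc * a.1.n
/-- Accuracy of the upper bound. -/
def K' (a : Job) : ℕ := C.K a + bb a + 1
/-- Number of steps of the chain. -/
def tt (a : Job) : ℕ := C.Q a * (C.K a + bb a + 4)
/-- Number of bits used by the chain and the output map. -/
def Tb (a : Job) : ℕ := (C.tt a + 1) * C.Q a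
/-- Number of bits of a round. -/
def R (a : Job) : ℕ := C.Q a + C.K a + (bb a + (C.K' a + C.Tb a))

/-- The context of the round. -/
def ctx (a : Job) (l : List Bool) : C.Ctx := C.mk' (a.1, a.2.1, a.2.2, l.take (C.Q a))

/-- The branch. -/
def slow (a : Job) (l : List Bool) : Bool := !((l.drop (C.Q a)).take (C.K a)).any id

/-- The bits after the branch bits. -/
def rest (a : Job) (l : List Bool) : List Bool := l.drop (C.Q a + C.K a)

/-- The candidate of the slow branch. -/
def cand (a : Job) (l : List Bool) : List ℕ := (chunks a.1.n a.2.1.nc (C.rest a l)).map ofBits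

/-- The terminal values of the dynamic programme. -/
def term (a : Job) (l : List Bool) (o : Option (List ℕ)) : ℕ :=
  (if o = some a.2.2 then 2 ^ C.K' a + 1 else 0) + if o = some (C.cand a l) then 0 else 2 ^ C.K' a

/-- `H j x` is the sum of the terminal values over all tapes for `j` steps from `x` and the output map. -/
def H (a : Job) (l : List Bool) : ℕ → ℕ → ℕ
  | 0, x => ∑ ω ∈ range (2 ^ C.Q a), C.term a l (C.out (C.ctx a l) x (bitsN (C.Q a) ω))
  | j + 1, x => ∑ ω ∈ range (2 ^ C.Q a), H a l j (C.st (C.ctx a l) x (bitsN (C.Q a) ω))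

theorem H_eq_def' : type_of% @H.eq_def := @H.eq_def
theorem H_eq_1' : type_of% @H.eq_1 := @H.eq_1
theorem H_eq_2' : type_of% @H.eq_2 := @H.eq_2

/-- The result of the slow branch, given the value `h` of the dynamic programme. -/
def fin (a : Job) (l : List Bool) (h : ℕ) : Option (List ℕ) :=
  if a.2.1.IsSol (C.cand a l) ∧ ofBits (((C.rest a l).drop (bb a)).take (C.K' a + C.Tb a)) <
      (2 ^ C.K a - 1) * 2 ^ bb a * (h - 2 ^ C.K' a * 2 ^ C.Tb a)
    then some (C.cand a l) else none

/-- The result of the fast branch. -/
def fast (a : Job) (l : List Bool) : Option (List ℕ) :=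
  shotF (C.st (C.ctx a l)) (C.out (C.ctx a l)) (C.Q a) (C.tt a) (C.rest a l)

/-- The result of the round. -/
def res (a : Job) (l : List Bool) : Option (List ℕ) :=
  if C.slow a l then C.fin a l (C.H a l (C.tt a) 0) else C.fast a l

theorem res_sol {a : Job} {l : List Bool} {y : List ℕ} (h : C.res a l = some y) :
    a.2.1.IsSol y := by
  unfold res at h
  split_ifs at h with h1
  · unfold fin at h
    split_ifs at h with h2
    cases h; exact h2.1
  · exact C.out_sol _ _ _ _ _ _ _ h

section pt

variable {α : Type} [Enc α] {a : α → Job} {l : α → List Bool}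

@[fun_prop] theorem Q_pt (ha : PT a) : PT fun x => C.Q (a x) := by unfold Q; fun_prop
@[fun_prop] theorem Q_pb (ha : PT a) : PB fun x => C.Q (a x) := by unfold Q; fun_prop
@[fun_prop] theorem K_pt (ha : PT a) : PT fun x => C.K (a x) := by unfold K; fun_prop
@[fun_prop] theorem K_pb (ha : PT a) : PB fun x => C.K (a x) := by unfold K; fun_prop
@[fun_prop] theorem bb_pt (ha : PT a) : PT fun x => bb (a x) := by unfold bb; fun_prop
@[fun_prop] theorem bb_pb (ha : PT a) : PB fun x => bb (a x) := by unfold bb; fun_prop
@[fun_prop] theorem K'_pt (ha : PT a) : PT fun x => C.K' (a x) := by unfold K'; fun_prop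
@[fun_prop] theorem K'_pb (ha : PT a) : PB fun x => C.K' (a x) := by unfold K'; fun_prop
@[fun_prop] theorem tt_pt (ha : PT a) : PT fun x => C.tt (a x) := by unfold tt; fun_prop
@[fun_prop] theorem tt_pb (ha : PT a) : PB fun x => C.tt (a x) := by unfold tt; fun_prop
@[fun_prop] theorem Tb_pt (ha : PT a) : PT fun x => C.Tb (a x) := by unfold Tb; fun_prop
@[fun_prop] theorem Tb_pb (ha : PT a) : PB fun x => C.Tb (a x) := by unfold Tb; fun_prop
@[fun_prop] theorem R_pt (ha : PT a) : PT fun x => C.R (a x) := by unfold R; fun_prop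
@[fun_prop] theorem R_pb (ha : PT a) : PB fun x => C.R (a x) := by unfold R; fun_prop

@[fun_prop] theorem ctx_pt (ha : PT a) (hl : PT l) : PT fun x => C.ctx (a x) (l x) :=
  C.mk_pt.comp (f := fun x => ((a x).1, (a x).2.1, (a x).2.2, (l x).take (C.Q (a x))))
    (by fun_prop)

@[fun_prop] theorem slow_pt (ha : PT a) (hl : PT l) : PT fun x => C.slow (a x) (l x) := by
  unfold slow
  exact PT.bnot (PT.any (f := fun _ b => b) (by fun_prop) (by fun_prop))

@[fun_prop] theorem rest_pt (ha : PT a) (hl : PT l) : PT fun x => C.rest (a x) (l x) := by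
  unfold rest; fun_prop

@[fun_prop] theorem cand_pt (ha : PT a) (hl : PT l) : PT fun x => C.cand (a x) (l x) := by
  unfold cand; fun_prop

@[fun_prop] theorem term_pt {o : α → Option (List ℕ)} (ha : PT a) (hl : PT l) (ho : PT o) :
    PT fun x => C.term (a x) (l x) (o x) := by
  unfold term; fun_prop

@[fun_prop] theorem fin_pt {h : α → ℕ} (ha : PT a) (hl : PT l) (hh : PT h) :
    PT fun x => C.fin (a x) (l x) (h x) := by
  unfold fin; fun_prop

@[fun_prop] theorem fast_pt (ha : PT a) (hl : PT l) : PT fun x => C.fast (a x) (l x) := by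
  have := C.shot_pt (C.ctx_pt ha hl) (C.tt_pt ha) (C.tt_pb ha) (C.rest_pt ha hl)
  refine this.of_eq fun x => ?_
  simp only [fast, ctx, C.gs_mk, Q]

end pt

end Core

end Crest.Agent.R309
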