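import Crest.Agent.R309.ExMacAux2

/-!
# R309: the exact sampler as a macro machine
-/

set_option linter.dupNamespace false

namespace Crest.Agent.R309

open Finset Crest.Agent.Lib.PT

/-- The machine has the phases (a sum type, or a tuple with a phase number):
* `read l`: the words read so far; `rd = l.length`.  If `more l`, append the value read (write it back, or write
  `0` at an address already read); otherwise go to `coll (pre l) []`.
* `coll a l`: append the random bit while `l.length < R a`.  When `l.length = R a`: if `slow a l` go to `dp a l 0 0`,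
  otherwise to `done a (fast a l)`, where `done a none = coll a []` and `done a (some y) = write y 0`.
* `dp a l n acc`: `n` runs through `0, …, tt * 2^{2Q} + 2^Q`; write `n = (j * 2^Q + x) * 2^Q + ω` with `x, ω < 2^Q`.
  Reading address `(j - 1) * 2^Q + st ctx x (bitsN Q ω)`; the new accumulator is
  `(if ω = 0 then 0 else acc) + (if j = 0 then term (out ctx x (bitsN Q ω)) else value read)`, and on entering
  `dp a l (n+1) acc'` the machine writes `acc'` at the address `n / 2^Q = j * 2^Q + x`.  Invariant: the cells
  `j' * 2^Q + x'` below `n / 2^Q` contain `H j' x'` (`st_lt`, `gs_mk`), and `acc` is the partial sum.  At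
  `n = tt * 2^{2Q} + 2^Q` the accumulator is `H tt 0`; go to `done a (fin a l acc)`.
* `write y i`: on entering, write `y i` at the address `i`; `fin = some y.length` when `i = y.length`
  (the write at that address is harmless).
`Start c` says that the state is `coll (pre inp) []`; the memory is arbitrary.  For the size bound use an
invariant of the states that holds for arbitrary values read in the phase `dp` (reduce `acc` modulo
`2^(K' + 2 + Tb)`, harmless since `H j x ≤ (2^{K'+1} + 1) 2^{(j+1) Q}`); `sz (pre inp)`, `R`, … are polynomially bounded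
in `sz inp` (`PB.sz`, `R_pb`), and an output `y` is a solution (`res_sol`), so its size is bounded by
`nc (4 G + 2) + 1`. -/
theorem Core.exists_mac (C : Core) {more : List ℕ → Bool} {pre : List ℕ → Job} (hm : PT more)
    (hp : PT pre) :
    ∃ (σ : Type) (_ : Enc σ) (m : Mac σ), (PT fun p : σ × ℕ × Bool => m.nx p.1 p.2.1 p.2.2) ∧
      PT m.rd ∧ PT m.wr ∧ PT m.fin ∧ ∃ c d : ℕ, ∀ inp : List ℕ,
      (∀ k < inp.length, more (inp.take k) = true) → more inp = false →
      Fits (pre inp).1.n (pre inp).2.1 → (pre inp).2.1.IsSol (pre inp).2.2 →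
      (∀ l, sz (m.go (m.init inp) l).1 ≤ c * sz inp ^ d) ∧
      ∃ (Start : σ × (ℕ → ℕ) → Prop) (n₀ : ℕ) (len : List Bool → ℕ), n₀ ≤ inp.length + 2 ∧
        (∀ l, l.length = n₀ → Start (m.go (m.init inp) l)) ∧
        (∀ s, Start s → m.fin s.1 = none) ∧
        (∀ l, len l ≤ (if C.slow (pre inp) l then (C.tt (pre inp) + 1) * 2 ^ C.K (pre inp) else 0) +
          (pre inp).2.1.nc + 5) ∧
        ∀ s, Start s → ∀ l, l.length = C.R (pre inp) → ∀ l', l'.length = len l →
          (C.res (pre inp) l = none → Start (m.go s (l ++ l'))) ∧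
          ∀ y, C.res (pre inp) l = some y → m.Out (m.go s (l ++ l')) y := by
  obtain ⟨c, d, hcd⟩ := C.xB_pb hp
  refine ⟨XS, inferInstance, C.xMac more pre, C.xMac_nx_pt hm hp, C.xMac_rd_pt hp, C.xMac_wr_pt hp,
    C.xMac_fin_pt, c, d, fun inp hin hend hF _ => ⟨fun l => ?_,
      fun s => s.1 = (1, inp, [], 0, 0, []), inp.length + 1, C.xLen (pre inp), by omega,
      fun l hl => ?_, fun s hs => ?_, fun l => ?_, fun s hs l hl l' hl' => ?_⟩⟩
  · refine (C.xGood_sz hF ?_).trans (hcd inp)
    exact (C.xMac more pre).go_inv (I := fun _ => C.XGood pre inp) (K := l.length)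
      (fun _ c b _ hc => C.xGood_step hin hend c b hc) l 0 _ (by omega)
      (Or.inl ⟨0, Nat.zero_le _, rfl, fun _ _ => rfl⟩)
  · obtain ⟨l₁, b, rfl⟩ : ∃ l₁ b, l = l₁ ++ [b] :=
      ⟨l.dropLast, l.getLast (by rintro rfl; simp at hl), (List.dropLast_append_getLast _).symm⟩
    have hl₁ : l₁.length = inp.length := by simpa using hl
    have h := (C.xMac more pre).go_inv (I := Core.XRead inp) (K := inp.length)
      (fun k c b hk hc => C.xRead_step hin k c b hk hc) l₁ 0 ((C.xMac more pre).init inp) (by omega)
      ⟨rfl, fun _ _ => rfl⟩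
    rw [Mac.go_append]
    generalize (C.xMac more pre).go ((C.xMac more pre).init inp) l₁ = c₁ at h
    obtain ⟨s, mem⟩ := c₁
    obtain rfl : s = _ := h.1
    rw [zero_add, hl₁, List.take_length]
    exact C.x_step_read_end inp mem b hend
  · rw [hs]
    simp [Core.xMac]
  · have h1 := C.xN_le (pre inp)
    have h2 : (C.res (pre inp) l).elim 0 List.length ≤ (pre inp).2.1.nc := by
      rcases h : C.res (pre inp) l with _ | y
      · exact Nat.zero_le _
      · exact (C.res_sol h).1.le
    unfold Core.xLen
    split_ifs <;> omega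
  · exact C.x_round inp s hs l hl l' hl'

end Crest.Agent.R309
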