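import Crest.Agent.R309.Tape

/-!
# R309: macro machines (definitions)

A macro machine has a state and a memory.  One step reads the memory cell `rd s`, draws one random
bit, moves to the state `s' = nx s value bit` and writes `(wr s').2` at the address `(wr s').1`.  It has
halted when `fin s = some k`; its output is then the content of the cells `0, …, k-1`.
-/

set_option linter.dupNamespace false

namespace Crest.Agent.R309

/-- Macro machines. -/
structure Mac (σ : Type) where
  /-- initial state -/
  s0 : σ
  /-- next state, from the value read and a random bit -/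
  nx : σ → ℕ → Bool → σ
  /-- address to read -/
  rd : σ → ℕ
  /-- address and value to write on entering the state -/
  wr : σ → ℕ × ℕ
  /-- halting test and output length -/
  fin : σ → Option ℕ

namespace Mac

variable {σ : Type} (m : Mac σ)

/-- One step. -/
def step (c : σ × (ℕ → ℕ)) (b : Bool) : σ × (ℕ → ℕ) :=
  if (m.fin c.1).isSome then c else
    (m.nx c.1 (c.2 (m.rd c.1)) b, Function.update c.2 (m.wr (m.nx c.1 (c.2 (m.rd c.1)) b)).1
      (m.wr (m.nx c.1 (c.2 (m.rd c.1)) b)).2)

/-- The run from a configuration, one random bit per step. -/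
def go (c : σ × (ℕ → ℕ)) (l : List Bool) : σ × (ℕ → ℕ) := l.foldl m.step c

/-- The initial configuration. -/
def init (inp : List ℕ) : σ × (ℕ → ℕ) := (m.s0, fun i => inp.getD i 0)

/-- The configuration has halted with the given output. -/
def Out (c : σ × (ℕ → ℕ)) (out : List ℕ) : Prop :=
  ∃ k, m.fin c.1 = some k ∧ out = (List.range k).map c.2

@[simp] theorem go_nil (c : σ × (ℕ → ℕ)) : m.go c [] = c := rfl

@[simp] theorem go_cons (c : σ × (ℕ → ℕ)) (b : Bool) (l : List Bool) :
    m.go c (b :: l) = m.go (m.step c b) l := rfl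

theorem go_append (c : σ × (ℕ → ℕ)) (l l' : List Bool) :
    m.go c (l ++ l') = m.go (m.go c l) l' := List.foldl_append ..

theorem step_of_fin {c : σ × (ℕ → ℕ)} (h : m.fin c.1 ≠ none) (b : Bool) : m.step c b = c := by
  unfold step; rw [if_pos (Option.isSome_iff_ne_none.2 h)]

theorem go_of_fin {c : σ × (ℕ → ℕ)} (h : m.fin c.1 ≠ none) (l : List Bool) : m.go c l = c := by
  induction l with
  | nil => rfl
  | cons b l ih => rw [go_cons, m.step_of_fin h, ih]

theorem Out.unique {m : Mac σ} {c : σ × (ℕ → ℕ)} {o o' : List ℕ} (h : m.Out c o) (h' : m.Out c o') :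
    o = o' := by
  obtain ⟨k, h1, rfl⟩ := h
  obtain ⟨k', h2, rfl⟩ := h'
  rw [h1] at h2; cases h2; rfl

end Mac

end Crest.Agent.R309
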