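import Crest.Agent.R309.ExDef
import Crest.Agent.R309.MacDef

/-!
# R309: the macro machine of the exact sampler (definition, polynomial time, single steps)
-/

set_option linter.dupNamespace false

namespace Crest.Agent.R309

open Finset Crest.Agent.Lib.PT

/-- An indexed invariant of the step is an invariant of the run. -/
theorem Mac.go_inv {σ : Type} (m : Mac σ) {I : ℕ → σ × (ℕ → ℕ) → Prop} {K : ℕ}
    (h : ∀ k c b, k < K → I k c → I (k + 1) (m.step c b)) (l : List Bool) :
    ∀ k c, k + l.length ≤ K → I k c → I (k + l.length) (m.go c l) := by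
  induction l with
  | nil => intro k c _ hc; exact hc
  | cons b l ih =>
    intro k c hk hc
    rw [List.length_cons] at hk ⊢
    rw [Mac.go_cons, ← Nat.add_assoc, Nat.add_right_comm]
    exact ih _ _ (by omega) (h k c b (by omega) hc)

/-- States: phase, input words, random bits, counter, accumulator, output. -/
abbrev XS : Type := ℕ × List ℕ × List Bool × ℕ × ℕ × List ℕ

/-- End of a round. -/
def xDone (L : List ℕ) (o : Option (List ℕ)) : XS :=
  o.elim (1, L, [], 0, 0, []) fun y => (3, L, [], 0, 0, y)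

@[fun_prop] theorem xDone_pt {α : Type} [Enc α] {L : α → List ℕ} {o : α → Option (List ℕ)}
    (hL : PT L) (ho : PT o) : PT fun x => xDone (L x) (o x) := by
  unfold xDone; fun_prop

attribute [irreducible] xDone

namespace Core

variable (C : Core)

/-- Number of steps of the dynamic programme. -/
def xN (a : Job) : ℕ := C.tt a * 2 ^ C.Q a * 2 ^ C.Q a + 2 ^ C.Q a

/-- The new accumulator. -/
def xNew (a : Job) (l : List Bool) (n acc v : ℕ) : ℕ :=
  (if n % 2 ^ C.Q a = 0 then 0 else acc) +
    if n / 2 ^ C.Q a / 2 ^ C.Q a = 0 then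
      C.term a l (C.out (C.ctx a l) (n / 2 ^ C.Q a % 2 ^ C.Q a) (bitsN (C.Q a) (n % 2 ^ C.Q a)))
    else v

/-- The address read by the dynamic programme. -/
def xAddr (a : Job) (l : List Bool) (n : ℕ) : ℕ :=
  (n / 2 ^ C.Q a / 2 ^ C.Q a - 1) * 2 ^ C.Q a +
    C.st (C.ctx a l) (n / 2 ^ C.Q a % 2 ^ C.Q a) (bitsN (C.Q a) (n % 2 ^ C.Q a))

section pt

variable {α : Type} [Enc α] {a : α → Job} {l : α → List Bool} {n acc v : α → ℕ}

@[fun_prop] theorem xN_pt (ha : PT a) : PT fun x => C.xN (a x) := by unfold xN; fun_prop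

theorem x_out_pt {c : α → C.Ctx} (hc : PT c) (hn : PT n) (hl : PT l) :
    PT fun x => C.out (c x) (n x) (l x) :=
  C.out_pt.comp_eq (fun x => (c x, n x, l x)) (by fun_prop)

theorem x_st_pt {c : α → C.Ctx} (hc : PT c) (hn : PT n) (hl : PT l) :
    PT fun x => C.st (c x) (n x) (l x) :=
  C.st_pt.comp_eq (fun x => (c x, n x, l x)) (by fun_prop)

@[fun_prop] theorem xNew_pt (ha : PT a) (hl : PT l) (hn : PT n) (hacc : PT acc) (hv : PT v) :
    PT fun x => C.xNew (a x) (l x) (n x) (acc x) (v x) := by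
  unfold xNew
  exact PT.nat_add (by fun_prop) (PT.ite (by fun_prop)
    (C.term_pt ha hl (C.x_out_pt (by fun_prop) (by fun_prop) (by fun_prop))) hv)

@[fun_prop] theorem xAddr_pt (ha : PT a) (hl : PT l) (hn : PT n) :
    PT fun x => C.xAddr (a x) (l x) (n x) := by
  unfold xAddr
  exact PT.nat_add (by fun_prop) (C.x_st_pt (by fun_prop) (by fun_prop) (by fun_prop))

end pt

/-- The machine. -/
def xMac (more : List ℕ → Bool) (pre : List ℕ → Job) : Mac XS where
  s0 := (0, [], [], 0, 0, [])
  nx s v b :=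
    if s.1 = 0 then
      (if more s.2.1 = true then (0, s.2.1 ++ [v], [], 0, 0, []) else (1, s.2.1, [], 0, 0, []))
    else if s.1 = 1 then
      (if s.2.2.1.length < C.R (pre s.2.1) then (1, s.2.1, s.2.2.1 ++ [b], 0, 0, [])
      else if C.slow (pre s.2.1) s.2.2.1 = true then (2, s.2.1, s.2.2.1, 0, 0, [])
      else xDone s.2.1 (C.fast (pre s.2.1) s.2.2.1))
    else if s.1 = 2 then
      (if s.2.2.2.1 < C.xN (pre s.2.1) then
        (2, s.2.1, s.2.2.1, s.2.2.2.1 + 1, C.xNew (pre s.2.1) s.2.2.1 s.2.2.2.1 s.2.2.2.2.1 v, [])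
      else xDone s.2.1 (C.fin (pre s.2.1) s.2.2.1 s.2.2.2.2.1))
    else (3, s.2.1, [], s.2.2.2.1 + 1, 0, s.2.2.2.2.2)
  rd s := if s.1 = 0 then s.2.1.length else C.xAddr (pre s.2.1) s.2.2.1 s.2.2.2.1
  wr s :=
    if s.1 = 2 then ((s.2.2.2.1 - 1) / 2 ^ C.Q (pre s.2.1), s.2.2.2.2.1)
    else if s.1 = 3 then (s.2.2.2.1, s.2.2.2.2.2.getD s.2.2.2.1 0) else (0, 0)
  fin s := if s.1 = 3 ∧ s.2.2.2.1 = s.2.2.2.2.2.length then some s.2.2.2.2.2.length else none

variable {more : List ℕ → Bool} {pre : List ℕ → Job}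

theorem xMac_nx_pt (hm : PT more) (hp : PT pre) :
    PT fun p : XS × ℕ × Bool => (C.xMac more pre).nx p.1 p.2.1 p.2.2 := by
  simp only [xMac]
  have hL : PT fun p : XS × ℕ × Bool => p.1.2.1 := by fun_prop
  have ha : PT fun p : XS × ℕ × Bool => pre p.1.2.1 := hp.comp hL
  have hmo : PT fun p : XS × ℕ × Bool => more p.1.2.1 = true := (hm.comp hL).eq_true
  have hl : PT fun p : XS × ℕ × Bool => p.1.2.2.1 := by fun_prop
  refine PT.ite (by fun_prop) (PT.ite hmo (by fun_prop) (by fun_prop)) (PT.ite (by fun_prop)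
    (PT.ite (PT.nat_lt (by fun_prop) (C.R_pt ha)) (by fun_prop)
      (PT.ite (C.slow_pt ha hl).eq_true (by fun_prop) (xDone_pt hL (C.fast_pt ha hl))))
    (PT.ite (by fun_prop) (PT.ite (PT.nat_lt (by fun_prop) (C.xN_pt ha)) ?_
      (xDone_pt hL (C.fin_pt ha hl (by fun_prop)))) (by fun_prop)))
  exact PT.pair (PT.const _) (PT.pair hL (PT.pair hl (PT.pair (by fun_prop)
    (PT.pair (C.xNew_pt ha hl (by fun_prop) (by fun_prop) (by fun_prop)) (PT.const _)))))

theorem xMac_rd_pt (hp : PT pre) : PT (C.xMac more pre).rd := by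
  simp only [xMac]
  have ha : PT fun p : XS => pre p.2.1 := hp.comp (by fun_prop)
  exact PT.ite (by fun_prop) (by fun_prop) (C.xAddr_pt ha (by fun_prop) (by fun_prop))

theorem xMac_wr_pt (hp : PT pre) : PT (C.xMac more pre).wr := by
  simp only [xMac]
  have ha : PT fun p : XS => pre p.2.1 := hp.comp (by fun_prop)
  exact PT.ite (by fun_prop) (PT.pair (PT.nat_div (by fun_prop)
    (PT.nat_pow (PT.const 2) (C.Q_pt ha) (C.Q_pb ha))) (by fun_prop)) (by fun_prop)

theorem xMac_fin_pt : PT (C.xMac more pre).fin := by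
  simp only [xMac]
  fun_prop

section steps

variable (L : List ℕ) (l : List Bool) (mem : ℕ → ℕ) (b : Bool)

theorem x_step_read (h : more L = true) :
    (C.xMac more pre).step ((0, L, [], 0, 0, []), mem) b =
      ((0, L ++ [mem L.length], [], 0, 0, []), Function.update mem 0 0) := by
  simp [Mac.step, xMac, h]

theorem x_step_read_end (h : more L = false) :
    ((C.xMac more pre).step ((0, L, [], 0, 0, []), mem) b).1 = (1, L, [], 0, 0, []) := by
  simp [Mac.step, xMac, h]

theorem x_step_coll (h : l.length < C.R (pre L)) :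
    ((C.xMac more pre).step ((1, L, l, 0, 0, []), mem) b).1 = (1, L, l ++ [b], 0, 0, []) := by
  simp [Mac.step, xMac, h]

theorem x_step_coll_slow (h : ¬ l.length < C.R (pre L)) (hs : C.slow (pre L) l = true) :
    ((C.xMac more pre).step ((1, L, l, 0, 0, []), mem) b).1 = (2, L, l, 0, 0, []) := by
  simp [Mac.step, xMac, h, hs]

theorem x_step_coll_fast (h : ¬ l.length < C.R (pre L)) (hs : ¬ C.slow (pre L) l = true) :
    (C.xMac more pre).step ((1, L, l, 0, 0, []), mem) b =
      (xDone L (C.fast (pre L) l), Function.update mem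
        ((C.xMac more pre).wr (xDone L (C.fast (pre L) l))).1
        ((C.xMac more pre).wr (xDone L (C.fast (pre L) l))).2) := by
  have : (C.xMac more pre).nx (1, L, l, 0, 0, []) (mem ((C.xMac more pre).rd (1, L, l, 0, 0, []))) b =
      xDone L (C.fast (pre L) l) := by
    simp [xMac, h, hs]
  rw [Mac.step, if_neg (by simp [xMac]), this]

theorem x_step_dp (n acc : ℕ) (h : n < C.xN (pre L)) :
    (C.xMac more pre).step ((2, L, l, n, acc, []), mem) b =
      ((2, L, l, n + 1, C.xNew (pre L) l n acc (mem (C.xAddr (pre L) l n)), []),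
        Function.update mem (n / 2 ^ C.Q (pre L))
          (C.xNew (pre L) l n acc (mem (C.xAddr (pre L) l n)))) := by
  simp [Mac.step, xMac, h]

theorem x_step_dp_end (n acc : ℕ) (h : ¬ n < C.xN (pre L)) :
    (C.xMac more pre).step ((2, L, l, n, acc, []), mem) b =
      (xDone L (C.fin (pre L) l acc), Function.update mem
        ((C.xMac more pre).wr (xDone L (C.fin (pre L) l acc))).1
        ((C.xMac more pre).wr (xDone L (C.fin (pre L) l acc))).2) := by
  have : (C.xMac more pre).nx (2, L, l, n, acc, [])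
      (mem ((C.xMac more pre).rd (2, L, l, n, acc, []))) b = xDone L (C.fin (pre L) l acc) := by
    simp [xMac, h]
  rw [Mac.step, if_neg (by simp [xMac]), this]

theorem x_step_write (i : ℕ) (y : List ℕ) (h : i ≠ y.length) :
    (C.xMac more pre).step ((3, L, [], i, 0, y), mem) b =
      ((3, L, [], i + 1, 0, y), Function.update mem (i + 1) (y.getD (i + 1) 0)) := by
  simp [Mac.step, xMac, h]

theorem x_fin_write (y : List ℕ) :
    (C.xMac more pre).fin (3, L, [], y.length, 0, y) = some y.length := by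
  simp [xMac]

theorem x_wr_write (y : List ℕ) : (C.xMac more pre).wr (3, L, [], 0, 0, y) = (0, y.getD 0 0) := by
  simp [xMac]

end steps

end Core

theorem xDone_none (L : List ℕ) : xDone L none = (1, L, [], 0, 0, []) := by
  unfold xDone; rfl

theorem xDone_some (L y : List ℕ) : xDone L (some y) = (3, L, [], 0, 0, y) := by
  unfold xDone; rfl

end Crest.Agent.R309
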