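import Crest.Agent.R309.ExMacAux1

/-!
# R309: the macro machine of the exact sampler (dynamic programme, runs, sizes)
-/

set_option linter.dupNamespace false

namespace Crest.Agent.R309

open Finset Crest.Agent.Lib.PT

namespace Core

variable (C : Core)

/-- The content of the memory cell `c`. -/
def xH (a : Job) (l : List Bool) (c : ℕ) : ℕ := C.H a l (c / 2 ^ C.Q a) (c % 2 ^ C.Q a)

/-- The summands of `xH`. -/
def xVal (a : Job) (l : List Bool) (c ω : ℕ) : ℕ :=
  if c / 2 ^ C.Q a = 0 then C.term a l (C.out (C.ctx a l) (c % 2 ^ C.Q a) (bitsN (C.Q a) ω))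
  else C.H a l (c / 2 ^ C.Q a - 1) (C.st (C.ctx a l) (c % 2 ^ C.Q a) (bitsN (C.Q a) ω))

/-- The accumulator after `n` steps. -/
def xP (a : Job) (l : List Bool) : ℕ → ℕ
  | 0 => 0
  | n + 1 => ∑ ω ∈ range (n % 2 ^ C.Q a + 1), C.xVal a l (n / 2 ^ C.Q a) ω

theorem xH_eq (a : Job) (l : List Bool) (c : ℕ) :
    C.xH a l c = ∑ ω ∈ range (2 ^ C.Q a), C.xVal a l c ω := by
  unfold xH xVal
  rcases h : c / 2 ^ C.Q a with _ | j
  · simp [H]
  · simp [H]

theorem x_st_lt (a : Job) (l : List Bool) (x : ℕ) (ω : List Bool) :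
    C.st (C.ctx a l) x ω < 2 ^ C.Q a := by
  have := C.st_lt (C.ctx a l) x ω
  rwa [ctx, C.gs_mk] at this

theorem xP_succ (a : Job) (l : List Bool) (n : ℕ) :
    C.xP a l (n + 1) = (if n % 2 ^ C.Q a = 0 then 0 else C.xP a l n) +
      C.xVal a l (n / 2 ^ C.Q a) (n % 2 ^ C.Q a) := by
  rw [xP, sum_range_succ]
  congr 1
  split_ifs with h
  · rw [h]; rfl
  · rcases n with _ | n
    · simp at h
    · have hM : 0 < 2 ^ C.Q a := by positivity
      have hnd : ¬ 2 ^ C.Q a ∣ n + 1 := fun hd => h (Nat.mod_eq_zero_of_dvd hd)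
      have h1 : (n + 1) / 2 ^ C.Q a = n / 2 ^ C.Q a := Nat.succ_div_of_not_dvd hnd
      have h2 := Nat.div_add_mod n (2 ^ C.Q a)
      have h3 := Nat.div_add_mod (n + 1) (2 ^ C.Q a)
      rw [h1] at h3
      have h4 : (n + 1) % 2 ^ C.Q a = n % 2 ^ C.Q a + 1 := by omega
      rw [xP, h1, h4]

theorem H_le (a : Job) (l : List Bool) (j : ℕ) :
    ∀ x, C.H a l j x ≤ 2 ^ (C.K' a + 2) * (2 ^ C.Q a) ^ (j + 1) := by
  induction j with
  | zero =>
    intro x
    rw [H, zero_add, pow_one, mul_comm]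
    refine (sum_le_card_nsmul _ _ (2 ^ (C.K' a + 2)) fun ω _ => ?_).trans (by simp)
    unfold term
    have : 0 < 2 ^ C.K' a := by positivity
    rw [pow_add]
    split_ifs <;> omega
  | succ j ih =>
    intro x
    rw [H]
    refine (sum_le_card_nsmul _ _ _ fun ω _ => ih _).trans (le_of_eq ?_)
    simp only [card_range, smul_eq_mul]
    ring

theorem xN_le (a : Job) : C.xN a ≤ (C.tt a + 1) * 2 ^ C.K a := by
  unfold xN K
  have : 2 ^ C.Q a ≤ 2 ^ C.Q a * 2 ^ C.Q a := Nat.le_mul_self _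
  rw [two_mul, pow_add]
  nlinarith

theorem xP_lt (a : Job) (l : List Bool) (n : ℕ) (hn : n ≤ C.xN a) :
    C.xP a l n < 2 ^ (C.K' a + 3 + C.Tb a) := by
  rcases n with _ | n
  · rw [xP]; positivity
  have hM : 0 < 2 ^ C.Q a := by positivity
  have h1 : C.xP a l (n + 1) ≤ C.xH a l (n / 2 ^ C.Q a) := by
    rw [xP, xH_eq]
    exact sum_le_sum_of_subset (range_subset_range.2 (Nat.mod_lt _ hM))
  have h2 : n / 2 ^ C.Q a / 2 ^ C.Q a < C.tt a + 1 := by
    rw [Nat.div_div_eq_div_mul, Nat.div_lt_iff_lt_mul (by positivity), ← pow_add, ← two_mul]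
    exact lt_of_lt_of_le hn (C.xN_le a)
  calc C.xP a l (n + 1) ≤ 2 ^ (C.K' a + 2) * (2 ^ C.Q a) ^ (n / 2 ^ C.Q a / 2 ^ C.Q a + 1) :=
        h1.trans (C.H_le a l _ _)
    _ ≤ 2 ^ (C.K' a + 2) * (2 ^ C.Q a) ^ (C.tt a + 1) :=
        Nat.mul_le_mul_left _ (Nat.pow_le_pow_right hM (by omega))
    _ = 2 ^ (C.K' a + 2 + C.Tb a) := by
        rw [← pow_mul, ← pow_add, Tb, mul_comm]
    _ < 2 ^ (C.K' a + 3 + C.Tb a) := Nat.pow_lt_pow_right (by norm_num) (by omega)

theorem xP_end (a : Job) (l : List Bool) : C.xP a l (C.xN a) = C.H a l (C.tt a) 0 := by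
  have hM : 0 < 2 ^ C.Q a := by positivity
  obtain ⟨m, hm⟩ : ∃ m, 2 ^ C.Q a = m + 1 := ⟨2 ^ C.Q a - 1, by omega⟩
  have e : C.xN a = (C.tt a * 2 ^ C.Q a * 2 ^ C.Q a + m) + 1 := by
    unfold xN; omega
  have h1 : (C.tt a * 2 ^ C.Q a * 2 ^ C.Q a + m) % 2 ^ C.Q a = m := by
    rw [Nat.mul_add_mod_self_right, Nat.mod_eq_of_lt (by omega)]
  have h2 : (C.tt a * 2 ^ C.Q a * 2 ^ C.Q a + m) / 2 ^ C.Q a = C.tt a * 2 ^ C.Q a := by
    rw [Nat.add_comm, Nat.add_mul_div_right _ _ hM, Nat.div_eq_of_lt (by omega), zero_add]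
  rw [e, xP, h1, h2, ← hm, ← xH_eq, xH, Nat.mul_div_cancel _ hM, Nat.mul_mod_left]

variable {more : List ℕ → Bool} {pre : List ℕ → Job}

/-- Invariant of the dynamic programme. -/
def XDp (pre : List ℕ → Job) (L : List ℕ) (l : List Bool) (n : ℕ) (c : XS × (ℕ → ℕ)) : Prop :=
  c.1 = (2, L, l, n, C.xP (pre L) l n, []) ∧ ∀ i < n / 2 ^ C.Q (pre L), c.2 i = C.xH (pre L) l i

theorem xDp_step (L : List ℕ) (l : List Bool) (n : ℕ) (c : XS × (ℕ → ℕ)) (b : Bool)
    (hn : n < C.xN (pre L)) (h : C.XDp pre L l n c) :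
    C.XDp pre L l (n + 1) ((C.xMac more pre).step c b) := by
  obtain ⟨s, mem⟩ := c
  obtain ⟨rfl, hmem⟩ := h
  dsimp only at hmem
  rw [C.x_step_dp L l mem b n _ hn]
  have hM : 0 < 2 ^ C.Q (pre L) := by positivity
  have hnew : C.xNew (pre L) l n (C.xP (pre L) l n) (mem (C.xAddr (pre L) l n)) =
      C.xP (pre L) l (n + 1) := by
    rw [xP_succ, xNew, xVal]
    congr 1
    split_ifs with h0
    · rfl
    · have hst := C.x_st_lt (pre L) l (n / 2 ^ C.Q (pre L) % 2 ^ C.Q (pre L))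
        (bitsN (C.Q (pre L)) (n % 2 ^ C.Q (pre L)))
      rw [hmem, xH, xAddr, Nat.add_comm, Nat.add_mul_div_right _ _ hM, Nat.div_eq_of_lt hst,
        zero_add, Nat.add_mul_mod_self_right, Nat.mod_eq_of_lt hst]
      unfold xAddr
      have h3 := Nat.div_mul_le_self (n / 2 ^ C.Q (pre L)) (2 ^ C.Q (pre L))
      obtain ⟨j, hj⟩ := Nat.exists_eq_succ_of_ne_zero h0
      rw [hj] at h3 ⊢
      rw [Nat.succ_mul] at h3
      rw [Nat.succ_sub_one]
      omega
  rw [hnew]
  refine ⟨rfl, fun i hi => ?_⟩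
  dsimp only
  by_cases hin : i = n / 2 ^ C.Q (pre L)
  · subst hin
    rw [Function.update_self, xP, xH_eq]
    have : n % 2 ^ C.Q (pre L) + 1 = 2 ^ C.Q (pre L) := by
      by_contra hne
      have h1 := Nat.mod_lt n hM
      have h2 := Nat.div_add_mod n (2 ^ C.Q (pre L))
      have h3 : (n + 1) / 2 ^ C.Q (pre L) < n / 2 ^ C.Q (pre L) + 1 := by
        rw [Nat.div_lt_iff_lt_mul hM, Nat.succ_mul, mul_comm]
        omega
      omega
    rw [this]
  · rw [Function.update_of_ne hin]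
    refine hmem i ?_
    have h1 : (n + 1) / 2 ^ C.Q (pre L) ≤ n / 2 ^ C.Q (pre L) + 1 := by
      rw [← Nat.add_div_right _ hM]
      exact Nat.div_le_div_right (by omega)
    omega

/-- Invariant of the reading phase. -/
def XRead (inp : List ℕ) (k : ℕ) (c : XS × (ℕ → ℕ)) : Prop :=
  c.1 = (0, inp.take k, [], 0, 0, []) ∧ ∀ i, k ≤ i → c.2 i = inp.getD i 0

theorem xRead_step {inp : List ℕ} (hin : ∀ k < inp.length, more (inp.take k) = true) (k : ℕ)
    (c : XS × (ℕ → ℕ)) (b : Bool) (hk : k < inp.length) (h : XRead inp k c) :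
    XRead inp (k + 1) ((C.xMac more pre).step c b) := by
  obtain ⟨s, mem⟩ := c
  obtain ⟨rfl, hmem⟩ := h
  dsimp only at hmem
  rw [C.x_step_read _ mem b (hin k hk)]
  refine ⟨?_, fun i hi => ?_⟩
  · dsimp only
    rw [List.length_take, min_eq_left hk.le, hmem k le_rfl, List.take_add_one,
      List.getD_eq_getElem?_getD, List.getElem?_eq_getElem hk]
    rfl
  · dsimp only
    rw [Function.update_of_ne (by omega), hmem i (by omega)]

/-- Invariant of the writing phase. -/
def XWr (L y : List ℕ) (i : ℕ) (c : XS × (ℕ → ℕ)) : Prop :=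
  c.1 = (3, L, [], i, 0, y) ∧ ∀ j ≤ i, c.2 j = y.getD j 0

theorem xWr_step (L y : List ℕ) (i : ℕ) (c : XS × (ℕ → ℕ)) (b : Bool) (hi : i < y.length)
    (h : XWr L y i c) : XWr L y (i + 1) ((C.xMac more pre).step c b) := by
  obtain ⟨s, mem⟩ := c
  obtain ⟨rfl, hmem⟩ := h
  dsimp only at hmem
  rw [C.x_step_write L mem b i y hi.ne]
  refine ⟨rfl, fun j hj => ?_⟩
  dsimp only
  by_cases hji : j = i + 1
  · subst hji; rw [Function.update_self]
  · rw [Function.update_of_ne hji, hmem j (by omega)]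

theorem x_coll_run (L : List ℕ) (l : List Bool) : ∀ (l₀ : List Bool) (c : XS × (ℕ → ℕ)),
    c.1 = (1, L, l₀, 0, 0, []) → l₀.length + l.length ≤ C.R (pre L) →
    ((C.xMac more pre).go c l).1 = (1, L, l₀ ++ l, 0, 0, []) := by
  induction l with
  | nil => intro l₀ c h _; simpa using h
  | cons b l ih =>
    rintro l₀ ⟨s, mem⟩ rfl hl
    rw [List.length_cons] at hl
    rw [Mac.go_cons, ih (l₀ ++ [b]) _ (C.x_step_coll L l₀ mem b (by omega)) (by simp; omega)]
    simp

/-- From the end of a round. -/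
theorem x_done_run (L : List ℕ) (o : Option (List ℕ)) (mem : ℕ → ℕ) (l : List Bool)
    (hl : l.length = o.elim 0 List.length) :
    (o = none → ((C.xMac more pre).go (xDone L o, Function.update mem
        ((C.xMac more pre).wr (xDone L o)).1 ((C.xMac more pre).wr (xDone L o)).2) l).1 =
          (1, L, [], 0, 0, [])) ∧
      ∀ y, o = some y → (C.xMac more pre).Out ((C.xMac more pre).go (xDone L o, Function.update mem
        ((C.xMac more pre).wr (xDone L o)).1 ((C.xMac more pre).wr (xDone L o)).2) l) y := by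
  constructor
  · rintro rfl
    obtain rfl : l = [] := List.length_eq_zero_iff.1 hl
    exact xDone_none L
  · rintro y rfl
    have hl' : l.length = y.length := hl
    rw [xDone_some, x_wr_write]
    have h := (C.xMac more pre).go_inv (I := XWr L y) (K := y.length)
      (fun k c b hk hc => C.xWr_step L y k c b hk hc) l 0
      ((3, L, [], 0, 0, y), Function.update mem 0 (y.getD 0 0)) (by omega)
      ⟨rfl, fun j hj => by obtain rfl : j = 0 := by omega
                           simp⟩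
    rw [zero_add, hl'] at h
    refine ⟨y.length, by rw [h.1, x_fin_write], ?_⟩
    apply List.ext_getElem (by simp)
    intro i h1 h2
    rw [List.getElem_map, List.getElem_range, h.2 i h1.le, List.getD_eq_getElem?_getD,
      List.getElem?_eq_getElem h1]
    rfl

/-- The length of the rest of a round. -/
def xLen (a : Job) (l : List Bool) : ℕ :=
  (if C.slow a l = true then C.xN a + 1 else 0) + 1 + (C.res a l).elim 0 List.length

theorem x_round (L : List ℕ) (c : XS × (ℕ → ℕ)) (hc : c.1 = (1, L, [], 0, 0, [])) (l : List Bool)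
    (hl : l.length = C.R (pre L)) (l' : List Bool) (hl' : l'.length = C.xLen (pre L) l) :
    (C.res (pre L) l = none → ((C.xMac more pre).go c (l ++ l')).1 = (1, L, [], 0, 0, [])) ∧
      ∀ y, C.res (pre L) l = some y → (C.xMac more pre).Out ((C.xMac more pre).go c (l ++ l')) y := by
  have h1 := C.x_coll_run (more := more) (pre := pre) L l [] c hc (by simp [hl])
  rw [Mac.go_append]
  generalize (C.xMac more pre).go c l = c₁ at h1
  obtain ⟨s, mem⟩ := c₁
  obtain rfl : s = _ := h1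
  rw [List.nil_append]
  unfold xLen at hl'
  rcases l' with _ | ⟨b, l'⟩
  · rw [List.length_nil] at hl'; omega
  rw [List.length_cons] at hl'
  rw [Mac.go_cons]
  by_cases hs : C.slow (pre L) l = true
  · rw [if_pos hs] at hl'
    have h2 := C.x_step_coll_slow (more := more) L l mem b (by omega) hs
    generalize (C.xMac more pre).step ((1, L, l, 0, 0, []), mem) b = c₂ at h2
    obtain ⟨l₁, l₂, rfl, hl₁⟩ : ∃ l₁ l₂, l' = l₁ ++ l₂ ∧ l₁.length = C.xN (pre L) :=
      ⟨l'.take (C.xN (pre L)), l'.drop (C.xN (pre L)), (List.take_append_drop _ _).symm,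
        by rw [List.length_take]; omega⟩
    have h3 := (C.xMac more pre).go_inv (I := C.XDp pre L l) (K := C.xN (pre L))
      (fun k c b hk hc => C.xDp_step L l k c b hk hc) l₁ 0 c₂ (by omega)
      ⟨h2, fun i hi => by simp at hi⟩
    rw [Mac.go_append]
    generalize (C.xMac more pre).go c₂ l₁ = c₃ at h3
    obtain ⟨s, mem'⟩ := c₃
    rw [zero_add, hl₁] at h3
    obtain rfl : s = _ := h3.1
    rw [List.length_append] at hl'
    rcases l₂ with _ | ⟨b', l₂⟩
    · simp at hl'; omega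
    rw [List.length_cons] at hl'
    have hres : C.res (pre L) l = C.fin (pre L) l (C.xP (pre L) l (C.xN (pre L))) := by
      rw [res, if_pos hs, xP_end]
    rw [Mac.go_cons, C.x_step_dp_end L l mem' b' _ _ (lt_irrefl _), ← hres]
    exact C.x_done_run L _ mem' l₂ (by omega)
  · rw [if_neg hs] at hl'
    have hres : C.res (pre L) l = C.fast (pre L) l := by rw [res, if_neg hs]
    rw [C.x_step_coll_fast L l mem b (by omega) hs, ← hres]
    exact C.x_done_run L _ mem l' (by omega)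

/-- The reachable configurations. -/
def XGood (pre : List ℕ → Job) (inp : List ℕ) (c : XS × (ℕ → ℕ)) : Prop :=
  (∃ k ≤ inp.length, XRead inp k c) ∨
  (∃ l : List Bool, l.length ≤ C.R (pre inp) ∧ c.1 = (1, inp, l, 0, 0, [])) ∨
  (∃ (l : List Bool) (n : ℕ), l.length ≤ C.R (pre inp) ∧ n ≤ C.xN (pre inp) ∧
    C.XDp pre inp l n c) ∨
  ∃ (y : List ℕ) (i : ℕ), (pre inp).2.1.IsSol y ∧ i ≤ y.length ∧ c.1 = (3, inp, [], i, 0, y)

theorem xGood_done {inp : List ℕ} {o : Option (List ℕ)}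
    (ho : ∀ y, o = some y → (pre inp).2.1.IsSol y) (mem : ℕ → ℕ) :
    C.XGood pre inp (xDone inp o, mem) := by
  rcases o with _ | y
  · exact Or.inr (Or.inl ⟨[], Nat.zero_le _, xDone_none _⟩)
  · exact Or.inr (Or.inr (Or.inr ⟨y, 0, ho y rfl, Nat.zero_le _, xDone_some _ _⟩))

theorem xGood_step {inp : List ℕ} (hin : ∀ k < inp.length, more (inp.take k) = true)
    (hend : more inp = false) (c : XS × (ℕ → ℕ)) (b : Bool) (h : C.XGood pre inp c) :
    C.XGood pre inp ((C.xMac more pre).step c b) := by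
  obtain ⟨s, mem⟩ := c
  rcases h with ⟨k, hk, h⟩ | ⟨l, hl, h⟩ | ⟨l, n, hl, hn, h⟩ | ⟨y, i, hy, hi, h⟩
  · rcases hk.lt_or_eq with hk | rfl
    · exact Or.inl ⟨k + 1, hk, C.xRead_step hin k _ b hk h⟩
    · obtain rfl : s = _ := h.1
      rw [List.take_length]
      exact Or.inr (Or.inl ⟨[], Nat.zero_le _, C.x_step_read_end inp mem b hend⟩)
  · obtain rfl : s = _ := h
    by_cases h1 : l.length < C.R (pre inp)
    · exact Or.inr (Or.inl ⟨l ++ [b], by simp; omega, C.x_step_coll inp l mem b h1⟩)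
    by_cases hs : C.slow (pre inp) l = true
    · exact Or.inr (Or.inr (Or.inl ⟨l, 0, hl, Nat.zero_le _,
        C.x_step_coll_slow inp l mem b h1 hs, fun i hi => by simp at hi⟩))
    · rw [C.x_step_coll_fast inp l mem b h1 hs]
      exact C.xGood_done (fun y hy => C.out_sol _ _ _ _ _ _ _ hy) _
  · rcases hn.lt_or_eq with hn | rfl
    · exact Or.inr (Or.inr (Or.inl ⟨l, n + 1, hl, hn, C.xDp_step inp l n _ b hn h⟩))
    · obtain rfl : s = _ := h.1
      rw [C.x_step_dp_end inp l mem b _ _ (lt_irrefl _)]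
      refine C.xGood_done (fun y hy => ?_) _
      unfold fin at hy
      split_ifs at hy with h2
      cases hy; exact h2.1
  · obtain rfl : s = _ := h
    rcases hi.lt_or_eq with hi | rfl
    · rw [C.x_step_write inp mem b i y hi.ne]
      exact Or.inr (Or.inr (Or.inr ⟨y, i + 1, hy, hi, rfl⟩))
    · rw [Mac.step_of_fin _ (by rw [x_fin_write]; simp)]
      exact Or.inr (Or.inr (Or.inr ⟨y, _, hy, le_rfl, rfl⟩))

/-- The size bound. -/
def xB (pre : List ℕ → Job) (inp : List ℕ) : ℕ :=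
  sz inp + 4 * C.R (pre inp) + 4 * (C.tt (pre inp) + 1 + C.K (pre inp)) +
    4 * (C.K' (pre inp) + 3 + C.Tb (pre inp)) + 4 * (pre inp).2.1.nc +
    (pre inp).2.1.nc * (4 * (pre inp).1.n + 2) + 40

theorem xB_pb (hp : PT pre) : PB (C.xB pre) := by
  unfold xB
  have h := PB.sz_self (α := List ℕ)
  fun_prop

theorem xGood_sz {inp : List ℕ} (hF : Fits (pre inp).1.n (pre inp).2.1) {c : XS × (ℕ → ℕ)}
    (h : C.XGood pre inp c) : sz c.1 ≤ C.xB pre inp := by
  have s0 := sz_nat_le_self 0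
  have s1 := sz_nat_le_self 1
  have s2 := sz_nat_le_self 2
  have s3 := sz_nat_le_self 3
  unfold xB
  rcases h with ⟨k, hk, h, -⟩ | ⟨l, hl, h⟩ | ⟨l, n, hl, hn, h, -⟩ | ⟨y, i, hy, hi, h⟩
  · have := sz_sublist (List.take_sublist k inp)
    rw [h]
    simp only [sz_mk, sz_nil]
    omega
  · have := sz_boolList_le l
    rw [h]
    simp only [sz_mk, sz_nil]
    omega
  · have h1 := sz_boolList_le l
    have h2 := sz_nat_le_of_lt (C.xP_lt (pre inp) l n hn)
    have h3 : n < 2 ^ (C.tt (pre inp) + 1 + C.K (pre inp)) := by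
      refine lt_of_le_of_lt (hn.trans (C.xN_le _)) ?_
      rw [pow_add]
      exact Nat.mul_lt_mul_of_pos_right Nat.lt_two_pow_self (by positivity)
    have h4 := sz_nat_le_of_lt h3
    rw [h]
    simp only [sz_mk, sz_nil]
    omega
  · have h1 : sz y ≤ y.length * (4 * (pre inp).1.n + 2) + 1 := by
      refine sz_list_le (B := 4 * (pre inp).1.n + 1) fun v hv => sz_nat_le_of_lt ?_
      obtain ⟨u, hu, rfl⟩ := List.getElem_of_mem hv
      have h2 := hy.2.1 u (hy.1 ▸ hu)
      rw [List.getD_eq_getElem?_getD, List.getElem?_eq_getElem hu] at h2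
      exact lt_of_le_of_lt h2 (hF.b u (hy.1 ▸ hu))
    have h2 := sz_nat_le_self i
    rw [hy.1] at h1 hi
    rw [h]
    simp only [sz_mk, sz_nil]
    omega

end Core

end Crest.Agent.R309
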