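import Crest.Agent.R309.ExDef
import Crest.Agent.R309.Tape2

/-!
# R309: the law of one round of the exact sampler
-/

set_option linter.dupNamespace false

namespace Crest.Agent.R309

open Finset Crest.Agent.Lib.PT

namespace Core

variable (C : Core)

/-- `H j x / 2^{(j+1) Q}` is the expectation of the terminal value (induction on `j` for all `x`:
`Ex_eq_sum`, `Ex_take_drop`, `iter_succ`). -/
theorem H_eq (a : Job) (l : List Bool) (j x : ℕ) :
    (C.H a l j x : ℝ) = 2 ^ ((j + 1) * C.Q a) * Ex ((j + 1) * C.Q a) fun l' =>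
      (C.term a l (C.out (C.ctx a l) (iter (C.st (C.ctx a l)) (C.Q a) j x l')
        ((l'.drop (j * C.Q a)).take (C.Q a))) : ℝ) := by
  induction j generalizing x with
  | zero =>
    rw [H, Nat.zero_add, Nat.one_mul, Ex_congr (g := fun l' => (C.term a l (C.out (C.ctx a l) x l') : ℝ))
      fun l' hl' => by simp [← hl'], Ex_eq_sum]
    push_cast
    field_simp
  | succ j ih =>
    have h1 := Ex_take_drop (k := C.Q a) (n := (j + 1 + 1) * C.Q a) (by rw [Nat.succ_mul]; omega)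
      fun ω l' => (C.term a l (C.out (C.ctx a l)
        (iter (C.st (C.ctx a l)) (C.Q a) j (C.st (C.ctx a l) x ω) l')
        ((l'.drop (j * C.Q a)).take (C.Q a))) : ℝ)
    have e1 : (j + 1 + 1) * C.Q a - C.Q a = (j + 1) * C.Q a := by rw [Nat.succ_mul]; omega
    have e2 : (j + 1) * C.Q a = C.Q a + j * C.Q a := by rw [Nat.succ_mul]; omega
    have e3 : (j + 1 + 1) * C.Q a = (j + 1) * C.Q a + C.Q a := Nat.succ_mul _ _
    simp only [List.drop_drop, e1, ← e2] at h1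
    simp only [iter_succ]
    rw [h1, Ex_eq_sum (C.Q a), H, e3, pow_add]
    push_cast
    simp only [ih, ← mul_sum]
    field_simp

theorem Pr_slow (a : Job) : Pr (C.R a) (fun l => C.slow a l = true) = 1 / 2 ^ C.K a := by
  rw [← Pr_any, ← Pr_take (k := C.K a) (n := C.R a - C.Q a) (by unfold R; omega), Pr, Pr,
    ← Ex_drop (k := C.Q a) (by unfold R; omega)]
  refine Ex_congr fun l _ => ?_
  simp only [slow, Bool.not_eq_true']

/-- The probability that the fast branch returns `y`. -/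
noncomputable def pf (a : Job) (c : C.Ctx) (y : List ℕ) : ℝ :=
  Pr (C.Tb a) fun l' => shotF (C.st c) (C.out c) (C.Q a) (C.tt a) l' = some y

theorem H_val (a : Job) (l : List Bool) : (C.H a l (C.tt a) 0 : ℝ) = 2 ^ C.Tb a *
    ((2 ^ C.K' a + 1) * C.pf a (C.ctx a l) a.2.2 +
      2 ^ C.K' a * (1 - C.pf a (C.ctx a l) (C.cand a l))) := by
  have e : ∀ o, (C.term a l o : ℝ) = (2 ^ C.K' a + 1) * ind (o = some a.2.2) +
      2 ^ C.K' a * (1 - ind (o = some (C.cand a l))) := fun o => by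
    unfold term
    simp only [ind_eq]
    split_ifs <;> push_cast <;> ring
  rw [H_eq]
  simp only [e, Ex_add, Ex_mul_left, Ex_sub, Ex_const]
  rfl

theorem pr_fast (a : Job) (c : C.Ctx) (y : List ℕ) {n : ℕ} (hn : C.Tb a ≤ n) :
    Pr n (fun l' => shotF (C.st c) (C.out c) (C.Q a) (C.tt a) l' = some y) = C.pf a c y := by
  rw [pf, ← Pr_take hn]
  refine Pr_congr fun l _ => ?_
  have e : C.Tb a = C.tt a * C.Q a + C.Q a := Nat.succ_mul _ _
  unfold shotF
  rw [iter_take _ _ (by omega), List.drop_take, List.take_take, min_eq_left (by omega)]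

theorem pr_cand {a : Job} (hF : Fits a.1.n a.2.1) {y : List ℕ} (hy : a.2.1.IsSol y) :
    Pr (bb a) (fun m => (chunks a.1.n a.2.1.nc m).map ofBits = y) = 1 / 2 ^ bb a := by
  have h := Pr_blocks a.1.n a.2.1.nc fun i ω => ofBits ω = y.getD i 0
  rw [prod_congr rfl (g := fun _ => (1 : ℝ) / 2 ^ a.1.n) fun i hi => Pr_ofBits_eq
    ((hy.2.1 i (mem_range.1 hi)).trans_lt (hF.b i (mem_range.1 hi))), prod_const, card_range,
    one_div_pow, ← pow_mul, mul_comm a.1.n] at h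
  rw [bb, ← h]
  refine Pr_congr fun m _ => ⟨fun e i hi => ?_, fun e => ?_⟩
  · rw [← e]
    simp [chunks, List.getD_eq_getElem?_getD, hi]
  · refine List.ext_getElem (by simp [hy.1]) fun i h1 h2 => ?_
    have := e i (hy.1 ▸ h2)
    rw [List.getD_eq_getElem _ _ h2] at this
    simpa [chunks] using this

theorem delta_bounds {η c p q : ℝ} (h0 : 0 < η) (h1 : η ≤ 1 / 8) (hc : 0 ≤ c)
    (hp : |p - c| ≤ η * c) (hq : |q - c| ≤ η * c) (hq1 : q ≤ 1) :
    0 ≤ (1 + 4 * η) * p - q ∧ (1 + 4 * η) * p - q ≤ 8 * η := by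
  rw [abs_le] at hp hq
  have h2 : η * c ≤ 1 / 8 * c := mul_le_mul_of_nonneg_right h1 hc
  have h3 : c ≤ 8 / 7 := by linarith
  have h4 : η * (η * c) ≤ η * (1 / 8 * c) := mul_le_mul_of_nonneg_left h2 h0.le
  have h5 : η * (c - η * c) ≤ η * p := mul_le_mul_of_nonneg_left (by linarith) h0.le
  have h6 : η * p ≤ η * (c + η * c) := mul_le_mul_of_nonneg_left (by linarith) h0.le
  have h7 : η * c ≤ η * (8 / 7) := mul_le_mul_of_nonneg_left h3 h0.le
  have h8 : 0 ≤ η * c := mul_nonneg h0.le hc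
  constructor <;> nlinarith

theorem pf_unif {a : Job} (hF : Fits a.1.n a.2.1) (h0 : a.2.1.IsSol a.2.2) {l₁ : List Bool}
    (h₁ : l₁.length = C.Q a) {y : List ℕ} (hy : a.2.1.IsSol y) :
    |C.pf a (C.mk' (a.1, a.2.1, a.2.2, l₁)) y - C.cst (C.mk' (a.1, a.2.1, a.2.2, l₁))| ≤
      (1 / 2) ^ (C.K a + bb a + 3) * C.cst (C.mk' (a.1, a.2.1, a.2.2, l₁)) :=
  C.unif a.1 a.2.1 a.2.2 hF h0 l₁ h₁ (C.K a + bb a + 3) (C.tt a) le_rfl y hy

theorem eta_le (n : ℕ) : ((1 : ℝ) / 2) ^ (n + 3) ≤ 1 / 8 := by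
  have : ((1 : ℝ) / 2) ^ n ≤ 1 := pow_le_one₀ (by norm_num) (by norm_num)
  rw [pow_add]
  linarith

/-- The slow branch. -/
theorem pr_fin {a : Job} (hF : Fits a.1.n a.2.1) (h0 : a.2.1.IsSol a.2.2) {l₁ l₂ : List Bool}
    (h₁ : l₁.length = C.Q a) (h₂ : l₂.length = C.K a) {y : List ℕ} (hy : a.2.1.IsSol y) :
    Pr (bb a + (C.K' a + C.Tb a))
      (fun l₃ => C.fin a (l₁ ++ l₂ ++ l₃) (C.H a (l₁ ++ l₂ ++ l₃) (C.tt a) 0) = some y) =
      (2 ^ C.K a - 1) * ((1 + 1 / 2 ^ C.K' a) * C.pf a (C.mk' (a.1, a.2.1, a.2.2, l₁)) a.2.2 -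
        C.pf a (C.mk' (a.1, a.2.1, a.2.2, l₁)) y) := by
  have hctx : ∀ l₃, C.ctx a (l₁ ++ l₂ ++ l₃) = C.mk' (a.1, a.2.1, a.2.2, l₁) := fun l₃ => by
    rw [ctx, List.append_assoc, List.take_left' h₁]
  have hrest : ∀ l₃, C.rest a (l₁ ++ l₂ ++ l₃) = l₃ := fun l₃ => by
    rw [rest, List.drop_left' (by simp [h₁, h₂])]
  have hb := delta_bounds (by positivity) (eta_le _) (C.cst_nonneg _) (C.pf_unif hF h0 h₁ h0)
    (C.pf_unif hF h0 h₁ hy) (Pr_le_one _ _)
  have e4 : 4 * ((1 : ℝ) / 2) ^ (C.K a + bb a + 3) = 1 / 2 ^ C.K' a := by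
    rw [K', one_div_pow]; field_simp; ring
  have e8 : 8 * ((1 : ℝ) / 2) ^ (C.K a + bb a + 3) = 1 / (2 ^ C.K a * 2 ^ bb a) := by
    rw [one_div_pow]; field_simp; ring
  rw [e4, e8] at hb
  set δ := (1 + 1 / 2 ^ C.K' a) * C.pf a (C.mk' (a.1, a.2.1, a.2.2, l₁)) a.2.2 -
    C.pf a (C.mk' (a.1, a.2.1, a.2.2, l₁)) y with hδ
  have hthr : ∀ l₃, C.cand a (l₁ ++ l₂ ++ l₃) = y →
      (((2 ^ C.K a - 1) * 2 ^ bb a * (C.H a (l₁ ++ l₂ ++ l₃) (C.tt a) 0 -
        2 ^ C.K' a * 2 ^ C.Tb a) : ℕ) : ℝ) =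
        (2 ^ C.K a - 1) * 2 ^ bb a * δ * 2 ^ (C.K' a + C.Tb a) := fun l₃ hc => by
    have h1 := C.H_val a (l₁ ++ l₂ ++ l₃)
    rw [hctx, hc] at h1
    have h2 : (C.H a (l₁ ++ l₂ ++ l₃) (C.tt a) 0 : ℝ) =
        2 ^ C.K' a * 2 ^ C.Tb a + δ * 2 ^ (C.K' a + C.Tb a) := by
      rw [h1, hδ, pow_add]; field_simp; ring
    have h3 : 2 ^ C.K' a * 2 ^ C.Tb a ≤ C.H a (l₁ ++ l₂ ++ l₃) (C.tt a) 0 := by
      have : (0 : ℝ) ≤ δ * 2 ^ (C.K' a + C.Tb a) := mul_nonneg hb.1 (by positivity)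
      have h4 : ((2 ^ C.K' a * 2 ^ C.Tb a : ℕ) : ℝ) ≤ C.H a (l₁ ++ l₂ ++ l₃) (C.tt a) 0 := by
        push_cast; linarith
      exact_mod_cast h4
    push_cast [Nat.cast_sub h3, Nat.cast_sub Nat.one_le_two_pow]
    rw [h2]; ring
  have key : ∀ m : List Bool, m.length = bb a → (Ex (C.K' a + C.Tb a) fun m' =>
      ind (C.fin a (l₁ ++ l₂ ++ (m ++ m')) (C.H a (l₁ ++ l₂ ++ (m ++ m')) (C.tt a) 0) = some y)) =
      ind ((chunks a.1.n a.2.1.nc m).map ofBits = y) * ((2 ^ C.K a - 1) * 2 ^ bb a * δ) := by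
    intro m hm
    have hcand : ∀ m', C.cand a (l₁ ++ l₂ ++ (m ++ m')) = (chunks a.1.n a.2.1.nc m).map ofBits := by
      intro m'
      rw [cand, hrest, ← chunks_take (n := bb a) le_rfl, List.take_left' hm]
    by_cases hc : (chunks a.1.n a.2.1.nc m).map ofBits = y
    · have hT := hthr (m ++ []) ((hcand _).trans hc)
      generalize (2 ^ C.K a - 1) * 2 ^ bb a * (C.H a (l₁ ++ l₂ ++ (m ++ [])) (C.tt a) 0 -
        2 ^ C.K' a * 2 ^ C.Tb a) = T at hT
      have hle : T ≤ 2 ^ (C.K' a + C.Tb a) := by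
        have h1 : ((2 : ℝ) ^ C.K a - 1) * 2 ^ bb a * δ ≤ 1 := by
          have h2 := hb.2
          rw [le_div_iff₀ (by positivity)] at h2
          have h3 : (0 : ℝ) ≤ 2 ^ bb a * δ := mul_nonneg (by positivity) hb.1
          nlinarith
        have h4 : (T : ℝ) ≤ ((2 ^ (C.K' a + C.Tb a) : ℕ) : ℝ) := by
          rw [hT]; push_cast
          exact mul_le_of_le_one_left (by positivity) h1
        exact_mod_cast h4
      have h5 := Pr_ofBits_lt hle
      rw [hT, mul_div_cancel_right₀ _ (by positivity)] at h5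
      rw [ind_pos hc, one_mul, ← h5]
      refine Pr_congr fun m' hm' => ?_
      have h6 := hthr (m ++ m') ((hcand _).trans hc)
      rw [← hT, Nat.cast_inj] at h6
      unfold fin
      rw [h6, hcand, hc, hrest, List.drop_left' hm, List.take_of_length_le hm'.le]
      simp [hy]
    · rw [ind_neg hc, zero_mul]
      refine Pr_false fun m' _ h => hc ?_
      unfold fin at h
      split_ifs at h
      rw [← hcand m']
      exact Option.some.inj h
  rw [Pr, Ex_append, Ex_congr key, Ex_mul_right]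
  have := pr_cand hF hy
  rw [Pr] at this
  rw [this]
  field_simp

theorem pr_res {a : Job} (hF : Fits a.1.n a.2.1) (h0 : a.2.1.IsSol a.2.2) {y : List ℕ}
    (hy : a.2.1.IsSol y) : Pr (C.R a) (fun l => C.res a l = some y) = Ex (C.Q a) fun l₁ =>
      (1 - 1 / 2 ^ C.K a) * ((1 + 1 / 2 ^ C.K' a) * C.pf a (C.mk' (a.1, a.2.1, a.2.2, l₁)) a.2.2) := by
  rw [Pr, R, Ex_append, Ex_append]
  refine Ex_congr fun l₁ h₁ => ?_
  have key : ∀ l₂ : List Bool, l₂.length = C.K a → (Ex (bb a + (C.K' a + C.Tb a)) fun l₃ =>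
      ind (C.res a (l₁ ++ l₂ ++ l₃) = some y)) = ind (l₂.any id = false) *
        ((2 ^ C.K a - 1) * ((1 + 1 / 2 ^ C.K' a) * C.pf a (C.mk' (a.1, a.2.1, a.2.2, l₁)) a.2.2 -
          C.pf a (C.mk' (a.1, a.2.1, a.2.2, l₁)) y)) +
        (1 - ind (l₂.any id = false)) * C.pf a (C.mk' (a.1, a.2.1, a.2.2, l₁)) y := by
    intro l₂ h₂
    have hs : ∀ l₃, C.slow a (l₁ ++ l₂ ++ l₃) = !l₂.any id := fun l₃ => by
      rw [slow, List.append_assoc, List.drop_left' h₁, List.take_left' h₂]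
    cases e : l₂.any id
    · rw [ind_pos rfl, ← C.pr_fin hF h0 h₁ h₂ hy, sub_self, zero_mul, add_zero, one_mul]
      refine Pr_congr fun l₃ _ => ?_
      rw [res, hs, e, if_pos (by simp)]
    · rw [ind_neg (by simp), ← C.pr_fast a _ y (n := bb a + (C.K' a + C.Tb a)) (by omega),
        sub_zero, zero_mul, zero_add, one_mul]
      refine Pr_congr fun l₃ _ => ?_
      rw [res, hs, e, if_neg (by simp), fast, ctx, rest, List.drop_left' (by simp [h₁, h₂]),
        List.append_assoc, List.take_left' h₁]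
  have h := Pr_any (C.K a)
  rw [Pr] at h
  rw [Ex_congr key]
  simp only [Ex_add, Ex_mul_right, Ex_sub, Ex_const, h]
  field_simp
  ring

/-- All solutions have the same probability.
Proof: fix the first `Q` bits, hence the context `c`; let `p y` be the probability that `shotF` returns `y`
(`Tb` bits), `η = 2^{-(K + bb + 3)}`, so `|p y - cst c| ≤ η cst c` (`unif` with `tt = Q ((K + bb + 3) + 1)`) and
`2^{-K'} = 4 η`.  The fast branch contributes `(1 - 2^{-K}) p y`.  In the slow branch the candidate is `y` with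
probability `2^{-bb}` (`Pr_blocks`, `Pr_ofBits_eq`; the entries of `y` are `≤ b u < 2^G`), and then by `H_eq`
`H tt 0 = 2^{Tb} ((2^{K'} + 1) p X0 + 2^{K'} (1 - p y))`, so `H tt 0 - 2^{K'} 2^{Tb} = 2^{K' + Tb} δ` with
`δ = (1 + 2^{-K'}) p X0 - p y ∈ [0, 8 η]` (`cst c ≤ p y / (1 - η) ≤ 8/7`); the threshold is at most
`2^{K' + Tb}`, so the acceptance probability is `(2^K - 1) 2^{bb} δ` (`Pr_ofBits_lt`).  The total is
`(1 - 2^{-K}) (1 + 2^{-K'}) p X0 ≥ (1/2) (7/8) cst c`; average over the first `Q` bits and use `acc`. -/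
theorem res_unif (a : Job) (hF : Fits a.1.n a.2.1) (h0 : a.2.1.IsSol a.2.2) :
    ∃ r : ℝ, 1 / 16 ≤ a.2.1.Sols.card * r ∧
      ∀ y, a.2.1.IsSol y → Pr (C.R a) (fun l => C.res a l = some y) = r := by
  refine ⟨_, ?_, fun y hy => C.pr_res hF h0 hy⟩
  have hacc := C.acc a.1 a.2.1 a.2.2 hF h0
  have hQ : 1 ≤ C.Q a := Nat.one_le_pow _ _ (by rw [hF.pow]; positivity)
  have hK : (1 : ℝ) / 2 ^ C.K a ≤ 1 / 2 := by
    refine one_div_le_one_div_of_le (by norm_num) ?_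
    exact le_self_pow₀ (by norm_num) (by unfold K; omega)
  rw [← Ex_mul_left]
  refine le_trans ?_ (Ex_mono (f := fun l₁ => 7 / 16 *
    (a.2.1.Sols.card * C.cst (C.mk' (a.1, a.2.1, a.2.2, l₁)))) fun l₁ h₁ => ?_)
  · rw [Ex_mul_left]
    unfold Q
    linarith
  · have h1 := (abs_le.1 (C.pf_unif hF h0 h₁ h0)).1
    have h2 := mul_le_mul_of_nonneg_right (eta_le (C.K a + bb a))
      (C.cst_nonneg (C.mk' (a.1, a.2.1, a.2.2, l₁)))
    have h3 : 0 ≤ C.pf a (C.mk' (a.1, a.2.1, a.2.2, l₁)) a.2.2 := Pr_nonneg _ _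
    have h4 : (0 : ℝ) ≤ 1 / 2 ^ C.K' a := by positivity
    have h5 : 7 / 16 * C.cst (C.mk' (a.1, a.2.1, a.2.2, l₁)) ≤ (1 - 1 / 2 ^ C.K a) *
        ((1 + 1 / 2 ^ C.K' a) * C.pf a (C.mk' (a.1, a.2.1, a.2.2, l₁)) a.2.2) := by
      have h6 := mul_nonneg h4 h3
      calc _ ≤ 1 / 2 * ((1 + 1 / 2 ^ C.K' a) * C.pf a (C.mk' (a.1, a.2.1, a.2.2, l₁)) a.2.2) := by
            linarith
        _ ≤ _ := mul_le_mul_of_nonneg_right (by linarith) (by linarith)
    rw [mul_left_comm]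
    exact mul_le_mul_of_nonneg_left h5 (by positivity)

end Core

end Crest.Agent.R309
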