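import Crest.Agent.R309.MacDef

/-!
# R309: macro machines that repeat independent rounds
-/

set_option linter.dupNamespace false

namespace Crest.Agent.R309

open Finset Filter Topology

section aux
variable {σ : Type} (m : Mac σ)

/-- truncated expected running time -/
noncomputable def mpTime (N : ℕ) (c : σ × (ℕ → ℕ)) : ℝ :=
  ∑ n ∈ range N, Pr n fun l => m.fin (m.go c l).1 = none

theorem mpTime_mono {N N' : ℕ} (h : N ≤ N') (c : σ × (ℕ → ℕ)) : mpTime m N c ≤ mpTime m N' c :=
  sum_le_sum_of_subset_of_nonneg (range_mono h) fun _ _ _ => Pr_nonneg _ _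

theorem mpTime_halt (N : ℕ) {c : σ × (ℕ → ℕ)} (h : m.fin c.1 ≠ none) : mpTime m N c = 0 :=
  sum_eq_zero fun n _ => Pr_false fun l _ => by rwa [m.go_of_fin h]

theorem mpTime_step (N k : ℕ) (c : σ × (ℕ → ℕ)) :
    mpTime m (k + N) c ≤ k + Ex k fun l => mpTime m N (m.go c l) := by
  unfold mpTime
  rw [sum_range_add, Ex_sum]
  refine add_le_add ?_ (le_of_eq (sum_congr rfl fun n _ => ?_))
  · refine (sum_le_card_nsmul _ _ 1 fun n _ => Pr_le_one _ _).trans ?_
    simp
  · simp only [Pr, Ex_append, Mac.go_append]

theorem mpTime_step' (N k : ℕ) (c : σ × (ℕ → ℕ)) :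
    mpTime m N c ≤ k + Ex k fun l => mpTime m N (m.go c l) :=
  (mpTime_mono m (Nat.le_add_left _ _) c).trans (mpTime_step m N k c)

theorem mp_split (k : ℕ) (l : List Bool) :
    ∃ l₁ : List Bool, l₁.length = k ∧ ((∃ l', l = l₁ ++ l') ∨ ∃ e, l₁ = l ++ e) := by
  rcases le_total k l.length with h | h
  · exact ⟨l.take k, by simp [h], Or.inl ⟨l.drop k, (List.take_append_drop k l).symm⟩⟩
  · exact ⟨l ++ List.replicate (k - l.length) false, by simp; omega, Or.inr ⟨_, rfl⟩⟩

theorem mp_out_ne {c : σ × (ℕ → ℕ)} {y : List ℕ} (h : m.Out c y) : m.fin c.1 ≠ none := by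
  obtain ⟨k, hk, -⟩ := h
  simp [hk]

theorem mp_out_append {c : σ × (ℕ → ℕ)} {l : List Bool} {y : List ℕ} (h : m.Out (m.go c l) y)
    (e : List Bool) : m.Out (m.go c (l ++ e)) y := by
  rwa [m.go_append, m.go_of_fin (mp_out_ne m h)]

theorem mp_Ex_tendsto (k : ℕ) {F : ℕ → List Bool → ℝ} {f : List Bool → ℝ}
    (h : ∀ l, Tendsto (fun n => F n l) atTop (𝓝 (f l))) :
    Tendsto (fun n => Ex k (F n)) atTop (𝓝 (Ex k f)) := by
  induction k generalizing F f with
  | zero => exact h []
  | succ k ih =>
    exact ((ih (F := fun n l => F n (false :: l)) fun l => h _).add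
      (ih (F := fun n l => F n (true :: l)) fun l => h _)).div_const 2

/-- probability of halting with output `y` -/
noncomputable def mpProb (y : List ℕ) (c : σ × (ℕ → ℕ)) : ℝ :=
  ⨆ n, Pr n fun l => m.Out (m.go c l) y

theorem mpProb_bdd (y : List ℕ) (c : σ × (ℕ → ℕ)) :
    BddAbove (Set.range fun n => Pr n fun l => m.Out (m.go c l) y) :=
  ⟨1, by rintro _ ⟨n, rfl⟩; exact Pr_le_one _ _⟩

theorem mpProb_tendsto (y : List ℕ) (c : σ × (ℕ → ℕ)) :
    Tendsto (fun n => Pr n fun l => m.Out (m.go c l) y) atTop (𝓝 (mpProb m y c)) := by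
  refine tendsto_atTop_ciSup (monotone_nat_of_le_succ fun n => ?_) (mpProb_bdd m y c)
  unfold Pr
  rw [Ex_append]
  exact Ex_mono fun l _ => le_Ex fun e _ => ind_mono fun h => mp_out_append m h e

theorem mpProb_nonneg (y : List ℕ) (c : σ × (ℕ → ℕ)) : 0 ≤ mpProb m y c :=
  ge_of_tendsto' (mpProb_tendsto m y c) fun _ => Pr_nonneg _ _

theorem mpProb_le_one (y : List ℕ) (c : σ × (ℕ → ℕ)) : mpProb m y c ≤ 1 :=
  le_of_tendsto' (mpProb_tendsto m y c) fun _ => Pr_le_one _ _

theorem mpProb_step (y : List ℕ) (k : ℕ) (c : σ × (ℕ → ℕ)) :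
    mpProb m y c = Ex k fun l => mpProb m y (m.go c l) := by
  have h1 := (tendsto_add_atTop_iff_nat k).2 (mpProb_tendsto m y c)
  have h2 := mp_Ex_tendsto k (F := fun n l => Pr n fun l' => m.Out (m.go (m.go c l) l') y)
    fun l => mpProb_tendsto m y (m.go c l)
  refine tendsto_nhds_unique h1 (h2.congr fun n => ?_)
  rw [add_comm n k]
  simp only [Pr, Ex_append, Mac.go_append]

theorem mpProb_halt (y : List ℕ) {c : σ × (ℕ → ℕ)} {y' : List ℕ} (h : m.Out c y') :
    mpProb m y c = ind (y' = y) := by
  have h1 : ∀ n, (Pr n fun l => m.Out (m.go c l) y) = ind (y' = y) := by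
    intro n
    simp only [m.go_of_fin (mp_out_ne m h), Pr, Ex_const]
    congr 1
    exact propext ⟨fun h' => h.unique h', fun h' => h' ▸ h⟩
  simp only [mpProb, h1, ciSup_const]

end aux

/-- After `n₀` steps the machine is at the start of a round (`Start`).  A round reads `R ≥ 1` random
bits `l`, runs `len l` more steps, and then either has halted with output `y` (`res l = some y`) or is
at the start of a round again (`res l = none`).  Let `s = Pr R (res ≠ none) > 0`.
Proof.
* Time: let `h N c = ∑_{n < N} Pr n (fin (go c l).1 = none)`.  For all `c`, `k`, `N`: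
  `h N c ≤ k + Ex k (fun l => h (N - k) (go c l))` (`Ex_append`), `h` is monotone in `N`, and `h N c = 0` for halted `c`.
  By strong induction on `N`, `h N c ≤ τ / s` for all `Start c`, where `τ = R + Ex R len`:
  `h N c ≤ R + Ex R (fun l => len l + ind (res l = none) * τ / s) = τ + (1 - s) τ / s`.  Partial sums of the
  series are bounded by `n₀ + τ / s` (`ENNReal.tsum_le_of_sum_range_le`, `ENNReal.ofReal_sum_of_nonneg`).
* Outputs: by strong induction on the length of `l`, `Start c → Out (go c l) y → ∃ l₀, res l₀ = some y`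
  (if `l` ends inside the round, extend it: a halted configuration does not move, and `Start`
  configurations have not halted).
* Probability: `p n c = Pr n (Out (go c l) y)` is monotone in `n` and bounded by `1`; let `g c = ⨆ n, p n c`, the
  limit.  For all `c`, `k`: `g c = Ex k (fun l => g (go c l))` (`Ex` is a finite average, so commutes with
  limits; induction on `k`).  For `Start c`: `g c = r + Ex R (fun l => ind (res l = none) * (average of g over
  Start configurations))`, `r = Pr R (res = some y)`; by induction on `j`, `|g c - r / s| ≤ (1 - s)^j` for all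
  `Start c` (`0 ≤ r / s ≤ 1`). -/
theorem Mac.rounds {σ : Type} (m : Mac σ) (c₀ : σ × (ℕ → ℕ)) (Start : σ × (ℕ → ℕ) → Prop)
    (n₀ R : ℕ) (hR : 1 ≤ R) (len : List Bool → ℕ) (res : List Bool → Option (List ℕ))
    (h0 : ∀ l, l.length = n₀ → Start (m.go c₀ l)) (hS : ∀ c, Start c → m.fin c.1 = none)
    (hr : ∀ c, Start c → ∀ l, l.length = R → ∀ l', l'.length = len l →
      (res l = none → Start (m.go c (l ++ l'))) ∧ ∀ y, res l = some y → m.Out (m.go c (l ++ l')) y)
    (hs : 0 < Pr R fun l => res l ≠ none) :
    (∑' n, ENNReal.ofReal (Pr n fun l => m.fin (m.go c₀ l).1 = none) ≤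
      ENNReal.ofReal (n₀ + (R + Ex R fun l => (len l : ℝ)) / Pr R fun l => res l ≠ none)) ∧
    (∀ l y, m.Out (m.go c₀ l) y → ∃ l₀, l₀.length = R ∧ res l₀ = some y) ∧
    ∀ y, ⨆ n, Pr n (fun l => ∃ out, m.Out (m.go c₀ l) out ∧ out = y) =
      Pr R (fun l => res l = some y) / Pr R fun l => res l ≠ none := by
  obtain ⟨s, hsd⟩ : ∃ s, s = Pr R fun l => res l ≠ none := ⟨_, rfl⟩
  rw [← hsd] at hs ⊢
  have hs1 : Ex R (fun l => ind (res l = none)) = 1 - s := by
    have := Pr_not R fun l => res l = none
    rw [hsd]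
    unfold Pr at this ⊢
    simp only [ne_eq]
    linarith
  refine ⟨?_, ?_, fun y => ?_⟩
  · obtain ⟨τ, hτ⟩ : ∃ τ, τ = (R : ℝ) + Ex R fun l => (len l : ℝ) := ⟨_, rfl⟩
    rw [← hτ]
    have hτ0 : 0 ≤ τ := hτ ▸ add_nonneg (Nat.cast_nonneg _) (Ex_nonneg fun _ _ => Nat.cast_nonneg _)
    have key : ∀ N c, Start c → mpTime m N c ≤ τ / s := by
      intro N
      induction N with
      | zero => intro c _; simpa [mpTime] using div_nonneg hτ0 hs.le
      | succ N ih =>
        intro c hc
        calc mpTime m (N + 1) c ≤ mpTime m (R + N) c := mpTime_mono m (by omega) c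
          _ ≤ R + Ex R fun l => mpTime m N (m.go c l) := mpTime_step m N R c
          _ ≤ R + Ex R fun l => (len l : ℝ) + ind (res l = none) * (τ / s) := by
            refine add_le_add le_rfl (Ex_mono fun l hl => ?_)
            refine (mpTime_step' m N (len l) _).trans (add_le_add le_rfl (Ex_le fun l' hl' => ?_))
            rw [← m.go_append]
            rcases h : res l with _ | y
            · rw [ind_pos rfl, one_mul]
              exact ih _ ((hr c hc l hl l' hl').1 h)
            · rw [ind_neg (by simp), zero_mul,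
                mpTime_halt m N (mp_out_ne m ((hr c hc l hl l' hl').2 y h))]
          _ = τ / s := by
            rw [Ex_add, Ex_mul_right, hs1, ← add_assoc, ← hτ]
            field_simp
            ring
    refine ENNReal.tsum_le_of_sum_range_le fun N => ?_
    rw [← ENNReal.ofReal_sum_of_nonneg fun _ _ => Pr_nonneg _ _]
    refine ENNReal.ofReal_le_ofReal ((mpTime_step' m N n₀ c₀).trans (add_le_add le_rfl ?_))
    exact Ex_le fun l hl => key N _ (h0 l hl)
  · have key : ∀ n (l : List Bool), l.length = n → ∀ c y, Start c → m.Out (m.go c l) y →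
        ∃ l₀, l₀.length = R ∧ res l₀ = some y := by
      intro n
      induction n using Nat.strong_induction_on with
      | _ n ih =>
        intro l hl c y hc hy
        have short : ∀ l₁ l₂ : List Bool, l₁.length = R → l₂.length = len l₁ →
            m.Out (m.go c (l₁ ++ l₂)) y → ∃ l₀, l₀.length = R ∧ res l₀ = some y := by
          intro l₁ l₂ h1 h2 h3
          rcases h : res l₁ with _ | y'
          · exact absurd (hS _ ((hr c hc l₁ h1 l₂ h2).1 h)) (mp_out_ne m h3)
          · exact ⟨l₁, h1, by rw [h, ((hr c hc l₁ h1 l₂ h2).2 y' h).unique h3]⟩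
        obtain ⟨l₁, h1, ⟨l', rfl⟩ | ⟨e, rfl⟩⟩ := mp_split R l
        · obtain ⟨l₂, h2, ⟨l₃, rfl⟩ | ⟨e, rfl⟩⟩ := mp_split (len l₁) l'
          · rw [← List.append_assoc] at hy
            rcases h : res l₁ with _ | y'
            · rw [m.go_append] at hy
              refine ih l₃.length ?_ l₃ rfl _ y ((hr c hc l₁ h1 l₂ h2).1 h) hy
              simp only [List.length_append] at hl
              omega
            · exact ⟨l₁, h1, by
                rw [h, (mp_out_append m ((hr c hc l₁ h1 l₂ h2).2 y' h) l₃).unique hy]⟩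
          · refine short l₁ _ h1 h2 ?_
            rw [← List.append_assoc]
            exact mp_out_append m hy e
        · refine short _ (List.replicate (len (l ++ e)) false) h1 (by simp) ?_
          exact mp_out_append m (mp_out_append m hy e) _
    intro l y hy
    obtain ⟨l₁, h1, ⟨l', rfl⟩ | ⟨e, rfl⟩⟩ := mp_split n₀ l
    · rw [m.go_append] at hy
      exact key _ l' rfl _ y (h0 l₁ h1) hy
    · exact absurd (hS _ (h0 _ h1)) (mp_out_ne m (mp_out_append m hy e))
  · obtain ⟨r, hrd⟩ : ∃ r, r = Pr R fun l => res l = some y := ⟨_, rfl⟩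
    rw [← hrd]
    have hr0 : 0 ≤ r / s := div_nonneg (hrd ▸ Pr_nonneg _ _) hs.le
    have hr1 : r / s ≤ 1 := by
      rw [div_le_one hs, hrd, hsd]
      exact Pr_mono fun l _ h => by simp [h]
    have hs2 : 0 ≤ 1 - s := hs1 ▸ Ex_nonneg fun _ _ => ind_nonneg _
    have key : ∀ (j : ℕ) c, Start c → |mpProb m y c - r / s| ≤ (1 - s) ^ j := by
      intro j
      induction j with
      | zero =>
        intro c _
        have := mpProb_nonneg m y c
        have := mpProb_le_one m y c
        rw [pow_zero, abs_le]
        constructor <;> linarith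
      | succ j ih =>
        intro c hc
        have e1 : r / s = Ex R fun l => ind (res l = some y) + ind (res l = none) * (r / s) := by
          rw [Ex_add, Ex_mul_right, hs1]
          change _ = (Pr R fun l => res l = some y) + _
          rw [← hrd]
          field_simp
          ring
        rw [mpProb_step m y R c, e1, ← Ex_sub]
        refine (abs_Ex_le _ _).trans ?_
        rw [pow_succ', ← hs1, ← Ex_mul_right, hs1]
        refine Ex_mono fun l hl => ?_
        rw [mpProb_step m y (len l)]
        rcases h : res l with _ | y'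
        · rw [ind_pos rfl, ind_neg (by simp), zero_add, one_mul, one_mul,
            ← Ex_const (len l) (r / s), ← Ex_sub]
          refine (abs_Ex_le _ _).trans (Ex_le fun l' hl' => ?_)
          rw [← m.go_append]
          exact ih _ ((hr c hc l hl l' hl').1 h)
        · rw [ind_neg (p := some y' = none) (by simp), zero_mul, zero_mul, add_zero,
            Ex_congr (g := fun _ => ind (y' = y)) fun l' hl' => by
              rw [← m.go_append]
              exact mpProb_halt m y ((hr c hc l hl l' hl').2 y' h), Ex_const]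
          simp
    have key2 : ∀ c, Start c → mpProb m y c = r / s := by
      intro c hc
      have h1 : Tendsto (fun j : ℕ => (1 - s) ^ j) atTop (𝓝 0) :=
        tendsto_pow_atTop_nhds_zero_of_lt_one hs2 (by linarith)
      have h2 := ge_of_tendsto' h1 fun j => key j c hc
      exact sub_eq_zero.1 (abs_nonpos_iff.1 h2)
    simp only [exists_eq_right]
    change mpProb m y c₀ = _
    rw [mpProb_step m y n₀, Ex_congr (g := fun _ => r / s) fun l hl => key2 _ (h0 l hl), Ex_const]

end Crest.Agent.R309
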