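import Crest.Agent.R309.ExMath
import Crest.Agent.R309.ExMac
import Crest.Agent.R309.RamProb
import Crest.Agent.R309.MacProb

/-!
# R309: the exact sampler on the word RAM
-/

set_option linter.dupNamespace false

namespace Crest.Agent.R309

open Finset Crest.Agent.Lib.PT Crest.WordRAM

theorem Core.pr_res_ne (C : Core) (a : Job) : Pr (C.R a) (fun l => C.res a l ≠ none) =
    ∑ y ∈ a.2.1.Sols, Pr (C.R a) fun l => C.res a l = some y := by
  simp only [Pr]
  rw [← Ex_sum]
  refine Ex_congr fun l _ => ?_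
  cases e : C.res a l with
  | none => simp [ind]
  | some y =>
    rw [sum_eq_single y]
    · simp [ind]
    · intro z _ hz; simp [ind, hz.symm]
    · intro h; exact absurd (Inst.mem_Sols.2 (C.res_sol e)) h

theorem Core.ex_len_le (C : Core) (a : Job) {len : List Bool → ℕ}
    (h : ∀ l, len l ≤ (if C.slow a l then (C.tt a + 1) * 2 ^ C.K a else 0) + a.2.1.nc + 5) :
    Ex (C.R a) (fun l => (len l : ℝ)) ≤ C.tt a + 1 + a.2.1.nc + 5 := by
  refine (Ex_mono (g := fun l => ind (C.slow a l = true) * ((C.tt a + 1) * 2 ^ C.K a) +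
    (a.2.1.nc + 5)) fun l _ => ?_).trans ?_
  · have := (Nat.cast_le (α := ℝ)).2 (h l)
    rw [ind_eq]
    split_ifs at this ⊢ <;> push_cast at this <;> linarith
  · have := C.Pr_slow a
    rw [Pr] at this
    rw [Ex_add, Ex_mul_right, Ex_const, this]
    field_simp
    linarith

/-- Combine `exists_mac`, `Mac.sim` (with `B = (c+1) * sz inp ^ (d+1) ≥ sz inp`, `lt_two_pow_sz`, `sz_le_of_mem`) and
`Mac.rounds`.  By `res_sol` and `res_unif`, `s = Pr R (res ≠ none) = ∑_{y ∈ Sols} Pr R (res = some y) = card * r ≥ 1/16`, so each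
solution has probability `r / s = 1 / card`; `Ex R len ≤ tt + 1 + nc + 5` by `Pr_slow`.  The time is at most
`D (1 + length + 2 + 16 (R + tt + nc + 6))`, where `D = c₁ (B+1)^{d₁}`; all of this is polynomially bounded in
`sz inp` (use `PB` of a suitable natural-number function of `inp` to get `c, d`). -/
theorem Core.exists_exact (C : Core) {more : List ℕ → Bool} {pre : List ℕ → Job} (hm : PT more)
    (hp : PT pre) :
    ∃ (P : Program) (c d : ℕ), ∀ (inp : List ℕ) (w : ℕ),
      (∀ k < inp.length, more (inp.take k) = true) → more inp = false →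
      Fits (pre inp).1.n (pre inp).2.1 → (pre inp).2.1.IsSol (pre inp).2.2 →
      c * sz inp ^ d ≤ w →
      expectedTime P w inp ≤ ((c * sz inp ^ d : ℕ) : ENNReal) ∧
      (∀ ρ T out, HaltsWithin P w ρ inp T out → (pre inp).2.1.IsSol out) ∧
      ∀ y, (pre inp).2.1.IsSol y →
        probHaltsWith P w inp (fun out => out = y) = 1 / ((pre inp).2.1.Sols.card : ℝ) := by
  obtain ⟨σ, _, m, h1, h2, h3, h4, c₀, d₀, hmac⟩ := C.exists_mac hm hp
  obtain ⟨P, c₁, d₁, hsim⟩ := m.sim h1 h2 h3 h4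
  have hsz : PB fun inp : List ℕ => sz inp := PB.sz_self
  have hpb : PB fun inp : List ℕ => c₁ * (c₀ * sz inp ^ d₀ + sz inp + 1) ^ d₁ *
      (1 + (inp.length + 2 + 16 * (C.R (pre inp) + (C.tt (pre inp) + 1 + (pre inp).2.1.nc + 5)))) := by
    fun_prop
  obtain ⟨c, d, hb⟩ := hpb
  refine ⟨P, c, d, fun inp w g1 g2 hF h0 hw => ?_⟩
  obtain ⟨k1, Start, n₀, len, k2, k3, k4, k5, k6⟩ := hmac inp g1 g2 hF h0
  have hb := hb inp
  obtain ⟨s1, s2, s3⟩ := hsim inp (c₀ * sz inp ^ d₀ + sz inp) w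
    (fun a ha => (lt_two_pow_sz a).trans_le
      (Nat.pow_le_pow_right (by norm_num) ((sz_le_of_mem ha).trans (Nat.le_add_left _ _))))
    (fun l => (k1 l).trans (Nat.le_add_right _ _))
    (le_trans (Nat.le_mul_of_pos_right _ (by omega)) (hb.trans hw))
  obtain ⟨r, r1, r2⟩ := C.res_unif (pre inp) hF h0
  have hs : Pr (C.R (pre inp)) (fun l => C.res (pre inp) l ≠ none) = (pre inp).2.1.Sols.card * r := by
    rw [C.pr_res_ne, sum_congr rfl fun y hy => r2 y (Inst.mem_Sols.1 hy), sum_const, nsmul_eq_mul]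
  have hR : 1 ≤ C.R (pre inp) := by
    have : 1 ≤ C.Q (pre inp) := Nat.one_le_pow _ _ (by rw [hF.pow]; positivity)
    unfold Core.R
    omega
  obtain ⟨t1, t2, t3⟩ := m.rounds (m.init inp) Start n₀ (C.R (pre inp)) hR len (C.res (pre inp))
    k3 k4 k6 (by rw [hs]; linarith)
  refine ⟨s1.trans ?_, fun ρ T out h => ?_, fun y hy => ?_⟩
  · have e1 := C.ex_len_le (pre inp) k5
    have e2 : (0 : ℝ) ≤ Ex (C.R (pre inp)) fun l => (len l : ℝ) := Ex_nonneg fun _ _ => by positivity
    have e3 : (n₀ + (C.R (pre inp) + Ex (C.R (pre inp)) fun l => (len l : ℝ)) /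
        Pr (C.R (pre inp)) fun l => C.res (pre inp) l ≠ none) ≤
        ((inp.length + 2 + 16 * (C.R (pre inp) + (C.tt (pre inp) + 1 + (pre inp).2.1.nc + 5)) : ℕ) : ℝ) := by
      have e4 : (C.R (pre inp) + Ex (C.R (pre inp)) fun l => (len l : ℝ)) /
          (Pr (C.R (pre inp)) fun l => C.res (pre inp) l ≠ none) ≤
          (C.R (pre inp) + Ex (C.R (pre inp)) fun l => (len l : ℝ)) / (1 / 16) :=
        div_le_div_of_nonneg_left (by positivity) (by norm_num) (by rw [hs]; exact r1)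
      have e5 := (Nat.cast_le (α := ℝ)).2 k2
      push_cast at e5 ⊢
      linarith
    have e6 := t1.trans (ENNReal.ofReal_le_ofReal e3)
    rw [ENNReal.ofReal_natCast] at e6
    refine le_trans ?_ (Nat.cast_le.2 hb)
    rw [Nat.cast_mul (c₁ * _), Nat.cast_add 1, Nat.cast_one]
    gcongr
  · obtain ⟨l, hl⟩ := s2 ρ T out h
    obtain ⟨l₀, -, h'⟩ := t2 l out hl
    exact C.res_sol h'
  · rw [s3, t3 y, hs, r2 y hy]
    have : r ≠ 0 := by
      rintro rfl
      norm_num at r1
    field_simp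

end Crest.Agent.R309
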