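import Crest.Agent.R309.Flow
import Crest.Prelude.Def_Tables

/-!
# R309: contingency tables as flow instances
-/

set_option linter.dupNamespace false

namespace Crest.Agent.R309

open Finset Crest.Agent.Lib.PT Crest.Tables Crest.Enc

/-- Rows are the vertices `0, …, m-1`, columns the vertices `m, …, m+n-1`; the cell `(i, j)` is the arc
number `i n + j`. -/
def tabInst (rs cs b : List ℕ) : Inst :=
  ((List.range (rs.length * cs.length)).map fun u =>
      (u / cs.length, rs.length + u % cs.length, b.getD u 0),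
    rs.map (fun r : ℕ => (r : ℤ)) ++ cs.map fun c : ℕ => - (c : ℤ))

/-- A matrix, row by row. -/
def flat {m n : ℕ} (X : Fin m → Fin n → ℕ) : List ℕ := (List.ofFn fun i => List.ofFn (X i)).flatten

/-- A size parameter for an instance. -/
def gOf (I : Inst) : Un :=
  ⟨2 ^ (Nat.size (I.nv + I.nc + Nat.size (∑ u ∈ range I.nc, I.b u)) + 10)⟩

@[fun_prop] theorem tabInst_pt {α : Type} [Enc α] {rs cs b : α → List ℕ} (h1 : PT rs) (h2 : PT cs)
    (h3 : PT b) : PT fun a => tabInst (rs a) (cs a) (b a) := by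
  unfold tabInst; fun_prop

theorem tab_two_pow_size_le (x : ℕ) : 2 ^ x.size ≤ 2 * x + 1 := by
  rcases h : x.size with _ | k
  · simp
  · have : 2 ^ k ≤ x := Nat.lt_size.1 (by omega)
    rw [pow_succ]; omega

/-- `2 ^ size x ≤ 2 x + 1`, so the parameter is polynomially bounded. -/
@[fun_prop] theorem gOf_pt {α : Type} [Enc α] {I : α → Inst} (h : PT I) :
    PT fun a => gOf (I a) := by
  have h1 : PT fun a => ∑ u ∈ range (I a).nc, (I a).b u :=
    PT.sum_range (PT.nat_sum PT.id) (by fun_prop) (by fun_prop) (by fun_prop)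
  have h2 : PT fun a => (I a).nv + (I a).nc + Nat.size (∑ u ∈ range (I a).nc, (I a).b u) :=
    PT.nat_add (by fun_prop) h1.nat_size
  have h3 : PB fun a => (I a).nv + (I a).nc + Nat.size (∑ u ∈ range (I a).nc, (I a).b u) :=
    PB.add (by fun_prop) (PB.size h1)
  unfold gOf
  refine PT.un_mk ((PT.const 2).nat_pow (h2.nat_size.nat_add (PT.const 10))
    ((PB.size h2).add (PB.const 10))) ?_
  refine ((((PB.const 2).mul h3).add (PB.const 1)).mul (PB.const (2 ^ 10))).mono fun a => ?_
  rw [pow_add]
  exact Nat.mul_le_mul_right _ (tab_two_pow_size_le _)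

theorem fits_gOf {I : Inst} (h : I.WF) : Fits (gOf I).n I := by
  set N := I.nv + I.nc + Nat.size (∑ u ∈ range I.nc, I.b u) with hN
  have e : (gOf I).n = 2 ^ (N.size + 10) := rfl
  have hl : Nat.log 2 (2 ^ (N.size + 10)) = N.size + 10 := Nat.log_pow (by norm_num) _
  have hG : N ≤ 2 ^ (N.size + 10) :=
    (Nat.lt_size_self N).le.trans (Nat.pow_le_pow_right (by norm_num) (by omega))
  rw [e]
  refine ⟨h, by rw [hl], by rw [hl]; omega, by omega, by omega, fun u hu => ?_⟩
  calc I.b u ≤ ∑ u ∈ range I.nc, I.b u :=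
        Finset.single_le_sum (f := I.b) (fun _ _ => Nat.zero_le _) (mem_range.2 hu)
    _ < 2 ^ Nat.size (∑ u ∈ range I.nc, I.b u) := Nat.lt_size_self _
    _ ≤ _ := Nat.pow_le_pow_right (by norm_num) (by omega)

theorem tabInst_nc (rs cs b : List ℕ) : (tabInst rs cs b).nc = rs.length * cs.length := by
  simp [tabInst, Inst.nc]

theorem tabInst_nv (rs cs b : List ℕ) : (tabInst rs cs b).nv = rs.length + cs.length := by
  simp [tabInst, Inst.nv]

theorem tabInst_cell (rs cs b : List ℕ) {u : ℕ} (hu : u < rs.length * cs.length) :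
    (tabInst rs cs b).1.getD u (0, 0, 0) =
      (u / cs.length, rs.length + u % cs.length, b.getD u 0) := by
  simp [tabInst, List.getD_eq_getElem?_getD, hu]

theorem tabInst_p (rs cs b : List ℕ) {u : ℕ} (hu : u < rs.length * cs.length) :
    (tabInst rs cs b).p u = u / cs.length := by
  rw [Inst.p, tabInst_cell rs cs b hu]

theorem tabInst_q (rs cs b : List ℕ) {u : ℕ} (hu : u < rs.length * cs.length) :
    (tabInst rs cs b).q u = rs.length + u % cs.length := by
  rw [Inst.q, tabInst_cell rs cs b hu]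

theorem tabInst_b (rs cs b : List ℕ) {u : ℕ} (hu : u < rs.length * cs.length) :
    (tabInst rs cs b).b u = b.getD u 0 := by
  rw [Inst.b, tabInst_cell rs cs b hu]

theorem tabInst_wf (rs cs b : List ℕ) : (tabInst rs cs b).WF := by
  intro u hu
  rw [tabInst_nc] at hu
  have hn : 0 < cs.length := Nat.pos_of_ne_zero fun h => by simp [h] at hu
  rw [tabInst_p rs cs b hu, tabInst_q rs cs b hu, tabInst_nv]
  have h1 : u / cs.length < rs.length := (Nat.div_lt_iff_lt_mul hn).2 hu
  have h2 := Nat.mod_lt u hn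
  omega

variable {m n : ℕ}

theorem tab_idx_lt (i : Fin m) (j : Fin n) : (i : ℕ) * n + j < m * n :=
  calc (i : ℕ) * n + j < (i + 1) * n := by rw [Nat.add_mul, Nat.one_mul]; omega
    _ ≤ _ := Nat.mul_le_mul_right _ i.2

theorem tab_idx_div (i : ℕ) (j : Fin n) : (i * n + j) / n = i := by
  rw [Nat.add_comm, Nat.add_mul_div_right _ _ j.pos, Nat.div_eq_of_lt j.2, Nat.zero_add]

theorem tab_idx_mod (i : ℕ) (j : Fin n) : (i * n + j) % n = j := by
  rw [Nat.add_comm, Nat.add_mul_mod_self_right, Nat.mod_eq_of_lt j.2]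

theorem flat_eq (X : Fin m → Fin n → ℕ) :
    flat X = List.ofFn fun u : Fin (m * n) => X u.divNat u.modNat := by
  rw [List.ofFn_mul, flat]
  congr 2
  funext i
  congr 1
  funext j
  congr 1
  · exact Fin.ext (tab_idx_div i j).symm
  · exact Fin.ext (tab_idx_mod i j).symm

theorem length_flat (X : Fin m → Fin n → ℕ) : (flat X).length = m * n := by
  rw [flat_eq, List.length_ofFn]

theorem getD_flat (X : Fin m → Fin n → ℕ) (i : Fin m) (j : Fin n) :
    (flat X).getD (i * n + j) 0 = X i j := by
  rw [flat_eq, List.getD_eq_getElem _ _ (by rw [List.length_ofFn]; exact tab_idx_lt i j),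
    List.getElem_ofFn]
  congr 1
  · exact Fin.ext (tab_idx_div i j)
  · exact Fin.ext (tab_idx_mod i j)

theorem flat_injective : Function.Injective (flat : (Fin m → Fin n → ℕ) → List ℕ) := by
  intro X Y h
  funext i j
  rw [← getD_flat X, ← getD_flat Y, h]

theorem flat_const (N : ℕ) : flat (fun (_ : Fin m) (_ : Fin n) => N) = List.replicate (m * n) N := by
  rw [flat_eq, List.ofFn_const]

theorem exists_flat {y : List ℕ} (h : y.length = m * n) : ∃ X : Fin m → Fin n → ℕ, y = flat X := by
  refine ⟨fun i j => y.getD (i * n + j) 0, ?_⟩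
  rw [flat_eq]
  apply List.ext_getElem (by simp [h])
  intro u h1 h2
  rw [List.getElem_ofFn]
  simp only [Fin.coe_divNat, Fin.coe_modNat, Nat.div_add_mod']
  rw [List.getD_eq_getElem _ _ h1]

theorem tab_sum_mul (g : ℕ → ℤ) :
    ∑ u ∈ range (m * n), g u = ∑ i : Fin m, ∑ j : Fin n, g (i * n + j) := by
  rw [Finset.sum_range, ← Equiv.sum_comp finProdFinEquiv, Fintype.sum_prod_type]
  refine Finset.sum_congr rfl fun i _ => Finset.sum_congr rfl fun j _ => ?_
  simp only [finProdFinEquiv_apply_val]
  rw [Nat.add_comm, Nat.mul_comm]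

theorem tab_div (rs : Fin m → ℕ) (cs : Fin n → ℕ) (b : List ℕ) (X : Fin m → Fin n → ℕ) (v : ℕ) :
    (tabInst (List.ofFn rs) (List.ofFn cs) b).div (fun u => ((flat X).getD u 0 : ℤ)) v =
      ∑ i : Fin m, ∑ j : Fin n,
        ((if (i : ℕ) = v then (X i j : ℤ) else 0) - (if m + j = v then (X i j : ℤ) else 0)) := by
  unfold Inst.div
  rw [tabInst_nc, List.length_ofFn, List.length_ofFn, tab_sum_mul]
  refine Finset.sum_congr rfl fun i _ => Finset.sum_congr rfl fun j _ => ?_
  have hu : (i : ℕ) * n + j < (List.ofFn rs).length * (List.ofFn cs).length := by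
    rw [List.length_ofFn, List.length_ofFn]; exact tab_idx_lt i j
  rw [tabInst_p _ _ _ hu, tabInst_q _ _ _ hu, List.length_ofFn, List.length_ofFn, tab_idx_div,
    tab_idx_mod]
  simp only [getD_flat]

theorem tab_div_row (rs : Fin m → ℕ) (cs : Fin n → ℕ) (b : List ℕ) (X : Fin m → Fin n → ℕ)
    (i : Fin m) :
    (tabInst (List.ofFn rs) (List.ofFn cs) b).div (fun u => ((flat X).getD u 0 : ℤ)) i =
      ((∑ j, X i j : ℕ) : ℤ) := by
  rw [tab_div, Finset.sum_eq_single i]
  · push_cast
    refine Finset.sum_congr rfl fun j _ => ?_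
    rw [if_pos rfl, if_neg (by have := i.2; omega), sub_zero]
  · intro i' _ hi
    refine Finset.sum_eq_zero fun j _ => ?_
    rw [if_neg (fun h => hi (Fin.ext h)), if_neg (by have := i.2; omega), sub_zero]
  · simp

theorem tab_div_col (rs : Fin m → ℕ) (cs : Fin n → ℕ) (b : List ℕ) (X : Fin m → Fin n → ℕ)
    (j : Fin n) :
    (tabInst (List.ofFn rs) (List.ofFn cs) b).div (fun u => ((flat X).getD u 0 : ℤ)) (m + j) =
      - ((∑ i, X i j : ℕ) : ℤ) := by
  rw [tab_div]
  push_cast
  rw [← Finset.sum_neg_distrib]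
  refine Finset.sum_congr rfl fun i _ => ?_
  rw [Finset.sum_eq_single j]
  · rw [if_pos rfl, if_neg (by have := i.2; omega), zero_sub]
  · intro j' _ hj
    rw [if_neg (by have := i.2; omega), if_neg (fun h => hj (Fin.ext (by omega))), sub_zero]
  · simp

theorem tab_d_row (rs : Fin m → ℕ) (cs : Fin n → ℕ) (b : List ℕ) (i : Fin m) :
    (tabInst (List.ofFn rs) (List.ofFn cs) b).d i = rs i := by
  simp [tabInst, Inst.d, List.getD_eq_getElem?_getD, List.getElem?_append_left]

theorem tab_d_col (rs : Fin m → ℕ) (cs : Fin n → ℕ) (b : List ℕ) (j : Fin n) :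
    (tabInst (List.ofFn rs) (List.ofFn cs) b).d (m + j) = - (cs j : ℤ) := by
  simp [tabInst, Inst.d, List.getD_eq_getElem?_getD]

theorem isSol_flat (rs : Fin m → ℕ) (cs : Fin n → ℕ) (b X : Fin m → Fin n → ℕ) :
    (tabInst (List.ofFn rs) (List.ofFn cs) (flat b)).IsSol (flat X) ↔
      IsTable rs cs X ∧ ∀ i j, X i j ≤ b i j := by
  have hb : ∀ (i : Fin m) (j : Fin n),
      (tabInst (List.ofFn rs) (List.ofFn cs) (flat b)).b (i * n + j) = b i j := fun i j => by
    rw [tabInst_b _ _ _ (by rw [List.length_ofFn, List.length_ofFn]; exact tab_idx_lt i j),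
      getD_flat]
  unfold Inst.IsSol
  rw [tabInst_nc, tabInst_nv, List.length_ofFn, List.length_ofFn]
  constructor
  · rintro ⟨-, h2, h3⟩
    refine ⟨⟨fun i => ?_, fun j => ?_⟩, fun i j => ?_⟩
    · have := h3 i (by have := i.2; omega)
      rw [tab_div_row, tab_d_row] at this
      exact_mod_cast this
    · have := h3 (m + j) (by have := j.2; omega)
      rw [tab_div_col, tab_d_col, neg_inj] at this
      exact_mod_cast this
    · have := h2 _ (tab_idx_lt i j)
      rwa [getD_flat, hb] at this
  · rintro ⟨⟨h1, h2⟩, h3⟩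
    refine ⟨length_flat X, fun u hu => ?_, fun v hv => ?_⟩
    · have e : u = ((⟨u, hu⟩ : Fin (m * n)).divNat : ℕ) * n + (⟨u, hu⟩ : Fin (m * n)).modNat := by
        simp only [Fin.coe_divNat, Fin.coe_modNat, Nat.div_add_mod']
      rw [e, getD_flat, hb]
      exact h3 _ _
    · rcases Nat.lt_or_ge v m with h | h
      · have := tab_div_row rs cs (flat b) X ⟨v, h⟩
        rw [h1, ← tab_d_row rs cs (flat b)] at this
        exact this
      · obtain ⟨j, rfl⟩ := Nat.exists_eq_add_of_le h
        have := tab_div_col rs cs (flat b) X ⟨j, by omega⟩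
        rw [h2, ← tab_d_col rs cs (flat b)] at this
        exact this

theorem isSol_tab (rs : Fin m → ℕ) (cs : Fin n → ℕ) (b : Fin m → Fin n → ℕ) (y : List ℕ) :
    (tabInst (List.ofFn rs) (List.ofFn cs) (flat b)).IsSol y ↔
      ∃ X : Fin m → Fin n → ℕ, y = flat X ∧ IsTable rs cs X ∧ ∀ i j, X i j ≤ b i j := by
  constructor
  · intro h
    have hl : y.length = m * n := by
      rw [h.1, tabInst_nc, List.length_ofFn, List.length_ofFn]
    obtain ⟨X, rfl⟩ := exists_flat hl
    exact ⟨X, rfl, (isSol_flat rs cs b X).1 h⟩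
  · rintro ⟨X, rfl, h⟩
    exact (isSol_flat rs cs b X).2 h

theorem card_tab (rs : Fin m → ℕ) (cs : Fin n → ℕ) (b : Fin m → Fin n → ℕ) :
    (tabInst (List.ofFn rs) (List.ofFn cs) (flat b)).Sols.card = numBoundedTables rs cs b := by
  unfold numBoundedTables
  rw [← Finset.card_univ]
  symm
  refine Finset.card_bij (fun X _ => flat fun i j => (X.1 i j : ℕ)) (fun X _ => ?_)
    (fun X _ Y _ h => ?_) (fun y hy => ?_)
  · exact Inst.mem_Sols.2 ((isSol_flat rs cs b _).2 ⟨X.2, fun i j => Nat.le_of_lt_succ (X.1 i j).2⟩)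
  · have := flat_injective h
    refine Subtype.ext (funext fun i => funext fun j => Fin.ext ?_)
    exact congrFun (congrFun this i) j
  · obtain ⟨X, rfl, h1, h2⟩ := (isSol_tab rs cs b y).1 (Inst.mem_Sols.1 hy)
    exact ⟨⟨fun i j => ⟨X i j, Nat.lt_succ_of_le (h2 i j)⟩, h1⟩, mem_univ _, rfl⟩

theorem table_le {rs : Fin m → ℕ} {cs : Fin n → ℕ} {X : Fin m → Fin n → ℕ} (h : IsTable rs cs X)
    (i : Fin m) (j : Fin n) : X i j ≤ ∑ i, rs i :=
  calc X i j ≤ ∑ j, X i j :=
        Finset.single_le_sum (f := X i) (fun _ _ => Nat.zero_le _) (mem_univ j)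
    _ = rs i := h.1 i
    _ ≤ _ := Finset.single_le_sum (f := rs) (fun _ _ => Nat.zero_le _) (mem_univ i)

theorem tab_sum_sub {k : ℕ} (r : Fin k → ℕ) (i : Fin k) (h : r i ≠ 0) :
    ∑ x, (r x - if x = i then 1 else 0) + 1 = ∑ x, r x := by
  have : ∀ x, r x = (r x - if x = i then 1 else 0) + if x = i then 1 else 0 := fun x => by
    split_ifs with e
    · subst e; omega
    · omega
  conv_rhs => rw [Finset.sum_congr rfl fun x _ => this x, Finset.sum_add_distrib]
  simp

/-- Induction on the total: remove one unit from a nonzero row and a nonzero column. -/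
theorem exists_table (rs : Fin m → ℕ) (cs : Fin n → ℕ) (h : ∑ i, rs i = ∑ j, cs j) :
    ∃ X, IsTable rs cs X := by
  obtain ⟨N, hN⟩ : ∃ N, ∑ i, rs i = N := ⟨_, rfl⟩
  induction N generalizing rs cs with
  | zero =>
    have h1 := Finset.sum_eq_zero_iff.1 hN
    have h2 := Finset.sum_eq_zero_iff.1 (h ▸ hN)
    exact ⟨fun _ _ => 0, fun i => by simp [h1 i (mem_univ _)], fun j => by simp [h2 j (mem_univ _)]⟩
  | succ N ih =>
    obtain ⟨i, -, hi⟩ := Finset.exists_ne_zero_of_sum_ne_zero (s := univ) (f := rs) (by omega)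
    obtain ⟨j, -, hj⟩ := Finset.exists_ne_zero_of_sum_ne_zero (s := univ) (f := cs) (by omega)
    have e1 := tab_sum_sub rs i hi
    have e2 := tab_sum_sub cs j hj
    obtain ⟨X, h1, h2⟩ := ih (fun x => rs x - if x = i then 1 else 0)
      (fun y => cs y - if y = j then 1 else 0) (by omega) (by omega)
    refine ⟨fun x y => X x y + if x = i ∧ y = j then 1 else 0, fun x => ?_, fun y => ?_⟩
    · rw [Finset.sum_add_distrib, h1]
      by_cases e : x = i
      · subst e; simp; omega
      · simp [e]
    · rw [Finset.sum_add_distrib, h2]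
      by_cases e : y = j
      · subst e; simp; omega
      · simp [e]

theorem tab_flatten_code (X : Fin m → Fin n → ℕ) :
    ((List.ofFn fun i => ((List.ofFn (X i)).map natCode).flatten)).flatten =
      ((flat X).map natCode).flatten := by
  rw [flat, List.map_flatten, List.flatten_flatten, List.map_map, List.map_ofFn]
  rfl

theorem matrixCode_eq (X : Fin m → Fin n → ℕ) :
    matrixCode X = natCode m ++ natCode n ++ ((flat X).map natCode).flatten := by
  rw [matrixCode, tab_flatten_code]

theorem boundsCode_eq (b : Fin m → Fin n → ℕ) :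
    boundsCode b = ((flat b).map natCode).flatten := by
  rw [boundsCode, tab_flatten_code]

/-- Read the margins. -/
def parseMargins (x : List Bool) : (List ℕ × List ℕ) × List Bool :=
  (((parseN parseNat (parseNat x).1 (parseNat (parseNat x).2).2).1,
    (parseN parseNat (parseNat (parseNat x).2).1
      (parseN parseNat (parseNat x).1 (parseNat (parseNat x).2).2).2).1),
    (parseN parseNat (parseNat (parseNat x).2).1
      (parseN parseNat (parseNat x).1 (parseNat (parseNat x).2).2).2).2)

theorem parseMargins_pt : PT parseMargins := by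
  have h1 : PT fun x : List Bool => parseN parseNat (parseNat x).1 (parseNat (parseNat x).2).2 :=
    PT.parseN (p := fun _ => parseNat) (by fun_prop) (fun _ => shrinks_parseNat) (by fun_prop)
      (by fun_prop)
  have h2 : PT fun x : List Bool => parseN parseNat (parseNat (parseNat x).2).1
      (parseN parseNat (parseNat x).1 (parseNat (parseNat x).2).2).2 :=
    PT.parseN (p := fun _ => parseNat) (by fun_prop) (fun _ => shrinks_parseNat) (by fun_prop)
      h1.snd
  exact (h1.fst.pair h2.fst).pair h2.snd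

theorem parseN_natCodes (l : List ℕ) (r : List Bool) :
    parseN parseNat l.length ((l.map natCode).flatten ++ r) = (l, r) := by
  simpa using parseN_flatten (val := id) l (fun x _ => parseNat_natCode x)
    (fun x _ => natCode_ne_nil x) r

theorem parseMargins_code (rs : Fin m → ℕ) (cs : Fin n → ℕ) (r : List Bool) :
    parseMargins (marginsCode rs cs ++ r) = ((List.ofFn rs, List.ofFn cs), r) := by
  have h1 := parseN_natCodes (List.ofFn rs) (((List.ofFn cs).map natCode).flatten ++ r)
  have h2 := parseN_natCodes (List.ofFn cs) r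
  rw [List.length_ofFn] at h1 h2
  simp only [parseMargins, marginsCode, List.append_assoc, parseNat_natCode, h1, h2]

/-- A polynomially bounded function of a bit string is bounded by a polynomial in its length. -/
theorem exists_poly_of_PB {g : List Bool → ℕ} (h : PB g) :
    ∃ r : Polynomial ℕ, ∀ x, g x ≤ r.eval x.length := by
  obtain ⟨c, k, h⟩ := h
  refine ⟨Polynomial.C c * (Polynomial.C 4 * Polynomial.X + 1) ^ k, fun x => (h x).trans ?_⟩
  simp only [Polynomial.eval_mul, Polynomial.eval_C, Polynomial.eval_pow, Polynomial.eval_add,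
    Polynomial.eval_X, Polynomial.eval_one]
  exact Nat.mul_le_mul_left _ (Nat.pow_le_pow_left (sz_boolList_le x) _)

end Crest.Agent.R309
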