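import Crest.Agent.R309.Iface
import Crest.Agent.R309.Tab
import Crest.Prelude.Def_Randomized

/-!
# R309: the approximation scheme for bounded tables
-/

set_option linter.dupNamespace false

namespace Crest.Agent.R309

open Finset Crest.Agent.Lib.PT Crest.Enc Crest.FinProb Crest.Randomized Crest.Tables

namespace Fin79

/-- Read the cell bounds. -/
def bounds (x : List Bool) : List ℕ × List Bool :=
  parseN parseNat ((parseMargins x).1.1.length * (parseMargins x).1.2.length) (parseMargins x).2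

/-- The instance. -/
def inst (x : List Bool) : Inst := tabInst (parseMargins x).1.1 (parseMargins x).1.2 (bounds x).1

/-- The accuracy parameter. -/
def acc (x : List Bool) : Un := ⟨(parseRat (parseRat (bounds x).2).2).2.length⟩

/-- The confidence parameter. -/
def conf (x : List Bool) : Un := ⟨(parseRat (parseRat (bounds x).2).2).1.den.size⟩

attribute [local irreducible] parseMargins

theorem bounds_pt : PT bounds := by
  have := parseMargins_pt
  exact PT.parseN (p := fun _ => parseNat) (by fun_prop) (fun _ => shrinks_parseNat)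
    (by fun_prop) (by fun_prop)

attribute [local irreducible] bounds

theorem inst_pt : PT inst :=
  tabInst_pt parseMargins_pt.fst.fst parseMargins_pt.fst.snd bounds_pt.fst

theorem acc_pt : PT acc := bounds_pt.snd.parseRat.snd.parseRat.snd.un_length

theorem conf_pt : PT conf := by
  have h := bounds_pt.snd.parseRat.snd.parseRat.fst.rat_den
  exact h.nat_size.un_mk (PB.size h)

variable {m n : ℕ} (rs : Fin m → ℕ) (cs : Fin n → ℕ) (b : Fin m → Fin n → ℕ)

theorem bounds_code (r : List Bool) :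
    bounds (marginsCode rs cs ++ (boundsCode b ++ r)) = (flat b, r) := by
  unfold bounds
  rw [parseMargins_code, boundsCode_eq, List.length_ofFn, List.length_ofFn, ← length_flat b,
    parseN_natCodes]

theorem inst_code (r : List Bool) : inst (marginsCode rs cs ++ (boundsCode b ++ r)) =
    tabInst (List.ofFn rs) (List.ofFn cs) (flat b) := by
  unfold inst
  rw [parseMargins_code, bounds_code]

theorem acc_code (ε δ : ℚ) (r : List Bool) :
    acc (marginsCode rs cs ++ (boundsCode b ++ (ratCode ε ++ (ratCode δ ++ r)))) = ⟨r.length⟩ := by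
  unfold acc
  rw [bounds_code, parseRat_ratCode, parseRat_ratCode]

theorem conf_code (ε δ : ℚ) (r : List Bool) :
    conf (marginsCode rs cs ++ (boundsCode b ++ (ratCode ε ++ (ratCode δ ++ r)))) =
      ⟨δ.den.size⟩ := by
  unfold conf
  rw [bounds_code, parseRat_ratCode, parseRat_ratCode]

theorem half_pow_le {δ : ℚ} (hδ : 0 < δ) : ((1 : ℝ) / 2) ^ δ.den.size ≤ δ := by
  have h1 : (δ.den : ℝ) ≤ 2 ^ δ.den.size := by exact_mod_cast (Nat.lt_size_self δ.den).le
  have h2 : (0 : ℝ) < δ.den := by exact_mod_cast δ.den_pos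
  have h3 : (1 : ℝ) ≤ δ.num := by exact_mod_cast Rat.num_pos.2 hδ
  rw [one_div, inv_pow, Rat.cast_def]
  calc ((2 : ℝ) ^ δ.den.size)⁻¹ ≤ (δ.den : ℝ)⁻¹ := inv_anti₀ h2 h1
    _ = 1 / δ.den := (one_div _).symm
    _ ≤ _ := by gcongr

theorem inv_ceil_le {ε : ℚ} (hε : 0 < ε) : (1 : ℝ) / (⌈ε⁻¹⌉₊ : ℕ) ≤ ε := by
  have h1 : ((ε : ℝ))⁻¹ ≤ (⌈ε⁻¹⌉₊ : ℕ) := by exact_mod_cast Nat.le_ceil ε⁻¹
  have h2 : (0 : ℝ) < ε := by exact_mod_cast hε
  rw [one_div]
  exact inv_le_of_inv_le₀ h2 h1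

end Fin79

open Fin79 in
/-- Parse the input, let `I = tabInst rs cs b`, `G = gOf I`, `E = ⌈1/ε⌉`, `D = size δ.den` and output
`ratCode (cnt (G, I, E, D, tape))`. -/
theorem fin79 {cnt : Un × Inst × Un × Un × List Bool → ℚ} {e : ℕ} (h : CountSpec cnt e) :
    ∃ (A : List Bool × List Bool → List Bool) (r : Polynomial ℕ), RandPolyTime A ∧
      ∀ (m n : ℕ) (rs : Fin m → ℕ) (cs : Fin n → ℕ) (b : Fin m → Fin n → ℕ) (ε δ : ℚ),
        0 < ε → ε < 1 → 0 < δ → δ < 1 →
        (∀ ω : Fin (r.eval (marginsCode rs cs ++ boundsCode b ++ ratCode ε ++ ratCode δ ++ List.replicate ⌈ε⁻¹⌉₊ true).length) → Bool,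
          ∃ z : ℚ, 0 ≤ z ∧ A (marginsCode rs cs ++ boundsCode b ++ ratCode ε ++ ratCode δ ++ List.replicate ⌈ε⁻¹⌉₊ true, List.ofFn ω) = ratCode z) ∧
        (numBoundedTables rs cs b = 0 →
          ∀ ω : Fin (r.eval (marginsCode rs cs ++ boundsCode b ++ ratCode ε ++ ratCode δ ++
              List.replicate ⌈ε⁻¹⌉₊ true).length) → Bool,
            A (marginsCode rs cs ++ boundsCode b ++ ratCode ε ++ ratCode δ ++
              List.replicate ⌈ε⁻¹⌉₊ true, List.ofFn ω) = ratCode 0) ∧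
        1 - (δ : ℝ) ≤ uniformProb {ω : Fin (r.eval (marginsCode rs cs ++ boundsCode b ++ ratCode ε ++
              ratCode δ ++ List.replicate ⌈ε⁻¹⌉₊ true).length) → Bool |
            ∃ z : ℚ, A (marginsCode rs cs ++ boundsCode b ++ ratCode ε ++ ratCode δ ++
                List.replicate ⌈ε⁻¹⌉₊ true, List.ofFn ω) = ratCode z ∧
              (1 - ε) * numBoundedTables rs cs b ≤ z ∧ z ≤ (1 + ε) * numBoundedTables rs cs b} := by
  have hG : PT fun x => gOf (inst x) := gOf_pt inst_pt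
  obtain ⟨r, hr⟩ := exists_poly_of_PB
    (g := fun x => ((gOf (inst x)).n * (acc x).n * ((conf x).n + 1)) ^ e)
    ((((PB.un hG).mul (PB.un acc_pt)).mul ((PB.un conf_pt).add (PB.const 1))).pow e)
  refine ⟨fun p => ratCode (cnt (gOf (inst p.1), inst p.1, acc p.1, conf p.1, p.2)), r,
    PT.randPolyTime (PT.ratCode (h.pt.comp ((hG.comp PT.id.fst).pair ((inst_pt.comp PT.id.fst).pair
      ((acc_pt.comp PT.id.fst).pair ((conf_pt.comp PT.id.fst).pair PT.id.snd)))))),
    fun m n rs cs b ε δ hε _ hδ _ => ?_⟩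
  have hr' := hr (marginsCode rs cs ++ boundsCode b ++ ratCode ε ++ ratCode δ ++
    List.replicate ⌈ε⁻¹⌉₊ true)
  have e1 : inst (marginsCode rs cs ++ boundsCode b ++ ratCode ε ++ ratCode δ ++
      List.replicate ⌈ε⁻¹⌉₊ true) = tabInst (List.ofFn rs) (List.ofFn cs) (flat b) := by
    simp only [List.append_assoc, inst_code]
  have e2 : acc (marginsCode rs cs ++ boundsCode b ++ ratCode ε ++ ratCode δ ++
      List.replicate ⌈ε⁻¹⌉₊ true) = ⟨⌈ε⁻¹⌉₊⟩ := by
    simp only [List.append_assoc, acc_code, List.length_replicate]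
  have e3 : conf (marginsCode rs cs ++ boundsCode b ++ ratCode ε ++ ratCode δ ++
      List.replicate ⌈ε⁻¹⌉₊ true) = ⟨δ.den.size⟩ := by
    simp only [List.append_assoc, conf_code]
  generalize marginsCode rs cs ++ boundsCode b ++ ratCode ε ++ ratCode δ ++
    List.replicate ⌈ε⁻¹⌉₊ true = x at hr' e1 e2 e3 ⊢
  simp only [e1, e2, e3] at hr' ⊢
  have hwf := tabInst_wf (List.ofFn rs) (List.ofFn cs) (flat b)
  have hc := card_tab rs cs b
  generalize tabInst (List.ofFn rs) (List.ofFn cs) (flat b) = I at hr' hwf hc ⊢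
  refine ⟨fun ω => ⟨_, h.nonneg _, rfl⟩, fun h0 ω => by rw [h.zero _ _ _ _ _ hwf (hc.trans h0)], ?_⟩
  have hE : 1 ≤ ⌈ε⁻¹⌉₊ := Nat.ceil_pos.2 (inv_pos.2 hε)
  have hg := h.good (gOf I) I ⟨⌈ε⁻¹⌉₊⟩ ⟨δ.den.size⟩ (fits_gOf hwf) hE _ hr'
  rw [uniformProb_eq _ fun l => ∃ z : ℚ,
    ratCode (cnt (gOf I, I, ⟨⌈ε⁻¹⌉₊⟩, ⟨δ.den.size⟩, l)) = ratCode z ∧
      (1 - ε) * numBoundedTables rs cs b ≤ z ∧ z ≤ (1 + ε) * numBoundedTables rs cs b]
  refine le_trans (by have := half_pow_le hδ; linarith) (hg.trans (Pr_mono fun l _ hl => ?_))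
  refine ⟨_, rfl, ?_⟩
  rw [hc] at hl
  have h1 : (numBoundedTables rs cs b : ℝ) / (⌈ε⁻¹⌉₊ : ℕ) ≤ ε * numBoundedTables rs cs b := by
    rw [div_eq_mul_one_div, mul_comm]
    exact mul_le_mul_of_nonneg_right (inv_ceil_le hε) (Nat.cast_nonneg _)
  obtain ⟨h2, h3⟩ := abs_le.1 (hl.trans h1)
  constructor
  · have : (1 - (ε : ℝ)) * numBoundedTables rs cs b ≤
        cnt (gOf I, I, ⟨⌈ε⁻¹⌉₊⟩, ⟨δ.den.size⟩, l) := by linarith
    exact_mod_cast this
  · have : (cnt (gOf I, I, ⟨⌈ε⁻¹⌉₊⟩, ⟨δ.den.size⟩, l) : ℝ) ≤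
        (1 + (ε : ℝ)) * numBoundedTables rs cs b := by linarith
    exact_mod_cast this

end Crest.Agent.R309
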