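import Crest.Agent.R309.Iface
import Crest.Agent.R309.Feas
import Crest.Agent.R309.Tab
import Crest.Prelude.Def_Randomized

/-!
# R309: the almost uniform sampler for tables
-/

set_option linter.dupNamespace false

namespace Crest.Agent.R309

open Finset Crest.Agent.Lib.PT Crest.Enc Crest.FinProb Crest.Randomized Crest.Tables

namespace Fin80

/-- The instance. -/
def inst (x : List Bool) : Inst :=
  tabInst (parseMargins x).1.1 (parseMargins x).1.2
    (List.replicate ((parseMargins x).1.1.length * (parseMargins x).1.2.length)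
      (parseMargins x).1.1.sum)

/-- The accuracy parameter. -/
def acc (x : List Bool) : Un := ⟨(parseMargins x).2.length⟩

/-- The code of the output. -/
def code (x : List Bool) (y : List ℕ) : List Bool :=
  natCode (parseMargins x).1.1.length ++ natCode (parseMargins x).1.2.length ++
    (y.map natCode).flatten

attribute [local irreducible] parseMargins

theorem inst_pt : PT inst := by
  have := parseMargins_pt
  exact tabInst_pt this.fst.fst this.fst.snd (by fun_prop)

theorem acc_pt : PT acc := parseMargins_pt.snd.un_length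

theorem code_pt : PT fun p : List Bool × List ℕ => code p.1 p.2 := by
  have := parseMargins_pt
  unfold code
  fun_prop

variable {m n : ℕ} (rs : Fin m → ℕ) (cs : Fin n → ℕ)

theorem inst_code (r : List Bool) : inst (marginsCode rs cs ++ r) =
    tabInst (List.ofFn rs) (List.ofFn cs) (flat fun (_ : Fin m) (_ : Fin n) => ∑ i, rs i) := by
  unfold inst
  rw [parseMargins_code, flat_const, List.length_ofFn, List.length_ofFn, List.sum_ofFn]

theorem acc_code (r : List Bool) : acc (marginsCode rs cs ++ r) = ⟨r.length⟩ := by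
  unfold acc
  rw [parseMargins_code]

theorem code_code (r : List Bool) (y : List ℕ) : code (marginsCode rs cs ++ r) y =
    natCode m ++ natCode n ++ (y.map natCode).flatten := by
  unfold code
  rw [parseMargins_code, List.length_ofFn, List.length_ofFn]

theorem code_inj {y y' : List ℕ} (hl : y.length = y'.length)
    (h : (y.map natCode).flatten = (y'.map natCode).flatten) : y = y' := by
  have h1 := parseN_natCodes y []
  have h2 := parseN_natCodes y' []
  rw [h, hl, h2] at h1
  exact (Prod.mk.inj h1).1.symm

theorem sum_le {N : ℕ} (S : Finset (List ℕ)) (P : List ℕ → ℝ)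
    (w : (Fin m → Fin n → ℕ) → ℝ) (c : ℝ)
    (h0 : ∀ X : Fin m → Fin n → ℕ, flat X ∉ S → P (flat X) = 0 ∧ w X = 0)
    (h1 : ∀ X : Fin m → Fin n → ℕ, flat X ∈ S → w X = c) :
    ∑ X : Fin m → Fin n → Fin N, |P (flat fun i j => (X i j : ℕ)) - w fun i j => (X i j : ℕ)| ≤
      ∑ y ∈ S, |P y - c| := by
  classical
  rw [← Finset.sum_filter_of_ne (p := fun X : Fin m → Fin n → Fin N =>
    (flat fun i j => (X i j : ℕ)) ∈ S) fun X _ hne => by
      by_contra hX
      obtain ⟨a, b⟩ := h0 _ hX
      rw [a, b] at hne
      simp at hne]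
  rw [Finset.sum_congr rfl (g := fun X => |P (flat fun i j => (X i j : ℕ)) - c|)
    fun X hX => by rw [h1 _ (mem_filter.1 hX).2]]
  rw [← Finset.sum_image (f := fun y => |P y - c|)
    (g := fun X : Fin m → Fin n → Fin N => flat fun i j => (X i j : ℕ)) fun X _ Y _ h =>
      funext fun i => funext fun j => Fin.ext (congrFun (congrFun (flat_injective h) i) j)]
  refine Finset.sum_le_sum_of_subset_of_nonneg (fun y hy => ?_) fun _ _ _ => abs_nonneg _
  obtain ⟨X, hX, rfl⟩ := mem_image.1 hy
  exact (mem_filter.1 hX).2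

end Fin80

open Fin80 in
/-- Parse the margins (`parseMargins`; the rest has length `k`), let `N = rs.sum`,
`I = tabInst rs cs (replicate (m * n) N)` (`flat_const`), `G = gOf I`, `X0 = (feas I).getD []` (a solution, by `exists_table`,
`table_le`, `isSol_tab`), and output `natCode m ++ natCode n ++ ((smp (G, I, X0, k, tape)).map natCode).flatten`
(`matrixCode_eq`).  For a matrix `X`, the output is `matrixCode X` iff the sample is `flat X` (parse back, or
injectivity of the code); the terms of the sum at non-tables vanish, and `X ↦ flat X` maps the tables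
injectively into `Sols`, so the sum is at most the sum in `tv` (`card_tab`), which is even `≤ 2^{-k}`. -/
theorem fin80 {smp : Un × Inst × List ℕ × Un × List Bool → List ℕ} {e : ℕ}
    (h : SamplerSpec smp e) :
    ∃ (A : List Bool × List Bool → List Bool) (r : Polynomial ℕ), RandPolyTime A ∧
      ∀ (m n : ℕ) (rs : Fin m → ℕ) (cs : Fin n → ℕ) (k : ℕ), 1 ≤ k → ∑ i, rs i = ∑ j, cs j →
        (∀ ω : Fin (r.eval (marginsCode rs cs ++ List.replicate k true).length) → Bool,
          ∃ X : Fin m → Fin n → ℕ, IsTable rs cs X ∧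
            A (marginsCode rs cs ++ List.replicate k true, List.ofFn ω) = matrixCode X) ∧
        (∑ X : (i : Fin m) → (j : Fin n) → Fin (∑ i, rs i + 1),
            |uniformProb {ω : Fin (r.eval (marginsCode rs cs ++ List.replicate k true).length) → Bool |
                A (marginsCode rs cs ++ List.replicate k true, List.ofFn ω) =
                  matrixCode (fun i j => (X i j : ℕ))} -
              uniformTableWeight rs cs (fun i j => (X i j : ℕ))|) / 2
          ≤ (2 : ℝ)⁻¹ ^ k := by
  obtain ⟨feas, hf, hfeas⟩ := exists_feas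
  have hG : PT fun x => gOf (inst x) := gOf_pt inst_pt
  have hX : PT fun x => (feas (inst x)).getD [] := (hf.comp inst_pt).option_getD (PT.const _)
  obtain ⟨r, hr⟩ := exists_poly_of_PB
    (g := fun x => ((gOf (inst x)).n * ((acc x).n + 1)) ^ e)
    (((PB.un hG).mul ((PB.un acc_pt).add (PB.const 1))).pow e)
  have hS : PT fun p : List Bool × List Bool =>
      smp (gOf (inst p.1), inst p.1, (feas (inst p.1)).getD [], acc p.1, p.2) :=
    h.pt.comp ((hG.comp PT.id.fst).pair ((inst_pt.comp PT.id.fst).pair
      ((hX.comp PT.id.fst).pair ((acc_pt.comp PT.id.fst).pair PT.id.snd))))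
  have hA : PT fun p : List Bool × List Bool => code p.1
      (smp (gOf (inst p.1), inst p.1, (feas (inst p.1)).getD [], acc p.1, p.2)) :=
    code_pt.comp_eq _ (PT.id.fst.pair hS)
  refine ⟨_, r, PT.randPolyTime hA, fun m n rs cs k _ hsum => ?_⟩
  have hr' := hr (marginsCode rs cs ++ List.replicate k true)
  have e1 := inst_code rs cs (List.replicate k true)
  have e2 : acc (marginsCode rs cs ++ List.replicate k true) = ⟨k⟩ := by
    rw [acc_code, List.length_replicate]
  have e3 := code_code rs cs (List.replicate k true)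
  generalize marginsCode rs cs ++ List.replicate k true = x at hr' e1 e2 e3 ⊢
  simp only [e1, e2, e3] at hr' ⊢
  have hwf := tabInst_wf (List.ofFn rs) (List.ofFn cs)
    (flat fun (_ : Fin m) (_ : Fin n) => ∑ i, rs i)
  have hc := card_tab rs cs fun _ _ => ∑ i, rs i
  have hs := isSol_tab rs cs fun _ _ => ∑ i, rs i
  generalize tabInst (List.ofFn rs) (List.ofFn cs)
    (flat fun (_ : Fin m) (_ : Fin n) => ∑ i, rs i) = I at hr' hwf hc hs ⊢
  have h0 : I.IsSol ((feas I).getD []) := by
    rcases hI : feas I with _ | X0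
    · obtain ⟨X, hX⟩ := exists_table rs cs hsum
      exact absurd ((hs _).2 ⟨X, rfl, hX, table_le hX⟩) ((hfeas I hwf).2 hI _)
    · exact (hfeas I hwf).1 X0 hI
  generalize (feas I).getD [] = X0 at h0 ⊢
  refine ⟨fun ω => ?_, ?_⟩
  · obtain ⟨X, h1, h2, -⟩ := (hs _).1 (h.sol (gOf I) I X0 ⟨k⟩ (List.ofFn ω) h0)
    exact ⟨X, h2, by rw [h1, matrixCode_eq]⟩
  · have htv := h.tv (gOf I) I X0 ⟨k⟩ (fits_gOf hwf) h0 _ hr'
    have key : ∀ X : Fin m → Fin n → ℕ, uniformProb {ω : Fin (r.eval x.length) → Bool |
        natCode m ++ natCode n ++ ((smp (gOf I, I, X0, ⟨k⟩, List.ofFn ω)).map natCode).flatten =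
          matrixCode X} =
        Pr (r.eval x.length) fun l => smp (gOf I, I, X0, ⟨k⟩, l) = flat X := fun X => by
      rw [uniformProb_eq _ fun l => natCode m ++ natCode n ++
        ((smp (gOf I, I, X0, ⟨k⟩, l)).map natCode).flatten = matrixCode X]
      refine Pr_congr fun l _ => ?_
      rw [matrixCode_eq, List.append_cancel_left_eq]
      refine ⟨code_inj ?_, fun h => by rw [h]⟩
      obtain ⟨Y, h1, -⟩ := (hs _).1 (h.sol (gOf I) I X0 ⟨k⟩ l h0)
      rw [h1, length_flat, length_flat]
    simp only [key]
    have := sum_le (N := ∑ i, rs i + 1) I.Sols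
      (fun y => Pr (r.eval x.length) fun l => smp (gOf I, I, X0, ⟨k⟩, l) = y)
      (uniformTableWeight rs cs) (1 / I.Sols.card) (fun X hX => ?_) fun X hX => ?_
    · have h2 : (0 : ℝ) ≤ (1 / 2) ^ k := by positivity
      rw [← one_div]
      linarith
    · refine ⟨Pr_false fun l _ e => hX (e ▸ Inst.mem_Sols.2 (h.sol _ _ _ _ _ h0)), ?_⟩
      unfold uniformTableWeight
      exact if_neg fun hT => hX (Inst.mem_Sols.2 ((hs _).2 ⟨X, rfl, hT, table_le hT⟩))
    · obtain ⟨Y, h1, h2, -⟩ := (hs _).1 (Inst.mem_Sols.1 hX)
      obtain rfl := flat_injective h1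
      unfold uniformTableWeight
      rw [if_pos h2, hc]

end Crest.Agent.R309
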