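import Crest.Agent.R309.Exact
import Crest.Agent.R309.Feas
import Crest.Agent.R309.Tab

/-!
# R309: the exact sampler for tables
-/

set_option linter.dupNamespace false

namespace Crest.Agent.R309

open Finset Crest.Agent.Lib.PT Crest.Tables

/-- Apply `exists_exact` with `more l = (l.length < 2 + l.getD 0 0 + l.getD 1 0)` and
`pre l = (gOf I, I, (feas I).getD [])`, where `rs = (l.drop 2).take (l.getD 0 0)`, `cs = l.drop (2 + l.getD 0 0)`,
`I = tabInst rs cs (replicate (rs.length * cs.length) rs.sum)`.  With `S = m + n + clog 2 (N+2) + 1`, the input has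
`m + n + 2 ≤ S + 1` entries below `2 ^ S`, so `sz inp ≤ 20 S^2` (`sz_list_le`, `sz_nat_le_of_lt`); take
`c₀ = C = c * 20^d`, `c₁ = 2 d`.  Use `isSol_tab`, `card_tab`, `flat_const`, `exists_table`, `table_le`. -/
theorem fin81 (C : Core) :
    ∃ (P : Crest.WordRAM.Program) (c₀ c₁ C d : ℕ),
      ∀ (m n : ℕ) (rs : Fin m → ℕ) (cs : Fin n → ℕ), ∑ i, rs i = ∑ j, cs j →
        Crest.WordRAM.expectedTime P (c₀ * (m + n + Nat.clog 2 (∑ i, rs i + 2) + 1) ^ c₁)
            (m :: n :: (List.ofFn rs ++ List.ofFn cs))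
          ≤ ((C * (m + n + Nat.clog 2 (∑ i, rs i + 2) + 1) ^ d : ℕ) : ENNReal) ∧
        (∀ (ρ : ℕ → ℕ) (T : ℕ) (out : List ℕ),
          Crest.WordRAM.HaltsWithin P (c₀ * (m + n + Nat.clog 2 (∑ i, rs i + 2) + 1) ^ c₁) ρ
            (m :: n :: (List.ofFn rs ++ List.ofFn cs)) T out →
          ∃ X : Fin m → Fin n → ℕ, IsTable rs cs X ∧ out = (List.ofFn fun i => List.ofFn (X i)).flatten) ∧
        ∀ X : Fin m → Fin n → ℕ, IsTable rs cs X →
          Crest.WordRAM.probHaltsWith P (c₀ * (m + n + Nat.clog 2 (∑ i, rs i + 2) + 1) ^ c₁)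
              (m :: n :: (List.ofFn rs ++ List.ofFn cs))
              (fun out => out = (List.ofFn fun i => List.ofFn (X i)).flatten)
            = 1 / (numBoundedTables rs cs (fun _ _ => ∑ i, rs i) : ℝ) := by
  obtain ⟨feas, hf1, hf2⟩ := exists_feas
  let inst : List ℕ → Inst := fun l => tabInst ((l.drop 2).take (l.getD 0 0)) (l.drop (2 + l.getD 0 0))
    (List.replicate (((l.drop 2).take (l.getD 0 0)).length * (l.drop (2 + l.getD 0 0)).length)
      ((l.drop 2).take (l.getD 0 0)).sum)
  have hinst : PT inst := by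
    simp only [inst]
    fun_prop
  obtain ⟨P, c, d, h⟩ := C.exists_exact
    (more := fun l => decide (l.length < 2 + l.getD 0 0 + l.getD 1 0))
    (pre := fun l => (gOf (inst l), inst l, (feas (inst l)).getD [])) (by fun_prop)
    ((gOf_pt hinst).pair (hinst.pair ((hf1.comp hinst).option_getD (PT.const _))))
  refine ⟨P, c * 20 ^ d, 2 * d, c * 20 ^ d, 2 * d, fun m n rs cs hsum => ?_⟩
  set S := m + n + Nat.clog 2 (∑ i, rs i + 2) + 1 with hS
  set inp := m :: n :: (List.ofFn rs ++ List.ofFn cs) with hinp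
  have e1 : (inp.drop 2).take (inp.getD 0 0) = List.ofFn rs := by
    simp only [hinp, List.drop_succ_cons, List.drop_zero, List.getD_cons_zero]
    exact List.take_left' (List.length_ofFn ..)
  have e2 : inp.drop (2 + inp.getD 0 0) = List.ofFn cs := by
    rw [← List.drop_drop]
    simp only [hinp, List.drop_succ_cons, List.drop_zero, List.getD_cons_zero]
    exact List.drop_left' (List.length_ofFn ..)
  have e3 : inst inp = tabInst (List.ofFn rs) (List.ofFn cs)
      (flat fun (_ : Fin m) (_ : Fin n) => ∑ i, rs i) := by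
    simp only [inst, e1, e2, flat_const, List.length_ofFn, List.sum_ofFn]
  have hlen : inp.length = m + n + 2 := by simp [hinp]
  have hwf : (inst inp).WF := tabInst_wf _ _ _
  have hsol : ∀ y, (inst inp).IsSol y ↔ ∃ X : Fin m → Fin n → ℕ, IsTable rs cs X ∧ y = flat X := by
    intro y
    rw [e3, isSol_tab]
    exact exists_congr fun X => ⟨fun h => ⟨h.2.1, h.1⟩, fun h => ⟨h.2, h.1, table_le h.1⟩⟩
  have h0 : (inst inp).IsSol ((feas (inst inp)).getD []) := by
    cases e : feas (inst inp) with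
    | none =>
      obtain ⟨X, hX⟩ := exists_table rs cs hsum
      exact absurd ((hsol _).2 ⟨X, hX, rfl⟩) ((hf2 _ hwf).2 e _)
    | some X => exact (hf2 _ hwf).1 X e
  have hsz : sz inp ≤ 20 * S ^ 2 := by
    have g1 : ∑ i, rs i + 2 ≤ 2 ^ Nat.clog 2 (∑ i, rs i + 2) := Nat.le_pow_clog (by norm_num) _
    have g2 : 2 ^ Nat.clog 2 (∑ i, rs i + 2) ≤ 2 ^ S := Nat.pow_le_pow_right (by norm_num) (by omega)
    have g3 : S < 2 ^ S := Nat.lt_two_pow_self
    have g4 : ∀ a ∈ inp, sz a ≤ 4 * S + 1 := by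
      intro a ha
      refine sz_nat_le_of_lt ?_
      simp only [hinp, List.mem_cons, List.mem_append, List.mem_ofFn] at ha
      rcases ha with rfl | rfl | ⟨i, rfl⟩ | ⟨j, rfl⟩
      · omega
      · omega
      · have := Finset.single_le_sum (f := rs) (fun _ _ => Nat.zero_le _) (mem_univ i)
        omega
      · have := Finset.single_le_sum (f := cs) (fun _ _ => Nat.zero_le _) (mem_univ j)
        omega
    have g5 := sz_list_le g4
    have g6 : inp.length ≤ S + 1 := by omega
    have g7 := Nat.mul_le_mul_right (4 * S + 1 + 1) g6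
    have g8 : 1 ≤ S := by omega
    nlinarith
  have hw : c * sz inp ^ d ≤ c * 20 ^ d * S ^ (2 * d) := by
    rw [mul_assoc, pow_mul, ← mul_pow]
    exact Nat.mul_le_mul_left _ (Nat.pow_le_pow_left hsz _)
  obtain ⟨t1, t2, t3⟩ := h inp _ (fun k hk => by
      rw [decide_eq_true_eq, List.length_take]
      rcases Nat.lt_or_ge k 2 with h2 | h2
      · omega
      · obtain ⟨k, rfl⟩ := Nat.exists_eq_add_of_le' h2
        simp only [hinp, List.take_succ_cons, List.getD_cons_zero, List.getD_cons_succ]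
        omega)
    (by
      rw [decide_eq_false_iff_not, hlen]
      simp only [hinp, List.getD_cons_zero, List.getD_cons_succ]
      omega)
    (fits_gOf hwf) h0 hw
  refine ⟨t1.trans (Nat.cast_le.2 hw), fun ρ T out ho => (hsol out).1 (t2 ρ T out ho),
    fun X hX => ?_⟩
  have := t3 (flat X) ((hsol _).2 ⟨X, hX, rfl⟩)
  simp only [e3, card_tab] at this
  exact this

end Crest.Agent.R309
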