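import Crest.Agent.R309.Tape

/-!
# R309: bounded flows with prescribed divergence (definitions)

An instance is a list of arcs ("cells") `(p, q, b)` and a list of demands `d`.  A solution assigns to
each cell `u` a number `X u ≤ b u` such that at each vertex `v` the outflow minus the inflow is `d v`.
Contingency tables are the case where the arcs go from rows to columns.
-/

set_option linter.dupNamespace false

namespace Crest.Agent.R309

open Finset Crest.Agent.Lib.PT

/-- Arcs `(tail, head, bound)` and demands. -/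
abbrev Inst : Type := List (ℕ × ℕ × ℕ) × List ℤ

namespace Inst

variable (I : Inst)

/-- Number of cells. -/
def nc : ℕ := I.1.length
/-- Number of vertices. -/
def nv : ℕ := I.2.length
/-- Tail of a cell. -/
def p (u : ℕ) : ℕ := (I.1.getD u (0, 0, 0)).1
/-- Head of a cell. -/
def q (u : ℕ) : ℕ := (I.1.getD u (0, 0, 0)).2.1
/-- Bound of a cell. -/
def b (u : ℕ) : ℕ := (I.1.getD u (0, 0, 0)).2.2
/-- Demand of a vertex. -/
def d (v : ℕ) : ℤ := I.2.getD v 0

/-- Outflow minus inflow. -/
def div (X : ℕ → ℤ) (v : ℕ) : ℤ :=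
  ∑ u ∈ range I.nc, ((if I.p u = v then X u else 0) - (if I.q u = v then X u else 0))

/-- The ends of all cells are vertices. -/
def WF : Prop := ∀ u < I.nc, I.p u < I.nv ∧ I.q u < I.nv

/-- Solutions. -/
def IsSol (X : List ℕ) : Prop :=
  X.length = I.nc ∧ (∀ u < I.nc, X.getD u 0 ≤ I.b u) ∧
    ∀ v < I.nv, I.div (fun u => (X.getD u 0 : ℤ)) v = I.d v

instance : DecidablePred I.IsSol := fun X => by unfold IsSol; infer_instance

/-- The finite set of solutions. -/
def Sols : Finset (List ℕ) :=
  ((Fintype.piFinset fun u : Fin I.nc => range (I.b u + 1)).image List.ofFn).filter I.IsSol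

theorem mem_Sols {I : Inst} {X : List ℕ} : X ∈ I.Sols ↔ I.IsSol X := by
  simp only [Sols, mem_filter, mem_image, Fintype.mem_piFinset, mem_range, and_iff_right_iff_imp]
  rintro ⟨h1, h2, -⟩
  refine ⟨fun u => X.getD u 0, fun u => Nat.lt_succ_of_le (h2 u u.2), ?_⟩
  apply List.ext_getElem (by simp [h1])
  intro i h h'
  simp [List.getD_eq_getElem?_getD, List.getElem?_eq_getElem h']

theorem div_congr {I : Inst} {X Y : ℕ → ℤ} (h : ∀ u < I.nc, X u = Y u) (v : ℕ) :
    I.div X v = I.div Y v :=
  Finset.sum_congr rfl fun u hu => by rw [h u (mem_range.1 hu)]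

theorem div_add (X Y : ℕ → ℤ) (v : ℕ) :
    I.div (fun u => X u + Y u) v = I.div X v + I.div Y v := by
  simp only [div, ← Finset.sum_add_distrib]
  exact Finset.sum_congr rfl fun u _ => by split_ifs <;> ring

theorem div_sub (X Y : ℕ → ℤ) (v : ℕ) :
    I.div (fun u => X u - Y u) v = I.div X v - I.div Y v := by
  simp only [div, ← Finset.sum_sub_distrib]
  exact Finset.sum_congr rfl fun u _ => by split_ifs <;> ring

theorem div_mul (c : ℤ) (X : ℕ → ℤ) (v : ℕ) : I.div (fun u => c * X u) v = c * I.div X v := by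
  simp only [div, Finset.mul_sum]
  exact Finset.sum_congr rfl fun u _ => by split_ifs <;> ring

/-- The divergence summed over a set of vertices. -/
theorem sum_div {I : Inst} (h : I.WF) (X : ℕ → ℤ) (A : ℕ → Prop) [DecidablePred A] :
    ∑ v ∈ range I.nv, (if A v then I.div X v else 0) =
      ∑ u ∈ range I.nc, ((if A (I.p u) then X u else 0) - (if A (I.q u) then X u else 0)) := by
  have : ∀ v, (if A v then I.div X v else 0) = ∑ u ∈ range I.nc,
      ((if I.p u = v then (if A (I.p u) then X u else 0) else 0) -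
        (if I.q u = v then (if A (I.q u) then X u else 0) else 0)) := fun v => by
    by_cases hv : A v
    · rw [if_pos hv]
      exact Finset.sum_congr rfl fun u _ => by
        congr 1 <;> split_ifs <;> simp_all
    · rw [if_neg hv]
      exact (Finset.sum_eq_zero fun u _ => by split_ifs <;> simp_all).symm
  simp only [this]
  rw [Finset.sum_comm]
  refine Finset.sum_congr rfl fun u hu => ?_
  obtain ⟨h1, h2⟩ := h u (mem_range.1 hu)
  simp [Finset.sum_sub_distrib, h1, h2]

section pt

variable {α : Type} [Enc α] {I : α → Inst} {u : α → ℕ}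

@[fun_prop] theorem nc_pt (hI : PT I) : PT fun a => (I a).nc := by unfold nc; fun_prop
@[fun_prop] theorem nv_pt (hI : PT I) : PT fun a => (I a).nv := by unfold nv; fun_prop
@[fun_prop] theorem nc_pb (hI : PT I) : PB fun a => (I a).nc := by unfold nc; fun_prop
@[fun_prop] theorem nv_pb (hI : PT I) : PB fun a => (I a).nv := by unfold nv; fun_prop
@[fun_prop] theorem p_pt (hI : PT I) (hu : PT u) : PT fun a => (I a).p (u a) := by
  unfold p; fun_prop
@[fun_prop] theorem q_pt (hI : PT I) (hu : PT u) : PT fun a => (I a).q (u a) := by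
  unfold q; fun_prop
@[fun_prop] theorem b_pt (hI : PT I) (hu : PT u) : PT fun a => (I a).b (u a) := by
  unfold b; fun_prop
@[fun_prop] theorem d_pt (hI : PT I) (hu : PT u) : PT fun a => (I a).d (u a) := by
  unfold d; fun_prop

@[fun_prop] theorem div_pt {X : α → ℕ → ℤ} (hI : PT I) (hX : PT fun p : α × ℕ => X p.1 p.2)
    (hu : PT u) : PT fun a => (I a).div (X a) (u a) := by
  unfold div; fun_prop

@[fun_prop] theorem isSol_pt {X : α → List ℕ} (hI : PT I) (hX : PT X) :
    PT fun a => (I a).IsSol (X a) := by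
  unfold IsSol
  exact PT.and (by fun_prop) (PT.and (PT.ball_lt (by fun_prop) (by fun_prop) (by fun_prop))
    (PT.ball_lt (by fun_prop) (by fun_prop) (by fun_prop)))

end pt

end Inst

/-- The size parameter `G` fits the instance. -/
structure Fits (G : ℕ) (I : Inst) : Prop where
  wf : I.WF
  pow : G = 2 ^ Nat.log 2 G
  ten : 10 ≤ Nat.log 2 G
  nv : I.nv ≤ G
  nc : I.nc ≤ G
  b : ∀ u < I.nc, I.b u < 2 ^ G

/-- `D v` is a unit flow along a simple path from a source to `v`, for every reachable `v`.  The path may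
use the cell `u` forwards if `fw u` and backwards if `bw u`. -/
structure ReachSpec (I : Inst) (fw bw src : List Bool) (D : List (Option (List ℤ))) : Prop where
  src_mem : ∀ v < I.nv, src.getD v false = true → (D.getD v none).isSome = true
  path : ∀ v < I.nv, ∀ f, D.getD v none = some f → f.length = I.nc ∧
    (∀ u < I.nc, f.getD u 0 = 0 ∨ (f.getD u 0 = 1 ∧ fw.getD u false = true) ∨
      (f.getD u 0 = -1 ∧ bw.getD u false = true)) ∧
    ∃ s < I.nv, src.getD s false = true ∧ ∀ x < I.nv,
      I.div (fun u => f.getD u 0) x = (if x = s then 1 else 0) - (if x = v then 1 else 0)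
  fw_closed : ∀ u < I.nc, fw.getD u false = true → (D.getD (I.p u) none).isSome = true →
    (D.getD (I.q u) none).isSome = true
  bw_closed : ∀ u < I.nc, bw.getD u false = true → (D.getD (I.q u) none).isSome = true →
    (D.getD (I.p u) none).isSome = true

/-- `w u` is the width of the cell `u` around the solution `X0`, up to a polynomial factor. -/
def WidthSpec (I : Inst) (X0 w : List ℕ) : Prop :=
  ∀ u < I.nc, (w.getD u 0 = 0 ∨ ∃ j, w.getD u 0 = 2 ^ j) ∧
    (∃ X, I.IsSol X ∧ |(X.getD u 0 : ℤ) - X0.getD u 0| = w.getD u 0) ∧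
    ∀ X, I.IsSol X → |(X.getD u 0 : ℤ) - X0.getD u 0| ≤ 2 * I.nc * w.getD u 0

/-- A rooted maximum spanning forest of the cells of width at least `L`: `pc v` is the cell joining
`v` to its parent, `an v` lists the ancestors of `v` (including `v`). -/
structure TreeSpec (I : Inst) (w : List ℕ) (L : ℕ) (pc : List (Option ℕ)) (an : List (List ℕ)) :
    Prop where
  len : pc.length = I.nv
  refl : ∀ v < I.nv, v ∈ an.getD v []
  lt : ∀ v < I.nv, ∀ r ∈ an.getD v [], r < I.nv
  trans : ∀ v < I.nv, ∀ r ∈ an.getD v [], ∀ r' ∈ an.getD r [], r' ∈ an.getD v []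
  antisymm : ∀ v < I.nv, ∀ r ∈ an.getD v [], v ∈ an.getD r [] → r = v
  chain : ∀ v < I.nv, ∀ r ∈ an.getD v [], ∀ r' ∈ an.getD v [],
    r' ∈ an.getD r [] ∨ r ∈ an.getD r' []
  root : ∀ v < I.nv, pc.getD v none = none → ∀ r ∈ an.getD v [], r = v
  par : ∀ v < I.nv, ∀ e, pc.getD v none = some e → e < I.nc ∧ L ≤ w.getD e 0 ∧
    ∃ o, ((I.p e = v ∧ I.q e = o) ∨ (I.q e = v ∧ I.p e = o)) ∧ v ∉ an.getD o [] ∧
      ∀ r, r ∈ an.getD v [] ↔ r = v ∨ r ∈ an.getD o []
  cut : ∀ u < I.nc, L ≤ w.getD u 0 → ∀ r, ¬ (r ∈ an.getD (I.p u) [] ↔ r ∈ an.getD (I.q u) []) →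
    ∃ e, pc.getD r none = some e ∧ w.getD u 0 ≤ w.getD e 0

end Crest.Agent.R309
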