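import Crest.Agent.R309.LamOf
import Crest.Agent.R309.Chain
import Crest.Agent.R309.Coarse
import Crest.Agent.R309.Mix

/-!
# R309: the chain mixes in polynomial time
-/

set_option linter.dupNamespace false

namespace Crest.Agent.R309

open Finset Crest.Agent.Lib.PT

namespace Dat

variable {D : Dat} {φ : List ℤ}

private theorem gap_dir (h : D.Good) (hφ : D.Adm φ) {ρ : ℕ} (hρ : D.G ^ 37 ≤ ρ) (f : ℕ → ℝ)
    (u : Fin D.I.nc) :
    dir 0 D.hiC (fun a => D.wb φ (D.enc a)) u (fun a => f (D.enc a)) =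
      ∑ x ∈ D.Om, if D.dg x u + 1 < D.M u then 4 * (D.G : ℝ) *
        (D.wb φ x * Pr ρ (fun ω => D.step φ x ω = x + D.pw u) * (f x - f (x + D.pw u)) ^ 2)
      else 0 := by
  have hG := h.G_geR
  rw [h.sum_Om, dir, sum_filter]
  refine sum_congr rfl fun a ha => ?_
  have h1 := h.dg_enc ha u
  have h2 : a u < D.hiC u ↔ D.dg (D.enc a) u + 1 < D.M u := by
    unfold hiC; omega
  by_cases hd : D.dg (D.enc a) u + 1 < D.M u
  · rw [if_pos hd, if_pos (h2.2 hd), (h.step_up hφ hρ (h.enc_mem ha) u.2 hd).1,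
      enc_add u (by omega)]
    field_simp
    ring
  · rw [if_neg hd, if_neg fun h' => hd (h2.1 h')]

private theorem gap_sum (h : D.Good) {x : ℕ} (hx : x ∈ D.Om) (T : ℕ → ℝ) (hT : ∀ y, 0 ≤ T y) :
    ∑ u : Fin D.I.nc, (if D.dg x u + 1 < D.M u then T (x + D.pw u) else 0) ≤ ∑ y ∈ D.Om, T y := by
  rw [← sum_filter, ← sum_image (g := fun u : Fin D.I.nc => x + D.pw u)]
  · refine sum_le_sum_of_subset_of_nonneg (fun y hy => ?_) fun y _ _ => hT y
    obtain ⟨u, hu, rfl⟩ := mem_image.1 hy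
    exact (h.up_mem hx u.2 (mem_filter.1 hu).2).1
  · intro u _ u' _ e
    simp only [add_right_inj, h.pw_eq u.2, h.pw_eq u'.2] at e
    have hG := h.G_ge
    have : 2 ≤ D.G ^ 12 := le_trans (by omega) (Nat.le_self_pow (by norm_num) D.G)
    exact Fin.ext (Nat.pow_right_injective this e)

/-- `coarsen` (with `A = 2`, `πb a = wb φ (enc a)`, `lam u = G^43 (s u M u)^2`, `IsLam.poincare`, `IsLam.cmp`) applied to
`F a = f (enc a)` gives the constant `32 (G^43 (M u)^2 + nc) ≤ G^68`.  By `sum_Om`, `enc_add`, `dg_enc` and `step_up`,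
`∑_u dir u F = 4 G ∑_u ∑_{x ∈ Om, dg x u + 1 < M u} wb x * Pr (step x = x + pw u) (f x - f (x + pw u))^2`, and for fixed `x` the
states `x + pw u` are distinct elements of `Om`, so this is at most `4 G` times the double sum; `8 G * G^68 ≤ G^70`. -/
theorem Good.gap (h : D.Good) (hφ : D.Adm φ) {ρ : ℕ} (hρ : D.G ^ 37 ≤ ρ) (f : ℕ → ℝ) :
    ∃ c : ℝ, ∑ x ∈ D.Om, D.wb φ x * (f x - c) ^ 2 ≤ (D.G : ℝ) ^ 70 / 2 *
      ∑ x ∈ D.Om, ∑ y ∈ D.Om, D.wb φ x * Pr ρ (fun ω => D.step φ x ω = y) * (f x - f y) ^ 2 := by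
  obtain ⟨m, hm⟩ := h.exists_lam φ
  have hG := h.G_geR
  obtain ⟨c, hc⟩ := coarsen D.loF (fun u => D.s u) (fun u => D.M u) (fun u => s_pos u)
    (fun u => M_pos u) m.wt (fun a => D.wb φ (D.enc a)) 2 (by norm_num)
    (fun u => (D.G : ℝ) ^ 43 * ((D.s u : ℝ) * D.M u) ^ 2) (fun u => by positivity)
    (fun σ => (m.wt_pos σ).le) (fun a => (h.wb_pos _ _).le)
    (fun σ hσ a ha hc => hm.cmp h hσ ha hc) (fun f => hm.poincare h f) (fun a => f (D.enc a))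
  refine ⟨c, ?_⟩
  rw [h.sum_Om]
  refine hc.trans ?_
  set T : ℕ → ℕ → ℝ := fun x y =>
    D.wb φ x * Pr ρ (fun ω => D.step φ x ω = y) * (f x - f y) ^ 2 with hT
  have hT0 : ∀ x y, 0 ≤ T x y := fun x y =>
    mul_nonneg (mul_nonneg (h.wb_pos _ _).le (Pr_nonneg _ _)) (sq_nonneg _)
  have hS : 0 ≤ ∑ x ∈ D.Om, ∑ y ∈ D.Om, T x y :=
    sum_nonneg fun x _ => sum_nonneg fun y _ => hT0 x y
  calc _ ≤ ∑ u : Fin D.I.nc, (D.G : ℝ) ^ 68 * ∑ x ∈ D.Om,
          if D.dg x u + 1 < D.M u then 4 * (D.G : ℝ) * T x (x + D.pw u) else 0 := by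
        refine sum_le_sum fun u _ => ?_
        have e := gap_dir h hφ hρ f u
        refine le_of_eq_of_le (congrArg _ e) (mul_le_mul_of_nonneg_right ?_
          (sum_nonneg fun x _ => ?_))
        · have hs : (0 : ℝ) < D.s u := by exact_mod_cast s_pos u
          have hM : (D.M u : ℝ) ≤ (D.G : ℝ) ^ 12 := by exact_mod_cast h.M_le u.2
          have hn : (Fintype.card (Fin D.I.nc) : ℝ) ≤ D.G := by
            rw [Fintype.card_fin]; exact_mod_cast h.nc_le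
          have e1 : (D.G : ℝ) ^ 43 * ((D.s u : ℝ) * D.M u) ^ 2 / (D.s u : ℝ) ^ 2 =
              (D.G : ℝ) ^ 43 * (D.M u : ℝ) ^ 2 := by field_simp
          have e2 : (D.G : ℝ) ^ 43 * (D.M u : ℝ) ^ 2 ≤ (D.G : ℝ) ^ 67 := by
            calc _ ≤ (D.G : ℝ) ^ 43 * ((D.G : ℝ) ^ 12) ^ 2 := by gcongr
              _ = _ := by ring
          have e3 : (D.G : ℝ) ≤ (D.G : ℝ) ^ 67 := le_self_pow₀ (by linarith) (by norm_num)
          have e4 : (D.G : ℝ) ^ 68 = D.G * (D.G : ℝ) ^ 67 := by ring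
          have e5 : (0 : ℝ) ≤ (D.G : ℝ) ^ 67 := by positivity
          rw [e1, e4]
          nlinarith
        · split_ifs
          · exact mul_nonneg (by positivity) (hT0 _ _)
          · exact le_rfl
    _ ≤ (D.G : ℝ) ^ 68 * (4 * (D.G : ℝ) * ∑ x ∈ D.Om, ∑ y ∈ D.Om, T x y) := by
        rw [← mul_sum, sum_comm]
        refine mul_le_mul_of_nonneg_left ?_ (by positivity)
        rw [mul_sum]
        refine sum_le_sum fun x hx => ?_
        rw [mul_sum]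
        exact gap_sum h hx (fun y => 4 * (D.G : ℝ) * T x y)
          fun y => mul_nonneg (by positivity) (hT0 _ _)
    _ ≤ _ := by
        rw [← mul_assoc]
        refine mul_le_mul_of_nonneg_right ?_ hS
        have e4 : (D.G : ℝ) ^ 70 = D.G * (D.G : ℝ) ^ 69 := by ring
        have e6 : (D.G : ℝ) ^ 68 * (4 * (D.G : ℝ)) = 4 * (D.G : ℝ) ^ 69 := by ring
        have e5 : (0 : ℝ) ≤ (D.G : ℝ) ^ 69 := by positivity
        rw [e4, e6]
        nlinarith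

/-- `mix` with `Γ = G^70`, `Λ = G^22`: by `En_range`, `wb y ≤ exp (ell * 2 G^48) wb x ≤ exp (4 G^21) wb x`, and
`card Om ≤ 2^{G^3} ≤ exp (G^3)`. -/
theorem Good.mixing (h : D.Good) (hφ : D.Adm φ) {ρ : ℕ} (hρ : D.G ^ 37 ≤ ρ) {K t : ℕ}
    (ht : D.G ^ 99 * (K + 1) ≤ t) {y : ℕ} (hy : y ∈ D.Om) :
    |Pr (t * ρ) (fun l => iter (D.step φ) ρ t 0 l = y) - D.wb φ y / D.Zb φ| ≤
      (1 / 2) ^ K * (D.wb φ y / D.Zb φ) := by
  have hG := h.G_geR
  have hG1 : (1 : ℝ) ≤ D.G := by linarith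
  refine mix D.Om (D.step φ) ρ (D.wb φ) ((D.G : ℝ) ^ 70) ((D.G : ℝ) ^ 22) (one_le_pow₀ hG1)
    (fun x _ => h.wb_pos φ x) (fun x hx ω _ => h.step_mem hx ω) (fun x hx => h.step_lazy hρ hx)
    (fun x hx y hy => h.step_rev hφ hρ hx hy) (h.gap hφ hρ) (fun x hx => ?_) K t ?_ 0 h.zero_mem
    y hy
  · have h1 : ∀ z ∈ D.Om, D.wb φ z ≤ Real.exp (4 * (D.G : ℝ) ^ 21) * D.wb φ x := by
      intro z hz
      rw [h.wb_eq, h.wb_eq, ← Real.exp_add, Real.exp_le_exp]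
      have e1 := abs_le.1 (h.En_range hφ hx)
      have e2 := abs_le.1 (h.En_range hφ hz)
      have e3 : D.En φ (D.cor x) - D.En φ (D.cor z) ≤ 2 * (D.G : ℤ) ^ 48 := by linarith
      have e4 : (D.En φ (D.cor x) : ℝ) - D.En φ (D.cor z) ≤ 2 * (D.G : ℝ) ^ 48 := by
        exact_mod_cast e3
      have e5 := mul_le_mul_of_nonneg_left e4 h.ell_pos.le
      have e6 : D.ell * (2 * (D.G : ℝ) ^ 48) ≤ 4 * (D.G : ℝ) ^ 21 := by
        calc _ ≤ 2 / (D.G : ℝ) ^ 27 * (2 * (D.G : ℝ) ^ 48) :=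
              mul_le_mul_of_nonneg_right h.ell_ub (by positivity)
          _ = _ := by field_simp; norm_num
      linarith
    have h2 : (D.Om.card : ℝ) ≤ Real.exp ((D.G : ℝ) ^ 3) := by
      calc (D.Om.card : ℝ) ≤ (2 : ℝ) ^ D.G ^ 3 := by exact_mod_cast h.card_le
        _ ≤ Real.exp 1 ^ D.G ^ 3 :=
            pow_le_pow_left₀ (by norm_num) (by linarith [Real.add_one_le_exp (1 : ℝ)]) _
        _ = _ := by rw [← Real.exp_nat_mul]; simp
    calc ∑ z ∈ D.Om, D.wb φ z ≤ D.Om.card • (Real.exp (4 * (D.G : ℝ) ^ 21) * D.wb φ x) :=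
          sum_le_card_nsmul _ _ _ h1
      _ ≤ Real.exp ((D.G : ℝ) ^ 3) * (Real.exp (4 * (D.G : ℝ) ^ 21) * D.wb φ x) := by
          rw [nsmul_eq_mul]
          exact mul_le_mul_of_nonneg_right h2 (mul_pos (Real.exp_pos _) (h.wb_pos _ _)).le
      _ ≤ _ := by
          rw [← mul_assoc, ← Real.exp_add]
          refine mul_le_mul_of_nonneg_right (Real.exp_le_exp.2 ?_) (h.wb_pos _ _).le
          have e1 : (D.G : ℝ) ^ 3 ≤ (D.G : ℝ) ^ 21 := pow_le_pow_right₀ hG1 (by norm_num)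
          have e2 : (D.G : ℝ) ^ 22 = D.G * (D.G : ℝ) ^ 21 := by ring
          have e3 : (0 : ℝ) ≤ (D.G : ℝ) ^ 21 := by positivity
          rw [e2]
          nlinarith
  · have ht' : (D.G : ℝ) ^ 99 * (K + 1) ≤ t := by exact_mod_cast ht
    refine le_trans ?_ ht'
    have e1 : (D.G : ℝ) ^ 99 * (K + 1) = (D.G : ℝ) ^ 70 * ((D.G : ℝ) ^ 29 + (D.G : ℝ) ^ 29 * K) := by
      ring
    rw [e1]
    refine mul_le_mul_of_nonneg_left (add_le_add ?_ ?_) (by positivity)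
    · have e2 : (D.G : ℝ) ^ 23 ≤ (D.G : ℝ) ^ 29 := pow_le_pow_right₀ hG1 (by norm_num)
      have e3 : (D.G : ℝ) ^ 23 = D.G * (D.G : ℝ) ^ 22 := by ring
      have e4 : (0 : ℝ) ≤ (D.G : ℝ) ^ 22 := by positivity
      nlinarith
    · refine mul_le_mul_of_nonneg_right ?_ (Nat.cast_nonneg K)
      exact le_trans (by linarith) (le_self_pow₀ hG1 (by norm_num))

end Dat

end Crest.Agent.R309
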