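import Crest.Agent.R309.Model

/-!
# R309: summation by parts on boxes, and the Poisson equation
-/

set_option linter.dupNamespace false
set_option linter.unusedSectionVars false

namespace Crest.Agent.R309

open Finset

variable {U T : Type} [Fintype U] [DecidableEq U] [Fintype T] [DecidableEq T]

/-- Sums over elements. -/
theorem sum_El (f : El U T → ℝ) :
    ∑ a, f a = ∑ u, (f (eX u) + f (eY u)) + ∑ t, f (Sum.inr t) := by
  rw [Fintype.sum_sum_type, Fintype.sum_prod_type]
  simp only [Fintype.sum_bool]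

theorem green_add_mem {lo hi : U → ℤ} {S : Finset U} {ρ I : U → ℤ} {u : U} (hu : u ∈ S)
    (hI : I ∈ boxS lo hi S ρ) (h : I u < hi u) : I + dl u ∈ boxS lo hi S ρ := by
  rw [mem_boxS] at hI ⊢
  intro v
  by_cases hv : v = u
  · subst hv
    have := (hI v).1 hu
    refine ⟨fun _ => ?_, fun h' => absurd hu h'⟩
    simp only [Pi.add_apply, dl_self]
    omega
  · simpa [dl_ne hv] using hI v

theorem green_sub_mem {lo hi : U → ℤ} {S : Finset U} {ρ I : U → ℤ} {u : U} (hu : u ∈ S)
    (hI : I ∈ boxS lo hi S ρ) (h : lo u < I u) : I - dl u ∈ boxS lo hi S ρ := by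
  rw [mem_boxS] at hI ⊢
  intro v
  by_cases hv : v = u
  · subst hv
    have := (hI v).1 hu
    refine ⟨fun _ => ?_, fun h' => absurd hu h'⟩
    simp only [Pi.sub_apply, dl_self]
    omega
  · simpa [dl_ne hv] using hI v

/-- Shifting a sum over a box in a free direction `u`: the map `I ↦ I + e_u` is a bijection from
`{I ∈ box | I u < hi u}` onto `{I ∈ box | lo u < I u}`. -/
theorem sum_shift {lo hi : U → ℤ} {S : Finset U} {ρ : U → ℤ} {u : U} (hu : u ∈ S)
    (h h' : (U → ℤ) → ℝ) (h1 : ∀ I ∈ boxS lo hi S ρ, I u = hi u → h I = 0)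
    (h2 : ∀ I ∈ boxS lo hi S ρ, I u = lo u → h' I = 0)
    (h3 : ∀ I ∈ boxS lo hi S ρ, I u < hi u → h I = h' (I + dl u)) :
    ∑ I ∈ boxS lo hi S ρ, h I = ∑ I ∈ boxS lo hi S ρ, h' I := by
  rw [← sum_filter_of_ne (p := fun I => I u < hi u) (s := boxS lo hi S ρ) (f := h),
    ← sum_filter_of_ne (p := fun I => lo u < I u) (s := boxS lo hi S ρ) (f := h')]
  · refine sum_nbij' (fun I => I + dl u) (fun I => I - dl u) ?_ ?_ ?_ ?_ ?_
    · intro I hI
      obtain ⟨hI, hlt⟩ := mem_filter.1 hI
      refine mem_filter.2 ⟨green_add_mem hu hI hlt, ?_⟩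
      have := ((mem_boxS.1 hI) u).1 hu
      simp only [Pi.add_apply, dl_self]; omega
    · intro I hI
      obtain ⟨hI, hlt⟩ := mem_filter.1 hI
      refine mem_filter.2 ⟨green_sub_mem hu hI hlt, ?_⟩
      have := ((mem_boxS.1 hI) u).1 hu
      simp only [Pi.sub_apply, dl_self]; omega
    · intro I _; simp
    · intro I _; simp
    · intro I hI
      obtain ⟨hI, hlt⟩ := mem_filter.1 hI
      exact h3 I hI hlt
  · intro I hI hne
    have := ((mem_boxS.1 hI) u).1 hu
    rcases this.1.eq_or_lt with h | h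
    · exact absurd (h2 I hI h.symm) hne
    · exact h
  · intro I hI hne
    have := ((mem_boxS.1 hI) u).1 hu
    rcases this.2.eq_or_lt with h | h
    · exact absurd (h1 I hI h) hne
    · exact h

/-- Slicing a box along a free cell. -/
theorem sum_slice {lo hi : U → ℤ} {S : Finset U} {ρ : U → ℤ} {v : U} (hv : v ∈ S)
    (h : (U → ℤ) → ℝ) :
    ∑ I ∈ boxS lo hi S ρ, h I =
      ∑ i ∈ Icc (lo v) (hi v), ∑ I ∈ boxS lo hi (S.erase v) (Function.update ρ v i), h I := by
  rw [← sum_fiberwise_of_maps_to (s := boxS lo hi S ρ) (t := Icc (lo v) (hi v))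
    (g := fun I => I v) (fun I hI => mem_Icc.2 (((mem_boxS.1 hI) v).1 hv))]
  refine sum_congr rfl fun i hi' => sum_congr ?_ fun _ _ => rfl
  ext I
  rw [mem_filter, mem_boxS, mem_boxS]
  have hi2 := mem_Icc.1 hi'
  constructor
  · rintro ⟨hI, rfl⟩ w
    by_cases hw : w = v
    · subst hw; simp
    · simpa [hw, Function.update_of_ne hw] using hI w
  · intro hI
    have hv' : I v = i := by simpa using (hI v).2
    refine ⟨fun w => ?_, hv'⟩
    by_cases hw : w = v
    · subst hw
      exact ⟨fun _ => hv' ▸ hi2, fun h => absurd hv h⟩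
    · simpa [hw, Function.update_of_ne hw] using hI w

/-- Moving the pinned value of a pinned cell by one. -/
theorem sum_repin {lo hi : U → ℤ} {S : Finset U} {ρ : U → ℤ} {v : U} (hv : v ∉ S) (i : ℤ)
    (h : (U → ℤ) → ℝ) :
    ∑ I ∈ boxS lo hi S (Function.update ρ v (i + 1)), h I =
      ∑ I ∈ boxS lo hi S (Function.update ρ v i), h (I + dl v) := by
  symm
  refine sum_nbij' (fun I => I + dl v) (fun I => I - dl v) ?_ ?_ ?_ ?_ ?_
  · intro I hI
    rw [mem_boxS] at hI ⊢
    intro w
    by_cases hw : w = v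
    · subst hw
      have := (hI w).2 hv
      simp only [Function.update_self] at this
      simp [hv, this]
    · simpa [dl_ne hw, Function.update_of_ne hw] using hI w
  · intro I hI
    rw [mem_boxS] at hI ⊢
    intro w
    by_cases hw : w = v
    · subst hw
      have := (hI w).2 hv
      simp only [Function.update_self] at this
      simp [hv, this]
    · simpa [dl_ne hw, Function.update_of_ne hw] using hI w
  · intro I _; simp
  · intro I _; simp
  · intro I _; rfl

/-- Green's formula.  The gradient is taken in the directions of `S ⊆ S'`.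
Proof: by `sum_El` the inner sum is `∑ u ∈ S` of an `eX u` term and an `eY u` term.  Shift the
`eY u` term with `sum_shift` (`diag_add_dl`: `c₀ + diag (I + e_u) + eY u = c₀ + diag I + eX u`; it
vanishes at `I u = lo u`, the shifted term vanishes at `I u = hi u`, by `Van` and `Off`). -/
theorem green {lo hi : U → ℤ} {S S' : Finset U} (hS : S ⊆ S') (ρ : U → ℤ)
    {ν : (El U T → ℤ) → ℝ} (hν : Van lo hi S ν) {c₀ : El U T → ℤ} (hc : Off S c₀)
    (F G : (U → ℤ) → ℝ) :
    ∑ I ∈ boxS lo hi S' ρ, G I * ∑ a, grad S F I a * ν (c₀ + diag I + dl a) =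
      - ∑ u ∈ S, ene ν c₀ (boxS lo hi S' ρ) u F G := by
  have h0 : ∀ I, ∑ a, grad S F I a * ν (c₀ + diag I + dl a) =
      ∑ u ∈ S, ((F (I + dl u) - F I) * ν (c₀ + diag I + dl (eX u)) +
        (F (I - dl u) - F I) * ν (c₀ + diag I + dl (eY u))) := fun I => by
    rw [sum_El]
    simp only [grad_X, grad_Y, grad_T, zero_mul, sum_const_zero, add_zero]
    rw [← sum_filter_add_sum_filter_not univ (fun u => u ∈ S)]
    rw [sum_eq_zero (s := univ.filter fun u => ¬ u ∈ S) (fun u hu => by
      simp [(mem_filter.1 hu).2]), add_zero]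
    refine sum_congr (by ext; simp) fun u hu => ?_
    simp [hu]
  simp only [h0, mul_sum]
  rw [sum_comm, ← sum_neg_distrib]
  refine sum_congr rfl fun u hu => ?_
  simp only [mul_add, sum_add_distrib]
  have hs : ∑ I ∈ boxS lo hi S' ρ, G (I + dl u) * ((F I - F (I + dl u)) *
        ν (c₀ + diag I + dl (eX u))) =
      ∑ I ∈ boxS lo hi S' ρ, G I * ((F (I - dl u) - F I) * ν (c₀ + diag I + dl (eY u))) := by
    refine sum_shift (hS hu) _ _ (fun I _ h => ?_) (fun I _ h => ?_) (fun I _ _ => ?_)
    · rw [hν u hu _ (Or.inl ?_)]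
      · simp
      · simp [(hc u hu).1, h]
    · rw [hν u hu _ (Or.inr ?_)]
      · simp
      · simp [(hc u hu).2, h]
    · rw [add_sub_cancel_right, diag_add_dl]
      congr 3
      abel
  rw [← hs, ene, ← sum_add_distrib, ← sum_neg_distrib]
  refine sum_congr rfl fun I _ => ?_
  ring

theorem green_grad_add (S : Finset U) (F G : (U → ℤ) → ℝ) (I : U → ℤ) :
    grad (T := T) S (F + G) I = grad S F I + grad S G I := by
  funext a
  rcases a with ⟨v, _ | _⟩ | t
  · simp only [grad, Pi.add_apply]; split_ifs <;> ring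
  · simp only [grad, Pi.add_apply]; split_ifs <;> ring
  · simp [grad]

theorem green_grad_smul (S : Finset U) (c : ℝ) (F : (U → ℤ) → ℝ) (I : U → ℤ) :
    grad (T := T) S (c • F) I = c • grad S F I := by
  funext a
  rcases a with ⟨v, _ | _⟩ | t
  · simp only [grad, Pi.smul_apply, smul_eq_mul]; split_ifs <;> ring
  · simp only [grad, Pi.smul_apply, smul_eq_mul]; split_ifs <;> ring
  · simp [grad]

/-- A function invariant under the unit steps inside a box is constant on the box. -/
theorem green_const {lo hi : U → ℤ} {S : Finset U} {ρ : U → ℤ} {α : Type*} (F : (U → ℤ) → α)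
    (hF : ∀ u ∈ S, ∀ I ∈ boxS lo hi S ρ, I u < hi u → F (I + dl u) = F I) :
    ∀ I ∈ boxS lo hi S ρ, F I = F (fun u => if u ∈ S then lo u else ρ u) := by
  suffices h : ∀ n : ℕ, ∀ I ∈ boxS lo hi S ρ, ∑ u ∈ S, (I u - lo u) = n →
      F I = F (fun u => if u ∈ S then lo u else ρ u) by
    intro I hI
    have h0 : 0 ≤ ∑ u ∈ S, (I u - lo u) :=
      sum_nonneg fun u hu => sub_nonneg.2 (((mem_boxS.1 hI) u).1 hu).1
    exact h _ I hI (Int.toNat_of_nonneg h0).symm
  intro n
  induction n with
  | zero =>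
    intro I hI h
    have h1 := (sum_eq_zero_iff_of_nonneg
      (fun u hu => sub_nonneg.2 (((mem_boxS.1 hI) u).1 hu).1)).1 (by exact_mod_cast h)
    congr 1
    funext u
    split_ifs with hu
    · exact sub_eq_zero.1 (h1 u hu)
    · exact ((mem_boxS.1 hI) u).2 hu
  | succ n ih =>
    intro I hI h
    obtain ⟨u, hu, hlt⟩ : ∃ u ∈ S, lo u < I u := by
      by_contra hcon
      push Not at hcon
      have : ∑ u ∈ S, (I u - lo u) ≤ 0 := sum_nonpos fun u hu => sub_nonpos.2 (hcon u hu)
      rw [h] at this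
      omega
    have hJ := green_sub_mem hu hI hlt
    have h2 : ∑ v ∈ S, ((I - dl u) v - lo v) = n := by
      have h3 : ∀ v, (I - dl u) v - lo v = (I v - lo v) - dl u v := fun v => by
        simp only [Pi.sub_apply]; ring
      have h4 : ∑ v ∈ S, dl u v = 1 := by
        simp [dl_apply, hu]
      simp only [h3, sum_sub_distrib (f := fun v => I v - lo v), h, h4]
      push_cast; ring
    have h5 := hF u hu _ hJ (by
      have := (((mem_boxS.1 hI) u).1 hu).2
      simp only [Pi.sub_apply, dl_self]; omega)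
    rw [sub_add_cancel] at h5
    rw [h5, ih _ hJ h2]

/-- The Poisson equation on a box is solvable for data of total mass zero.
Proof: on the finite-dimensional space `V = (↥box → ℝ)` (extend by `0` outside the box; values
outside the box only meet vanishing conductances) let
`(L F) I = - ∑ a, grad S F I a * μ (c₀ + diag I + e_a)` and `L' F = L F + (∑ F) • 1`.  By `green`,
`⟨F, L' F⟩ = ∑ u ∈ S, ene u F F + (∑ F)^2`.  If `L' F = 0`, all terms vanish; the conductances
`μ (c₀ + diag I + eX u)`, `I u < hi u`, are positive (`hok`, `hc`), so `F (I + e_u) = F I` inside the box,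
`F` is constant on the box (induction on `∑ u, (I u - lo u)` down to the lower corner) and
`∑ F = 0` gives `F = 0`.  So `L'` is injective, hence surjective: `L' F = m`.  Summing over the box
(`green` with `G = 1`) gives `card * ∑ F = ∑ m = 0`, so `L F = m`. -/
theorem solve (M : Model (El U T)) (S : Finset U) (ρ : U → ℤ) {c₀ : El U T → ℤ} (hc : Off S c₀)
    (hok : ∀ I ∈ M.bx S ρ, c₀ + diag I ≤ M.top) (m : (U → ℤ) → ℝ)
    (hm : ∑ I ∈ M.bx S ρ, m I = 0) :
    ∃ F : (U → ℤ) → ℝ, ∀ I ∈ M.bx S ρ,
      m I + ∑ a, grad S F I a * M.μ (c₀ + diag I + dl a) = 0 := by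
  classical
  set B := M.bx S ρ with hB
  -- extension by zero
  let ext : (B → ℝ) →ₗ[ℝ] ((U → ℤ) → ℝ) :=
    { toFun := fun f I => if h : I ∈ B then f ⟨I, h⟩ else 0
      map_add' := fun f f' => by
        funext I; by_cases h : I ∈ B <;> simp [h]
      map_smul' := fun c f => by
        funext I; by_cases h : I ∈ B <;> simp [h] }
  have hext : ∀ (f : B → ℝ) (I : B), ext f I = f I := fun f I => by
    change (if h : (I : U → ℤ) ∈ B then f ⟨I, h⟩ else 0) = f I
    rw [dif_pos I.2]
  let lap : ((U → ℤ) → ℝ) → (U → ℤ) → ℝ :=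
    fun F I => ∑ a, grad S F I a * M.μ (c₀ + diag I + dl a)
  have lap_add : ∀ F G I, lap (F + G) I = lap F I + lap G I := fun F G I => by
    simp only [lap]
    rw [← sum_add_distrib]
    refine sum_congr rfl fun a _ => ?_
    rw [green_grad_add]; simp only [Pi.add_apply]; ring
  have lap_smul : ∀ (c : ℝ) F I, lap (c • F) I = c * lap F I := fun c F I => by
    simp only [lap]
    rw [mul_sum]
    refine sum_congr rfl fun a _ => ?_
    rw [green_grad_smul]; simp only [Pi.smul_apply, smul_eq_mul]; ring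
  let L : (B → ℝ) →ₗ[ℝ] (B → ℝ) :=
    { toFun := fun f I => - lap (ext f) I + ∑ J, f J
      map_add' := fun f f' => by
        funext I
        simp only [map_add, lap_add, Pi.add_apply, sum_add_distrib]; ring
      map_smul' := fun c f => by
        funext I
        simp only [map_smul, lap_smul, Pi.smul_apply, smul_eq_mul, RingHom.id_apply, ← mul_sum]
        ring }
  have hL : ∀ f I, L f I = - lap (ext f) I + ∑ J, f J := fun _ _ => rfl
  have hgreen : ∀ F G : (U → ℤ) → ℝ, ∑ I ∈ B, G I * lap F I =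
      - ∑ u ∈ S, ene M.μ c₀ B u F G := fun F G => green (subset_refl S) ρ (M.van S) hc F G
  have hene : ∀ (F : (U → ℤ) → ℝ) u, ∀ I ∈ B, 0 ≤ M.μ (c₀ + diag I + dl (eX u)) *
      ((F (I + dl u) - F I) * (F (I + dl u) - F I)) :=
    fun F u I _ => mul_nonneg (M.nonneg _) (mul_self_nonneg _)
  have hinj : Function.Injective L := by
    rw [injective_iff_map_eq_zero]
    intro f hf
    have h1 : ∑ I : B, f I * L f I = 0 := by simp [hf]
    have h2 : ∑ I : B, f I * L f I = ∑ u ∈ S, ene M.μ c₀ B u (ext f) (ext f) + (∑ J, f J) ^ 2 := by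
      have h3 := hgreen (ext f) (ext f)
      rw [← sum_coe_sort B] at h3
      simp only [hext] at h3
      simp only [hL, mul_add, mul_neg, sum_add_distrib, sum_neg_distrib, ← sum_mul]
      rw [h3]; ring
    have h4 : 0 ≤ ∑ u ∈ S, ene M.μ c₀ B u (ext f) (ext f) :=
      sum_nonneg fun u _ => sum_nonneg (hene _ u)
    have h5 : ∑ u ∈ S, ene M.μ c₀ B u (ext f) (ext f) = 0 := by
      nlinarith [sq_nonneg (∑ J, f J)]
    have h6 : ∑ J, f J = 0 := by
      have : (∑ J, f J) ^ 2 = 0 := by linarith
      exact pow_eq_zero_iff two_ne_zero |>.1 this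
    have hstep : ∀ u ∈ S, ∀ I ∈ B, I u < M.hi u → ext f (I + dl u) = ext f I := by
      intro u hu I hI hlt
      have h7 := (sum_eq_zero_iff_of_nonneg (fun u _ => sum_nonneg (hene _ u))).1 h5 u hu
      have h8 := (sum_eq_zero_iff_of_nonneg (hene _ u)).1 h7 I hI
      have hpos : 0 < M.μ (c₀ + diag I + dl (eX u)) := by
        refine M.pos _ fun a => ?_
        by_cases ha : a = eX u
        · subst ha
          have : M.top (eX u) = M.hi u := rfl
          simp only [Pi.add_apply, dl_self, diag_X, (hc u hu).1, this]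
          omega
        · have := hok I hI a
          simpa [dl_ne ha] using this
      have h9 := (mul_eq_zero.1 h8).resolve_left hpos.ne'
      exact sub_eq_zero.1 (mul_self_eq_zero.1 h9)
    have hconst := green_const (lo := M.lo) (hi := M.hi) (S := S) (ρ := ρ) (ext f) hstep
    funext I
    have h10 : ∀ J : B, f J = f I := fun J => by
      rw [← hext f J, ← hext f I, hconst J J.2, hconst I I.2]
    have h11 : ∑ J, f J = (Fintype.card B : ℝ) * f I := by
      rw [sum_congr rfl fun J _ => h10 J]; simp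
    have h12 : (Fintype.card B : ℝ) ≠ 0 := by
      have : Nonempty B := ⟨I⟩
      exact_mod_cast Fintype.card_ne_zero
    rw [h6] at h11
    exact (mul_eq_zero.1 h11.symm).resolve_left h12
  obtain ⟨f, hf⟩ := (LinearMap.injective_iff_surjective.1 hinj) (fun I => m I)
  refine ⟨ext f, fun I hI => ?_⟩
  have h1 : ∑ J : B, L f J = 0 := by
    rw [hf, sum_coe_sort B m, hm]
  have h2 : ∑ J : B, lap (ext f) J = 0 := by
    have h3 := hgreen (ext f) (fun _ => 1)
    rw [← sum_coe_sort B] at h3
    simpa [ene] using h3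
  have h12 : (Fintype.card B : ℝ) ≠ 0 := by
    have : Nonempty B := ⟨⟨I, hI⟩⟩
    exact_mod_cast Fintype.card_ne_zero
  have h4 : ∑ J, f J = 0 := by
    simp only [hL, sum_add_distrib, sum_neg_distrib, h2, sum_const, card_univ, nsmul_eq_mul,
      neg_zero, zero_add] at h1
    exact (mul_eq_zero.1 h1).resolve_left h12
  have h5 := congrFun hf ⟨I, hI⟩
  rw [hL, h4] at h5
  change m I + lap (ext f) I = 0
  simp only at h5
  linarith

end Crest.Agent.R309
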