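import Mathlib

/-!
# R309: one-dimensional inequalities for a log-concave weight

`P 0, …, P c` are positive and log-concave, `ψ` has `P`-mean zero, `V = ∑ P ψ²` and
`θ i = - ∑_{l ≤ i} P l ψ l` (so `θ c = 0`).
-/

set_option linter.dupNamespace false

namespace Crest.Agent.R309

open Finset

/-- The primitive of `- P ψ`. -/
def prim (P ψ : ℕ → ℝ) (i : ℕ) : ℝ := - ∑ l ∈ range (i + 1), P l * ψ l

theorem hardy_prim_succ (P ψ : ℕ → ℝ) (i : ℕ) :
    prim P ψ (i + 1) = prim P ψ i - P (i + 1) * ψ (i + 1) := by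
  simp only [prim]
  rw [sum_range_succ]
  ring

theorem hardy_parts (c : ℕ) (P ψ : ℕ → ℝ) :
    ∑ i ∈ range (c + 1), P i * ψ i ^ 2 =
      ∑ i ∈ range c, prim P ψ i * (ψ (i + 1) - ψ i) - prim P ψ c * ψ c := by
  induction c with
  | zero => simp [prim]; ring
  | succ c ih =>
    rw [sum_range_succ, ih, sum_range_succ (fun i => prim P ψ i * (ψ (i + 1) - ψ i)),
      hardy_prim_succ]
    ring

/-- Summation by parts. -/
theorem var_eq_prim (c : ℕ) (P ψ : ℕ → ℝ) (h0 : ∑ i ∈ range (c + 1), P i * ψ i = 0) :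
    ∑ i ∈ range (c + 1), P i * ψ i ^ 2 = ∑ i ∈ range c, prim P ψ i * (ψ (i + 1) - ψ i) := by
  rw [hardy_parts, prim, h0]
  simp

theorem hardy_down (c : ℕ) (P : ℕ → ℝ) (hP : ∀ i ≤ c, 0 < P i)
    (hlc : ∀ i, i + 2 ≤ c → P i * P (i + 2) ≤ P (i + 1) ^ 2) {i : ℕ} (h : P (i + 1) ≤ P i)
    (d : ℕ) (hd : i + d + 1 ≤ c) : P (i + d + 1) ≤ P (i + d) ∧ P (i + d + 1) ≤ P (i + 1) := by
  induction d with
  | zero => exact ⟨h, le_rfl⟩
  | succ d ih =>
    obtain ⟨h1, h2⟩ := ih (by omega)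
    have h3 := hlc (i + d) (by omega)
    have p0 := hP (i + d) (by omega)
    have p1 := hP (i + d + 1) (by omega)
    have h4 : P (i + d + 2) ≤ P (i + d + 1) := by
      refine le_of_mul_le_mul_left (h3.trans ?_) p0
      nlinarith
    exact ⟨h4, h4.trans h2⟩

theorem hardy_cs (c : ℕ) (P ψ : ℕ → ℝ) (hP : ∀ i ≤ c, 0 < P i) {s : Finset ℕ}
    (hs : s ⊆ range (c + 1)) {m : ℝ} (hm0 : 0 ≤ m) (hm : ∀ l ∈ s, P l ≤ m) :
    (∑ l ∈ s, P l * ψ l) ^ 2 ≤ (c + 1) * m * ∑ l ∈ range (c + 1), P l * ψ l ^ 2 := by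
  have hp : ∀ l ∈ range (c + 1), 0 ≤ P l := fun l hl =>
    (hP l (Nat.lt_succ_iff.1 (mem_range.1 hl))).le
  have h1 : (∑ l ∈ s, P l * ψ l) ^ 2 ≤ (∑ l ∈ s, P l) * ∑ l ∈ s, P l * ψ l ^ 2 :=
    sum_sq_le_sum_mul_sum_of_sq_le_mul s (fun l hl => hp l (hs hl))
      (fun l hl => mul_nonneg (hp l (hs hl)) (sq_nonneg _)) fun l _ => le_of_eq (by ring)
  have h2 : ∑ l ∈ s, P l ≤ (c + 1) * m := by
    refine (sum_le_card_nsmul s P m hm).trans ?_
    rw [nsmul_eq_mul]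
    refine mul_le_mul_of_nonneg_right ?_ hm0
    have := card_le_card hs
    rw [card_range] at this
    exact_mod_cast this
  have h3 : ∑ l ∈ s, P l * ψ l ^ 2 ≤ ∑ l ∈ range (c + 1), P l * ψ l ^ 2 :=
    sum_le_sum_of_subset_of_nonneg hs fun l hl _ => mul_nonneg (hp l hl) (sq_nonneg _)
  refine h1.trans (mul_le_mul h2 h3 ?_ (by positivity))
  exact sum_nonneg fun l hl => mul_nonneg (hp l (hs hl)) (sq_nonneg _)

/-- Hardy's inequality, termwise.
Proof: a positive log-concave sequence is unimodal: for `i < c`, either `P l ≤ P i ≤ P (i+1)` for all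
`l ≤ i` (when `P i ≤ P (i+1)`: the ratios `P (l+1) / P l` decrease), or `P l ≤ P (i+1) ≤ P i` for all
`i < l ≤ c`.  In the first case Cauchy-Schwarz gives `θ i ^ 2 ≤ (∑_{l ≤ i} P l) V ≤ (i+1) P i V`; in
the second `θ i = ∑_{i < l ≤ c} P l ψ l` and `θ i ^ 2 ≤ (c - i) P (i+1) V`. -/
theorem prim_sq_le (c : ℕ) (P ψ : ℕ → ℝ) (hP : ∀ i ≤ c, 0 < P i)
    (hlc : ∀ i, i + 2 ≤ c → P i * P (i + 2) ≤ P (i + 1) ^ 2)
    (h0 : ∑ i ∈ range (c + 1), P i * ψ i = 0) (i : ℕ) (hi : i < c) :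
    prim P ψ i ^ 2 ≤ (c + 1) * min (P i) (P (i + 1)) * ∑ l ∈ range (c + 1), P l * ψ l ^ 2 := by
  have hsub : range (i + 1) ⊆ range (c + 1) := range_subset_range.2 (by omega)
  rcases lt_or_ge (P i) (P (i + 1)) with h | h
  · rw [min_eq_left h.le, prim, neg_sq]
    have hup : ∀ l ≤ i, P l ≤ P (l + 1) := fun l hl => by
      by_contra hcon
      obtain ⟨d, rfl⟩ := Nat.exists_eq_add_of_le hl
      exact absurd (hardy_down c P hP hlc (not_le.1 hcon).le d (by omega)).1 (not_le.2 h)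
    have hmono : ∀ d l, l + d ≤ i → P l ≤ P (l + d) := fun d => by
      induction d with
      | zero => exact fun l _ => le_rfl
      | succ d ih => exact fun l hl => (ih l (by omega)).trans (hup (l + d) (by omega))
    refine hardy_cs c P ψ hP hsub (hP i hi.le).le fun l hl => ?_
    obtain ⟨d, rfl⟩ := Nat.exists_eq_add_of_le (Nat.lt_succ_iff.1 (mem_range.1 hl))
    exact hmono d l le_rfl
  · have e : prim P ψ i = ∑ l ∈ range (c + 1) \ range (i + 1), P l * ψ l := by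
      rw [← sum_sdiff hsub] at h0
      rw [prim]
      linarith
    rw [min_eq_right h, e]
    refine hardy_cs c P ψ hP sdiff_subset (hP (i + 1) hi).le fun l hl => ?_
    simp only [mem_sdiff, mem_range] at hl
    obtain ⟨d, rfl⟩ := Nat.exists_eq_add_of_lt (show i < l by omega)
    exact (hardy_down c P hP hlc h d (by omega)).2

theorem hardy_abs {L V t : ℝ} (x : ℝ) (hL : 0 < L) (ht : t ^ 2 ≤ L * V) :
    |x * t| ≤ (L * x ^ 2 + V) / 2 := by
  rw [abs_le]
  constructor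
  · refine le_of_mul_le_mul_left ?_ hL
    nlinarith [sq_nonneg (L * x + t)]
  · refine le_of_mul_le_mul_left ?_ hL
    nlinarith [sq_nonneg (L * x - t)]

/-- The telescoping bound.  `n (j+1)` is the weight of the edge `(j, j+1)`; `n 0 = n (c+1) = 0`.
Proof: let `a i = θ i / P (i+1)`, `b i = θ i / P i` (`a (-1) = 0`, `b c = 0`).  Group by `n (j+1)`,
`j < c`: its coefficient is `2 a j b j - a (j-1)^2 - b (j+1)^2 ≤ T j - T (j+1)` with
`T j = b j ^2 - a (j-1)^2 = - ψ j (θ j + θ (j-1)) / P j` (since `b j - a (j-1) = - ψ j`).  So the sum is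
at most `∑_{j ≤ c} T j (n (j+1) - n j)`.  The terms `j = 0` and `j = c` are `ψ 0 ^2 n 1 ≤ A P 0 ψ 0 ^2` and
`ψ c ^2 n c ≤ A P c ψ c ^2`; for `0 < j < c`, `|n (j+1) - n j| ≤ δ A P j`, so the term is at most
`δ A |ψ j| (|θ j| + |θ (j-1)|)`, and by `prim_sq_le`, `|θ j|, |θ (j-1)| ≤ sqrt ((c+1) P j V)`; Cauchy-Schwarz
(`∑ |ψ j| sqrt (P j) ≤ sqrt ((c+1) V)`) bounds the sum by `2 δ A (c+1) V`. -/
theorem telescope (c : ℕ) (P ψ n : ℕ → ℝ) (hP : ∀ i ≤ c, 0 < P i)
    (hlc : ∀ i, i + 2 ≤ c → P i * P (i + 2) ≤ P (i + 1) ^ 2)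
    (h0 : ∑ i ∈ range (c + 1), P i * ψ i = 0) (A δ : ℝ) (hA : 0 ≤ A) (hδ : 0 ≤ δ)
    (hn0 : n 0 = 0) (hnc : n (c + 1) = 0) (hn : ∀ j, 0 ≤ n j)
    (hn1 : ∀ j < c, n (j + 1) ≤ A * P j ∧ n (j + 1) ≤ A * P (j + 1))
    (hn2 : ∀ j, 0 < j → j < c → (1 - δ) * n j ≤ n (j + 1) ∧ (1 - δ) * n (j + 1) ≤ n j) :
    ∑ i ∈ range c, prim P ψ i ^ 2 *
        (2 * n (i + 1) / (P i * P (i + 1)) - n (i + 2) / P (i + 1) ^ 2 - n i / P i ^ 2) ≤
      A * (2 + 2 * δ * (c + 1)) * ∑ l ∈ range (c + 1), P l * ψ l ^ 2 := by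
  set V := ∑ l ∈ range (c + 1), P l * ψ l ^ 2 with hV
  have hV0 : 0 ≤ V := sum_nonneg fun l hl =>
    mul_nonneg (hP l (Nat.lt_succ_iff.1 (mem_range.1 hl))).le (sq_nonneg _)
  let t : ℕ → ℝ := fun j => - ∑ l ∈ range j, P l * ψ l
  have ht : ∀ i, prim P ψ i = t (i + 1) := fun i => rfl
  have ht0 : t 0 = 0 := by simp [t]
  have htc : t (c + 1) = 0 := by simp only [t]; rw [h0, neg_zero]
  have hts : ∀ j, t (j + 1) = t j - P j * ψ j := fun j => by
    simp only [t]; rw [sum_range_succ]; ring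
  have h1 : ∀ i ∈ range c, prim P ψ i ^ 2 *
      (2 * n (i + 1) / (P i * P (i + 1)) - n (i + 2) / P (i + 1) ^ 2 - n i / P i ^ 2) ≤
      (t (i + 1) / P (i + 1)) ^ 2 * (n (i + 1) - n (i + 1 + 1)) +
        (t (i + 1) / P i) ^ 2 * (n (i + 1) - n i) := by
    intro i hi
    have hi' := mem_range.1 hi
    have p0 := hP i hi'.le
    have p1 := hP (i + 1) hi'
    have e : prim P ψ i ^ 2 *
        (2 * n (i + 1) / (P i * P (i + 1)) - n (i + 2) / P (i + 1) ^ 2 - n i / P i ^ 2) =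
        (t (i + 1) / P (i + 1)) ^ 2 * (n (i + 1) - n (i + 1 + 1)) +
          (t (i + 1) / P i) ^ 2 * (n (i + 1) - n i) -
          (t (i + 1) / P (i + 1) - t (i + 1) / P i) ^ 2 * n (i + 1) := by
      rw [ht]
      field_simp
      ring
    rw [e]
    exact sub_le_self _ (mul_nonneg (sq_nonneg _) (hn _))
  refine (sum_le_sum h1).trans ?_
  have h2 : ∑ i ∈ range c, ((t (i + 1) / P (i + 1)) ^ 2 * (n (i + 1) - n (i + 1 + 1)) +
        (t (i + 1) / P i) ^ 2 * (n (i + 1) - n i)) =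
      ∑ j ∈ range (c + 1), ((t (j + 1) / P j) ^ 2 - (t j / P j) ^ 2) * (n (j + 1) - n j) := by
    have e1 : ∑ j ∈ range (c + 1), (t j / P j) ^ 2 * (n j - n (j + 1)) =
        ∑ i ∈ range c, (t (i + 1) / P (i + 1)) ^ 2 * (n (i + 1) - n (i + 1 + 1)) := by
      rw [sum_range_succ', ht0]
      simp
    have e2 : ∑ j ∈ range (c + 1), (t (j + 1) / P j) ^ 2 * (n (j + 1) - n j) =
        ∑ i ∈ range c, (t (i + 1) / P i) ^ 2 * (n (i + 1) - n i) := by
      rw [sum_range_succ, htc]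
      simp
    rw [sum_add_distrib, ← e1, ← e2, ← sum_add_distrib]
    exact sum_congr rfl fun j _ => by ring
  have h3 : ∀ j ∈ range (c + 1), ((t (j + 1) / P j) ^ 2 - (t j / P j) ^ 2) * (n (j + 1) - n j) ≤
      δ * A * ((c + 1) * (P j * ψ j ^ 2) + V) + A * (P j * ψ j ^ 2) := by
    intro j hj
    have hj' := Nat.lt_succ_iff.1 (mem_range.1 hj)
    have p0 := hP j hj'
    have q0 : 0 ≤ δ * A * ((c + 1) * (P j * ψ j ^ 2) + V) := by positivity
    rcases Nat.eq_zero_or_pos j with rfl | hpos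
    · have a1 : n (0 + 1) ≤ A * P 0 := by
        rcases Nat.eq_zero_or_pos c with rfl | hc
        · rw [hnc]; positivity
        · exact (hn1 0 hc).1
      have a2 : (t (0 + 1) / P 0) ^ 2 - (t 0 / P 0) ^ 2 = ψ 0 ^ 2 := by
        rw [hts, ht0]; field_simp; ring
      rw [a2, hn0, sub_zero]
      have := mul_le_mul_of_nonneg_left a1 (sq_nonneg (ψ 0))
      linarith
    rcases hj'.eq_or_lt with rfl | hlt
    · obtain ⟨k, rfl⟩ := Nat.exists_eq_succ_of_ne_zero hpos.ne'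
      have a1 : n (k + 1) ≤ A * P (k + 1) := (hn1 k (Nat.lt_succ_self k)).2
      have a3 : t (k + 1) = P (k + 1) * ψ (k + 1) := by
        have := hts (k + 1)
        rw [htc] at this
        linarith
      have a2 : (t (k + 1 + 1) / P (k + 1)) ^ 2 - (t (k + 1) / P (k + 1)) ^ 2 = - ψ (k + 1) ^ 2 := by
        rw [htc, a3]; field_simp; ring
      change ((t (k + 1 + 1) / P (k + 1)) ^ 2 - (t (k + 1) / P (k + 1)) ^ 2) *
        (n (k + 1 + 1) - n (k + 1)) ≤ _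
      rw [a2, hnc]
      have := mul_le_mul_of_nonneg_left a1 (sq_nonneg (ψ (k + 1)))
      simp only [Nat.succ_eq_add_one] at q0 ⊢
      linarith
    · obtain ⟨k, rfl⟩ := Nat.exists_eq_succ_of_ne_zero hpos.ne'
      simp only [Nat.succ_eq_add_one] at *
      have hL : 0 < ((c : ℝ) + 1) * P (k + 1) := by positivity
      have b1 : t (k + 1) ^ 2 ≤ (c + 1) * P (k + 1) * V := by
        refine (prim_sq_le c P ψ hP hlc h0 k (by omega)).trans ?_
        gcongr
        exact min_le_right _ _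
      have b2 : t (k + 1 + 1) ^ 2 ≤ (c + 1) * P (k + 1) * V := by
        refine (prim_sq_le c P ψ hP hlc h0 (k + 1) hlt).trans ?_
        gcongr
        exact min_le_left _ _
      have b3 := hardy_abs (ψ (k + 1)) hL b1
      have b4 := hardy_abs (ψ (k + 1)) hL b2
      have b5 : |n (k + 1 + 1) - n (k + 1)| ≤ δ * A * P (k + 1) := by
        have c1 := mul_le_mul_of_nonneg_left (hn1 k (by omega)).2 hδ
        have c2 := mul_le_mul_of_nonneg_left (hn1 (k + 1) hlt).1 hδ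
        obtain ⟨c3, c4⟩ := hn2 (k + 1) hpos hlt
        rw [abs_le]
        constructor <;> nlinarith
      have b6 : (t (k + 1 + 1) / P (k + 1)) ^ 2 - (t (k + 1) / P (k + 1)) ^ 2 =
          - (ψ (k + 1) * t (k + 1) + ψ (k + 1) * t (k + 1 + 1)) / P (k + 1) := by
        rw [hts (k + 1)]; field_simp; ring
      have b7 : |(t (k + 1 + 1) / P (k + 1)) ^ 2 - (t (k + 1) / P (k + 1)) ^ 2| ≤
          ((c + 1) * P (k + 1) * ψ (k + 1) ^ 2 + V) / P (k + 1) := by
        rw [b6, abs_div, abs_neg, abs_of_pos p0]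
        gcongr
        refine (abs_add_le _ _).trans ?_
        linarith
      refine (le_abs_self _).trans ?_
      rw [abs_mul]
      refine (mul_le_mul b7 b5 (abs_nonneg _) (by positivity)).trans ?_
      have b8 : ((c + 1) * P (k + 1) * ψ (k + 1) ^ 2 + V) / P (k + 1) * (δ * A * P (k + 1)) =
          δ * A * ((c + 1) * (P (k + 1) * ψ (k + 1) ^ 2) + V) := by field_simp
      rw [b8]
      exact le_add_of_nonneg_right (by positivity)
  rw [h2]
  refine (sum_le_sum h3).trans ?_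
  rw [sum_add_distrib, ← mul_sum, ← mul_sum, sum_add_distrib, ← mul_sum, ← hV, sum_const, card_range,
    nsmul_eq_mul]
  push_cast
  nlinarith [mul_nonneg hA hV0]

end Crest.Agent.R309
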