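import Crest.Agent.R309.Flow

/-!
# R309: interfaces between the Markov chain and the final algorithms (definitions)
-/

set_option linter.dupNamespace false

namespace Crest.Agent.R309

open Finset Crest.Agent.Lib.PT

/-- Run the chain `st` for `t` steps from the state `0` (blocks of `Q` bits), then apply the output map to
the next block. -/
def shotF (st : ℕ → List Bool → ℕ) (out : ℕ → List Bool → Option (List ℕ)) (Q t : ℕ)
    (l : List Bool) : Option (List ℕ) :=
  out (iter st Q t 0 l) ((l.drop (t * Q)).take Q)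

/-- The core of all three algorithms.  From `(G, I, X0)` and `Q = G ^ e` random bits one builds a context;
a context gives a chain on numbers below `2 ^ Q` and an output map; every solution is output with
probability `cst (1 ± 2^{-K})` after `Q (K+1)` steps, and on average the total is at least `1/4`. -/
structure Core where
  /-- contexts -/
  Ctx : Type
  /-- their codes -/
  [enc : Enc Ctx]
  /-- the exponent -/
  e : ℕ
  /-- preprocessing and learning -/
  mk' : Un × Inst × List ℕ × List Bool → Ctx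
  /-- the size parameter of a context -/
  gs : Ctx → ℕ
  /-- one step of the chain -/
  st : Ctx → ℕ → List Bool → ℕ
  /-- the output map -/
  out : Ctx → ℕ → List Bool → Option (List ℕ)
  /-- the limiting probability of each solution -/
  cst : Ctx → ℝ
  e_pos : 1 ≤ e
  mk_pt : PT mk'
  gs_pt : PT gs
  gs_pb : PB gs
  st_pt : PT fun p : Ctx × ℕ × List Bool => st p.1 p.2.1 p.2.2
  out_pt : PT fun p : Ctx × ℕ × List Bool => out p.1 p.2.1 p.2.2
  gs_mk : ∀ a, gs (mk' a) = a.1.n
  st_lt : ∀ c x ω, st c x ω < 2 ^ (gs c ^ e)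
  out_sol : ∀ G I X0 l x ω X, out (mk' (G, I, X0, l)) x ω = some X → I.IsSol X
  cst_nonneg : ∀ c, 0 ≤ cst c
  unif : ∀ G I X0, Fits G.n I → I.IsSol X0 → ∀ l, l.length = G.n ^ e → ∀ K t,
    G.n ^ e * (K + 1) ≤ t → ∀ y, I.IsSol y →
    |Pr ((t + 1) * G.n ^ e) (fun l' => shotF (st (mk' (G, I, X0, l))) (out (mk' (G, I, X0, l)))
        (G.n ^ e) t l' = some y) - cst (mk' (G, I, X0, l))| ≤ (1 / 2) ^ K * cst (mk' (G, I, X0, l))
  acc : ∀ G I X0, Fits G.n I → I.IsSol X0 →
    1 / 4 ≤ Ex (G.n ^ e) fun l => I.Sols.card * cst (mk' (G, I, X0, l))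

attribute [instance] Core.enc

/-- `shotF` is polynomial time when the number of steps is polynomially bounded. -/
theorem Core.shot_pt (C : Core) {α : Type} [Enc α] {c : α → C.Ctx} {t : α → ℕ} {l : α → List Bool}
    (hc : PT c) (ht : PT t) (hb : PB t) (hl : PT l) :
    PT fun a => shotF (C.st (c a)) (C.out (c a)) (C.gs (c a) ^ C.e) (t a) (l a) := by
  have h1 := C.gs_pt
  have h2 := C.gs_pb
  have hQ : PT fun a => C.gs (c a) ^ C.e := by fun_prop
  have hi : PT fun a => iter (C.st (c a)) (C.gs (c a) ^ C.e) (t a) 0 (l a) :=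
    iter_pt (C.st_pt.comp_eq (fun p : α × ℕ × List Bool => (c p.1, p.2.1, p.2.2)) (by fun_prop))
      hQ ht hb (PT.const 0) hl (fun a _ x => x < 2 ^ (C.gs (c a) ^ C.e))
      (fun a => by positivity) (fun a _ x ω _ => C.st_lt _ _ _)
      (B := fun a => 4 * C.gs (c a) ^ C.e + 1) (by fun_prop) fun a _ x _ h => sz_nat_le_of_lt h
  exact C.out_pt.comp_eq (fun a => (c a, iter (C.st (c a)) (C.gs (c a) ^ C.e) (t a) 0 (l a),
    ((l a).drop (t a * C.gs (c a) ^ C.e)).take (C.gs (c a) ^ C.e))) (by fun_prop)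

/-- An almost uniform sampler of solutions; inputs `(G, I, X0, k, tape)`. -/
structure SamplerSpec (smp : Un × Inst × List ℕ × Un × List Bool → List ℕ) (e : ℕ) : Prop where
  pt : PT smp
  sol : ∀ G (I : Inst) X0 k l, I.IsSol X0 → I.IsSol (smp (G, I, X0, k, l))
  tv : ∀ G I X0 k, Fits G.n I → I.IsSol X0 → ∀ n, (G.n * (k.n + 1)) ^ e ≤ n →
    ∑ y ∈ I.Sols, |Pr n (fun l => smp (G, I, X0, k, l) = y) - 1 / I.Sols.card| ≤ (1 / 2) ^ k.n

/-- An estimator of the number of solutions; inputs `(G, I, X0, E, tape)`. -/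
structure EstSpec (est : Un × Inst × List ℕ × Un × List Bool → ℚ) (e : ℕ) : Prop where
  pt : PT est
  nonneg : ∀ a, 0 ≤ est a
  good : ∀ G I X0 E, Fits G.n I → I.IsSol X0 → 1 ≤ E.n → ∀ n, (G.n * E.n) ^ e ≤ n →
    15 / 16 ≤ Pr n fun l => |(est (G, I, X0, E, l) : ℝ) - I.Sols.card| ≤ I.Sols.card / E.n

/-- An approximation scheme for the number of solutions; inputs `(G, I, E, D, tape)`. -/
structure CountSpec (cnt : Un × Inst × Un × Un × List Bool → ℚ) (e : ℕ) : Prop where
  pt : PT cnt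
  nonneg : ∀ a, 0 ≤ cnt a
  zero : ∀ G (I : Inst) E D l, I.WF → I.Sols.card = 0 → cnt (G, I, E, D, l) = 0
  good : ∀ G I E D, Fits G.n I → 1 ≤ E.n → ∀ n, (G.n * E.n * (D.n + 1)) ^ e ≤ n →
    1 - (1 / 2) ^ D.n ≤
      Pr n fun l => |(cnt (G, I, E, D, l) : ℝ) - I.Sols.card| ≤ I.Sols.card / E.n

end Crest.Agent.R309
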