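import Crest.Agent.R309.Boch
import Crest.Agent.R309.Hardy

/-!
# R309: the Poincaré inequality for a model
-/

set_option linter.dupNamespace false
set_option linter.unusedSectionVars false

namespace Crest.Agent.R309

open Finset

variable {U T : Type} [Fintype U] [DecidableEq U] [Fintype T] [DecidableEq T]

/-- Comparison hypotheses. -/
structure Model.Cmp (M : Model (El U T)) (C₀ Γ₁ : ℝ) : Prop where
  one_le : 1 ≤ C₀
  term : ∀ t, 0 ≤ M.top (Sum.inr t)
  le : ∀ u, M.lo u ≤ M.hi u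
  /-- adding an element multiplies the weight by at most `C₀` -/
  up : ∀ c a, M.μ (c + dl a) ≤ C₀ * M.μ c
  /-- one of the two elements of each cell divides the weight by at most `C₀` -/
  down : ∀ u, ∃ a : El U T, (a = eX u ∨ a = eY u) ∧
    ∀ c, c + dl a ≤ M.top → M.μ c ≤ C₀ * M.μ (c + dl a)
  /-- smoothness along a cell -/
  smooth : ∀ u, ∃ δ : ℝ, 0 ≤ δ ∧ δ * (M.hi u - M.lo u + 1 : ℤ) ≤ Γ₁ ∧
    ∀ c, c + dl (eX u) ≤ M.top → c + dl (eY u) ≤ M.top →
      (1 - δ) * M.μ (c + dl (eX u)) ≤ M.μ (c + dl (eY u)) ∧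
      (1 - δ) * M.μ (c + dl (eY u)) ≤ M.μ (c + dl (eX u))

/-- The weighted Dirichlet form. -/
def Model.form (M : Model (El U T)) (S : Finset U) (B : Finset (U → ℤ)) (f : (U → ℤ) → ℝ) : ℝ :=
  ∑ u ∈ S, ((M.hi u - M.lo u + 1 : ℤ) : ℝ) ^ 2 * ene M.μ 0 B u f f

section Aux

variable {M : Model (El U T)} {C₀ Γ₁ : ℝ} {S : Finset U} {ρ : U → ℤ} {v : U}

theorem poin_diag_le (h : M.Cmp C₀ Γ₁) {I : U → ℤ} (hI : ∀ u, M.lo u ≤ I u ∧ I u ≤ M.hi u) :
    diag I ≤ M.top := by
  rintro (⟨u, _ | _⟩ | t)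
  · have := (hI u).1
    simp only [Model.lo] at this
    change - I u ≤ M.top (eY u)
    omega
  · exact (hI u).2
  · exact h.term t

theorem poin_add_le {c : El U T → ℤ} (hc : c ≤ M.top) {a : El U T} (ha : c a < M.top a) :
    c + dl a ≤ M.top := by
  intro b
  by_cases hb : b = a
  · subst hb
    simp only [Pi.add_apply, dl_self]
    omega
  · simpa only [Pi.add_apply, dl_ne hb, add_zero] using hc b

theorem poin_sub_le {c : El U T → ℤ} (hc : c ≤ M.top) (a : El U T) : c - dl a ≤ M.top := by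
  intro b
  have h1 : c b ≤ M.top b := hc b
  have h2 := dl_nonneg a b
  simp only [Pi.sub_apply]
  omega

theorem poin_down (h : M.Cmp C₀ Γ₁) {a : El U T}
    (hd : ∀ c, c + dl a ≤ M.top → M.μ c ≤ C₀ * M.μ (c + dl a)) {c : El U T → ℤ}
    (ha : c a < M.top a) : M.μ c ≤ C₀ * M.μ (c + dl a) := by
  by_cases hc : c ≤ M.top
  · exact hd c (poin_add_le hc ha)
  · rw [M.zero c hc]
    exact mul_nonneg (zero_le_one.trans h.one_le) (M.nonneg _)

theorem poin_zero {c : El U T → ℤ} {a : El U T} (ha : M.top a < c a) : M.μ c = 0 :=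
  M.zero c fun hc => absurd (hc a) (not_le.2 ha)

/-- The slice `I v = j`. -/
noncomputable def psl (M : Model (El U T)) (S : Finset U) (ρ : U → ℤ) (v : U) (j : ℤ) :
    Finset (U → ℤ) :=
  M.bx (S.erase v) (Function.update ρ v j)

/-- Its mass. -/
noncomputable def pP (M : Model (El U T)) (S : Finset U) (ρ : U → ℤ) (v : U) (j : ℤ) : ℝ :=
  ∑ I ∈ psl M S ρ v j, M.μ (diag I)

/-- The edge weights of the Bochner bound. -/
noncomputable def pN (M : Model (El U T)) (S : Finset U) (ρ : U → ℤ) (v u : U) (j : ℤ) : ℝ :=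
  ∑ I ∈ psl M S ρ v j, bw (M.lo u) (M.hi u) (I u) * M.μ (diag I - dl (eY u) + dl (eY v))

theorem psl_v {j : ℤ} {I : U → ℤ} (hI : I ∈ psl M S ρ v j) : I v = j := by
  simpa using (mem_boxS.1 hI v).2 (by simp)

theorem psl_range (hρ : ∀ u ∉ S, M.lo u ≤ ρ u ∧ ρ u ≤ M.hi u) {j : ℤ} {I : U → ℤ}
    (hI : I ∈ psl M S ρ v j) {u : U} (hu : u ≠ v) : M.lo u ≤ I u ∧ I u ≤ M.hi u := by
  by_cases huS : u ∈ S
  · exact (mem_boxS.1 hI u).1 (mem_erase.2 ⟨hu, huS⟩)
  · have := (mem_boxS.1 hI u).2 (fun h => huS (mem_of_mem_erase h))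
    rw [this, Function.update_of_ne hu]
    exact hρ u huS

theorem psl_le (h : M.Cmp C₀ Γ₁) (hρ : ∀ u ∉ S, M.lo u ≤ ρ u ∧ ρ u ≤ M.hi u) {j : ℤ}
    (h1 : M.lo v ≤ j) (h2 : j ≤ M.hi v) {I : U → ℤ} (hI : I ∈ psl M S ρ v j) : diag I ≤ M.top := by
  refine poin_diag_le h fun u => ?_
  by_cases hu : u = v
  · subst hu
    rw [psl_v hI]
    exact ⟨h1, h2⟩
  · exact psl_range hρ hI hu

theorem psl_repin (j : ℤ) (g : (U → ℤ) → ℝ) :
    ∑ I ∈ psl M S ρ v (j + 1), g I = ∑ I ∈ psl M S ρ v j, g (I + dl v) :=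
  sum_repin (notMem_erase v S) j g

theorem pP_pos (h : M.Cmp C₀ Γ₁) (hρ : ∀ u ∉ S, M.lo u ≤ ρ u ∧ ρ u ≤ M.hi u) {j : ℤ}
    (h1 : M.lo v ≤ j) (h2 : j ≤ M.hi v) : 0 < pP M S ρ v j := by
  refine sum_pos (fun I hI => M.pos _ (psl_le h hρ h1 h2 hI))
    ⟨fun u => if u ∈ S.erase v then M.lo u else Function.update ρ v j u, mem_boxS.2 fun u => ?_⟩
  refine ⟨fun hu => ?_, fun hu => ?_⟩
  · simp only [if_pos hu]
    exact ⟨le_rfl, h.le u⟩
  · simp only [if_neg hu]

theorem poin_off_X (S : Finset U) (v : U) : Off (T := T) (S.erase v) (dl (eX v)) := fun u hu => by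
  have := ne_of_mem_erase hu
  simp [dl_apply, this]

theorem poin_off_Y (S : Finset U) (v : U) : Off (T := T) (S.erase v) (dl (eY v)) := fun u hu => by
  have := ne_of_mem_erase hu
  simp [dl_apply, this]

theorem poin_off_nY (S : Finset U) (v : U) : Off (T := T) (S.erase v) (- dl (eY v)) := fun u hu => by
  have := ne_of_mem_erase hu
  simp [dl_apply, this]

theorem pP_lc (h : M.Cmp C₀ Γ₁) (hρ : ∀ u ∉ S, M.lo u ≤ ρ u ∧ ρ u ≤ M.hi u) {j : ℤ}
    (h1 : M.lo v ≤ j + 1) (h2 : j + 1 ≤ M.hi v) :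
    pP M S ρ v j * pP M S ρ v (j + 1 + 1) ≤ pP M S ρ v (j + 1) ^ 2 := by
  have hc : Off (T := T) (S.erase v) (- dl (eX v) - dl (eY v)) := fun u hu => by
    have := ne_of_mem_erase hu
    simp [dl_apply, this]
  have key := marg_lc M (S.erase v) (Function.update ρ v (j + 1)) hc (eX v) (eY v) (poin_off_X S v)
    (poin_off_Y S v) (fun I hI => by
      have e : - dl (eX v) - dl (eY v) + diag (T := T) I + dl (eY v) = diag I - dl (eX v) := by abel
      rw [e]
      exact poin_sub_le (psl_le h hρ h1 h2 hI) _)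
  have e1 : ∀ I, - dl (eX v) - dl (eY v) + diag (T := T) I + dl (eX v) + dl (eX v) =
      diag (I + dl v) := fun I => by rw [diag_add_dl]; abel
  have e2 : ∀ I, - dl (eX v) - dl (eY v) + diag (T := T) I + dl (eY v) + dl (eY v) =
      diag (I - dl v) := fun I => by rw [diag_sub_dl]; abel
  have e3 : ∀ I, - dl (eX v) - dl (eY v) + diag (T := T) I + dl (eX v) + dl (eY v) =
      diag I := fun I => by abel
  simp only [e1, e2, e3] at key
  have f1 : pP M S ρ v (j + 1 + 1) = ∑ I ∈ psl M S ρ v (j + 1), M.μ (diag (I + dl v)) :=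
    psl_repin _ _
  have f2 : pP M S ρ v j = ∑ I ∈ psl M S ρ v (j + 1), M.μ (diag (I - dl v)) := by
    rw [psl_repin]
    simp only [add_sub_cancel_right, pP]
  rw [f1, f2, mul_comm]
  exact key

theorem bw_nonneg {lo hi k : ℤ} (h1 : lo ≤ k) (h2 : k ≤ hi) : 0 ≤ bw lo hi k := by
  unfold bw
  exact_mod_cast mul_nonneg (by omega) (by omega)

theorem bw_le {lo hi k : ℤ} (h1 : lo ≤ k) (h2 : k ≤ hi) :
    bw lo hi k ≤ ((hi - lo + 1 : ℤ) : ℝ) ^ 2 := by
  unfold bw
  have : (k - lo + 1) * (hi - k) ≤ (hi - lo + 1) ^ 2 := by nlinarith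
  exact_mod_cast this

theorem bw_hi (lo hi : ℤ) : bw lo hi hi = 0 := by simp [bw]

theorem pN_succ {u : U} (hu : u ≠ v) (j : ℤ) : pN M S ρ v u (j + 1) =
    ∑ I ∈ psl M S ρ v j, bw (M.lo u) (M.hi u) (I u) * M.μ (diag I - dl (eY u) + dl (eX v)) := by
  rw [pN, psl_repin]
  refine sum_congr rfl fun I _ => ?_
  have e : diag (T := T) (I + dl v) - dl (eY u) + dl (eY v) = diag I - dl (eY u) + dl (eX v) := by
    rw [diag_add_dl]; abel
  rw [e, Pi.add_apply, dl_ne hu, add_zero]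

theorem pN_succ2 {u : U} (hu : u ≠ v) (j : ℤ) : pN M S ρ v u (j + 1 + 1) =
    ∑ I ∈ psl M S ρ v j, bw (M.lo u) (M.hi u) (I u) *
      M.μ (diag I - dl (eY u) + dl (eX v) + dl (eX v) - dl (eY v)) := by
  rw [pN_succ hu, psl_repin]
  refine sum_congr rfl fun I _ => ?_
  have e : diag (T := T) (I + dl v) - dl (eY u) + dl (eX v) =
      diag I - dl (eY u) + dl (eX v) + dl (eX v) - dl (eY v) := by
    rw [diag_add_dl]; abel
  rw [e, Pi.add_apply, dl_ne hu, add_zero]

theorem pN_nonneg (hρ : ∀ u ∉ S, M.lo u ≤ ρ u ∧ ρ u ≤ M.hi u) {u : U} (hu : u ≠ v) (j : ℤ) :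
    0 ≤ pN M S ρ v u j :=
  sum_nonneg fun _ hI =>
    mul_nonneg (bw_nonneg (psl_range hρ hI hu).1 (psl_range hρ hI hu).2) (M.nonneg _)

theorem pN_lo {u : U} (hu : u ≠ v) : pN M S ρ v u (M.lo v) = 0 := by
  refine sum_eq_zero fun I hI => ?_
  rw [poin_zero (a := eY v), mul_zero]
  have := psl_v hI
  simp only [Model.lo] at this
  simp [dl_apply, hu.symm]
  omega

theorem pN_hi {u : U} : pN M S ρ v u (M.hi v + 1) = 0 := by
  refine sum_eq_zero fun I hI => ?_
  rw [poin_zero (a := eX v), mul_zero]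
  have := psl_v hI
  simp only [Model.hi] at this
  simp [dl_apply]
  omega

theorem pN_bound (h : M.Cmp C₀ Γ₁) (hρ : ∀ u ∉ S, M.lo u ≤ ρ u ∧ ρ u ≤ M.hi u) {u : U}
    (hu : u ∈ S.erase v) (j : ℤ) (a : El U T) :
    ∑ I ∈ psl M S ρ v j, bw (M.lo u) (M.hi u) (I u) * M.μ (diag I - dl (eY u) + dl a) ≤
      C₀ ^ 2 * ((M.hi u - M.lo u + 1 : ℤ) : ℝ) ^ 2 * pP M S ρ v j := by
  have huv := ne_of_mem_erase hu
  have hC : 0 ≤ C₀ := zero_le_one.trans h.one_le
  set lam : ℝ := ((M.hi u - M.lo u + 1 : ℤ) : ℝ) ^ 2 with hlam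
  have hlam0 : 0 ≤ lam := sq_nonneg _
  obtain ⟨b, hb, hd⟩ := h.down u
  have main : ∀ I ∈ psl M S ρ v j, (diag I - dl (eY u) : El U T → ℤ) b < M.top b →
      bw (M.lo u) (M.hi u) (I u) * M.μ (diag I - dl (eY u) + dl a) ≤
        C₀ ^ 2 * lam * M.μ (diag I - dl (eY u) + dl b) := by
    intro I hI hlt
    have r := psl_range hρ hI huv
    have h1 := h.up (diag I - dl (eY u)) a
    have h2 := poin_down h hd hlt
    have h3 : M.μ (diag I - dl (eY u) + dl a) ≤ C₀ ^ 2 * M.μ (diag I - dl (eY u) + dl b) := by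
      have := mul_le_mul_of_nonneg_left h2 hC
      nlinarith
    calc _ ≤ lam * (C₀ ^ 2 * M.μ (diag I - dl (eY u) + dl b)) :=
          mul_le_mul (bw_le r.1 r.2) h3 (M.nonneg _) hlam0
      _ = _ := by ring
  rcases hb with rfl | rfl
  · have h1 : ∑ I ∈ psl M S ρ v j, M.μ (diag (I + dl u)) =
        ∑ I ∈ psl M S ρ v j, if I u = M.lo u then 0 else M.μ (diag I) := by
      refine sum_shift hu _ _ (fun I _ hI => poin_zero (a := eX u) ?_) (fun I _ hI => if_pos hI)
        fun I hI _ => ?_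
      · simp only [Model.hi] at hI
        simp
        omega
      · have := (psl_range hρ hI huv).1
        rw [if_neg]
        simp
        omega
    have h2 : ∑ I ∈ psl M S ρ v j, M.μ (diag (I + dl u)) ≤ pP M S ρ v j := by
      rw [h1]
      refine sum_le_sum fun I _ => ?_
      split_ifs
      · exact M.nonneg _
      · exact le_rfl
    refine le_trans ?_ (mul_le_mul_of_nonneg_left h2 (by positivity))
    rw [mul_sum]
    refine sum_le_sum fun I hI => ?_
    have r := psl_range hρ hI huv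
    rcases r.2.eq_or_lt with he | hlt
    · rw [he, bw_hi, zero_mul]
      exact mul_nonneg (by positivity) (M.nonneg _)
    · have e : diag (T := T) (I + dl u) = diag I - dl (eY u) + dl (eX u) := by
        rw [diag_add_dl]; abel
      rw [e]
      refine main I hI ?_
      simp only [Model.hi] at hlt
      simpa [dl_apply] using hlt
  · rw [pP, mul_sum]
    refine sum_le_sum fun I hI => ?_
    have r := (psl_range hρ hI huv).1
    have := main I hI (by
      simp only [Model.lo] at r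
      simp
      omega)
    rwa [sub_add_cancel] at this

theorem pN_smooth (h : M.Cmp C₀ Γ₁) (hρ : ∀ u ∉ S, M.lo u ≤ ρ u ∧ ρ u ≤ M.hi u) {u : U}
    (hu : u ≠ v) {δ : ℝ}
    (hs : ∀ c, c + dl (eX v) ≤ M.top → c + dl (eY v) ≤ M.top →
      (1 - δ) * M.μ (c + dl (eX v)) ≤ M.μ (c + dl (eY v)) ∧
      (1 - δ) * M.μ (c + dl (eY v)) ≤ M.μ (c + dl (eX v))) {j : ℤ}
    (h1 : M.lo v < j) (h2 : j < M.hi v) :
    (1 - δ) * pN M S ρ v u j ≤ pN M S ρ v u (j + 1) ∧
      (1 - δ) * pN M S ρ v u (j + 1) ≤ pN M S ρ v u j := by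
  have main : ∀ I ∈ psl M S ρ v j,
      (1 - δ) * M.μ (diag I - dl (eY u) + dl (eX v)) ≤ M.μ (diag I - dl (eY u) + dl (eY v)) ∧
      (1 - δ) * M.μ (diag I - dl (eY u) + dl (eY v)) ≤ M.μ (diag I - dl (eY u) + dl (eX v)) := by
    intro I hI
    have hc := poin_sub_le (psl_le h hρ h1.le h2.le hI) (eY u)
    have hv := psl_v hI
    refine hs _ (poin_add_le hc ?_) (poin_add_le hc ?_)
    · simp only [Model.hi] at h2
      simp [dl_apply]
      omega
    · simp only [Model.lo] at h1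
      simp [dl_apply, hu.symm]
      omega
  rw [pN_succ hu, pN, mul_sum, mul_sum]
  refine ⟨sum_le_sum fun I hI => ?_, sum_le_sum fun I hI => ?_⟩
  · have r := psl_range hρ hI hu
    rw [mul_left_comm]
    exact mul_le_mul_of_nonneg_left (main I hI).2 (bw_nonneg r.1 r.2)
  · have r := psl_range hρ hI hu
    rw [mul_left_comm]
    exact mul_le_mul_of_nonneg_left (main I hI).1 (bw_nonneg r.1 r.2)

/-- The vector `x 1_{eX v} - y 1_{eY v}`. -/
def pz (v : U) (x y : ℝ) (a : El U T) : ℝ :=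
  (if a = eX v then x else 0) - (if a = eY v then y else 0)

theorem pz_sum (v : U) (x y : ℝ) (g : El U T → ℝ) :
    ∑ a, pz v x y a * g a = x * g (eX v) - y * g (eY v) := by
  simp only [pz, sub_mul, sum_sub_distrib, ite_mul, zero_mul, sum_ite_eq', mem_univ, if_true]

theorem pz_sum2 (v : U) (x y : ℝ) (g : El U T → El U T → ℝ) :
    ∑ a, ∑ b, pz v x y a * pz v x y b * g a b =
      x * (x * g (eX v) (eX v) - y * g (eX v) (eY v)) -
        y * (x * g (eY v) (eX v) - y * g (eY v) (eY v)) := by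
  simp only [mul_assoc, ← mul_sum, pz_sum]

theorem poin_solve (h : M.Cmp C₀ Γ₁) (hρ : ∀ u ∉ S, M.lo u ≤ ρ u ∧ ρ u ≤ M.hi u) {j : ℤ}
    (h1 : M.lo v ≤ j) (h2 : j < M.hi v) (θ : ℝ) :
    ∃ F : (U → ℤ) → ℝ, (∀ u ∈ S.erase v, 2 * ene M.μ (- dl (eY v)) (psl M S ρ v j) u F F ≤
      θ ^ 2 * (2 * pN M S ρ v u (j + 1) / (pP M S ρ v j * pP M S ρ v (j + 1)) -
        pN M S ρ v u (j + 1 + 1) / pP M S ρ v (j + 1) ^ 2 - pN M S ρ v u j / pP M S ρ v j ^ 2)) ∧
      ∀ G : (U → ℤ) → ℝ,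
        θ / pP M S ρ v (j + 1) * ∑ I ∈ psl M S ρ v j, M.μ (diag (I + dl v)) * G I -
          θ / pP M S ρ v j * ∑ I ∈ psl M S ρ v j, M.μ (diag I) * G I =
        ∑ u ∈ S.erase v, ene M.μ (- dl (eY v)) (psl M S ρ v j) u F G := by
  have hP0 := pP_pos h hρ h1 h2.le
  have hP1 : 0 < pP M S ρ v (j + 1) := pP_pos h hρ (by omega) (by omega)
  set x := θ / pP M S ρ v (j + 1) with hx
  set y := θ / pP M S ρ v j with hy
  have hok : ∀ I ∈ psl M S ρ v j, - dl (eY v) + diag I ≤ M.top := fun I hI => by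
    rw [neg_add_eq_sub]
    exact poin_sub_le (psl_le h hρ h1 h2.le hI) _
  have hm : ∀ I, ∑ a, pz v x y a * M.μ (- dl (eY v) + diag I + dl a) =
      x * M.μ (diag (I + dl v)) - y * M.μ (diag I) := fun I => by
    have e1 : - dl (eY v) + diag (T := T) I + dl (eX v) = diag (I + dl v) := by
      rw [diag_add_dl]; abel
    have e2 : - dl (eY v) + diag (T := T) I + dl (eY v) = diag I := by abel
    rw [pz_sum, e1, e2]
  obtain ⟨F, hF⟩ := solve M (S.erase v) (Function.update ρ v j) (poin_off_nY S v) hok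
    (fun I => x * M.μ (diag (I + dl v)) - y * M.μ (diag I)) (by
      have f1 : pP M S ρ v (j + 1) = ∑ I ∈ psl M S ρ v j, M.μ (diag (I + dl v)) := psl_repin _ _
      change ∑ I ∈ psl M S ρ v j, _ = _
      rw [sum_sub_distrib, ← mul_sum, ← mul_sum, ← f1, hx, hy, div_mul_cancel₀ _ hP1.ne']
      change θ - θ / pP M S ρ v j * pP M S ρ v j = 0
      rw [div_mul_cancel₀ _ hP0.ne', sub_self])
  refine ⟨F, fun u hu => ?_, fun G => ?_⟩
  · have huv := ne_of_mem_erase hu
    have key := bochner M (S.erase v) (Function.update ρ v j) (poin_off_nY S v) hok (pz v x y)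
      (fun u hu => by
        have := ne_of_mem_erase hu
        simp [pz, this]) F (fun I hI => by rw [hm]; exact hF I hI) u hu
    refine key.trans (le_of_eq ?_)
    have e : ∀ I, ∑ a, ∑ b, pz v x y a * pz v x y b *
        M.μ (- dl (eY v) + diag I - dl (eY u) + dl a + dl b) =
        x ^ 2 * M.μ (diag I - dl (eY u) + dl (eX v) + dl (eX v) - dl (eY v)) -
          2 * x * y * M.μ (diag I - dl (eY u) + dl (eX v)) +
          y ^ 2 * M.μ (diag I - dl (eY u) + dl (eY v)) := fun I => by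
      have e1 : - dl (eY v) + diag (T := T) I - dl (eY u) + dl (eX v) + dl (eX v) =
          diag I - dl (eY u) + dl (eX v) + dl (eX v) - dl (eY v) := by abel
      have e2 : - dl (eY v) + diag (T := T) I - dl (eY u) + dl (eX v) + dl (eY v) =
          diag I - dl (eY u) + dl (eX v) := by abel
      have e3 : - dl (eY v) + diag (T := T) I - dl (eY u) + dl (eY v) + dl (eX v) =
          diag I - dl (eY u) + dl (eX v) := by abel
      have e4 : - dl (eY v) + diag (T := T) I - dl (eY u) + dl (eY v) + dl (eY v) =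
          diag I - dl (eY u) + dl (eY v) := by abel
      rw [pz_sum2 v x y fun a b => M.μ (- dl (eY v) + diag I - dl (eY u) + dl a + dl b), e1, e2, e3,
        e4]
      ring
    have e' : ∑ I ∈ psl M S ρ v j, bw (M.lo u) (M.hi u) (I u) * ∑ a, ∑ b, pz v x y a * pz v x y b *
        M.μ (- dl (eY v) + diag I - dl (eY u) + dl a + dl b) =
        x ^ 2 * pN M S ρ v u (j + 1 + 1) - 2 * x * y * pN M S ρ v u (j + 1) +
          y ^ 2 * pN M S ρ v u j := by
      rw [pN_succ2 huv, pN_succ huv, pN, mul_sum, mul_sum, mul_sum, ← sum_sub_distrib,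
        ← sum_add_distrib]
      refine sum_congr rfl fun I _ => ?_
      rw [e]
      ring
    change - ∑ I ∈ psl M S ρ v j, _ = _
    rw [e', hx, hy]
    field_simp
    ring
  · have key := green (subset_refl (S.erase v)) (Function.update ρ v j) (M.van (S.erase v))
      (poin_off_nY S v) F G
    change ∑ I ∈ psl M S ρ v j, _ = - ∑ u ∈ S.erase v, ene M.μ _ (psl M S ρ v j) u F G at key
    rw [← neg_eq_iff_eq_neg] at key
    rw [← key, mul_sum, mul_sum, ← sum_sub_distrib, ← sum_neg_distrib]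
    refine sum_congr rfl fun I hI => ?_
    have := eq_neg_of_add_eq_zero_right (hF I hI)
    rw [this]
    ring

theorem poin_amgm {K : ℝ} (hK : 0 < K) (x y : ℝ) : x * y ≤ x * x / (4 * K) + K * (y * y) := by
  have : x * x / (4 * K) + K * (y * y) - x * y = (x - 2 * K * y) ^ 2 / (4 * K) := by
    field_simp
    ring
  have h2 : 0 ≤ (x - 2 * K * y) ^ 2 / (4 * K) := by positivity
  linarith

theorem ene_amgm {K : ℝ} (hK : 0 < K) (c₀ : El U T → ℤ) (B : Finset (U → ℤ)) (u : U)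
    (F G : (U → ℤ) → ℝ) :
    ene M.μ c₀ B u F G ≤ ene M.μ c₀ B u F F / (4 * K) + K * ene M.μ c₀ B u G G := by
  simp only [ene]
  rw [sum_div, mul_sum, ← sum_add_distrib]
  refine sum_le_sum fun I _ => ?_
  have := mul_le_mul_of_nonneg_left (poin_amgm hK (F (I + dl u) - F I) (G (I + dl u) - G I))
    (M.nonneg (c₀ + diag I + dl (eX u)))
  refine this.trans (le_of_eq ?_)
  ring

theorem ene_nonneg (c₀ : El U T → ℤ) (B : Finset (U → ℤ)) (u : U) (F : (U → ℤ) → ℝ) :
    0 ≤ ene M.μ c₀ B u F F :=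
  sum_nonneg fun _ _ => mul_nonneg (M.nonneg _) (mul_self_nonneg _)

theorem poin_avg {ι : Type} (B : Finset ι) (w κ g : ι → ℝ) {Q m K C : ℝ} (θ : ℝ) (hK : 0 < K)
    (hw : ∀ I ∈ B, 0 ≤ w I) (hQ : Q = ∑ I ∈ B, w I) (hm : 0 < m) (hmQ : m ≤ Q)
    (hκ : ∀ I ∈ B, w I ≤ C * κ I) :
    θ / Q * ∑ I ∈ B, w I * g I ≤ θ ^ 2 / m / (4 * K) + K * C * ∑ I ∈ B, κ I * (g I * g I) := by
  have hQ0 : 0 < Q := hm.trans_le hmQ
  have h1 : θ / Q * ∑ I ∈ B, w I * g I ≤
      ∑ I ∈ B, (w I * (θ / Q * (θ / Q) / (4 * K)) + K * C * (κ I * (g I * g I))) := by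
    rw [mul_sum]
    refine sum_le_sum fun I hI => ?_
    have h2 := mul_le_mul_of_nonneg_left (poin_amgm hK (θ / Q) (g I)) (hw I hI)
    have h3 := mul_le_mul_of_nonneg_right (hκ I hI) (mul_nonneg hK.le (mul_self_nonneg (g I)))
    nlinarith
  rw [sum_add_distrib, ← sum_mul, ← mul_sum, ← hQ] at h1
  refine h1.trans (add_le_add ?_ le_rfl)
  have h4 : Q * (θ / Q * (θ / Q) / (4 * K)) = θ ^ 2 / Q / (4 * K) := by field_simp
  rw [h4]
  gcongr

theorem poin_step (h : M.Cmp C₀ Γ₁) (hρ : ∀ u ∉ S, M.lo u ≤ ρ u ∧ ρ u ≤ M.hi u) {j : ℤ}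
    (h1 : M.lo v ≤ j) (h2 : j < M.hi v) (θ : ℝ) (f : (U → ℤ) → ℝ) {K₀ : ℝ} (hK₀ : 0 < K₀)
    (K : U → ℝ) (hK : ∀ u, 0 < K u) :
    θ / pP M S ρ v (j + 1) * ∑ I ∈ psl M S ρ v (j + 1), M.μ (diag I) * f I -
      θ / pP M S ρ v j * ∑ I ∈ psl M S ρ v j, M.μ (diag I) * f I ≤
    θ ^ 2 / min (pP M S ρ v j) (pP M S ρ v (j + 1)) / (4 * K₀) +
      K₀ * C₀ * ene M.μ 0 (psl M S ρ v j) v f f +
      ∑ u ∈ S.erase v, (θ ^ 2 * (2 * pN M S ρ v u (j + 1) / (pP M S ρ v j * pP M S ρ v (j + 1)) -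
        pN M S ρ v u (j + 1 + 1) / pP M S ρ v (j + 1) ^ 2 - pN M S ρ v u j / pP M S ρ v j ^ 2) /
          (8 * K u) +
        K u * C₀ * (ene M.μ 0 (psl M S ρ v j) u f f + ene M.μ 0 (psl M S ρ v (j + 1)) u f f)) := by
  have hP0 := pP_pos h hρ h1 h2.le
  have hP1 : 0 < pP M S ρ v (j + 1) := pP_pos h hρ (by omega) (by omega)
  have hC : 0 ≤ C₀ := zero_le_one.trans h.one_le
  obtain ⟨F, hF1, hF2⟩ := poin_solve h hρ h1 h2 θ
  have hsum : ∀ G : (U → ℤ) → ℝ, (∀ u ∈ S.erase v, ene M.μ (- dl (eY v)) (psl M S ρ v j) u G G ≤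
      C₀ * (ene M.μ 0 (psl M S ρ v j) u f f + ene M.μ 0 (psl M S ρ v (j + 1)) u f f)) →
      ∑ u ∈ S.erase v, ene M.μ (- dl (eY v)) (psl M S ρ v j) u F G ≤
      ∑ u ∈ S.erase v, (θ ^ 2 * (2 * pN M S ρ v u (j + 1) / (pP M S ρ v j * pP M S ρ v (j + 1)) -
        pN M S ρ v u (j + 1 + 1) / pP M S ρ v (j + 1) ^ 2 - pN M S ρ v u j / pP M S ρ v j ^ 2) /
          (8 * K u) +
        K u * C₀ * (ene M.μ 0 (psl M S ρ v j) u f f + ene M.μ 0 (psl M S ρ v (j + 1)) u f f)) := by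
    intro G hG
    refine sum_le_sum fun u hu => (ene_amgm (hK u) _ _ u F G).trans (add_le_add ?_ ?_)
    · have h3 := hF1 u hu
      have h4 := hK u
      rw [div_le_div_iff₀ (by positivity) (by positivity)]
      nlinarith
    · rw [mul_assoc]
      exact mul_le_mul_of_nonneg_left (hG u hu) (hK u).le
  rw [psl_repin]
  obtain ⟨a, ha, hd⟩ := h.down v
  rcases ha with rfl | rfl
  · have h3 := hsum (fun I => f (I + dl v)) fun u hu => by
      have huv := ne_of_mem_erase hu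
      refine le_trans ?_ (mul_le_mul_of_nonneg_left
        (le_add_of_nonneg_left (ene_nonneg _ _ _ _)) hC)
      simp only [ene]
      rw [psl_repin, mul_sum]
      refine sum_le_sum fun I hI => ?_
      have e : (0 : El U T → ℤ) + diag (I + dl v) + dl (eX u) =
          - dl (eY v) + diag I + dl (eX u) + dl (eX v) := by
        rw [diag_add_dl]; abel
      rw [e, add_right_comm I (dl v) (dl u), ← mul_assoc C₀]
      refine mul_le_mul_of_nonneg_right (poin_down h hd ?_) (mul_self_nonneg _)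
      have := psl_v hI
      simp only [Model.hi] at h2
      simp [dl_apply, huv.symm]
      omega
    rw [← hF2] at h3
    have h4 := poin_avg (psl M S ρ v j) (fun I => M.μ (diag I))
      (fun I => M.μ (0 + diag I + dl (eX v))) (fun I => f (I + dl v) - f I) (C := C₀) θ hK₀
      (fun I _ => M.nonneg _) (Q := pP M S ρ v j) rfl (lt_min hP0 hP1) (min_le_left _ _)
      (fun I hI => by
        rw [zero_add]
        refine poin_down h hd ?_
        have := psl_v hI
        simp only [Model.hi] at h2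
        simp
        omega)
    simp only [mul_sub, sum_sub_distrib] at h4
    simp only [ene, mul_sub, sum_sub_distrib] at h3 h4 ⊢
    linarith
  · have h3 := hsum f fun u hu => by
      have huv := ne_of_mem_erase hu
      refine le_trans ?_ (mul_le_mul_of_nonneg_left
        (le_add_of_nonneg_right (ene_nonneg _ _ _ _)) hC)
      simp only [ene]
      rw [mul_sum]
      refine sum_le_sum fun I hI => ?_
      have e : (0 : El U T → ℤ) + diag I + dl (eX u) =
          - dl (eY v) + diag I + dl (eX u) + dl (eY v) := by abel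
      rw [e, ← mul_assoc C₀]
      refine mul_le_mul_of_nonneg_right (poin_down h hd ?_) (mul_self_nonneg _)
      have := psl_v hI
      simp only [Model.lo] at h1
      simp [dl_apply]
      omega
    rw [← hF2] at h3
    have h4 := poin_avg (psl M S ρ v j) (fun I => M.μ (diag (I + dl v)))
      (fun I => M.μ (0 + diag I + dl (eX v))) (fun I => f (I + dl v) - f I) (C := C₀) θ hK₀
      (fun I _ => M.nonneg _) (Q := pP M S ρ v (j + 1)) (psl_repin _ _) (lt_min hP0 hP1)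
      (min_le_right _ _)
      (fun I hI => by
        have e : (0 : El U T → ℤ) + diag I + dl (eX v) = diag (I + dl v) + dl (eY v) := by
          rw [diag_add_dl]; abel
        rw [e]
        refine poin_down h hd ?_
        have := psl_v hI
        simp only [Model.lo] at h1
        simp
        omega)
    simp only [mul_sub, sum_sub_distrib] at h4
    simp only [ene, mul_sub, sum_sub_distrib] at h3 h4 ⊢
    linarith

theorem poin_Icc (lo : ℤ) (k : ℕ) (g : ℤ → ℝ) :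
    ∑ i ∈ Icc lo (lo + k), g i = ∑ i ∈ range (k + 1), g (lo + i) := by
  rw [Int.Icc_eq_finset_map, sum_map]
  have : (lo + k + 1 - lo).toNat = k + 1 := by omega
  rw [this]
  rfl

end Aux

/-- The variance of the conditional expectation given one cell.  `sl i` is the slice `I v = i`,
`P i` its mass, `cm i` the mean of `f` on it and `c` the overall mean.
Proof.  Let `lo = M.lo v`, `k = (M.hi v - lo).toNat`, `λ u = (hi u - lo u + 1)^2`, `D = M.form S (bx S ρ) f`,
`P' i = P (lo + i)`, `ψ i = cm (lo + i) - c`, `θ = prim P' ψ`, `V = ∑ P' ψ²`, `S' = S.erase v`.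
* `P'` is positive, and log-concave by `marg_lc` (on `S'`, pin `v` at `lo+i+1`, base
  `c₀ = - eX v - eY v`, elements `eX v`, `eY v`; use `sum_repin` and `diag_add_dl`).
* For `i < k` pin `v` at `lo + i`, base `c₀ = - eY v` (so `α v = lo+i`, `β v = lo+i+1`);
  `c₀ + diag I + eY v = diag I`, `c₀ + diag I + eX v = diag (I + e_v)`.  Let
  `z i = θ i / P' (i+1) • 1_{eX v} - θ i / P' i • 1_{eY v}`, `m i I = ∑ z i a μ (c₀ + diag I + a)`, of total mass `0`;
  `F i` from `solve`.  Let `a_v` be the element given by `h.down v`, `G i I = f (I + e_v)` if `a_v = eX v` and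
  `f I` if `a_v = eY v`.  Then `θ i (ψ (i+1) - ψ i) = ∑_I m i I * G i I + θ i * d i` where `d i` is the average of
  `f (I + e_v) - f I` over the slice `lo+i` (weights `μ (diag I) / P' i`) if `a_v = eX v`, over the slice
  `lo+i+1` (weights `μ (diag (I+e_v)) / P' (i+1)`) if `a_v = eY v`; in both cases the weight is at most
  `C₀ μ (diag I + eX v)` by `h.down`, so Cauchy-Schwarz and `prim_sq_le` give
  `∑ θ i d i ≤ sqrt ((k+1)^2 V) sqrt (C₀ ene_v f) ≤ sqrt (V C₀ D)`.
* `∑_I m i I G i I = ∑_{u ∈ S'} ene u (F i) (G i)` (`green`), at most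
  `∑_u sqrt (ene u (F i) (F i) / λ u) sqrt (λ u ene u (G i) (G i))`, and
  `ene μ c₀ (slice i) u (G i) (G i) ≤ C₀ ene μ 0 (slice i') u f f` with `i' = i+1` or `i` (`h.down v`).
* By `bochner`, `2 ene u (F i) (F i) ≤ θ i ^2 (2 n (i+1) / (P' i P' (i+1)) - n (i+2) / P' (i+1)^2 - n i / P' i ^2)`
  with `n j = ∑_{I ∈ slice (lo+j)} bw (I u) μ (diag I - eY u + eY v)` (cell `v` at `α = lo+j`, `β = lo+j-1`).
  `n 0 = n (k+1) = 0`; `n (j+1) ≤ C₀² λ u min (P' j) (P' (j+1))` (`h.up` removes `eX v` or `eY v`,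
  `h.down u` adds `eX u` or `eY u`, `0 ≤ bw ≤ λ u`, `bw = 0` at `hi u`, `sum_shift`); consecutive `n` are
  compared by `h.smooth v`.  So `telescope` gives `∑_i ene u (F i) (F i) ≤ C₀² λ u (1 + Γ₁) V`.
* Altogether `V ≤ sqrt V (sqrt (C₀ D) + sqrt (card U C₀³ (1+Γ₁) D))`. -/
theorem cond_var (M : Model (El U T)) {C₀ Γ₁ : ℝ} (h : M.Cmp C₀ Γ₁) (S : Finset U) (ρ : U → ℤ)
    (hρ : ∀ u ∉ S, M.lo u ≤ ρ u ∧ ρ u ≤ M.hi u) (v : U) (hv : v ∈ S) (f : (U → ℤ) → ℝ)
    (P cm : ℤ → ℝ) (c : ℝ)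
    (hP : ∀ i, P i = ∑ I ∈ M.bx (S.erase v) (Function.update ρ v i), M.μ (diag I))
    (hcm : ∀ i ∈ Icc (M.lo v) (M.hi v), P i * cm i =
      ∑ I ∈ M.bx (S.erase v) (Function.update ρ v i), M.μ (diag I) * f I)
    (hc : ∑ i ∈ Icc (M.lo v) (M.hi v), P i * (cm i - c) = 0) :
    ∑ i ∈ Icc (M.lo v) (M.hi v), P i * (cm i - c) ^ 2 ≤
      4 * Fintype.card U * C₀ ^ 3 * (1 + Γ₁) * M.form S (M.bx S ρ) f := by
  have hC1 := h.one_le
  have hC : 0 < C₀ := zero_lt_one.trans_le hC1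
  obtain ⟨k, hk⟩ : ∃ k : ℕ, M.hi v = M.lo v + k :=
    ⟨(M.hi v - M.lo v).toNat, by have := h.le v; omega⟩
  obtain ⟨δ, hδ0, hδ1, hs⟩ := h.smooth v
  have hk1 : ((M.hi v - M.lo v + 1 : ℤ) : ℝ) = k + 1 := by
    rw [hk]; push_cast; ring
  rw [hk1] at hδ1
  have hΓ : 0 ≤ Γ₁ := le_trans (by positivity) hδ1
  have hN1 : (1 : ℝ) ≤ Fintype.card U := by
    exact_mod_cast Fintype.card_pos_iff.2 ⟨v⟩
  set N : ℝ := (Fintype.card U : ℝ) with hN
  have hPe : P = pP M S ρ v := funext hP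
  subst hPe
  set lo := M.lo v with hlo
  let P' : ℕ → ℝ := fun i => pP M S ρ v (lo + i)
  let ψ : ℕ → ℝ := fun i => cm (lo + i) - c
  let lam : U → ℝ := fun u => ((M.hi u - M.lo u + 1 : ℤ) : ℝ) ^ 2
  have hlam : ∀ u, 0 < lam u := fun u => by
    have h1 : 0 < M.hi u - M.lo u + 1 := by have := h.le u; omega
    have h2 : (0 : ℝ) < ((M.hi u - M.lo u + 1 : ℤ) : ℝ) := by exact_mod_cast h1
    exact pow_pos h2 2
  have hlamv : lam v = ((k : ℝ) + 1) ^ 2 := by simp only [lam]; rw [hk1]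
  rw [hk, poin_Icc] at hc ⊢
  change ∑ i ∈ range (k + 1), P' i * ψ i = 0 at hc
  change ∑ i ∈ range (k + 1), P' i * ψ i ^ 2 ≤ _
  have hPpos : ∀ i ≤ k, 0 < P' i := fun i hi => pP_pos h hρ (by omega) (by omega)
  have hlc : ∀ i, i + 2 ≤ k → P' i * P' (i + 2) ≤ P' (i + 1) ^ 2 := fun i hi => by
    have := pP_lc (v := v) h hρ (j := lo + i) (by omega) (by omega)
    simp only [P']
    push_cast
    rw [← add_assoc, ← one_add_one_eq_two, ← add_assoc, ← add_assoc]
    exact this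
  set V := ∑ i ∈ range (k + 1), P' i * ψ i ^ 2 with hV
  have hV0 : 0 ≤ V := sum_nonneg fun i hi =>
    mul_nonneg (hPpos i (Nat.lt_succ_iff.1 (mem_range.1 hi))).le (sq_nonneg _)
  let E : U → ℤ → ℝ := fun u j => ene M.μ 0 (psl M S ρ v j) u f f
  have hE0 : ∀ u j, 0 ≤ E u j := fun u j => ene_nonneg _ _ _ _
  have hE : ∀ u, ene M.μ 0 (M.bx S ρ) u f f = ∑ i ∈ range (k + 1), E u (lo + i) := fun u => by
    rw [← poin_Icc lo k (E u), ← hk]
    exact sum_slice hv _
  have hE1 : ∀ u, ∑ i ∈ range k, E u (lo + i) ≤ ene M.μ 0 (M.bx S ρ) u f f := fun u => by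
    rw [hE, sum_range_succ]
    exact le_add_of_nonneg_right (hE0 _ _)
  have hE2 : ∀ u, ∑ i ∈ range k, E u (lo + i + 1) ≤ ene M.μ 0 (M.bx S ρ) u f f := fun u => by
    rw [hE, sum_range_succ']
    push_cast
    simp only [← add_assoc]
    exact le_add_of_nonneg_right (hE0 _ _)
  let K : U → ℝ := fun u => N * C₀ ^ 2 * lam u * (1 + Γ₁)
  have hK : ∀ u, 0 < K u := fun u => by have := hlam u; positivity
  let R : U → ℕ → ℝ := fun u i => prim P' ψ i ^ 2 *
    (2 * pN M S ρ v u (lo + i + 1) / (P' i * P' (i + 1)) -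
      pN M S ρ v u (lo + i + 1 + 1) / P' (i + 1) ^ 2 - pN M S ρ v u (lo + i) / P' i ^ 2)
  have hstep : ∀ i ∈ range k, prim P' ψ i * (ψ (i + 1) - ψ i) ≤
      V / (4 * (k + 1)) + lam v * C₀ * E v (lo + i) +
        ∑ u ∈ S.erase v, (R u i / (8 * K u) + K u * C₀ * (E u (lo + i) + E u (lo + i + 1))) := by
    intro i hi
    have hi' := mem_range.1 hi
    have h1 := poin_step (v := v) h hρ (j := lo + i) (by omega) (by omega) (prim P' ψ i) f
      (hlam v) K hK
    have p0 := hPpos i hi'.le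
    have p1 := hPpos (i + 1) hi'
    have q1 : P' (i + 1) = pP M S ρ v (lo + i + 1) := by
      simp only [P']; push_cast; rw [add_assoc]
    have c0 : P' i * cm (lo + i) = ∑ I ∈ psl M S ρ v (lo + i), M.μ (diag I) * f I :=
      hcm _ (mem_Icc.2 ⟨by omega, by omega⟩)
    have c1 : P' (i + 1) * cm (lo + i + 1) =
        ∑ I ∈ psl M S ρ v (lo + i + 1), M.μ (diag I) * f I := by
      rw [q1]
      exact hcm _ (mem_Icc.2 ⟨by omega, by omega⟩)
    rw [← q1, ← c0, ← c1] at h1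
    change prim P' ψ i / P' (i + 1) * (P' (i + 1) * cm (lo + i + 1)) -
      prim P' ψ i / P' i * (P' i * cm (lo + i)) ≤
      prim P' ψ i ^ 2 / min (P' i) (P' (i + 1)) / (4 * lam v) + lam v * C₀ * E v (lo + i) +
        ∑ u ∈ S.erase v, (R u i / (8 * K u) + K u * C₀ * (E u (lo + i) + E u (lo + i + 1))) at h1
    have e1 : prim P' ψ i * (ψ (i + 1) - ψ i) =
        prim P' ψ i / P' (i + 1) * (P' (i + 1) * cm (lo + i + 1)) -
          prim P' ψ i / P' i * (P' i * cm (lo + i)) := by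
      have : ψ (i + 1) - ψ i = cm (lo + i + 1) - cm (lo + i) := by
        simp only [ψ]; push_cast; rw [← add_assoc]; ring
      rw [this]
      field_simp
    rw [e1]
    refine h1.trans (add_le_add (add_le_add ?_ le_rfl) le_rfl)
    have h2 := prim_sq_le k P' ψ hPpos hlc hc i hi'
    rw [← hV] at h2
    have hm : 0 < min (P' i) (P' (i + 1)) := lt_min p0 p1
    rw [hlamv, div_div, div_le_div_iff₀ (by positivity) (by positivity)]
    have := mul_le_mul_of_nonneg_right h2 (by positivity : (0 : ℝ) ≤ 4 * (k + 1))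
    refine this.trans (le_of_eq ?_)
    ring
  have hR : ∀ u ∈ S.erase v, ∑ i ∈ range k, R u i ≤ 2 * (C₀ ^ 2 * lam u) * (1 + Γ₁) * V := by
    intro u hu
    have huv := ne_of_mem_erase hu
    have hA : 0 ≤ C₀ ^ 2 * lam u := by have := hlam u; positivity
    have key := telescope k P' ψ (fun i => pN M S ρ v u (lo + i)) hPpos hlc hc (C₀ ^ 2 * lam u) δ
      hA hδ0 (by simpa using pN_lo huv)
      (by
        have : lo + ((k + 1 : ℕ) : ℤ) = M.hi v + 1 := by push_cast; omega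
        simp only [this]
        exact pN_hi)
      (fun j => pN_nonneg hρ huv _)
      (fun j _ => by
        constructor
        · push_cast
          rw [← add_assoc, pN_succ huv]
          exact pN_bound h hρ hu _ _
        · exact pN_bound h hρ hu _ _)
      (fun j h1 h2 => by
        push_cast
        rw [← add_assoc]
        exact pN_smooth h hρ huv hs (by omega) (by omega))
    rw [← hV] at key
    have e : ∑ i ∈ range k, R u i = ∑ i ∈ range k, prim P' ψ i ^ 2 *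
        (2 * pN M S ρ v u (lo + ((i + 1 : ℕ) : ℤ)) / (P' i * P' (i + 1)) -
          pN M S ρ v u (lo + ((i + 2 : ℕ) : ℤ)) / P' (i + 1) ^ 2 -
          pN M S ρ v u (lo + i) / P' i ^ 2) := by
      refine sum_congr rfl fun i _ => ?_
      have a1 : lo + ((i + 1 : ℕ) : ℤ) = lo + i + 1 := by push_cast; ring
      have a2 : lo + ((i + 2 : ℕ) : ℤ) = lo + i + 1 + 1 := by push_cast; ring
      rw [a1, a2]
    rw [e]
    refine key.trans ?_
    have := mul_le_mul_of_nonneg_left hδ1 (mul_nonneg hA hV0)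
    nlinarith
  have hmain := sum_le_sum hstep
  rw [← var_eq_prim k P' ψ hc, ← hV, sum_add_distrib, sum_add_distrib, sum_comm, sum_const,
    card_range, nsmul_eq_mul, ← mul_sum] at hmain
  have t1 : (k : ℝ) * (V / (4 * (k + 1))) ≤ V / 4 := by
    rw [← mul_div_assoc, div_le_div_iff₀ (by positivity) (by positivity)]
    nlinarith
  have t2 : lam v * C₀ * ∑ i ∈ range k, E v (lo + i) ≤
      2 * N * C₀ ^ 3 * (1 + Γ₁) * (lam v * ene M.μ 0 (M.bx S ρ) v f f) := by
    have a1 := mul_le_mul_of_nonneg_left (hE1 v) (mul_pos (hlam v) hC).le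
    refine a1.trans ?_
    have a2 : C₀ ≤ 2 * N * C₀ ^ 3 * (1 + Γ₁) := by
      have b1 : C₀ ≤ C₀ ^ 3 := by nlinarith [mul_nonneg hC.le (sub_nonneg.2 hC1)]
      have b2 : 1 ≤ 2 * N * (1 + Γ₁) := by nlinarith
      nlinarith [pow_pos hC 3]
    have a3 := mul_le_mul_of_nonneg_right a2
      (mul_nonneg (hlam v).le (ene_nonneg (M := M) 0 (M.bx S ρ) v f))
    linarith
  have t3 : ∑ u ∈ S.erase v, ∑ i ∈ range k,
      (R u i / (8 * K u) + K u * C₀ * (E u (lo + i) + E u (lo + i + 1))) ≤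
      ∑ u ∈ S.erase v,
        (V / (4 * N) + 2 * N * C₀ ^ 3 * (1 + Γ₁) * (lam u * ene M.μ 0 (M.bx S ρ) u f f)) := by
    refine sum_le_sum fun u hu => ?_
    rw [sum_add_distrib, ← sum_div, ← mul_sum, sum_add_distrib]
    refine add_le_add ?_ ?_
    · have a1 := hK u
      rw [div_le_div_iff₀ (by positivity) (by positivity)]
      have := mul_le_mul_of_nonneg_right (hR u hu) (by positivity : 0 ≤ 4 * N)
      refine this.trans (le_of_eq ?_)
      simp only [K]
      ring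
    · have := mul_le_mul_of_nonneg_left (add_le_add (hE1 u) (hE2 u)) (mul_pos (hK u) hC).le
      refine this.trans (le_of_eq ?_)
      simp only [K]
      ring
  rw [sum_add_distrib, sum_const, nsmul_eq_mul, ← mul_sum] at t3
  have t4 : ((S.erase v).card : ℝ) * (V / (4 * N)) ≤ V / 4 := by
    have a1 : ((S.erase v).card : ℝ) ≤ N := by
      rw [hN]
      exact_mod_cast card_le_univ _
    rw [← mul_div_assoc, div_le_div_iff₀ (by positivity) (by positivity)]
    nlinarith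
  have t5 : M.form S (M.bx S ρ) f = lam v * ene M.μ 0 (M.bx S ρ) v f f +
      ∑ u ∈ S.erase v, lam u * ene M.μ 0 (M.bx S ρ) u f f :=
    (add_sum_erase S (fun u => lam u * ene M.μ 0 (M.bx S ρ) u f f) hv).symm
  rw [t5]
  linarith

theorem poin_split {ι : Type} (B : Finset ι) (w f : ι → ℝ) {P m : ℝ} (hP : P = ∑ I ∈ B, w I)
    (hm : P * m = ∑ I ∈ B, w I * f I) (c : ℝ) :
    ∑ I ∈ B, w I * (f I - c) ^ 2 = ∑ I ∈ B, w I * (f I - m) ^ 2 + P * (m - c) ^ 2 := by
  have : ∀ I, w I * (f I - c) ^ 2 = w I * (f I - m) ^ 2 +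
      (2 * (m - c) * (w I * f I) + w I * (c ^ 2 - m ^ 2)) := fun I => by ring
  simp only [this, sum_add_distrib]
  rw [← mul_sum, ← sum_mul, ← hm, ← hP]
  ring

/-- Poincaré inequality.
Proof: induction on `S` (for all `ρ`).  For `S = ∅` the box is the single point `ρ`; take `c = f ρ`.
For `v ∈ S` slice along `v` (`sum_slice`), let `cm i` be the mean on the slice and `c` the overall mean:
`∑ μ (f - c)^2 = ∑_i ∑_{slice i} μ (f - cm i)^2 + ∑_i P i (cm i - c)^2`.  The mean minimises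
`c' ↦ ∑_{slice i} μ (f - c')^2`, so the induction hypothesis bounds the first part by
`(card S - 1) Γ ∑_i form (S.erase v) (slice i) ≤ (card S - 1) Γ form S (bx S ρ)` (`sum_slice` again, all
terms are nonnegative), and `cond_var` bounds the second. -/
theorem Model.poincare (M : Model (El U T)) {C₀ Γ₁ : ℝ} (h : M.Cmp C₀ Γ₁) (S : Finset U)
    (ρ : U → ℤ) (hρ : ∀ u ∉ S, M.lo u ≤ ρ u ∧ ρ u ≤ M.hi u) (f : (U → ℤ) → ℝ) :
    ∃ c : ℝ, ∑ I ∈ M.bx S ρ, M.μ (diag I) * (f I - c) ^ 2 ≤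
      S.card * (4 * Fintype.card U * C₀ ^ 3 * (1 + Γ₁)) * M.form S (M.bx S ρ) f := by
  induction S using Finset.induction_on generalizing ρ with
  | empty =>
    refine ⟨f ρ, le_of_eq ?_⟩
    rw [card_empty, Nat.cast_zero, zero_mul, zero_mul]
    refine sum_eq_zero fun I hI => ?_
    have : I = ρ := funext fun u => (mem_boxS.1 hI u).2 (notMem_empty u)
    rw [this, sub_self]
    simp
  | insert v S hvS ih =>
    have hv : v ∈ insert v S := mem_insert_self v S
    have hC : 0 < C₀ := zero_lt_one.trans_le h.one_le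
    obtain ⟨δ, hδ0, hδ1, -⟩ := h.smooth v
    have hΓ : 0 ≤ Γ₁ := by
      refine le_trans (mul_nonneg hδ0 ?_) hδ1
      have h1 : 0 ≤ M.hi v - M.lo v + 1 := by have := h.le v; omega
      exact_mod_cast h1
    set Γ : ℝ := 4 * Fintype.card U * C₀ ^ 3 * (1 + Γ₁) with hΓdef
    have hΓ0 : 0 ≤ Γ := by positivity
    let P : ℤ → ℝ := pP M (insert v S) ρ v
    let cm : ℤ → ℝ := fun i => (∑ I ∈ psl M (insert v S) ρ v i, M.μ (diag I) * f I) / P i
    have hPpos : ∀ i ∈ Icc (M.lo v) (M.hi v), 0 < P i := fun i hi =>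
      pP_pos h hρ (mem_Icc.1 hi).1 (mem_Icc.1 hi).2
    have hcm : ∀ i ∈ Icc (M.lo v) (M.hi v), P i * cm i =
        ∑ I ∈ psl M (insert v S) ρ v i, M.μ (diag I) * f I := fun i hi =>
      mul_div_cancel₀ _ (hPpos i hi).ne'
    have hZ : 0 < ∑ i ∈ Icc (M.lo v) (M.hi v), P i :=
      sum_pos hPpos ⟨M.lo v, mem_Icc.2 ⟨le_rfl, h.le v⟩⟩
    let c : ℝ := (∑ i ∈ Icc (M.lo v) (M.hi v), P i * cm i) / ∑ i ∈ Icc (M.lo v) (M.hi v), P i
    have hc : ∑ i ∈ Icc (M.lo v) (M.hi v), P i * (cm i - c) = 0 := by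
      simp only [mul_sub, sum_sub_distrib]
      rw [← sum_mul, mul_div_cancel₀ _ hZ.ne', sub_self]
    have key := cond_var M h (insert v S) ρ hρ v hv f P cm c (fun _ => rfl) hcm hc
    rw [← hΓdef] at key
    have hsl : ∀ i, psl M (insert v S) ρ v i = M.bx S (Function.update ρ v i) := fun i => by
      rw [psl, erase_insert hvS]
    have hin : ∀ i ∈ Icc (M.lo v) (M.hi v),
        ∑ I ∈ psl M (insert v S) ρ v i, M.μ (diag I) * (f I - c) ^ 2 ≤
          S.card * Γ * M.form S (psl M (insert v S) ρ v i) f + P i * (cm i - c) ^ 2 := by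
      intro i hi
      obtain ⟨c', hc'⟩ := ih (Function.update ρ v i) fun u hu => by
        by_cases huv : u = v
        · subst huv
          rw [Function.update_self]
          exact mem_Icc.1 hi
        · rw [Function.update_of_ne huv]
          exact hρ u fun hh => (mem_insert.1 hh).elim huv hu
      rw [← hsl] at hc'
      rw [poin_split _ _ f (P := P i) rfl (hcm i hi) c]
      rw [poin_split _ _ f (P := P i) rfl (hcm i hi) c'] at hc'
      have := mul_nonneg (hPpos i hi).le (sq_nonneg (cm i - c'))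
      linarith
    have hform : ∑ i ∈ Icc (M.lo v) (M.hi v), M.form S (psl M (insert v S) ρ v i) f ≤
        M.form (insert v S) (M.bx (insert v S) ρ) f := by
      simp only [Model.form]
      rw [sum_insert hvS, sum_comm]
      refine le_add_of_nonneg_of_le (mul_nonneg (sq_nonneg _) (ene_nonneg _ _ _ _))
        (le_of_eq (sum_congr rfl fun u _ => ?_))
      rw [← mul_sum]
      congr 1
      exact (sum_slice hv _).symm
    refine ⟨c, ?_⟩
    have h1 : ∑ I ∈ M.bx (insert v S) ρ, M.μ (diag I) * (f I - c) ^ 2 =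
        ∑ i ∈ Icc (M.lo v) (M.hi v),
          ∑ I ∈ psl M (insert v S) ρ v i, M.μ (diag I) * (f I - c) ^ 2 := sum_slice hv _
    rw [h1, card_insert_of_notMem hvS]
    refine (sum_le_sum hin).trans ?_
    rw [sum_add_distrib, ← mul_sum]
    have h2 := mul_le_mul_of_nonneg_left hform (by positivity : 0 ≤ (S.card : ℝ) * Γ)
    push_cast
    linarith

end Crest.Agent.R309
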