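import Crest.Agent.R309.Lor
import Crest.Agent.R309.Poin

/-!
# R309: Poincaré inequality and shift log-concavity for laminar models
-/

set_option linter.dupNamespace false
set_option linter.unusedSectionVars false

namespace Crest.Agent.R309

open Finset

variable {U L : Type} [Fintype U] [DecidableEq U] [Fintype L] [DecidableEq L]

/-- Membership of elements and terminals. -/
def lampMem {T : Type} (m : Lam U L) (mt : T → L → Bool) : El U T → L → Bool
  | Sum.inl a => m.mem a
  | Sum.inr t => mt t

/-- Functions on elements from their values. -/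
def lampFn {T α : Type} (x y : U → α) (z : T → α) : El U T → α
  | Sum.inl (u, true) => x u
  | Sum.inl (u, false) => y u
  | Sum.inr t => z t

theorem lamp_sum {T α : Type} [Fintype T] [AddCommMonoid α] (f : El U T → α) :
    ∑ a, f a = ∑ u, (f (eX u) + f (eY u)) + ∑ t, f (Sum.inr t) := by
  rw [Fintype.sum_sum_type, Fintype.sum_prod_type]
  simp only [Fintype.sum_bool]

theorem lamp_cnt {T : Type} [Fintype T] (m : Lam U L) (mt : T → L → Bool) (σ : U → ℤ) (C : L) :
    (∑ a, if lampMem m mt a C then diag σ a else 0) = - m.net C σ := by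
  rw [lamp_sum]
  simp only [diag_T, ite_self, sum_const_zero, add_zero, diag_X, diag_Y]
  rw [Lam.net, ← sum_neg_distrib]
  refine sum_congr rfl fun u _ => ?_
  by_cases h1 : m.mem (u, true) C = true <;> by_cases h2 : m.mem (u, false) C = true <;>
    simp [lampMem, h1, h2]

theorem lamp_mu_pos {E : Type} [Fintype E] [DecidableEq E] (mem : E → L → Bool) (ψ : L → ℤ → ℝ)
    (base : L → ℤ) (γ : E → ℝ) (top : E → ℤ) {c : E → ℤ} (hc : c ≤ top) :
    lamMu mem ψ base γ top c = Real.exp (lorEx mem ψ base γ c) := by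
  simp only [lamMu, lorEx]
  rw [if_pos hc]

theorem lamp_ex_dl {E : Type} [Fintype E] [DecidableEq E] (mem : E → L → Bool) (ψ : L → ℤ → ℝ)
    (base : L → ℤ) (γ : E → ℝ) (c : E → ℤ) (a : E) :
    lorEx mem ψ base γ (c + dl a) = ∑ x, γ x * c x + γ a -
      ∑ C, ψ C (base C - (∑ x, if mem x C then c x else 0) - if mem a C then 1 else 0) := by
  simp only [lorEx, lor_sum_dl, lor_gam_dl, sub_sub]

theorem lamp_lip (m : Lam U L) (C : L) (s : ℤ) (b b' : Bool) :
    |m.ψ C (s - if b then 1 else 0) - m.ψ C (s - if b' then 1 else 0)| ≤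
      if b ≠ b' then m.lip C else 0 := by
  have h := m.lips C (s - 1)
  rw [sub_add_cancel] at h
  cases b <;> cases b'
  · simp
  · simpa using h
  · rw [abs_sub_comm] at h
    simpa using h
  · simp

theorem lamp_le_top {T : Type} [DecidableEq T] {lo hi : U → ℤ} (z : T → ℤ) (hz : ∀ t, 0 ≤ z t)
    {σ : U → ℤ} (hσ : σ ∈ box lo hi) : diag σ ≤ lampFn hi (fun u => - lo u) z := by
  intro a
  rw [mem_box] at hσ
  rcases a with ⟨u, _ | _⟩ | t
  · simpa [diag, lampFn] using (hσ u).1
  · simpa [diag, lampFn] using (hσ u).2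
  · simpa [diag, lampFn] using hz t

/-- Poincaré inequality for a laminar model; the fields are arbitrary.
Proof: apply `exists_lamModel` on `El U Empty` with `mem (inl a) = m.mem a`, `base = 0`,
`top (eX u) = hi u`, `top (eY u) = - lo u`, activities `γ (eX u) = min (γ u) 0`,
`γ (eY u) = - max (γ u) 0` (both `≤ 0`, one of them `0`); then `μ (diag σ) = m.wt σ` on the box.
Adding an element `a` changes `∑ ψ` by at most `∑_{C ∋ a} lip C`: this gives `up` and `down`
(for the element with activity `0`).  `smooth`: `δ = 1` in the first case of `hδ`; in the second,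
`c + eX u` and `c + eY u` have arguments of `ψ C` that agree unless exactly one end is in `C`, when they
differ by one, so the ratio is at least `exp (-x) ≥ 1 - x`, `x = δ` the sum in `hδ`.
Finally `Model.poincare` with `S = univ`, and
`μ (diag σ + eX u) = μ (diag (σ + e_u) + eY u) ≤ C₀ min (wt σ) (wt (σ + e_u))` for `σ u < hi u`, `= 0` for
`σ u = hi u`. -/
theorem Lam.poincare (m : Lam U L) {C₀ Γ₁ : ℝ} (h1 : 1 ≤ C₀)
    (hC : ∀ a, Real.exp (∑ C, if m.mem a C then m.lip C else 0) ≤ C₀)
    (hδ : ∀ u, ((m.hi u - m.lo u + 1 : ℤ) : ℝ) ≤ Γ₁ ∨ (m.γ u = 0 ∧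
      (∑ C, if m.mem (u, true) C ≠ m.mem (u, false) C then m.lip C else 0) *
        ((m.hi u - m.lo u + 1 : ℤ) : ℝ) ≤ Γ₁))
    (f : (U → ℤ) → ℝ) :
    ∃ c : ℝ, ∑ σ ∈ box m.lo m.hi, m.wt σ * (f σ - c) ^ 2 ≤
      ∑ u, 4 * (Fintype.card U) ^ 2 * C₀ ^ 4 * (1 + Γ₁) * ((m.hi u - m.lo u + 1 : ℤ) : ℝ) ^ 2 *
        dir m.lo m.hi m.wt u f := by
  set mem : El U Empty → L → Bool := lampMem m (fun t => t.elim) with hmem
  set γ : El U Empty → ℝ := lampFn (fun u => min (m.γ u) 0) (fun u => - max (m.γ u) 0)
    (fun t => t.elim) with hγ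
  set top : El U Empty → ℤ := lampFn m.hi (fun u => - m.lo u) (fun t => t.elim) with htop
  obtain ⟨M, hMt, hMμ⟩ := exists_lamModel mem (by
    intro C C' ⟨a, ha⟩
    rcases a with a | t
    · rcases m.lam C C' ⟨a, ha⟩ with h | h
      · left
        rintro (b | t)
        · exact h b
        · exact t.elim
      · right
        rintro (b | t)
        · exact h b
        · exact t.elim
    · exact t.elim) m.ψ m.cvx 0 γ top
  have hlo : M.lo = m.lo := by
    funext u
    simp [Model.lo, hMt, htop, lampFn]
  have hhi : M.hi = m.hi := by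
    funext u
    simp [Model.hi, hMt, htop, lampFn]
  have hμ : ∀ c, c ≤ top → M.μ c = Real.exp (lorEx mem m.ψ 0 γ c) := fun c hc => by
    rw [hMμ, lamp_mu_pos _ _ _ _ _ hc]
  have hle : ∀ (c : El U Empty → ℤ) (a : El U Empty), c + dl a ≤ top → c ≤ top := fun c a h x =>
    le_trans (by simpa using dl_nonneg a x) (h x)
  have hlip0 : ∀ C, 0 ≤ m.lip C := fun C => (abs_nonneg _).trans (m.lips C 0)
  have hstep : ∀ (c : El U Empty → ℤ) (a : U × Bool),
      |lorEx mem m.ψ 0 γ (c + dl (Sum.inl a)) - lorEx mem m.ψ 0 γ c - γ (Sum.inl a)| ≤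
        ∑ C, if m.mem a C then m.lip C else 0 := by
    intro c a
    rw [lamp_ex_dl, lorEx]
    have : ∑ x, γ x * c x + γ (Sum.inl a) -
        ∑ C, m.ψ C ((0 : L → ℤ) C - (∑ x, if mem x C then c x else 0) -
          if mem (Sum.inl a) C then 1 else 0) -
        (∑ x, γ x * c x - ∑ C, m.ψ C ((0 : L → ℤ) C - ∑ x, if mem x C then c x else 0)) -
        γ (Sum.inl a) =
        ∑ C, (m.ψ C ((0 : L → ℤ) C - (∑ x, if mem x C then c x else 0) -
          if false then 1 else 0) - m.ψ C ((0 : L → ℤ) C - (∑ x, if mem x C then c x else 0) -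
          if m.mem a C then 1 else 0)) := by
      simp only [sum_sub_distrib, Bool.false_eq_true, if_false, sub_zero, hmem, lampMem]
      ring
    rw [this]
    refine (abs_sum_le_sum_abs _ _).trans (sum_le_sum fun C _ => (lamp_lip m C _ _ _).trans ?_)
    cases m.mem a C <;> simp
  have hγ0 : ∀ a : U × Bool, γ (Sum.inl a) ≤ 0 := by
    rintro ⟨u, _ | _⟩
    · simp [hγ, lampFn]
    · simp [hγ, lampFn]
  have hup : ∀ c a, M.μ (c + dl a) ≤ C₀ * M.μ c := by
    intro c a
    rcases a with a | t
    · by_cases hc : c + dl (Sum.inl a) ≤ top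
      · rw [hμ _ hc, hμ _ (hle _ _ hc)]
        refine le_trans ?_ (mul_le_mul_of_nonneg_right (hC a) (Real.exp_pos _).le)
        rw [← Real.exp_add]
        refine Real.exp_le_exp.2 ?_
        have := (abs_le.1 (hstep c a)).2
        have := hγ0 a
        linarith
      · rw [M.zero _ (by rwa [hMt])]
        exact mul_nonneg (by linarith) (M.nonneg _)
    · exact t.elim
  have hdown : ∀ a : U × Bool, γ (Sum.inl a) = 0 → ∀ c, c + dl (Sum.inl a) ≤ M.top →
      M.μ c ≤ C₀ * M.μ (c + dl (Sum.inl a)) := by
    intro a ha c hc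
    rw [hMt] at hc
    rw [hμ _ hc, hμ _ (hle _ _ hc)]
    refine le_trans ?_ (mul_le_mul_of_nonneg_right (hC a) (Real.exp_pos _).le)
    rw [← Real.exp_add]
    refine Real.exp_le_exp.2 ?_
    have := (abs_le.1 (hstep c a)).1
    linarith
  have hx0 : ∀ u, 0 ≤ ∑ C, if m.mem (u, true) C ≠ m.mem (u, false) C then m.lip C else 0 :=
    fun u => sum_nonneg fun C _ => by
      split_ifs
      · exact hlip0 C
      · exact le_rfl
  have hlen : ∀ u, (0 : ℝ) ≤ ((m.hi u - m.lo u + 1 : ℤ) : ℝ) := fun u => by
    have := m.le u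
    exact_mod_cast (by omega : (0 : ℤ) ≤ m.hi u - m.lo u + 1)
  have hcmp : M.Cmp C₀ Γ₁ := by
    refine ⟨h1, fun t => t.elim, fun u => by rw [hlo, hhi]; exact m.le u, hup, fun u => ?_,
      fun u => ?_⟩
    · rcases le_total 0 (m.γ u) with h | h
      · exact ⟨eX u, Or.inl rfl, hdown (u, true) (by simp [hγ, lampFn, h])⟩
      · exact ⟨eY u, Or.inr rfl, hdown (u, false) (by simp [hγ, lampFn, h])⟩
    · rw [hlo, hhi]
      rcases hδ u with h | ⟨hg, h⟩
      · refine ⟨1, zero_le_one, by rwa [one_mul], fun c _ _ => ?_⟩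
        simp only [sub_self, zero_mul]
        exact ⟨M.nonneg _, M.nonneg _⟩
      · refine ⟨_, hx0 u, h, fun c hX hY => ?_⟩
        rw [hMt] at hX hY
        rw [hμ _ hX, hμ _ hY]
        set x := ∑ C, if m.mem (u, true) C ≠ m.mem (u, false) C then m.lip C else 0 with hx
        have hab : |lorEx mem m.ψ 0 γ (c + dl (eY u)) - lorEx mem m.ψ 0 γ (c + dl (eX u))| ≤ x := by
          rw [lamp_ex_dl, lamp_ex_dl]
          have g1 : γ (eX u) = 0 := by simp [hγ, lampFn, hg]
          have g2 : γ (eY u) = 0 := by simp [hγ, lampFn, hg]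
          rw [g1, g2, sub_sub_sub_cancel_left, ← sum_sub_distrib]
          exact (abs_sum_le_sum_abs _ _).trans (sum_le_sum fun C _ => lamp_lip m C _ _ _)
        have hexp : 1 - x ≤ Real.exp (-x) := by
          have := Real.add_one_le_exp (-x)
          linarith
        obtain ⟨a1, a2⟩ := abs_le.1 hab
        constructor
        · refine le_trans (mul_le_mul_of_nonneg_right hexp (Real.exp_pos _).le) ?_
          rw [← Real.exp_add]
          exact Real.exp_le_exp.2 (by linarith)
        · refine le_trans (mul_le_mul_of_nonneg_right hexp (Real.exp_pos _).le) ?_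
          rw [← Real.exp_add]
          exact Real.exp_le_exp.2 (by linarith)
  have hwt : ∀ σ ∈ box m.lo m.hi, M.μ (diag σ) = m.wt σ := by
    intro σ hσ
    rw [hμ _ (lamp_le_top _ (fun t => t.elim) hσ), Lam.wt, lorEx]
    congr 2
    · rw [lamp_sum]
      simp only [hγ, lampFn, diag_X, diag_Y, Finset.univ_eq_empty, sum_empty, add_zero]
      refine sum_congr rfl fun u _ => ?_
      have := min_add_max (m.γ u) 0
      push_cast
      linear_combination (σ u : ℝ) * this
    · refine sum_congr rfl fun C _ => ?_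
      rw [hmem, lamp_cnt]
      simp
  obtain ⟨c, hc⟩ := M.poincare hcmp univ 0 (fun u hu => absurd (mem_univ u) hu) f
  have hbx : M.bx univ 0 = box m.lo m.hi := by rw [Model.bx, boxS_univ, hlo, hhi]
  rw [hbx] at hc
  refine ⟨c, ?_⟩
  rw [sum_congr rfl fun σ hσ => by rw [hwt σ hσ]] at hc
  refine hc.trans ?_
  rw [Model.form, mul_sum, hlo, hhi, card_univ]
  refine sum_le_sum fun u _ => ?_
  have hΓ : 0 ≤ Γ₁ := by
    rcases hδ u with h | ⟨-, h⟩
    · exact (hlen u).trans h
    · exact (mul_nonneg (hx0 u) (hlen u)).trans h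
  have hene : ene M.μ 0 (box m.lo m.hi) u f f ≤ C₀ * dir m.lo m.hi m.wt u f := by
    rw [ene, dir, sum_filter, mul_sum]
    refine sum_le_sum fun σ hσ => ?_
    rw [zero_add]
    split_ifs with h
    · rw [← sq, ← mul_assoc]
      refine mul_le_mul_of_nonneg_right ?_ (sq_nonneg _)
      have hσ' : σ + dl u ∈ box m.lo m.hi := by
        rw [mem_box] at hσ ⊢
        intro v
        by_cases hv : v = u
        · subst hv
          have := hσ v
          simp only [Pi.add_apply, dl_self]
          omega
        · simpa [dl_ne hv] using hσ v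
      rw [mul_min_of_nonneg _ _ (by linarith : (0 : ℝ) ≤ C₀), ← hwt σ hσ, ← hwt _ hσ']
      refine le_min (hup _ _) ?_
      have e : (diag σ : El U Empty → ℤ) + dl (eX u) = diag (σ + dl u) + dl (eY u) := by
        rw [diag_add_dl]; abel
      rw [e]
      exact hup _ _
    · rw [M.zero, zero_mul, mul_zero]
      intro hh
      have := hh (eX u)
      rw [hMt] at this
      simp only [Pi.add_apply, diag_X, dl_self, htop, lampFn] at this
      omega
  have hk : 0 ≤ (Fintype.card U : ℝ) * (4 * Fintype.card U * C₀ ^ 3 * (1 + Γ₁)) *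
      ((m.hi u - m.lo u + 1 : ℤ) : ℝ) ^ 2 := by
    have : 0 ≤ C₀ := by linarith
    positivity
  calc _ = (Fintype.card U : ℝ) * (4 * Fintype.card U * C₀ ^ 3 * (1 + Γ₁)) *
        ((m.hi u - m.lo u + 1 : ℤ) : ℝ) ^ 2 * ene M.μ 0 (box m.lo m.hi) u f f := by ring
    _ ≤ _ := mul_le_mul_of_nonneg_left hene hk
    _ = _ := by ring

/-- The partition function is log-concave in the shift of one penalty.
Proof: let `𝓐 = {C | C = C₀ ∨ ((∃ a, mem a C₀) ∧ ∀ a, mem a C₀ → mem a C)}`.  Apply `exists_lamModel` on
`El U Bool` where the terminal `t = inr true` belongs to the members of `𝓐`, and `t' = inr false` to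
the members of `𝓐` other than `C₀` (the extended family is laminar: two members of `𝓐 \ C₀` share an
element of `C₀`; a member outside `𝓐` meeting a member of `𝓐` is contained in it), activities `γ u` on
`eX u`, `0` elsewhere, `top = 2` on the terminals, `base C = 2` for `C ∈ 𝓐 \ C₀`,
`base C₀ = 1 - j`, `0` otherwise.  Then `μ (diag σ + t + t) = wtS C₀ (j+1) σ`,
`μ (diag σ + t + t') = wtS C₀ j σ`, `μ (diag σ + t' + t') = wtS C₀ (j-1) σ`; apply `marg_lc` with
`S = univ`, `c₀ = 0`. -/
theorem Lam.shift_lc (m : Lam U L) (C₀ : L) (j : ℤ) :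
    m.ZS C₀ (j - 1) * m.ZS C₀ (j + 1) ≤ m.ZS C₀ j ^ 2 := by
  classical
  set A : L → Prop := fun C =>
    C = C₀ ∨ ((∃ a, m.mem a C₀ = true) ∧ ∀ a, m.mem a C₀ = true → m.mem a C = true) with hA
  set mt : Bool → L → Bool := fun t C => if t then decide (A C) else decide (A C ∧ C ≠ C₀) with hmt
  set mem : El U Bool → L → Bool := lampMem m mt with hmem
  set γ : El U Bool → ℝ := lampFn m.γ (fun _ => 0) (fun _ => 0) with hγ
  set top : El U Bool → ℤ := lampFn m.hi (fun u => - m.lo u) (fun _ => 2) with htop
  set base : L → ℤ := fun C => if C = C₀ then 1 - j else if A C then 2 else 0 with hbase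
  have hmtA : ∀ t C, mt t C = true → A C := by
    intro t C h
    cases t
    · simp only [hmt, Bool.false_eq_true, if_false, decide_eq_true_eq] at h
      exact h.1
    · simpa [hmt] using h
  have hAmt : ∀ t C, A C → C ≠ C₀ → mt t C = true := by
    intro t C h h'
    cases t
    · simp only [hmt, Bool.false_eq_true, if_false, decide_eq_true_eq]
      exact ⟨h, h'⟩
    · simpa [hmt] using h
  have F0 : ∀ C', A C' → ∀ e, mem e C₀ = true → mem e C' = true := by
    intro C' h'
    by_cases e : C' = C₀
    · subst e; exact fun _ h => h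
    rintro (b | t) hb
    · rcases h' with h' | h'
      · exact absurd h' e
      · exact h'.2 b hb
    · exact hAmt t C' h' e
  have F1 : ∀ C C', A C → ¬ A C' → (∃ e, mem e C = true ∧ mem e C' = true) →
      ∀ e, mem e C' = true → mem e C = true := by
    intro C C' h h' ⟨e, he⟩
    rcases e with a | t
    · rcases m.lam C C' ⟨a, he⟩ with hs | hs
      · exfalso
        apply h'
        right
        rcases h with rfl | h
        · exact ⟨⟨a, he.1⟩, hs⟩
        · exact ⟨h.1, fun b hb => hs b (h.2 b hb)⟩
      · rintro (b | t) hb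
        · exact hs b hb
        · exact absurd (hmtA t C' hb) h'
    · exact absurd (hmtA t C' he.2) h'
  obtain ⟨M, hMt, hMμ⟩ := exists_lamModel mem (by
    intro C C' hex
    by_cases h : A C
    · by_cases h' : A C'
      · by_cases e : C = C₀
        · subst e; exact Or.inl (F0 C' h')
        by_cases e' : C' = C₀
        · subst e'; exact Or.inr (F0 C h)
        have hh := h.resolve_left e
        have hh' := h'.resolve_left e'
        obtain ⟨a, ha⟩ := hh.1
        rcases m.lam C C' ⟨a, hh.2 a ha, hh'.2 a ha⟩ with hs | hs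
        · left
          rintro (b | t) hb
          · exact hs b hb
          · exact hAmt t C' h' e'
        · right
          rintro (b | t) hb
          · exact hs b hb
          · exact hAmt t C h e
      · exact Or.inr (F1 C C' h h' hex)
    · by_cases h' : A C'
      · exact Or.inl (F1 C' C h' h (hex.imp fun _ he => he.symm))
      · obtain ⟨e, he⟩ := hex
        rcases e with a | t
        · rcases m.lam C C' ⟨a, he⟩ with hs | hs
          · left
            rintro (b | t) hb
            · exact hs b hb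
            · exact absurd (hmtA t C hb) h
          · right
            rintro (b | t) hb
            · exact hs b hb
            · exact absurd (hmtA t C' hb) h'
        · exact absurd (hmtA t C he.1) h) m.ψ m.cvx base γ top
  have hlo : M.lo = m.lo := by
    funext u
    simp [Model.lo, hMt, htop, lampFn]
  have hhi : M.hi = m.hi := by
    funext u
    simp [Model.hi, hMt, htop, lampFn]
  have hbx : M.bx univ 0 = box m.lo m.hi := by rw [Model.bx, boxS_univ, hlo, hhi]
  have htop2 : ∀ σ ∈ box m.lo m.hi, ∀ t t' : Bool,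
      diag σ + dl (Sum.inr t) + dl (Sum.inr t') ≤ top := by
    intro σ hσ t t' a
    have := lamp_le_top (T := Bool) (fun _ => 2) (fun _ => by norm_num) hσ a
    rcases a with a | t''
    · simpa [dl_apply] using this
    · simp only [Pi.add_apply, diag_T, dl_apply, htop, lampFn]
      split_ifs <;> norm_num
  have hw : ∀ σ ∈ box m.lo m.hi, ∀ t t' : Bool,
      M.μ (0 + diag σ + dl (Sum.inr t) + dl (Sum.inr t')) =
        m.wtS C₀ (j - 1 + (if t then 1 else 0) + (if t' then 1 else 0)) σ := by
    intro σ hσ t t'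
    rw [zero_add, hMμ, lamp_mu_pos _ _ _ _ _ (htop2 σ hσ t t'), lorEx, Lam.wtS]
    congr 2
    · rw [lor_gam_dl, lor_gam_dl, lamp_sum]
      simp [hγ, lampFn]
    · refine sum_congr rfl fun C _ => ?_
      rw [lor_sum_dl, lor_sum_dl, hmem, lamp_cnt]
      congr 1
      by_cases e : C = C₀
      · subst e
        have hAC : A C := Or.inl rfl
        cases t <;> cases t' <;> simp [hbase, lampMem, hmt, hAC] <;> ring
      · by_cases h : A C
        · simp only [hbase, lampMem, if_neg e, if_pos h, hAmt _ C h e, if_true]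
          ring
        · have h1 : ∀ t, mt t C = false := fun t => by
            by_contra hh
            exact h (hmtA t C (by simpa using hh))
          simp [hbase, lampMem, e, h, h1]
  have hoff : ∀ t : Bool, Off (univ : Finset U) (dl (Sum.inr t : El U Bool)) := fun t u _ => by
    simp [dl_apply]
  have key := marg_lc M univ 0 (c₀ := 0) (fun _ _ => ⟨rfl, rfl⟩) (Sum.inr false) (Sum.inr true)
    (hoff _) (hoff _) (by
      intro I hI a
      rw [hbx] at hI
      rw [hMt, zero_add]
      refine le_trans ?_ (htop2 I hI true true a)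
      simpa using dl_nonneg (Sum.inr true : El U Bool) a)
  rw [hbx, sum_congr rfl fun σ hσ => hw σ hσ false false,
    sum_congr rfl fun σ hσ => hw σ hσ true true, sum_congr rfl fun σ hσ => hw σ hσ false true] at key
  simp only [Bool.false_eq_true, if_false, add_zero, if_true, sub_add_cancel] at key
  exact key

end Crest.Agent.R309
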