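import Crest.Agent.R309.Recon
import Crest.Agent.R309.LamP

/-!
# R309: the fine model of the data
-/

set_option linter.dupNamespace false
set_option linter.unusedVariables false

namespace Crest.Agent.R309

open Finset Crest.Agent.Lib.PT

namespace Dat

variable {D : Dat}

/-- The vertex at an end of a cell. -/
def lamOf_end (D : Dat) (a : Fin D.I.nc × Bool) : ℕ := if a.2 then D.I.p a.1 else D.I.q a.1

theorem lamOf_mem (a : Fin D.I.nc × Bool) (C : Fin D.I.nv × Bool) :
    D.memL a C = true ↔ D.A (D.lamOf_end a) C.1 := by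
  unfold memL lamOf_end
  split_ifs <;> simp

theorem Good.lamOf_end_lt (h : D.Good) (a : Fin D.I.nc × Bool) : D.lamOf_end a < D.I.nv := by
  unfold lamOf_end
  split_ifs
  · exact (h.fits.wf _ a.1.2).1
  · exact (h.fits.wf _ a.1.2).2

theorem lamOf_sg (r e : ℕ) : D.sg r e = 1 ∨ D.sg r e = -1 := by
  unfold sg; split_ifs <;> simp

theorem lamOf_neg_sg (r e : ℕ) : - D.sg r e = 1 ∨ - D.sg r e = -1 := by
  unfold sg; split_ifs <;> simp

theorem lamOf_cvx {k : ℝ} (hk : 0 ≤ k) {ε : ℤ} (hε : ε = 1 ∨ ε = -1) (c t : ℤ) :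
    2 * (k * ((max 0 (ε * t - c) : ℤ) : ℝ)) ≤
      k * ((max 0 (ε * (t - 1) - c) : ℤ) : ℝ) + k * ((max 0 (ε * (t + 1) - c) : ℤ) : ℝ) := by
  have h1 : 2 * max 0 (ε * t - c) ≤ max 0 (ε * (t - 1) - c) + max 0 (ε * (t + 1) - c) := by
    rcases hε with rfl | rfl <;> omega
  have h2 : 2 * ((max 0 (ε * t - c) : ℤ) : ℝ) ≤
      ((max 0 (ε * (t - 1) - c) : ℤ) : ℝ) + ((max 0 (ε * (t + 1) - c) : ℤ) : ℝ) := by
    exact_mod_cast h1
  nlinarith [mul_le_mul_of_nonneg_left h2 hk]

theorem lamOf_lip {k : ℝ} (hk : 0 ≤ k) {ε : ℤ} (hε : ε = 1 ∨ ε = -1) (c t : ℤ) :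
    |k * ((max 0 (ε * (t + 1) - c) : ℤ) : ℝ) - k * ((max 0 (ε * t - c) : ℤ) : ℝ)| ≤ k := by
  have h1 : |max 0 (ε * (t + 1) - c) - max 0 (ε * t - c)| ≤ 1 := by
    rw [abs_le]
    rcases hε with rfl | rfl <;> omega
  have h2 : |((max 0 (ε * (t + 1) - c) : ℤ) : ℝ) - ((max 0 (ε * t - c) : ℤ) : ℝ)| ≤ 1 := by
    exact_mod_cast h1
  rw [← mul_sub, abs_mul, abs_of_nonneg hk]
  exact mul_le_of_le_one_right hk h2

theorem lamOf_div {W : ℕ} (hW : 0 < W) {y y' : ℤ} (h : |y - y'| ≤ W) :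
    |((max 0 y : ℤ) : ℝ) / W - ((y'.toNat / W : ℕ) : ℝ)| ≤ 2 := by
  have hW' : (0 : ℝ) < W := by exact_mod_cast hW
  have e1 := Nat.div_add_mod y'.toNat W
  have e2 := Nat.mod_lt y'.toNat hW
  set q := y'.toNat / W with hq
  set ρ := y'.toNat % W with hρ
  have e3 : (W : ℤ) * q + ρ = y'.toNat := by exact_mod_cast e1
  have h1 : |max 0 y - W * q| ≤ 2 * W := by
    rw [abs_le] at h ⊢
    generalize (W : ℤ) * q = z at e3 ⊢
    omega
  have h2 : |((max 0 y : ℤ) : ℝ) - W * q| ≤ 2 * W := by exact_mod_cast h1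
  rw [show ((max 0 y : ℤ) : ℝ) / W - q = (((max 0 y : ℤ) : ℝ) - W * q) / W by field_simp, abs_div,
    abs_of_pos hW', div_le_iff₀ hW']
  exact h2

theorem Good.lamOf_ell_le (h : D.Good) : D.ell * (D.G : ℝ) ^ 25 ≤ 2 / (D.G : ℝ) ^ 2 := by
  have hG0 : (0 : ℝ) < D.G := by linarith [h.G_geR]
  calc D.ell * (D.G : ℝ) ^ 25 ≤ 2 / (D.G : ℝ) ^ 27 * (D.G : ℝ) ^ 25 :=
        mul_le_mul_of_nonneg_right h.ell_ub (by positivity)
    _ = 2 / (D.G : ℝ) ^ 2 := by field_simp

theorem Good.lamOf_kT_le (h : D.Good) {r e : ℕ} (he : D.par r = some e) :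
    D.kT e ≤ 2 / (D.G : ℝ) ^ 2 := by
  have hGpos : 0 < D.G := by have := h.G_ge; omega
  have hW0 : 1 ≤ D.Wp e := lt_of_lt_of_le (pow_pos hGpos 2) (h.Wp_eq he).2
  refine le_trans (div_le_self (mul_nonneg h.ell_pos.le (by positivity)) ?_) h.lamOf_ell_le
  exact_mod_cast hW0

theorem Good.lamOf_kT_le' (h : D.Good) {r e : ℕ} (he : D.par r = some e) :
    D.kT e ≤ 2 * (D.G : ℝ) ^ 5 / D.wd e := by
  have hGpos : 0 < D.G := by have := h.G_ge; omega
  have hG0 : (0 : ℝ) < D.G := by exact_mod_cast hGpos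
  obtain ⟨h1, h2⟩ := h.Wp_eq he
  have hW0 : (0 : ℝ) < D.Wp e := by exact_mod_cast lt_of_lt_of_le (pow_pos hGpos 2) h2
  calc D.kT e ≤ 2 / (D.G : ℝ) ^ 2 / D.Wp e :=
        div_le_div_of_nonneg_right h.lamOf_ell_le hW0.le
    _ = 2 * (D.G : ℝ) ^ 5 / D.wd e := by
        rw [← h1]; push_cast; field_simp

theorem lamOf_gam_sum (φ : List ℤ) (σ : Fin D.I.nc → ℤ) :
    ∑ u, D.gamL φ u * σ u = - ∑ r : Fin D.I.nv,
      (if D.par r = none then D.ell * (φ.getD r 0 * D.net (ext σ) r) else 0) := by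
  unfold gamL net
  simp only [Finset.sum_range, Finset.mul_sum, Finset.sum_mul]
  rw [Finset.sum_comm, ← Finset.sum_neg_distrib]
  refine Finset.sum_congr rfl fun r _ => ?_
  by_cases hr : D.par r = none
  · simp only [hr, if_true]
    push_cast
    rw [Finset.mul_sum, Finset.mul_sum, ← Finset.sum_neg_distrib]
    refine Finset.sum_congr rfl fun u _ => ?_
    rw [ext_apply]
    split_ifs <;> ring
  · simp [hr]

/-- Laminarity: `chain` and `trans` of `TreeSpec` (the ends of cells are vertices). -/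
theorem Good.exists_lam (h : D.Good) (φ : List ℤ) : ∃ m, D.IsLam φ m := by
  have hK : 0 ≤ D.ell * D.Kp := mul_nonneg h.ell_pos.le (Nat.cast_nonneg _)
  have hT : ∀ e, 0 ≤ D.kT e := fun e =>
    div_nonneg (mul_nonneg h.ell_pos.le (by positivity)) (Nat.cast_nonneg _)
  refine ⟨⟨D.memL, D.psiL, D.lipL, D.gamL φ, D.loF, D.hiF, ?_, ?_, ?_, ?_⟩,
    ⟨rfl, rfl, rfl, rfl, rfl, rfl⟩⟩
  · rintro C C' ⟨a, h1, h2⟩
    simp only [lamOf_mem] at h1 h2 ⊢
    rcases h.tr.chain _ (h.lamOf_end_lt a) _ h1 _ h2 with h3 | h3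
    · exact Or.inl fun a' h4 => h.tr.trans _ (h.lamOf_end_lt a') _ h4 _ h3
    · exact Or.inr fun a' h4 => h.tr.trans _ (h.lamOf_end_lt a') _ h4 _ h3
  · rintro ⟨r, b⟩ t
    unfold psiL
    rcases hr : D.par r with _ | e
    · cases b
      · simp
      · simp only [Option.elim, if_true]
        have h1 : 2 * |(t : ℝ)| ≤ |((t - 1 : ℤ) : ℝ)| + |((t + 1 : ℤ) : ℝ)| := by
          have := abs_add_le ((t - 1 : ℤ) : ℝ) ((t + 1 : ℤ) : ℝ)
          rw [show ((t - 1 : ℤ) : ℝ) + ((t + 1 : ℤ) : ℝ) = 2 * t by push_cast; ring, abs_mul,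
            abs_two] at this
          exact this
        nlinarith [mul_le_mul_of_nonneg_left h1 hK]
    · cases b
      · simp only [Option.elim, Bool.false_eq_true, if_false]
        exact lamOf_cvx (hT e) (lamOf_neg_sg r e) _ _
      · simp only [Option.elim, if_true]
        exact lamOf_cvx (hT e) (lamOf_sg r e) _ _
  · rintro ⟨r, b⟩ t
    unfold psiL lipL
    rcases hr : D.par r with _ | e
    · cases b
      · simp
      · simp only [Option.elim, if_true]
        rw [← mul_sub, abs_mul, abs_of_nonneg hK]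
        refine mul_le_of_le_one_right hK ((abs_abs_sub_abs_le_abs_sub _ _).trans ?_)
        simp
    · cases b
      · simp only [Option.elim, Bool.false_eq_true, if_false]
        exact lamOf_lip (hT e) (lamOf_neg_sg r e) _ _
      · simp only [Option.elim, if_true]
        exact lamOf_lip (hT e) (lamOf_sg r e) _ _
  · intro u
    have h1 : 0 < D.s u * D.M u := Nat.mul_pos (s_pos u) (M_pos u)
    have h2 : (0 : ℤ) < D.s u * D.M u := by exact_mod_cast h1
    unfold loF hiF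
    omega

variable {φ : List ℤ} {m : Lam (Fin D.I.nc) (Fin D.I.nv × Bool)}

theorem IsLam.net_eq (hm : D.IsLam φ m) (C : Fin D.I.nv × Bool) (σ : Fin D.I.nc → ℤ) :
    m.net C σ = D.net (ext σ) C.1 := by
  unfold Lam.net net
  rw [hm.mem, Finset.sum_range]
  refine Finset.sum_congr rfl fun u _ => ?_
  simp [memL, ext_apply]

/-- The exponent, vertex by vertex. -/
theorem IsLam.wtS_eq (hm : D.IsLam φ m) (C₀ : Fin D.I.nv × Bool) (j : ℤ) (σ : Fin D.I.nc → ℤ) :
    m.wtS C₀ j σ = Real.exp (- ∑ r : Fin D.I.nv,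
      ((if D.par r = none then D.ell * (φ.getD r 0 * D.net (ext σ) r) else 0) +
        D.psiL (r, true) (D.net (ext σ) r - if (r, true) = C₀ then j else 0) +
        D.psiL (r, false) (D.net (ext σ) r - if (r, false) = C₀ then j else 0))) := by
  unfold Lam.wtS
  congr 1
  rw [hm.gam, lamOf_gam_sum, hm.psi, Fintype.sum_prod_type]
  simp only [hm.net_eq, Fintype.sum_bool, Finset.sum_add_distrib]
  ring

theorem IsLam.lamOf_wt_eq (hm : D.IsLam φ m) (σ : Fin D.I.nc → ℤ) :
    m.wt σ = Real.exp (- ∑ r : Fin D.I.nv,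
      ((if D.par r = none then D.ell * (φ.getD r 0 * D.net (ext σ) r) else 0) +
        D.psiL (r, true) (D.net (ext σ) r) + D.psiL (r, false) (D.net (ext σ) r))) := by
  unfold Lam.wt
  congr 1
  rw [hm.gam, lamOf_gam_sum, hm.psi, Fintype.sum_prod_type]
  simp only [hm.net_eq, Fintype.sum_bool, Finset.sum_add_distrib]
  ring

/-- `Lam.poincare` with `C₀ = G^7`, `Γ₁ = G^12`.
`hC`: an end has at most one root among its ancestors (`root_unique`), with `ell * Kp ≤ 4 g`, `exp (4 g) ≤ 2^{6 g} = G^6`;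
each of the at most `2 nv` other members has `kT e ≤ 2 / G^2`.
`hδ`: `hiF u - loF u + 1 = s u * M u`.  If `wd u < G^9` or `u` is a tree cell, this is `M u ≤ G^12`.  Otherwise, by `cross_large`,
every `r` that is an ancestor of exactly one end has a parent cell `e` with `wd u ≤ wd e`: the field vanishes,
`kT e ≤ 2 G^5 / wd u` (`Wp_eq`), and `2 G * 2 G^5 / wd u * 3 G^2 wd u ≤ G^12` (`sM_le_large`).
Finally `4 G^2 G^28 (1 + G^12) ≤ G^43`. -/
theorem IsLam.poincare (hm : D.IsLam φ m) (h : D.Good) (f : (Fin D.I.nc → ℤ) → ℝ) :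
    ∃ c : ℝ, ∑ σ ∈ box D.loF D.hiF, m.wt σ * (f σ - c) ^ 2 ≤
      ∑ u : Fin D.I.nc, (D.G : ℝ) ^ 43 * ((D.s u : ℝ) * D.M u) ^ 2 * dir D.loF D.hiF m.wt u f := by
  have hG := h.G_geR
  have hG0 : (0 : ℝ) < D.G := by linarith
  have hG1 : (1 : ℝ) ≤ D.G := by linarith
  have hnv : (D.I.nv : ℝ) ≤ D.G := by exact_mod_cast h.nv_le
  have hnc : (D.I.nc : ℝ) ≤ D.G := by exact_mod_cast h.nc_le
  have hK0 : 0 ≤ D.ell * D.Kp := mul_nonneg h.ell_pos.le (Nat.cast_nonneg _)
  have hK : D.ell * D.Kp ≤ 4 * D.g := by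
    calc D.ell * D.Kp ≤ 2 / (D.G : ℝ) ^ 27 * D.Kp :=
          mul_le_mul_of_nonneg_right h.ell_ub (Nat.cast_nonneg _)
      _ = 4 * D.g := by
          unfold Kp; push_cast; field_simp; ring
  have hrange : ∀ u : Fin D.I.nc, ((m.hi u - m.lo u + 1 : ℤ) : ℝ) = (D.s u : ℝ) * D.M u := by
    intro u
    rw [hm.lo, hm.hi]
    unfold loF hiF
    push_cast; ring
  obtain ⟨c, hc⟩ := m.poincare (C₀ := (D.G : ℝ) ^ 7) (Γ₁ := (D.G : ℝ) ^ 12) (one_le_pow₀ hG1)
    (fun a => by
      have h1 : ∑ C, (if m.mem a C then m.lip C else 0) ≤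
          ∑ r : Fin D.I.nv, ((if D.A (D.lamOf_end a) r ∧ D.par r = none then D.ell * D.Kp else 0) +
            4 / (D.G : ℝ) ^ 2) := by
        rw [Fintype.sum_prod_type, hm.mem, hm.lip]
        refine Finset.sum_le_sum fun r _ => ?_
        have h4 : 0 ≤ 4 / (D.G : ℝ) ^ 2 := by positivity
        simp only [Fintype.sum_bool, lamOf_mem, lipL]
        rcases hr : D.par r with _ | e
        · by_cases hA : D.A (D.lamOf_end a) r <;> simp [hA, h4]
        · have h5 := h.lamOf_kT_le hr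
          by_cases hA : D.A (D.lamOf_end a) r
          · simp only [hA, if_true, Option.elim, reduceCtorEq, and_false, if_false, zero_add]
            have : 4 / (D.G : ℝ) ^ 2 = 2 / (D.G : ℝ) ^ 2 + 2 / (D.G : ℝ) ^ 2 := by ring
            linarith
          · simp [hA, h4]
      have h2 : ∑ r : Fin D.I.nv,
          (if D.A (D.lamOf_end a) r ∧ D.par r = none then D.ell * D.Kp else 0) ≤ D.ell * D.Kp := by
        rw [← Finset.sum_filter, Finset.sum_const, nsmul_eq_mul]
        refine mul_le_of_le_one_left hK0 ?_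
        have : (Finset.univ.filter fun r : Fin D.I.nv =>
            D.A (D.lamOf_end a) r ∧ D.par r = none).card ≤ 1 := by
          refine Finset.card_le_one.2 fun r hr r' hr' => Fin.ext ?_
          obtain ⟨a1, a2⟩ := (mem_filter.1 hr).2
          obtain ⟨b1, b2⟩ := (mem_filter.1 hr').2
          exact h.root_unique (h.lamOf_end_lt a) a1 b1 a2 b2
        exact_mod_cast this
      have h3 : ∑ _r : Fin D.I.nv, 4 / (D.G : ℝ) ^ 2 ≤ 1 := by
        rw [Finset.sum_const, card_univ, Fintype.card_fin, nsmul_eq_mul, ← mul_div_assoc,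
          div_le_one (by positivity)]
        nlinarith
      rw [Finset.sum_add_distrib] at h1
      have h4 : (D.G : ℝ) ^ 7 = Real.exp (7 * D.g * Real.log 2) := by
        have : (D.G : ℝ) = 2 ^ D.g := by exact_mod_cast h.G_eq
        rw [this, ← pow_mul, show (7 : ℝ) * D.g * Real.log 2 = ((D.g * 7 : ℕ) : ℝ) * Real.log 2 by
          push_cast; ring, Real.exp_nat_mul, Real.exp_log (by norm_num)]
      rw [h4]
      refine Real.exp_le_exp.2 ?_
      have h5 := Real.log_two_gt_d9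
      have h6 : (10 : ℝ) ≤ D.g := by exact_mod_cast h.ten
      nlinarith)
    (fun u => by
      rw [hrange]
      by_cases hs : D.s u = 1
      · left
        rw [hs, Nat.cast_one, one_mul]
        exact_mod_cast h.M_le u.2
      right
      obtain ⟨-, hl⟩ := large_of_s hs
      have hwd : (0 : ℝ) < D.wd u := by
        have : 0 < D.wd u := lt_of_lt_of_le (pow_pos (by have := h.G_ge; omega) 9) hl
        exact_mod_cast this
      constructor
      · rw [hm.gam]
        unfold gamL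
        rw [Finset.sum_eq_zero, mul_zero]
        intro r _
        split_ifs with h1 h2 h3 h3
        · simp
        · obtain ⟨e, he, -⟩ := h.cross_large u.2 hl (r := r) (by tauto)
          rw [h1] at he; cases he
        · obtain ⟨e, he, -⟩ := h.cross_large u.2 hl (r := r) (by tauto)
          rw [h1] at he; cases he
        · simp
        · rfl
      · have h1 : ∑ C, (if m.mem (u, true) C ≠ m.mem (u, false) C then m.lip C else 0) ≤
            ∑ _C : Fin D.I.nv × Bool, 2 * (D.G : ℝ) ^ 5 / D.wd u := by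
          refine Finset.sum_le_sum fun C _ => ?_
          split_ifs with hC
          swap
          · positivity
          rw [hm.mem] at hC
          obtain ⟨e, he, hwe⟩ := h.cross_large u.2 hl (r := C.1) (by
            intro hiff
            apply hC
            simp [memL, hiff])
          rw [hm.lip]
          simp only [lipL, he, Option.elim]
          refine (h.lamOf_kT_le' he).trans ?_
          have : (D.wd u : ℝ) ≤ D.wd e := by exact_mod_cast hwe
          gcongr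
        rw [Finset.sum_const, card_univ, Fintype.card_prod, Fintype.card_fin, Fintype.card_bool,
          nsmul_eq_mul] at h1
        have h2 : (D.s u : ℝ) * D.M u ≤ 3 * (D.G : ℝ) ^ 2 * D.wd u := by
          exact_mod_cast h.sM_le_large hl
        calc _ ≤ (((D.I.nv * 2 : ℕ) : ℝ) * (2 * (D.G : ℝ) ^ 5 / D.wd u)) *
              (3 * (D.G : ℝ) ^ 2 * D.wd u) := mul_le_mul h1 h2 (by positivity) (by positivity)
          _ = 12 * D.I.nv * (D.G : ℝ) ^ 7 := by push_cast; field_simp; ring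
          _ ≤ (D.G : ℝ) ^ 4 * D.G * (D.G : ℝ) ^ 7 := by
              gcongr
              calc (12 : ℝ) ≤ D.G := by linarith
                _ ≤ (D.G : ℝ) ^ 4 := le_self_pow₀ hG1 (by norm_num)
          _ = (D.G : ℝ) ^ 12 := by ring) f
  simp only [hrange] at hc
  rw [hm.lo, hm.hi] at hc
  refine ⟨c, hc.trans (Finset.sum_le_sum fun u _ => ?_)⟩
  have hdir : 0 ≤ dir D.loF D.hiF m.wt u f :=
    Finset.sum_nonneg fun σ _ => mul_nonneg (le_min (m.wt_pos _).le (m.wt_pos _).le) (sq_nonneg _)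
  refine mul_le_mul_of_nonneg_right (mul_le_mul_of_nonneg_right ?_ (sq_nonneg _)) hdir
  rw [Fintype.card_fin]
  have h7 : 1 + (D.G : ℝ) ^ 12 ≤ 2 * (D.G : ℝ) ^ 12 := by linarith [one_le_pow₀ (n := 12) hG1]
  calc 4 * (D.I.nc : ℝ) ^ 2 * ((D.G : ℝ) ^ 7) ^ 4 * (1 + (D.G : ℝ) ^ 12)
      ≤ 4 * (D.G : ℝ) ^ 2 * ((D.G : ℝ) ^ 7) ^ 4 * (2 * (D.G : ℝ) ^ 12) := by gcongr
    _ = 8 * (D.G : ℝ) ^ 42 := by ring
    _ ≤ D.G * (D.G : ℝ) ^ 42 := by gcongr; linarith
    _ = (D.G : ℝ) ^ 43 := by ring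

/-- Comparison of the fine weight with the weight of a neighbouring block.
The corner `cor (enc a)` differs from `σ` only on cells with `s u ≠ 1`, by at most `2 s u`.  So the terms at roots
agree exactly (`net_root`), and at a vertex `r` with parent cell `e` the net flows differ by at most
`2 wd e / G^8 ≤ Wp e` (`net_tree`), so each of the two real penalties `G^25 d / Wp e` differs from the integer
one `G^25 (d' / Wp e)` by at most `2 G^25`.  In total the exponents differ by at most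
`ell * 4 nv G^25 ≤ 8 / G ≤ log 2`. -/
theorem IsLam.cmp (hm : D.IsLam φ m) (h : D.Good) {σ a : Fin D.I.nc → ℤ}
    (hσ : σ ∈ box D.loF D.hiF) (ha : a ∈ box 0 D.hiC)
    (hc : ∀ u, |(σ u - D.lo u) / D.s u - a u| ≤ 1 ∧ (D.s u = 1 → a u = σ u - D.lo u)) :
    m.wt σ ≤ 2 * D.wb φ (D.enc a) ∧ D.wb φ (D.enc a) ≤ 2 * m.wt σ := by
  have hG := h.G_geR
  have hG0 : (0 : ℝ) < D.G := by linarith
  have hnv : (D.I.nv : ℝ) ≤ D.G := by exact_mod_cast h.nv_le
  set τ : ℕ → ℤ := D.cor (D.enc a) with hτ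
  have hclose : ∀ u < D.I.nc, ext σ u ≠ τ u →
      D.G ^ 9 ≤ D.wd u ∧ |ext σ u - τ u| ≤ ((2 : ℕ) : ℤ) * D.s u := by
    intro u hu hne
    have h1 : τ u = D.lo u + D.s u * a ⟨u, hu⟩ := by
      rw [← h.dg_enc ha ⟨u, hu⟩]; rfl
    obtain ⟨h2, h3⟩ := hc ⟨u, hu⟩
    rw [ext_lt σ hu, h1] at hne ⊢
    have hs : D.s u ≠ 1 := fun hs => hne (by
      have := h3 hs
      simp only at this
      rw [hs, this]; simp)
    refine ⟨(large_of_s hs).2, ?_⟩
    simp only at h2
    have hs0 : (0 : ℤ) < D.s u := by exact_mod_cast s_pos u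
    set d := σ ⟨u, hu⟩ - D.lo u with hd
    have e1 := Int.mul_ediv_add_emod d (D.s u)
    have e2 := Int.emod_nonneg d hs0.ne'
    have e3 := Int.emod_lt_of_pos d hs0
    have e4 : σ ⟨u, hu⟩ - (D.lo u + D.s u * a ⟨u, hu⟩) =
        D.s u * (d / D.s u - a ⟨u, hu⟩) + d % D.s u := by
      rw [mul_sub]; omega
    rw [e4]
    obtain ⟨h4, h5⟩ := abs_le.1 h2
    rw [abs_le]
    push_cast
    constructor <;> nlinarith
  have hterm : ∀ r : Fin D.I.nv,
      |((if D.par r = none then D.ell * (φ.getD r 0 * D.net (ext σ) r) else 0) +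
        D.psiL (r, true) (D.net (ext σ) r) + D.psiL (r, false) (D.net (ext σ) r)) -
        D.ell * D.pen φ τ r| ≤ 8 / (D.G : ℝ) ^ 2 := by
    intro r
    unfold psiL pen
    rcases hr : D.par r with _ | e
    · rw [h.net_root (fun u hu hne => (hclose u hu hne).1) hr]
      simp only [Option.elim, if_true, Bool.false_eq_true, if_false]
      push_cast
      rw [show ∀ x y z w : ℝ, x * (y * z) + x * w * |z| + 0 - x * (w * |z| + y * z) = 0 from
        fun x y z w => by ring, abs_zero]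
      positivity
    · simp only [Option.elim, if_true, Bool.false_eq_true, if_false, reduceCtorEq, zero_add]
      obtain ⟨hW1, hW2⟩ := h.Wp_eq hr
      have hGpos : 0 < D.G := by have := h.G_ge; omega
      have hW0 : 0 < D.Wp e := lt_of_lt_of_le (pow_pos hGpos 2) hW2
      have hnet : |D.net (ext σ) r - D.net τ r| ≤ D.Wp e := by
        have h1 := h.net_tree hclose hr
        rw [← hW1] at h1
        push_cast at h1
        have hGz : (2 : ℤ) ≤ D.G := by have := h.G_ge; omega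
        have h2 : |D.net (ext σ) r - D.net τ r| * D.G * (D.G : ℤ) ^ 7 ≤
            2 * D.Wp e * (D.G : ℤ) ^ 7 := by
          calc _ = |D.net (ext σ) r - D.net τ r| * (D.G : ℤ) ^ 8 := by ring
            _ ≤ _ := h1
            _ = _ := by ring
        have h3 := le_of_mul_le_mul_right h2 (by positivity)
        nlinarith [abs_nonneg (D.net (ext σ) r - D.net τ r)]
      have hsg : |D.sg r e * D.net (ext σ) r - D.sg r e * D.net τ r| ≤ D.Wp e := by
        rw [← mul_sub, abs_mul]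
        rcases lamOf_sg (D := D) r e with h1 | h1 <;> simpa [h1] using hnet
      have p1 := lamOf_div hW0 (y := D.sg r e * D.net (ext σ) r - (D.I.b e - D.x0 e))
        (y' := D.sg r e * D.net τ r - (D.I.b e - D.x0 e)) (by
          rwa [sub_sub_sub_cancel_right])
      have p2 := lamOf_div hW0 (y := - D.sg r e * D.net (ext σ) r - D.x0 e)
        (y' := - (D.x0 e : ℤ) - D.sg r e * D.net τ r) (by
          rw [← abs_neg]
          convert hsg using 2
          ring)
      unfold penT kT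
      rw [tv_eq]
      rw [Int.cast_natCast, Nat.cast_mul, Nat.cast_add, Nat.cast_pow]
      set X1 : ℝ := ((max 0 (D.sg r e * D.net (ext σ) r - (D.I.b e - D.x0 e)) : ℤ) : ℝ)
      set X2 : ℝ := ((max 0 (- D.sg r e * D.net (ext σ) r - D.x0 e) : ℤ) : ℝ)
      set Y1 : ℝ := (((D.sg r e * D.net τ r - (D.I.b e - D.x0 e)).toNat / D.Wp e : ℕ) : ℝ)
      set Y2 : ℝ := (((- (D.x0 e : ℤ) - D.sg r e * D.net τ r).toNat / D.Wp e : ℕ) : ℝ)
      have h1 : D.ell * (D.G : ℝ) ^ 25 / D.Wp e * X1 + D.ell * (D.G : ℝ) ^ 25 / D.Wp e * X2 -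
          D.ell * ((D.G : ℝ) ^ 25 * (Y1 + Y2)) =
          D.ell * (D.G : ℝ) ^ 25 * ((X1 / D.Wp e - Y1) + (X2 / D.Wp e - Y2)) := by ring
      have h2 : 0 ≤ D.ell * (D.G : ℝ) ^ 25 := mul_nonneg h.ell_pos.le (by positivity)
      rw [h1, abs_mul, abs_of_nonneg h2]
      calc D.ell * (D.G : ℝ) ^ 25 * |(X1 / D.Wp e - Y1) + (X2 / D.Wp e - Y2)|
          ≤ 2 / (D.G : ℝ) ^ 2 * 4 :=
            mul_le_mul h.lamOf_ell_le ((abs_add_le _ _).trans (by linarith)) (abs_nonneg _)
              (by positivity)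
        _ = 8 / (D.G : ℝ) ^ 2 := by ring
  have hsum := (Finset.abs_sum_le_sum_abs _ _).trans (Finset.sum_le_sum fun r (_ : r ∈ univ) => hterm r)
  rw [Finset.sum_sub_distrib, Finset.sum_const, card_univ, Fintype.card_fin, nsmul_eq_mul] at hsum
  have hlog : (D.I.nv : ℝ) * (8 / (D.G : ℝ) ^ 2) ≤ Real.log 2 := by
    have h5 := Real.log_two_gt_d9
    rw [← mul_div_assoc, div_le_iff₀ (by positivity)]
    nlinarith
  have hEn : (D.En φ τ : ℝ) = ∑ r : Fin D.I.nv, (D.pen φ τ r : ℝ) := by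
    unfold En
    rw [Finset.sum_range]
    push_cast; rfl
  rw [← Finset.mul_sum, ← hEn] at hsum
  rw [hm.lamOf_wt_eq, h.wb_eq]
  obtain ⟨h1, h2⟩ := abs_le.1 (hsum.trans hlog)
  have h3 : ∀ x : ℝ, 2 * Real.exp x = Real.exp (Real.log 2 + x) := fun x => by
    rw [Real.exp_add, Real.exp_log (by norm_num)]
  rw [h3, h3]
  exact ⟨Real.exp_le_exp.2 (by linarith), Real.exp_le_exp.2 (by linarith)⟩

theorem IsLam.cmp_blk (hm : D.IsLam φ m) (h : D.Good) {σ : Fin D.I.nc → ℤ}
    (hσ : σ ∈ box D.loF D.hiF) :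
    m.wt σ ≤ 2 * D.wb φ (D.blk σ) ∧ D.wb φ (D.blk σ) ≤ 2 * m.wt σ :=
  hm.cmp h hσ (div_mem hσ) fun u => ⟨by simp, fun e => by simp [e]⟩

theorem IsLam.Z_le (hm : D.IsLam φ m) (h : D.Good) : m.Z ≤ 2 * (D.S * D.Zb φ) := by
  rw [Lam.Z, hm.lo, hm.hi, Zb, ← h.sum_fine, Finset.mul_sum]
  exact Finset.sum_le_sum fun σ hσ => (hm.cmp_blk h hσ).1

end Dat

end Crest.Agent.R309
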