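import Crest.Agent.R309.Gap

/-!
# R309: the output map
-/

set_option linter.dupNamespace false

namespace Crest.Agent.R309

open Finset Crest.Agent.Lib.PT

namespace Dat

variable {D : Dat} {φ : List ℤ}

theorem out_sol {x : ℕ} {ω : List Bool} {X : List ℕ} (h : D.out x ω = some X) : D.I.IsSol X := by
  unfold out at h
  split_ifs at h with h1
  cases h; exact h1.2

theorem Good.out_iff (h : D.Good) {x : ℕ} (hx : x ∈ D.Om) {y : List ℕ} (hy : D.I.IsSol y)
    (ω : List Bool) :
    D.out x ω = some y ↔ ∀ u : Fin D.I.nc, D.fine x ω u = D.sigOf y u := by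
  constructor
  · intro e u
    unfold out at e
    split_ifs at e with h1
    have e' : D.cand (D.fine x ω) = y := Option.some.inj e
    rw [← e']
    refine (sig_cand (fun v hv ht => ?_) h1 u).symm
    obtain ⟨t1, -, t3, t4⟩ := tree_vals ht
    have t5 := (mem_Om.1 hx).2 v hv
    have t6 : D.dg x v = 0 := by omega
    simp [fine, cor, t1, t3, t6, Nat.mod_one]
  · intro e
    obtain ⟨h1, h2⟩ := h.cand_sig hy e
    rw [out, if_pos h1, h2]

theorem out_Pr_blocks {ρ N n : ℕ} (hn : N * ρ ≤ n) (E : ℕ → List Bool → Prop) :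
    Pr n (fun l => ∀ i < N, E i ((l.drop (i * ρ)).take ρ)) = ∏ i ∈ range N, Pr ρ (E i) := by
  rw [← Pr_blocks, ← Pr_take hn]
  refine Pr_congr fun l _ => forall_congr' fun i => forall_congr' fun hi => ?_
  have := Nat.mul_le_mul_right ρ (Nat.succ_le_of_lt hi)
  rw [Nat.succ_mul] at this
  rw [List.drop_take, List.take_take, min_eq_left (by omega)]

/-- `out x ω = some y` iff `fine x ω u = sigOf y u` for all cells (`cand_sig`, `sig_cand`; tree cells have `cor = 0`,
`s = 1`).  This forces `x = blk (sigOf y)` (`blk_eq_iff`), and then means that the offset of each cell has a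
prescribed value below `s u = 2^j`, `j ≤ G` (`Pr_blocks`, `Pr_ofBits_mod`, `nc * G ≤ ρ`). -/
theorem Good.out_prob (h : D.Good) {ρ : ℕ} (hρ : D.G ^ 2 ≤ ρ) {x : ℕ} (hx : x ∈ D.Om) {y : List ℕ}
    (hy : D.I.IsSol y) :
    Pr ρ (fun ω => D.out x ω = some y) = if x = D.blk (D.sigOf y) then 1 / (D.S : ℝ) else 0 := by
  rw [Pr_congr fun ω _ => h.out_iff hx hy ω]
  have hb := h.blk_eq_iff (h.sig_mem hy) hx
  split_ifs with e
  · have hc := hb.1 e.symm
    have hn : D.I.nc * D.G ≤ ρ :=
      le_trans (by rw [pow_two]; exact Nat.mul_le_mul_right _ h.nc_le) hρ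
    have key := out_Pr_blocks hn fun u l =>
      ofBits l % D.s u = (ext (D.sigOf y) u - D.cor x u).toNat
    rw [Pr_congr (E' := fun l => ∀ i < D.I.nc, ofBits ((l.drop (i * D.G)).take D.G) % D.s i =
      (ext (D.sigOf y) i - D.cor x i).toNat) fun ω _ => ?_, key]
    · rw [S]
      push_cast
      rw [one_div, ← Finset.prod_inv_distrib]
      refine Finset.prod_congr rfl fun u hu => ?_
      have hu' := mem_range.1 hu
      obtain ⟨j, hj, hs⟩ := h.s_pow hu'
      have h1 := hc ⟨u, hu'⟩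
      rw [hs, Pr_ofBits_mod hj]
      · simp
      · rw [ext_lt _ hu', ← hs]
        simp only at h1
        omega
    · constructor
      · intro e1 u hu
        have h1 := e1 ⟨u, hu⟩
        rw [ext_lt _ hu, ← h1]
        simp only [fine]
        omega
      · intro e1 u
        have h1 := e1 u u.2
        have h2 := hc u
        rw [ext_apply] at h1
        simp only [fine]
        omega
  · refine Pr_false fun ω _ e1 => e (hb.2 fun u => ?_).symm
    rw [← e1 u]
    have := Nat.mod_lt (ofBits ((ω.drop (u * D.G)).take D.G)) (s_pos (D := D) u)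
    simp only [fine]
    omega

/-- `Ex_iter_succ'`, `Ex_comp` (the chain stays in `Om`), `out_prob`, `mixing` and `En_sig` (`wb = 1`). -/
theorem Good.unif (h : D.Good) (hφ : D.Adm φ) {ρ : ℕ} (hρ : D.G ^ 37 ≤ ρ) {K t : ℕ}
    (ht : D.G ^ 99 * (K + 1) ≤ t) {y : List ℕ} (hy : D.I.IsSol y) :
    |Pr ((t + 1) * ρ) (fun l => shotF (D.step φ) D.out ρ t l = some y) - D.cst φ| ≤
      (1 / 2) ^ K * D.cst φ := by
  have hG := h.G_ge
  have hρ2 : D.G ^ 2 ≤ ρ := (Nat.pow_le_pow_right (by omega) (by norm_num)).trans hρ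
  have hz := h.blk_mem (h.sig_mem hy)
  have hS : (0 : ℝ) < D.S := by exact_mod_cast S_pos (D := D)
  have e1 : Pr ((t + 1) * ρ) (fun l => shotF (D.step φ) D.out ρ t l = some y) =
      Pr (t * ρ) (fun l => iter (D.step φ) ρ t 0 l = D.blk (D.sigOf y)) * (1 / (D.S : ℝ)) := by
    have e2 := Ex_iter_succ' (D.step φ) ρ t 0 fun x ω => ind (D.out x ω = some y)
    unfold shotF
    rw [Pr, e2, Pr, ← Ex_mul_right]
    refine Ex_congr fun l hl => ?_
    have hm : iter (D.step φ) ρ t 0 l ∈ D.Om :=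
      iter_inv (D.step φ) ρ (J := fun x => x ∈ D.Om) (fun x ω _ hx => h.step_mem hx ω)
        h.zero_mem hl.ge
    have e3 := h.out_prob hρ2 hm hy
    rw [Pr] at e3
    rw [e3, ind_eq]
    split_ifs <;> simp
  have hm := h.mixing hφ hρ ht hz
  have hw : D.wb φ (D.blk (D.sigOf y)) = 1 := by rw [wb, h.En_sig φ hy, zpow_zero]
  rw [hw] at hm
  have e4 : D.cst φ = 1 / D.Zb φ * (1 / (D.S : ℝ)) := by rw [cst, one_div_mul_one_div]
  rw [e1, e4, ← sub_mul, abs_mul, abs_of_pos (one_div_pos.2 hS), ← mul_assoc]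
  exact mul_le_mul_of_nonneg_right hm (one_div_pos.2 hS).le

end Dat

end Crest.Agent.R309
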