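import Crest.Agent.R309.Dat

/-!
# R309: elementary facts on the parameters, the forest and the net flows
-/

set_option linter.dupNamespace false

namespace Crest.Agent.R309

open Finset Crest.Agent.Lib.PT

namespace Dat

variable {D : Dat}

theorem Good.G_eq (h : D.Good) : D.G = 2 ^ D.g := h.fits.pow
theorem Good.ten (h : D.Good) : 10 ≤ D.g := h.fits.ten
theorem Good.G_ge (h : D.Good) : 1024 ≤ D.G := by
  rw [h.G_eq]; exact Nat.pow_le_pow_right (n := 2) (by omega) h.ten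
theorem Good.G_geR (h : D.Good) : (1024 : ℝ) ≤ D.G := by exact_mod_cast h.G_ge
theorem Good.nc_le (h : D.Good) : D.I.nc ≤ D.G := h.fits.nc
theorem Good.nv_le (h : D.Good) : D.I.nv ≤ D.G := h.fits.nv
theorem Good.x0_le (h : D.Good) {u : ℕ} (hu : u < D.I.nc) : D.x0 u ≤ D.I.b u := h.sol.2.1 u hu

/-- `30 g + 10 ≤ 2^g` for `g ≥ 10`. -/
theorem Good.g_le (h : D.Good) : 30 * D.g + 10 ≤ D.G := by
  have key : ∀ g : ℕ, 10 ≤ g → 30 * g + 10 ≤ 2 ^ g := by
    intro g hg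
    induction g, hg using Nat.le_induction with
    | base => norm_num
    | succ n hn ih => rw [pow_succ]; omega
  rw [h.G_eq]
  exact key _ h.ten

private theorem par_x_pos (h : D.Good) : 0 < 1 / (D.G : ℝ) ^ 27 := by
  have := h.G_geR
  positivity

private theorem par_x_le (h : D.Good) : 1 / (D.G : ℝ) ^ 27 ≤ 1 / 2 := by
  have h1 := h.G_geR
  have h2 : (D.G : ℝ) ≤ (D.G : ℝ) ^ 27 := le_self_pow₀ (by linarith) (by norm_num)
  exact one_div_le_one_div_of_le (by norm_num) (by linarith)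

theorem Good.qq_pos (h : D.Good) : 0 < D.qq := by
  have := par_x_le h
  unfold qq; linarith
theorem Good.qq_lt (h : D.Good) : D.qq < 1 := by
  have := par_x_pos h
  unfold qq; linarith
/-- `x ≤ - log (1 - x) ≤ 2 x` for `0 ≤ x ≤ 1/2`. -/
theorem Good.ell_lb (h : D.Good) : 1 / (D.G : ℝ) ^ 27 ≤ D.ell := by
  have := Real.log_le_sub_one_of_pos h.qq_pos
  unfold ell
  unfold qq at this ⊢
  linarith
theorem Good.ell_ub (h : D.Good) : D.ell ≤ 2 / (D.G : ℝ) ^ 27 := by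
  have h1 := Real.one_sub_inv_le_log_of_pos h.qq_pos
  have h2 := par_x_le h
  have h3 := par_x_pos h
  have h4 : D.qq⁻¹ ≤ 1 + 2 * (1 / (D.G : ℝ) ^ 27) := by
    rw [inv_le_iff_one_le_mul₀ h.qq_pos]
    unfold qq
    nlinarith
  have h5 : 2 / (D.G : ℝ) ^ 27 = 2 * (1 / (D.G : ℝ) ^ 27) := by ring
  unfold ell
  linarith
theorem Good.ell_pos (h : D.Good) : 0 < D.ell := by
  exact lt_of_lt_of_le (par_x_pos h) h.ell_lb
theorem Good.qq_zpow (h : D.Good) (k : ℤ) : D.qq ^ k = Real.exp (- D.ell * k) := by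
  rw [← Real.rpow_intCast, Real.rpow_def_of_pos h.qq_pos, ell, neg_neg]
theorem Good.wb_eq (h : D.Good) (φ : List ℤ) (x : ℕ) :
    D.wb φ x = Real.exp (- D.ell * D.En φ (D.cor x)) := h.qq_zpow _
theorem Good.wb_pos (h : D.Good) (φ : List ℤ) (x : ℕ) : 0 < D.wb φ x := by
  rw [h.wb_eq]; exact Real.exp_pos _

theorem s_pos (u : ℕ) : 0 < D.s u := by unfold s; split_ifs <;> omega
theorem M_pos (u : ℕ) : 0 < D.M u := Nat.succ_pos _
theorem S_pos : 0 < D.S := Finset.prod_pos fun u _ => s_pos u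
theorem lo_nonpos (u : ℕ) : D.lo u ≤ 0 := by unfold lo; split_ifs <;> omega
theorem hi_nonneg (u : ℕ) : 0 ≤ D.hi u := by unfold hi; split_ifs <;> omega
theorem neg_x0_le_lo (u : ℕ) : - (D.x0 u : ℤ) ≤ D.lo u := by unfold lo; split_ifs <;> omega
theorem Good.hi_le (h : D.Good) {u : ℕ} (hu : u < D.I.nc) : D.hi u ≤ D.I.b u - D.x0 u := by
  have := h.x0_le hu
  unfold hi; split_ifs <;> omega
theorem tree_vals {u : ℕ} (h : D.tree u) : D.lo u = 0 ∧ D.hi u = 0 ∧ D.s u = 1 ∧ D.M u = 1 := by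
  simp [lo, hi, s, M, h]

private theorem par_toNat (u : ℕ) : (((D.hi u - D.lo u).toNat : ℕ) : ℤ) = D.hi u - D.lo u :=
  Int.toNat_of_nonneg (by linarith [lo_nonpos (D := D) u, hi_nonneg (D := D) u])

private theorem par_range_le (u : ℕ) : (D.hi u - D.lo u).toNat ≤ 2 * D.G ^ 2 * D.wd u := by
  rw [mul_assoc]
  unfold hi lo
  split_ifs <;> omega

private theorem par_sM_le (u : ℕ) : D.s u * D.M u ≤ (D.hi u - D.lo u).toNat + D.s u := by
  have h1 := Nat.mul_div_le (D.hi u - D.lo u).toNat (D.s u)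
  rw [M, mul_add, mul_one]
  omega

/-- The blocks cover `[lo, hi]`, and only the last one may exceed it. -/
theorem hi_lt (u : ℕ) : D.hi u < D.lo u + D.s u * D.M u := by
  have h1 := Nat.lt_mul_div_succ (D.hi u - D.lo u).toNat (s_pos (D := D) u)
  have h2 := par_toNat (D := D) u
  have h3 : (((D.hi u - D.lo u).toNat : ℕ) : ℤ) < ((D.s u * D.M u : ℕ) : ℤ) := by
    exact_mod_cast h1
  push_cast at h3
  linarith
theorem top_le (u : ℕ) : D.lo u + D.s u * (D.M u - 1 : ℤ) ≤ D.hi u := by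
  have h1 := Nat.mul_div_le (D.hi u - D.lo u).toNat (D.s u)
  have h2 := par_toNat (D := D) u
  have h3 : ((D.s u * ((D.hi u - D.lo u).toNat / D.s u) : ℕ) : ℤ) ≤
      (((D.hi u - D.lo u).toNat : ℕ) : ℤ) := by exact_mod_cast h1
  have h4 : (D.M u - 1 : ℤ) = (((D.hi u - D.lo u).toNat / D.s u : ℕ) : ℤ) := by
    rw [M, Nat.cast_add, Nat.cast_one, add_sub_cancel_right]
  rw [Nat.cast_mul] at h3
  rw [h4]
  linarith

theorem large_of_s {u : ℕ} (h : D.s u ≠ 1) : ¬ D.tree u ∧ D.G ^ 9 ≤ D.wd u := by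
  unfold s at h
  split_ifs at h with ht
  · exact absurd rfl h
  · refine ⟨ht, ?_⟩
    by_contra hc
    rw [Nat.div_eq_of_lt (not_le.1 hc)] at h
    exact h rfl
theorem s_mul_le {u : ℕ} (h : D.G ^ 9 ≤ D.wd u) : D.s u * D.G ^ 9 ≤ D.wd u := by
  unfold s
  split_ifs with ht
  · simpa using h
  · rcases le_total 1 (D.wd u / D.G ^ 9) with h1 | h1
    · rw [max_eq_right h1]; exact Nat.div_mul_le_self _ _
    · rw [max_eq_left h1]; simpa using h
theorem Good.wd_le (h : D.Good) {u : ℕ} (hu : u < D.I.nc) : D.wd u ≤ D.I.b u := by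
  obtain ⟨X, hX, hw⟩ := (h.wid u hu).2.1
  have h1 := hX.2.1 u hu
  have h2 := h.sol.2.1 u hu
  unfold wd
  rcases abs_cases ((X.getD u 0 : ℤ) - D.X0.getD u 0) with h3 | h3 <;> omega
private theorem par_wd_pow (h : D.Good) {u : ℕ} (hu : u < D.I.nc) (hl : D.G ^ 9 ≤ D.wd u) :
    ∃ j, D.wd u = 2 ^ j := by
  have hG : 0 < D.G ^ 9 := pow_pos (by have := h.G_ge; omega) _
  rcases (h.wid u hu).1 with h0 | h0
  · unfold wd at hl; omega
  · exact h0

private theorem par_dvd (h : D.Good) {u : ℕ} (hu : u < D.I.nc) (hl : D.G ^ 9 ≤ D.wd u) {i : ℕ}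
    (hi : i ≤ 9) : D.G ^ i ∣ D.wd u := by
  obtain ⟨j, hj⟩ := par_wd_pow h hu hl
  refine (pow_dvd_pow _ hi).trans ?_
  rw [hj, h.G_eq, ← pow_mul] at hl ⊢
  exact pow_dvd_pow _ ((Nat.pow_le_pow_iff_right (by norm_num)).1 hl)

private theorem par_s_le_wd (h : D.Good) {u : ℕ} (hl : D.G ^ 9 ≤ D.wd u) : D.s u ≤ D.wd u :=
  (Nat.le_mul_of_pos_right _ (pow_pos (by have := h.G_ge; omega) _)).trans (s_mul_le hl)

/-- Widths and `G` are powers of two. -/
theorem Good.s_mul (h : D.Good) {u : ℕ} (hu : u < D.I.nc) (ht : ¬ D.tree u)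
    (hl : D.G ^ 9 ≤ D.wd u) : D.s u * D.G ^ 9 = D.wd u := by
  have hd := par_dvd h hu hl (le_refl 9)
  have hG : 0 < D.G ^ 9 := pow_pos (by have := h.G_ge; omega) _
  unfold s
  rw [if_neg ht, max_eq_right ((Nat.le_div_iff_mul_le hG).2 (by simpa using hl))]
  exact Nat.div_mul_cancel hd
theorem Good.s_pow (h : D.Good) {u : ℕ} (hu : u < D.I.nc) : ∃ j ≤ D.G, D.s u = 2 ^ j := by
  by_cases h1 : D.s u = 1
  · exact ⟨0, Nat.zero_le _, by simpa using h1⟩
  obtain ⟨ht, hl⟩ := large_of_s h1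
  have h2 := h.s_mul hu ht hl
  obtain ⟨j, hj⟩ := par_wd_pow h hu hl
  obtain ⟨i, -, hi⟩ := (Nat.dvd_prime_pow Nat.prime_two).1
    (show D.s u ∣ 2 ^ j from ⟨D.G ^ 9, by rw [← hj, h2]⟩)
  refine ⟨i, ?_, hi⟩
  have h3 := par_s_le_wd h hl
  have h4 := h.wd_le hu
  have h5 := h.fits.b u hu
  have h6 : 2 ^ i < 2 ^ D.G := by omega
  exact ((Nat.pow_lt_pow_iff_right (by norm_num)).1 h6).le
theorem Good.M_le (h : D.Good) {u : ℕ} (hu : u < D.I.nc) : D.M u ≤ D.G ^ 12 := by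
  have hG := h.G_ge
  have h0 : 2 * D.G ^ 11 + 1 ≤ D.G ^ 12 := by
    have : 0 < D.G ^ 11 := pow_pos (by omega) _
    rw [pow_succ D.G 11]; nlinarith
  by_cases ht : D.tree u
  · rw [(tree_vals ht).2.2.2]; omega
  have h1 : D.wd u ≤ D.s u * D.G ^ 9 := by
    by_cases hl : D.G ^ 9 ≤ D.wd u
    · exact (h.s_mul hu ht hl).ge
    · have := s_pos (D := D) u
      nlinarith
  have h2 := par_range_le (D := D) u
  have h3 : (D.hi u - D.lo u).toNat / D.s u ≤ 2 * D.G ^ 11 := by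
    refine Nat.div_le_of_le_mul (h2.trans ?_)
    calc 2 * D.G ^ 2 * D.wd u ≤ 2 * D.G ^ 2 * (D.s u * D.G ^ 9) := Nat.mul_le_mul_left _ h1
      _ = D.s u * (2 * D.G ^ 11) := by ring
  unfold M
  omega
theorem Good.sM_le (h : D.Good) {u : ℕ} (hu : u < D.I.nc) : D.s u * D.M u ≤ 2 ^ (D.G + 1) := by
  obtain ⟨j, hj, hs⟩ := h.s_pow hu
  have h1 : D.s u ≤ 2 ^ D.G := by rw [hs]; exact Nat.pow_le_pow_right (by norm_num) hj
  have h2 := par_sM_le (D := D) u
  have h3 := h.hi_le hu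
  have h4 := neg_x0_le_lo (D := D) u
  have h5 := h.fits.b u hu
  have h6 := par_toNat (D := D) u
  rw [pow_succ]
  omega
theorem Good.sM_le_large (h : D.Good) {u : ℕ} (hl : D.G ^ 9 ≤ D.wd u) :
    D.s u * D.M u ≤ 3 * D.G ^ 2 * D.wd u := by
  have h1 := par_s_le_wd h hl
  have h2 := par_sM_le (D := D) u
  have h3 := par_range_le (D := D) u
  have h4 : D.wd u ≤ D.G ^ 2 * D.wd u :=
    Nat.le_mul_of_pos_left _ (pow_pos (by have := h.G_ge; omega) _)
  calc D.s u * D.M u ≤ 2 * D.G ^ 2 * D.wd u + D.G ^ 2 * D.wd u := by omega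
    _ = _ := by ring
theorem Good.small (h : D.Good) {u : ℕ} (hl : D.wd u < D.G ^ 9) :
    D.s u = 1 ∧ - (D.G : ℤ) ^ 11 ≤ D.lo u ∧ D.hi u ≤ (D.G : ℤ) ^ 11 := by
  have h1 : D.G ^ 2 * D.wd u ≤ D.G ^ 11 := by
    calc D.G ^ 2 * D.wd u ≤ D.G ^ 2 * D.G ^ 9 := Nat.mul_le_mul_left _ hl.le
      _ = _ := by ring
  have h2 : ((D.G ^ 11 : ℕ) : ℤ) = (D.G : ℤ) ^ 11 := by push_cast; rfl
  refine ⟨?_, ?_, ?_⟩
  · by_contra hc
    exact absurd (large_of_s hc).2 (not_le.2 hl)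
  · rw [← h2]; unfold lo; split_ifs <;> omega
  · rw [← h2]; unfold hi; split_ifs <;> omega
/-- A free cell has a range at least its width (`WidthSpec` gives a solution at deviation `± wd u`). -/
theorem Good.wd_le_range (h : D.Good) {u : ℕ} (hu : u < D.I.nc) (ht : ¬ D.tree u) :
    (D.wd u : ℤ) ≤ D.hi u - D.lo u := by
  obtain ⟨X, hX, hw⟩ := (h.wid u hu).2.1
  have h1 := hX.2.1 u hu
  have h2 := h.sol.2.1 u hu
  have h4 : D.wd u ≤ D.G ^ 2 * D.wd u :=
    Nat.le_mul_of_pos_left _ (pow_pos (by have := h.G_ge; omega) _)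
  unfold hi lo
  rw [if_neg ht, if_neg ht]
  generalize D.G ^ 2 * D.wd u = K at h4
  unfold wd x0 at *
  rcases abs_cases ((X.getD u 0 : ℤ) - D.X0.getD u 0) with h3 | h3 <;> omega

theorem Good.tree_iff (h : D.Good) {u : ℕ} : D.tree u ↔ ∃ r < D.I.nv, D.par r = some u := by
  unfold tree par
  constructor
  · intro hm
    obtain ⟨r, hr, he⟩ := List.getElem_of_mem hm
    exact ⟨r, h.tr.len ▸ hr, by rw [List.getD_eq_getElem _ _ hr, he]⟩
  · rintro ⟨r, hr, he⟩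
    rw [← h.tr.len] at hr
    rw [List.getD_eq_getElem _ _ hr] at he
    exact he ▸ List.getElem_mem hr
theorem Good.par_lt (h : D.Good) {r e : ℕ} (he : D.par r = some e) :
    r < D.I.nv ∧ e < D.I.nc ∧ D.G ^ 9 ≤ D.wd e ∧ D.tree e := by
  have hr : r < D.I.nv := by
    by_contra hc
    unfold par at he
    rw [List.getD_eq_default _ _ (by rw [h.tr.len]; omega)] at he
    cases he
  obtain ⟨h1, h2, -⟩ := h.tr.par r hr e he
  exact ⟨hr, h1, h2, h.tree_iff.2 ⟨r, hr, he⟩⟩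
theorem Good.par_inj (h : D.Good) {r r' e : ℕ} (he : D.par r = some e) (he' : D.par r' = some e) :
    r = r' := by
  have hr := (h.par_lt he).1
  have hr' := (h.par_lt he').1
  obtain ⟨-, -, o, h1, h2, -⟩ := h.tr.par r hr e he
  obtain ⟨-, -, o', h1', -, h3'⟩ := h.tr.par r' hr' e he'
  by_contra hne
  have e1 : o = r' := by omega
  have e2 : o' = r := by omega
  subst e1 e2
  exact h2 ((h3' _).2 (Or.inr (h.tr.refl _ hr)))
theorem Good.Wp_eq (h : D.Good) {r e : ℕ} (he : D.par r = some e) :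
    D.Wp e * D.G ^ 7 = D.wd e ∧ D.G ^ 2 ≤ D.Wp e := by
  obtain ⟨-, h1, h2, -⟩ := h.par_lt he
  have hd := par_dvd h h1 h2 (show 7 ≤ 9 by norm_num)
  have hG : 0 < D.G ^ 7 := pow_pos (by have := h.G_ge; omega) _
  refine ⟨Nat.div_mul_cancel hd, (Nat.le_div_iff_mul_le hG).2 ?_⟩
  rw [← pow_add]
  exact h2
/-- The parent cell of `r` leaves or enters the set of descendants of `r`. -/
theorem Good.cross_par (h : D.Good) {r e : ℕ} (he : D.par r = some e) :
    (D.I.p e = r ∧ D.A (D.I.p e) r ∧ ¬ D.A (D.I.q e) r) ∨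
      (D.I.p e ≠ r ∧ D.A (D.I.q e) r ∧ ¬ D.A (D.I.p e) r) := by
  have hr := (h.par_lt he).1
  obtain ⟨-, -, o, h1, h2, -⟩ := h.tr.par r hr e he
  have h3 := h.tr.refl r hr
  unfold A
  rcases h1 with ⟨h4, h5⟩ | ⟨h4, h5⟩
  · left
    rw [h4, h5]
    exact ⟨rfl, h3, h2⟩
  · right
    rw [h4, h5]
    exact ⟨fun e => h2 (e ▸ h3), h3, h2⟩
/-- No other tree cell does. -/
theorem Good.cross_tree (h : D.Good) {r e : ℕ} (ht : D.tree e) (he : D.par r ≠ some e) :
    D.A (D.I.p e) r ↔ D.A (D.I.q e) r := by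
  obtain ⟨v, hv, hpv⟩ := h.tree_iff.1 ht
  have hne : r ≠ v := fun e => he (e ▸ hpv)
  obtain ⟨-, -, o, h1, -, h3⟩ := h.tr.par v hv e hpv
  have h4 := h3 r
  unfold A
  rcases h1 with ⟨h5, h6⟩ | ⟨h5, h6⟩ <;> rw [h5, h6] <;> tauto
theorem Good.cross_large (h : D.Good) {u r : ℕ} (hu : u < D.I.nc) (hl : D.G ^ 9 ≤ D.wd u)
    (hx : ¬ (D.A (D.I.p u) r ↔ D.A (D.I.q u) r)) : ∃ e, D.par r = some e ∧ D.wd u ≤ D.wd e :=
  h.tr.cut u hu hl r hx
/-- A vertex has at most one root among its ancestors. -/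
theorem Good.root_unique (h : D.Good) {v r r' : ℕ} (hv : v < D.I.nv) (h1 : D.A v r) (h2 : D.A v r')
    (hr : D.par r = none) (hr' : D.par r' = none) : r = r' := by
  rcases h.tr.chain v hv r h1 r' h2 with h3 | h3
  · exact (h.tr.root r (h.tr.lt v hv r h1) hr r' h3).symm
  · exact h.tr.root r' (h.tr.lt v hv r' h2) hr' r h3

theorem net_congr {σ σ' : ℕ → ℤ} (h : ∀ u < D.I.nc, σ u = σ' u) (r : ℕ) :
    D.net σ r = D.net σ' r :=
  Finset.sum_congr rfl fun u hu => by rw [h u (mem_range.1 hu)]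
theorem En_congr (φ : List ℤ) {σ σ' : ℕ → ℤ} (h : ∀ u < D.I.nc, σ u = σ' u) :
    D.En φ σ = D.En φ σ' := by
  simp only [En, pen, tv, net_congr h]
theorem tv_eq (σ : ℕ → ℤ) (r e : ℕ) : D.tv σ r e = D.sg r e * D.net σ r := by
  unfold tv sg; split_ifs <;> simp

/-- Only the cells crossing the set contribute. -/
theorem abs_net_sub_le (σ σ' : ℕ → ℤ) (r : ℕ) : |D.net σ r - D.net σ' r| ≤
    ∑ u ∈ range D.I.nc, if (D.A (D.I.p u) r ↔ D.A (D.I.q u) r) then 0 else |σ u - σ' u| := by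
  unfold net
  rw [← Finset.sum_sub_distrib]
  refine (Finset.abs_sum_le_sum_abs _ _).trans (Finset.sum_le_sum fun u _ => ?_)
  by_cases h1 : D.A (D.I.p u) r <;> by_cases h2 : D.A (D.I.q u) r <;> simp [h1, h2]
  exact le_of_eq (by rw [← abs_neg]; congr 1; ring)

/-- Changing large cells does not change the net flow at a root. -/
theorem Good.net_root (h : D.Good) {σ σ' : ℕ → ℤ}
    (hσ : ∀ u < D.I.nc, σ u ≠ σ' u → D.G ^ 9 ≤ D.wd u) {r : ℕ} (hr : D.par r = none) :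
    D.net σ r = D.net σ' r := by
  have h1 := abs_net_sub_le (D := D) σ σ' r
  rw [Finset.sum_eq_zero] at h1
  · exact sub_eq_zero.1 (abs_nonpos_iff.1 h1)
  · intro u hu
    have hu' := mem_range.1 hu
    split_ifs with hx
    · rfl
    · by_contra hc
      have hne : σ u ≠ σ' u := fun e => hc (by rw [e, sub_self, abs_zero])
      obtain ⟨e, he, -⟩ := h.cross_large hu' (hσ u hu' hne) hx
      rw [hr] at he
      cases he

/-- Changing each large cell `u` by at most `k * s u` changes the net flow at `r` by at most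
`k * nc * wd e / G^9`, `e` the parent cell of `r`. -/
theorem Good.net_tree (h : D.Good) {σ σ' : ℕ → ℤ} {k : ℕ}
    (hσ : ∀ u < D.I.nc, σ u ≠ σ' u → D.G ^ 9 ≤ D.wd u ∧ |σ u - σ' u| ≤ k * D.s u) {r e : ℕ}
    (he : D.par r = some e) : |D.net σ r - D.net σ' r| * (D.G : ℤ) ^ 8 ≤ k * D.wd e := by
  have hG : (0 : ℤ) < D.G := by have := h.G_ge; omega
  have h1 := abs_net_sub_le (D := D) σ σ' r
  have h2 : (∑ u ∈ range D.I.nc, if (D.A (D.I.p u) r ↔ D.A (D.I.q u) r) then 0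
      else |σ u - σ' u|) * (D.G : ℤ) ^ 9 ≤ D.I.nc * ((k : ℤ) * D.wd e) := by
    rw [Finset.sum_mul]
    refine (Finset.sum_le_card_nsmul _ _ ((k : ℤ) * D.wd e) fun u hu => ?_).trans
      (le_of_eq (by simp))
    have hu' := mem_range.1 hu
    split_ifs with hx
    · rw [zero_mul]; positivity
    · by_cases hne : σ u = σ' u
      · rw [hne, sub_self, abs_zero, zero_mul]; positivity
      obtain ⟨hl, hk⟩ := hσ u hu' hne
      obtain ⟨e', he', hw⟩ := h.cross_large hu' hl hx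
      rw [he] at he'
      cases he'
      have h3 : (D.s u : ℤ) * (D.G : ℤ) ^ 9 ≤ D.wd e := by
        exact_mod_cast (s_mul_le hl).trans hw
      calc |σ u - σ' u| * (D.G : ℤ) ^ 9 ≤ k * D.s u * (D.G : ℤ) ^ 9 := by gcongr
        _ = k * (D.s u * (D.G : ℤ) ^ 9) := by ring
        _ ≤ k * D.wd e := by gcongr
  have h3 : (D.I.nc : ℤ) ≤ D.G := by exact_mod_cast h.nc_le
  refine le_of_mul_le_mul_right ?_ hG
  calc |D.net σ r - D.net σ' r| * (D.G : ℤ) ^ 8 * D.G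
      = |D.net σ r - D.net σ' r| * (D.G : ℤ) ^ 9 := by ring
    _ ≤ _ := mul_le_mul_of_nonneg_right h1 (by positivity)
    _ ≤ D.I.nc * ((k : ℤ) * D.wd e) := h2
    _ ≤ D.G * ((k : ℤ) * D.wd e) := by gcongr
    _ = _ := by ring

theorem Good.abs_net_root (h : D.Good) {σ : ℕ → ℤ}
    (hσ : ∀ u < D.I.nc, D.lo u ≤ σ u ∧ σ u < D.lo u + D.s u * D.M u) {r : ℕ}
    (hr : D.par r = none) : |D.net σ r| ≤ (D.G : ℤ) ^ 12 := by
  have hG : (0 : ℤ) < D.G := by have := h.G_ge; omega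
  have h1 := abs_net_sub_le (D := D) σ (fun _ => 0) r
  have h0 : D.net (fun _ => 0) r = 0 := by simp [net]
  rw [h0, sub_zero] at h1
  refine h1.trans ((Finset.sum_le_card_nsmul _ _ ((D.G : ℤ) ^ 11) fun u hu => ?_).trans ?_)
  · have hu' := mem_range.1 hu
    split_ifs with hx
    · positivity
    · have hl : D.wd u < D.G ^ 9 := by
        by_contra hc
        obtain ⟨e, he, -⟩ := h.cross_large hu' (not_lt.1 hc) hx
        rw [hr] at he
        cases he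
      obtain ⟨h2, h3, h4⟩ := h.small hl
      obtain ⟨h5, h6⟩ := hσ u hu'
      have h7 := top_le (D := D) u
      rw [h2] at h6 h7
      rw [sub_zero, abs_le]
      constructor <;> push_cast at h6 h7 <;> linarith
  · have h3 : (D.I.nc : ℤ) ≤ D.G := by exact_mod_cast h.nc_le
    rw [card_range, nsmul_eq_mul, pow_succ' _ 11]
    gcongr

/-- Each of the two quotients changes by at most one. -/
theorem penT_sub_le {e : ℕ} {t t' : ℤ} (h : |t - t'| ≤ D.Wp e) :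
    (D.penT e t : ℤ) ≤ D.penT e t' + 2 * (D.G : ℤ) ^ 25 := by
  have key : ∀ a a' : ℤ, a ≤ a' + D.Wp e → a.toNat / D.Wp e ≤ a'.toNat / D.Wp e + 1 := by
    intro a a' ha
    rcases Nat.eq_zero_or_pos (D.Wp e) with h0 | h0
    · simp [h0]
    · rw [← Nat.add_div_right _ h0]
      exact Nat.div_le_div_right (by omega)
  obtain ⟨h1, h2⟩ := abs_le.1 h
  have h3 := key (t - (D.I.b e - D.x0 e : ℤ)) (t' - (D.I.b e - D.x0 e : ℤ)) (by linarith)
  have h4 := key (- (D.x0 e : ℤ) - t) (- (D.x0 e : ℤ) - t') (by linarith)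
  have h5 : D.penT e t ≤ D.penT e t' + 2 * D.G ^ 25 := by
    unfold penT
    nlinarith [Nat.mul_le_mul_left (D.G ^ 25) (Nat.add_le_add h3 h4)]
  exact_mod_cast h5

end Dat

end Crest.Agent.R309
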