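import Crest.Agent.Lib.PT.All
import Crest.Prelude.Def_WordRAM

/-!
# R309: four-stack programs on the word RAM
-/

set_option linter.dupNamespace false

namespace Crest.Agent.R309.RamAux

open Crest.Agent.Lib.PT Crest.WordRAM

/-- A bit stack as a number. -/
def num : List Bool → ℕ
  | [] => 1
  | b :: l => 2 * num l + b.toNat

theorem num_pos (l : List Bool) : 0 < num l := by
  induction l with
  | nil => exact Nat.one_pos
  | cons b l ih => simp only [num]; omega

theorem num_lt (l : List Bool) : num l < 2 ^ (l.length + 1) := by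
  induction l with
  | nil => simp [num]
  | cons b l ih =>
    have : b.toNat ≤ 1 := Bool.toNat_le b
    simp only [num, List.length_cons, pow_succ] at ih ⊢
    omega

theorem num_cons_ne_one (b : Bool) (l : List Bool) : num (b :: l) ≠ 1 := by
  have := num_pos l
  simp only [num]; omega

theorem num_cons_and (b : Bool) (l : List Bool) : num (b :: l) &&& 1 = b.toNat := by
  have : b.toNat ≤ 1 := Bool.toNat_le b
  rw [Nat.and_one_is_mod, num]; omega

theorem num_cons_shr (b : Bool) (l : List Bool) : num (b :: l) >>> 1 = num l := by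
  have : b.toNat ≤ 1 := Bool.toNat_le b
  rw [Nat.shiftRight_one, num]; omega

/-- The register file: `0` output length, `1` output address, `2` the constant one, `3`-`6` the
stacks, `7` scratch, `8` state, `9` argument, `10` address, `11` value. -/
def vec (k m a b c t S U X Y : ℕ) : Fin 12 → ℕ := ![k, 0, 1, m, a, b, c, t, S, U, X, Y]

section vec
variable (k m a b c t S U X Y v : ℕ)

@[simp] theorem vec0 : vec k m a b c t S U X Y 0 = k := rfl
@[simp] theorem vec1 : vec k m a b c t S U X Y 1 = 0 := rfl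
@[simp] theorem vec2 : vec k m a b c t S U X Y 2 = 1 := rfl
@[simp] theorem vec3 : vec k m a b c t S U X Y 3 = m := rfl
@[simp] theorem vec4 : vec k m a b c t S U X Y 4 = a := rfl
@[simp] theorem vec5 : vec k m a b c t S U X Y 5 = b := rfl
@[simp] theorem vec6 : vec k m a b c t S U X Y 6 = c := rfl
@[simp] theorem vec7 : vec k m a b c t S U X Y 7 = t := rfl
@[simp] theorem vec8 : vec k m a b c t S U X Y 8 = S := rfl
@[simp] theorem vec9 : vec k m a b c t S U X Y 9 = U := rfl
@[simp] theorem vec10 : vec k m a b c t S U X Y 10 = X := rfl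
@[simp] theorem vec11 : vec k m a b c t S U X Y 11 = Y := rfl

@[simp] theorem wr0 : writeReg (vec k m a b c t S U X Y) 0 v = vec v m a b c t S U X Y := by
  funext j; fin_cases j <;> rfl
@[simp] theorem wr3 : writeReg (vec k m a b c t S U X Y) 3 v = vec k v a b c t S U X Y := by
  funext j; fin_cases j <;> rfl
@[simp] theorem wr4 : writeReg (vec k m a b c t S U X Y) 4 v = vec k m v b c t S U X Y := by
  funext j; fin_cases j <;> rfl
@[simp] theorem wr5 : writeReg (vec k m a b c t S U X Y) 5 v = vec k m a v c t S U X Y := by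
  funext j; fin_cases j <;> rfl
@[simp] theorem wr6 : writeReg (vec k m a b c t S U X Y) 6 v = vec k m a b v t S U X Y := by
  funext j; fin_cases j <;> rfl
@[simp] theorem wr7 : writeReg (vec k m a b c t S U X Y) 7 v = vec k m a b c v S U X Y := by
  funext j; fin_cases j <;> rfl
@[simp] theorem wr8 : writeReg (vec k m a b c t S U X Y) 8 v = vec k m a b c t v U X Y := by
  funext j; fin_cases j <;> rfl
@[simp] theorem wr9 : writeReg (vec k m a b c t S U X Y) 9 v = vec k m a b c t S v X Y := by
  funext j; fin_cases j <;> rfl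
@[simp] theorem wr10 : writeReg (vec k m a b c t S U X Y) 10 v = vec k m a b c t S U v Y := by
  funext j; fin_cases j <;> rfl
@[simp] theorem wr11 : writeReg (vec k m a b c t S U X Y) 11 v = vec k m a b c t S U X v := by
  funext j; fin_cases j <;> rfl

end vec

/-- The register of a stack. -/
def reg : R → Fin 12
  | .m => 3
  | .a => 4
  | .b => 5
  | .c => 6

/-- The register file holding four stacks. -/
def put (k : ℕ) (s : St) (t S U X Y : ℕ) : Fin 12 → ℕ :=
  vec k (num s.m) (num s.a) (num s.b) (num s.c) t S U X Y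

section put
variable (k : ℕ) (s : St) (t S U X Y : ℕ)

@[simp] theorem put_reg (r : R) : put k s t S U X Y (reg r) = num (s.get r) := by cases r <;> rfl
@[simp] theorem put2 : put k s t S U X Y 2 = 1 := rfl
@[simp] theorem put7 : put k s t S U X Y 7 = t := rfl
@[simp] theorem wr_put7 (v : ℕ) : writeReg (put k s t S U X Y) 7 v = put k s v S U X Y := wr7 ..

theorem wr_put (r : R) (l : List Bool) :
    writeReg (put k s t S U X Y) (reg r) (num l) = put k (s.set r l) t S U X Y := by
  cases r <;> simp [put, reg]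

end put

theorem get_set (s : St) (r : R) (l : List Bool) : (s.set r l).get r = l := by cases r <;> rfl

theorem set_set (s : St) (r : R) (l l' : List Bool) : (s.set r l).set r l' = s.set r l' := by
  cases r <;> rfl

theorem length_get_le (s : St) (r : R) : (s.get r).length ≤ s.tot := by
  cases r <;> simp [St.tot] <;> omega

/-- Length of the compiled code. -/
def len : Prog → ℕ
  | .skip => 0
  | .push _ false => 1
  | .push _ true => 2
  | .seq p q => len p + len q
  | .case _ pe pf pt => 4 + len pt + 1 + len pf + 1 + len pe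
  | .loop _ pf pt => 4 + len pt + 1 + len pf + 1
  | .wh _ p => 3 + len p + 1

/-- Pop a bit from a nonempty stack and jump if it is `false`. -/
def popI (r : R) (z : ℕ) : List (Instr 12) :=
  [.and 7 (reg r) 2, .shr (reg r) (reg r) 2, .jumpIfZero 7 z]

/-- The compiled code, placed at offset `o`. -/
def rcode : Prog → ℕ → List (Instr 12)
  | .skip, _ => []
  | .push r false, _ => [.add (reg r) (reg r) (reg r)]
  | .push r true, _ => [.add (reg r) (reg r) (reg r), .add (reg r) (reg r) 2]
  | .seq p q, o => rcode p o ++ rcode q (o + len p)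
  | .case r pe pf pt, o =>
      .jumpIfEq (reg r) 2 (o + 4 + len pt + 1 + len pf + 1) ::
        (popI r (o + 4 + len pt + 1) ++ (rcode pt (o + 4) ++
          (.jump (o + 4 + len pt + 1 + len pf + 1 + len pe) :: (rcode pf (o + 4 + len pt + 1) ++
            (.jump (o + 4 + len pt + 1 + len pf + 1 + len pe) ::
              rcode pe (o + 4 + len pt + 1 + len pf + 1))))))
  | .loop r pf pt, o =>
      .jumpIfEq (reg r) 2 (o + 4 + len pt + 1 + len pf + 1) ::
        (popI r (o + 4 + len pt + 1) ++ (rcode pt (o + 4) ++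
          (.jump o :: (rcode pf (o + 4 + len pt + 1) ++ [.jump o]))))
  | .wh r p, o => popI r (o + 3 + len p + 1) ++ (rcode p (o + 3) ++ [.jump o])

@[simp] theorem length_popI (r : R) (z : ℕ) : (popI r z).length = 3 := rfl

@[simp] theorem length_rcode (p : Prog) : ∀ o, (rcode p o).length = len p := by
  induction p with
  | skip => intro o; rfl
  | push r x => intro o; cases x <;> rfl
  | seq p q ihp ihq => intro o; simp [rcode, len, ihp, ihq]
  | case r pe pf pt h1 h2 h3 => intro o; simp [rcode, len, h1, h2, h3]; omega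
  | loop r pf pt h2 h3 => intro o; simp [rcode, len, h2, h3]; omega
  | wh r p h => intro o; simp [rcode, len, h]; omega

/-- The list `L` contains `c` at offset `o`. -/
def At (L : List (Instr 12)) : ℕ → List (Instr 12) → Prop
  | _, [] => True
  | o, x :: c => L[o]? = some x ∧ At L (o + 1) c

theorem at_cons {L : List (Instr 12)} {o : ℕ} {x : Instr 12} {c : List (Instr 12)} :
    At L o (x :: c) ↔ L[o]? = some x ∧ At L (o + 1) c := Iff.rfl

theorem at_append {L : List (Instr 12)} {c c' : List (Instr 12)} :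
    ∀ {o : ℕ}, At L o (c ++ c') ↔ At L o c ∧ At L (o + c.length) c' := by
  induction c with
  | nil => intro o; simp [At]
  | cons x c ih =>
    intro o
    rw [List.cons_append, at_cons, at_cons, ih, List.length_cons, and_assoc,
      show o + 1 + c.length = o + (c.length + 1) by omega]

theorem at_self_aux (c : List (Instr 12)) : ∀ pre : List (Instr 12), At (pre ++ c) pre.length c := by
  induction c with
  | nil => intro pre; trivial
  | cons x c ih =>
    intro pre
    refine ⟨by simp, ?_⟩
    have := ih (pre ++ [x])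
    simpa using this

theorem at_self (L : List (Instr 12)) : At L 0 L := at_self_aux L []

section run
variable (L : List (Instr 12)) (w : ℕ) (ρ : ℕ → ℕ)

/-- One step. -/
def stp (c : Cfg 12) : Cfg 12 := step ⟨12, L⟩ w ρ c

/-- `c'` is reached from `c` within `n` steps. -/
def Rch (n : ℕ) (c c' : Cfg 12) : Prop := ∃ k ≤ n, (stp L w ρ)^[k] c = c'

variable {L w ρ}

theorem Rch.refl (c : Cfg 12) : Rch L w ρ 0 c c := ⟨0, le_rfl, rfl⟩

theorem Rch.mono {n n' : ℕ} {c c' : Cfg 12} (h : Rch L w ρ n c c') (hn : n ≤ n') :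
    Rch L w ρ n' c c' := by
  obtain ⟨k, hk, e⟩ := h
  exact ⟨k, hk.trans hn, e⟩

theorem Rch.trans {n n' : ℕ} {c c' c'' : Cfg 12} (h : Rch L w ρ n c c')
    (h' : Rch L w ρ n' c' c'') : Rch L w ρ (n + n') c c'' := by
  obtain ⟨k, hk, e⟩ := h
  obtain ⟨k', hk', e'⟩ := h'
  exact ⟨k' + k, by omega, by rw [Function.iterate_add_apply, e, e']⟩

theorem Rch.one {c c' : Cfg 12} (h : stp L w ρ c = c') : Rch L w ρ 1 c c' := ⟨1, le_rfl, h⟩

theorem Rch.congr {n : ℕ} {c c' d : Cfg 12} (h : Rch L w ρ n c c') (e : c' = d) :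
    Rch L w ρ n c d := e ▸ h

variable {o : ℕ} {Rg : Fin 12 → ℕ} {M : ℕ → ℕ} {D : ℕ}

theorem r_const {d : Fin 12} {v : ℕ} (h : L[o]? = some (.const d v)) (hv : v < 2 ^ w) :
    Rch L w ρ 1 ⟨o, false, Rg, M, D⟩ ⟨o + 1, false, writeReg Rg d v, M, D⟩ :=
  Rch.one (by simp [stp, step, h, Nat.mod_eq_of_lt hv])

theorem r_copy {d s : Fin 12} (h : L[o]? = some (.copy d s)) :
    Rch L w ρ 1 ⟨o, false, Rg, M, D⟩ ⟨o + 1, false, writeReg Rg d (Rg s), M, D⟩ :=
  Rch.one (by simp [stp, step, h])

theorem r_add {d a b : Fin 12} (h : L[o]? = some (.add d a b)) (hv : Rg a + Rg b < 2 ^ w) :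
    Rch L w ρ 1 ⟨o, false, Rg, M, D⟩ ⟨o + 1, false, writeReg Rg d (Rg a + Rg b), M, D⟩ :=
  Rch.one (by simp [stp, step, h, Nat.mod_eq_of_lt hv])

theorem r_sub {d a b : Fin 12} (h : L[o]? = some (.sub d a b)) :
    Rch L w ρ 1 ⟨o, false, Rg, M, D⟩ ⟨o + 1, false, writeReg Rg d (Rg a - Rg b), M, D⟩ :=
  Rch.one (by simp [stp, step, h])

theorem r_and {d a b : Fin 12} (h : L[o]? = some (.and d a b)) :
    Rch L w ρ 1 ⟨o, false, Rg, M, D⟩ ⟨o + 1, false, writeReg Rg d (Rg a &&& Rg b), M, D⟩ :=
  Rch.one (by simp [stp, step, h])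

theorem r_shr {d a b : Fin 12} (h : L[o]? = some (.shr d a b)) (hv : Rg b < w) :
    Rch L w ρ 1 ⟨o, false, Rg, M, D⟩ ⟨o + 1, false, writeReg Rg d (Rg a >>> Rg b), M, D⟩ :=
  Rch.one (by simp [stp, step, h, hv])

theorem r_load {d a : Fin 12} (h : L[o]? = some (.load d a)) :
    Rch L w ρ 1 ⟨o, false, Rg, M, D⟩ ⟨o + 1, false, writeReg Rg d (M (Rg a)), M, D⟩ :=
  Rch.one (by simp [stp, step, h])

theorem r_store {s a : Fin 12} (h : L[o]? = some (.store s a)) :
    Rch L w ρ 1 ⟨o, false, Rg, M, D⟩ ⟨o + 1, false, Rg, Function.update M (Rg a) (Rg s), D⟩ := by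
  have : writeMem M (Rg a) (Rg s) = Function.update M (Rg a) (Rg s) := by
    funext i
    simp [writeMem, Function.update_apply]
  exact Rch.one (by simp [stp, step, h, this])

theorem r_jump {z : ℕ} (h : L[o]? = some (.jump z)) :
    Rch L w ρ 1 ⟨o, false, Rg, M, D⟩ ⟨z, false, Rg, M, D⟩ :=
  Rch.one (by simp [stp, step, h])

theorem r_jz {a : Fin 12} {z : ℕ} (h : L[o]? = some (.jumpIfZero a z)) :
    Rch L w ρ 1 ⟨o, false, Rg, M, D⟩ ⟨if Rg a = 0 then z else o + 1, false, Rg, M, D⟩ :=
  Rch.one (by simp [stp, step, h])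

theorem r_jeq {a b : Fin 12} {z : ℕ} (h : L[o]? = some (.jumpIfEq a b z)) :
    Rch L w ρ 1 ⟨o, false, Rg, M, D⟩ ⟨if Rg a = Rg b then z else o + 1, false, Rg, M, D⟩ :=
  Rch.one (by simp [stp, step, h])

theorem r_rand {d : Fin 12} (h : L[o]? = some (.rand d)) :
    Rch L w ρ 1 ⟨o, false, Rg, M, D⟩ ⟨o + 1, false, writeReg Rg d (ρ D % 2 ^ w), M, D + 1⟩ :=
  Rch.one (by simp [stp, step, h])

theorem r_halt (h : L[o]? = some .halt) :
    Rch L w ρ 1 ⟨o, false, Rg, M, D⟩ ⟨o, true, Rg, M, D⟩ :=
  Rch.one (by simp [stp, step, h])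

variable {k t S U X Y : ℕ}

theorem r_pop {r : R} {z : ℕ} {s : St} {x : Bool} {l : List Bool} (hw : 1 < w)
    (h : At L o (popI r z)) (hs : s.get r = x :: l) :
    Rch L w ρ 3 ⟨o, false, put k s t S U X Y, M, D⟩
      ⟨if x then o + 3 else z, false, put k (s.set r l) x.toNat S U X Y, M, D⟩ := by
  obtain ⟨h1, h2, h3, -⟩ := h
  refine (((r_and h1).trans (r_shr h2 (by simpa using hw))).trans (r_jz h3)).congr ?_
  simp only [put_reg, put2, wr_put7, hs, num_cons_and, num_cons_shr, wr_put, put7]
  cases x <;> simp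

theorem r_nil {r : R} {z : ℕ} {s : St} (h : L[o]? = some (.jumpIfEq (reg r) 2 z))
    (hs : s.get r = []) :
    Rch L w ρ 1 ⟨o, false, put k s t S U X Y, M, D⟩ ⟨z, false, put k s t S U X Y, M, D⟩ :=
  (r_jeq h).congr (by simp [hs, num])

theorem r_pop' {r : R} {z z' : ℕ} {s : St} {x : Bool} {l : List Bool} (hw : 1 < w)
    (h0 : L[o]? = some (.jumpIfEq (reg r) 2 z')) (h : At L (o + 1) (popI r z))
    (hs : s.get r = x :: l) :
    Rch L w ρ 4 ⟨o, false, put k s t S U X Y, M, D⟩
      ⟨if x then o + 4 else z, false, put k (s.set r l) x.toNat S U X Y, M, D⟩ := by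
  have h1 : Rch L w ρ 1 ⟨o, false, put k s t S U X Y, M, D⟩
      ⟨o + 1, false, put k s t S U X Y, M, D⟩ :=
    (r_jeq h0).congr (by simp [hs, num_cons_ne_one])
  exact h1.trans (r_pop hw h hs)

theorem tot_pop {s : St} {r : R} {x : Bool} {l : List Bool} (hs : s.get r = x :: l) :
    (s.set r l).tot + 1 = s.tot := by
  have := s.tot_set r l
  rw [hs] at this
  simp at this
  omega

/-- Simulation of four-stack programs. -/
theorem rch_of_exec (hw : 1 < w) {p : Prog} {s s' : St} {n : ℕ} (h : Exec p s s' n) :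
    ∀ (o t : ℕ), At L o (rcode p o) → s.tot + n < w →
      ∃ t', Rch L w ρ (5 * n) ⟨o, false, put k s t S U X Y, M, D⟩
        ⟨o + len p, false, put k s' t' S U X Y, M, D⟩ := by
  induction h with
  | mono _ hn ih =>
    intro o t hA hb
    obtain ⟨t', h⟩ := ih o t hA (by omega)
    exact ⟨t', h.mono (by omega)⟩
  | skip s => exact fun o t _ _ => ⟨t, (Rch.refl _).mono (by omega)⟩
  | push r x s =>
    intro o t hA hb
    have h1 := num_lt (x :: s.get r)
    have h2 := length_get_le s r
    have h3 : 2 ^ ((x :: s.get r).length + 1) ≤ 2 ^ w :=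
      Nat.pow_le_pow_right (by omega) (by simp only [List.length_cons]; omega)
    have e : num (s.get r) + num (s.get r) = num (false :: s.get r) := by simp [num]; omega
    refine ⟨t, ?_⟩
    cases x
    · refine ((r_add hA.1 (by simp only [put_reg]; omega)).congr ?_).mono (by omega)
      simp only [put_reg, e, wr_put, len]
    · have e' : num (false :: s.get r) + 1 = num (true :: s.get r) := by simp [num]
      have h4 : Rch L w ρ 1 ⟨o, false, put k s t S U X Y, M, D⟩
          ⟨o + 1, false, put k (s.set r (false :: s.get r)) t S U X Y, M, D⟩ :=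
        (r_add hA.1 (by simp only [put_reg]; omega)).congr (by simp only [put_reg, e, wr_put])
      refine ((h4.trans (r_add hA.2.1 (by simp only [put_reg, put2, get_set]; omega))).congr
        ?_).mono (by omega)
      simp only [put_reg, put2, get_set, e', wr_put, set_set, len]
  | seq h1 _ ih1 ih2 =>
    intro o t hA hb
    rw [rcode, at_append, length_rcode] at hA
    have := h1.tot_le
    obtain ⟨t1, r1⟩ := ih1 o t hA.1 (by omega)
    obtain ⟨t2, r2⟩ := ih2 _ t1 hA.2 (by omega)
    exact ⟨t2, ((r1.trans r2).congr (by simp only [len, Nat.add_assoc])).mono (by omega)⟩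
  | caseE hs _ ih =>
    intro o t hA hb
    simp only [rcode, at_cons, at_append, length_rcode, length_popI] at hA
    obtain ⟨a0, -, -, -, -, -, a6⟩ := hA
    obtain ⟨t1, r1⟩ := ih _ t a6 (by omega)
    exact ⟨t1, (((r_nil a0 hs).trans r1).congr (by simp only [len, ← Nat.add_assoc])).mono
      (by omega)⟩
  | caseF hs _ ih =>
    intro o t hA hb
    simp only [rcode, at_cons, at_append, length_rcode, length_popI] at hA
    obtain ⟨a0, a1, -, -, a4, a5, -⟩ := hA
    have := tot_pop hs
    obtain ⟨t1, r1⟩ := ih _ _ a4 (by omega)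
    exact ⟨t1, ((((r_pop' hw a0 a1 hs).trans r1).trans (r_jump a5)).congr
      (by simp only [len, Nat.add_assoc])).mono (by omega)⟩
  | caseT hs _ ih =>
    intro o t hA hb
    simp only [rcode, at_cons, at_append, length_rcode, length_popI] at hA
    obtain ⟨a0, a1, a2, a3, -⟩ := hA
    have := tot_pop hs
    obtain ⟨t1, r1⟩ := ih _ _ a2 (by omega)
    exact ⟨t1, ((((r_pop' hw a0 a1 hs).trans r1).trans (r_jump a3)).congr
      (by simp only [len, Nat.add_assoc])).mono (by omega)⟩
  | loopE hs =>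
    intro o t hA hb
    exact ⟨t, ((r_nil hA.1 hs).congr (by simp only [len, Nat.add_assoc])).mono (by omega)⟩
  | loopF hs h1 _ ih1 ih2 =>
    intro o t hA hb
    have hA' := hA
    simp only [rcode, at_cons, at_append, length_rcode, length_popI] at hA'
    obtain ⟨a0, a1, -, -, a4, a5, -⟩ := hA'
    have := tot_pop hs
    have := h1.tot_le
    obtain ⟨t1, r1⟩ := ih1 _ _ a4 (by omega)
    obtain ⟨t2, r2⟩ := ih2 o t1 hA (by omega)
    exact ⟨t2, ((((r_pop' hw a0 a1 hs).trans r1).trans (r_jump a5)).trans r2).mono (by omega)⟩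
  | loopT hs h1 _ ih1 ih2 =>
    intro o t hA hb
    have hA' := hA
    simp only [rcode, at_cons, at_append, length_rcode, length_popI] at hA'
    obtain ⟨a0, a1, a2, a3, -⟩ := hA'
    have := tot_pop hs
    have := h1.tot_le
    obtain ⟨t1, r1⟩ := ih1 _ _ a2 (by omega)
    obtain ⟨t2, r2⟩ := ih2 o t1 hA (by omega)
    exact ⟨t2, ((((r_pop' hw a0 a1 hs).trans r1).trans (r_jump a3)).trans r2).mono (by omega)⟩
  | whF hs =>
    intro o t hA hb
    rw [rcode, at_append] at hA
    exact ⟨_, ((r_pop hw hA.1 hs).congr (by simp only [len, Nat.add_assoc]; rfl)).mono (by omega)⟩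
  | whT hs h1 _ ih1 ih2 =>
    intro o t hA hb
    have hA' := hA
    simp only [rcode, at_cons, at_append, length_rcode, length_popI] at hA'
    obtain ⟨a1, a2, a3, -⟩ := hA'
    have := tot_pop hs
    have := h1.tot_le
    obtain ⟨t1, r1⟩ := ih1 _ _ a2 (by omega)
    obtain ⟨t2, r2⟩ := ih2 o t1 hA (by omega)
    exact ⟨t2, ((((r_pop hw a1 hs).trans r1).trans (r_jump a3)).trans r2).mono (by omega)⟩

end run

end Crest.Agent.R309.RamAux
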