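import Crest.Agent.R309.Digits

/-!
# R309: solutions and points of the fine box
-/

set_option linter.dupNamespace false

namespace Crest.Agent.R309

open Finset Crest.Agent.Lib.PT

namespace Dat

variable {D : Dat}

theorem ext_apply {n : ℕ} (σ : Fin n → ℤ) (u : Fin n) : ext σ u = σ u := by simp [ext]

theorem ext_lt {n : ℕ} (σ : Fin n → ℤ) {u : ℕ} (h : u < n) : ext σ u = σ ⟨u, h⟩ := by simp [ext, h]

/-- By `WidthSpec`, `|y u - x0 u| ≤ 2 nc wd u ≤ G^2 wd u`; also `0 ≤ y u ≤ b u`. -/
theorem Good.sig_range (h : D.Good) {y : List ℕ} (hy : D.I.IsSol y) (u : Fin D.I.nc) :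
    D.lo u ≤ D.sigOf y u ∧ D.sigOf y u ≤ D.hi u := by
  have hG := h.G_ge
  have hnc := h.nc_le
  have hw := (h.wid u u.2).2.2 y hy
  have hb := hy.2.1 u u.2
  have hx := h.x0_le u.2
  have hw2 : 2 * D.I.nc * D.wd u ≤ D.G ^ 2 * D.wd u :=
    Nat.mul_le_mul_right _ (by nlinarith)
  have hw3 : |(y.getD u 0 : ℤ) - D.x0 u| ≤ ((D.G ^ 2 * D.wd u : ℕ) : ℤ) := by
    refine le_trans ?_ (Int.ofNat_le.2 hw2)
    push_cast
    exact hw
  rw [abs_le] at hw3
  unfold lo hi sigOf
  generalize D.G ^ 2 * D.wd u = K at hw3 ⊢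
  split_ifs <;> omega

theorem Good.sig_mem (h : D.Good) {y : List ℕ} (hy : D.I.IsSol y) :
    D.sigOf y ∈ box D.loF D.hiF := by
  refine mem_box.2 fun u => ⟨(h.sig_range hy u).1, ?_⟩
  have h1 := (h.sig_range hy u).2
  have h2 := hi_lt (D := D) u
  unfold hiF
  omega

private theorem rc_net_div (h : D.Good) (τ : ℕ → ℤ) (r : ℕ) :
    D.net τ r = - ∑ v ∈ range D.I.nv, (if D.A v r then D.I.div τ v else 0) := by
  rw [Inst.sum_div h.fits.wf τ (fun v => D.A v r), ← Finset.sum_neg_distrib]
  exact Finset.sum_congr rfl fun u _ => by ring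

private theorem rc_split_root (h : D.Good) {σ τ : ℕ → ℤ}
    (hf : ∀ u < D.I.nc, ¬ D.tree u → σ u = τ u) {r : ℕ} (hr : D.par r = none) :
    D.net τ r = D.net σ r := by
  refine Finset.sum_congr rfl fun u hu => ?_
  by_cases ht : D.tree u
  · have := h.cross_tree (r := r) ht (by simp [hr])
    by_cases hp : D.A (D.I.p u) r
    · simp [hp, this.1 hp]
    · simp [hp, mt this.2 hp]
  · rw [hf u (mem_range.1 hu) ht]

private theorem rc_split_par (h : D.Good) {σ τ : ℕ → ℤ}
    (hf : ∀ u < D.I.nc, ¬ D.tree u → σ u = τ u) (ht : ∀ u < D.I.nc, D.tree u → σ u = 0)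
    {r e : ℕ} (he : D.par r = some e) : D.net τ r = D.net σ r - D.sg r e * τ e := by
  obtain ⟨-, hlt, -, hte⟩ := h.par_lt he
  have key : D.net τ r - D.net σ r = ∑ u ∈ range D.I.nc, (if u = e then - (D.sg r e * τ e) else 0) := by
    unfold net
    rw [← Finset.sum_sub_distrib]
    refine Finset.sum_congr rfl fun u hu => ?_
    by_cases hue : u = e
    · subst hue
      rw [ht u hlt hte]
      unfold sg
      rcases h.cross_par he with ⟨h1, h2, h3⟩ | ⟨h1, h2, h3⟩
      · rw [if_neg h3, if_pos h2, if_pos h1]; simp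
      · rw [if_pos h2, if_neg h3, if_neg h1]; simp
    · rw [if_neg hue]
      by_cases htu : D.tree u
      · have := h.cross_tree (r := r) htu (by rw [he]; simpa using Ne.symm hue)
        by_cases hp : D.A (D.I.p u) r
        · simp [hp, this.1 hp]
        · simp [hp, mt this.2 hp]
      · rw [hf u (mem_range.1 hu) htu, sub_self]
  rw [Finset.sum_ite_eq' (range D.I.nc) e, if_pos (mem_range.2 hlt)] at key
  linarith

private theorem rc_net_sol (h : D.Good) {y : List ℕ} (hy : D.I.IsSol y) (r : ℕ) :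
    D.net (fun u => (y.getD u 0 : ℤ) - D.x0 u) r = 0 := by
  rw [rc_net_div h, neg_eq_zero]
  refine Finset.sum_eq_zero fun v hv => ?_
  have h1 := hy.2.2 v (mem_range.1 hv)
  have h2 := h.sol.2.2 v (mem_range.1 hv)
  have h3 := D.I.div_sub (fun u => (y.getD u 0 : ℤ)) (fun u => (D.X0.getD u 0 : ℤ)) v
  rw [h1, h2, sub_self] at h3
  split_ifs
  · exact h3
  · rfl

private theorem rc_sig_free (y : List ℕ) :
    ∀ u < D.I.nc, ¬ D.tree u → ext (D.sigOf y) u = (y.getD u 0 : ℤ) - D.x0 u := fun u hu ht => by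
  rw [ext_lt _ hu]
  simp only [sigOf, if_neg ht]

private theorem rc_sig_tree (y : List ℕ) :
    ∀ u < D.I.nc, D.tree u → ext (D.sigOf y) u = 0 := fun u hu ht => by
  rw [ext_lt _ hu]
  simp only [sigOf, if_pos ht]

private theorem rc_sg_sq (r e : ℕ) : D.sg r e * D.sg r e = 1 := by
  unfold sg; split_ifs <;> simp

private theorem rc_cand_getD (σ : ℕ → ℤ) {u : ℕ} (hu : u < D.I.nc) :
    (D.cand σ).getD u 0 = (D.x0 u + D.dev σ u).toNat := by
  simp [cand, List.getD_eq_getElem?_getD, hu]

/-- The deviation `y - x0` has divergence `0`, so its net flow into the descendants of `r` is `0`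
(`Inst.sum_div`); no tree cell crosses the set of descendants of a root (`cross_tree`). -/
theorem Good.net_sig_root (h : D.Good) {y : List ℕ} (hy : D.I.IsSol y) {r : ℕ}
    (hr : D.par r = none) : D.net (ext (D.sigOf y)) r = 0 := by
  rw [← rc_split_root h (rc_sig_free y) hr]
  exact rc_net_sol h hy r

/-- The only tree cell crossing the set of descendants of `r` is its parent cell. -/
theorem Good.tv_sig (h : D.Good) {y : List ℕ} (hy : D.I.IsSol y) {r e : ℕ}
    (he : D.par r = some e) : D.tv (ext (D.sigOf y)) r e = (y.getD e 0 : ℤ) - D.x0 e := by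
  have h1 := rc_split_par h (rc_sig_free y) (rc_sig_tree y) he
  rw [rc_net_sol h hy r] at h1
  have h2 : D.net (ext (D.sigOf y)) r = D.sg r e * ((y.getD e 0 : ℤ) - D.x0 e) := by linarith
  rw [tv_eq, h2, ← mul_assoc, rc_sg_sq, one_mul]

theorem Good.dev_par (h : D.Good) (σ : ℕ → ℤ) {r e : ℕ} (he : D.par r = some e) :
    D.dev σ e = D.tv σ r e := by
  obtain ⟨hr, -, -, hte⟩ := h.par_lt he
  unfold dev
  rw [if_pos hte, Finset.sum_eq_single r, if_pos he]
  · intro r' _ hne
    exact if_neg fun he' => hne (h.par_inj he' he)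
  · intro hr'
    exact absurd (mem_range.2 hr) hr'

/-- A point that agrees with `sigOf y` is accepted and gives `y`. -/
theorem Good.cand_sig (h : D.Good) {y : List ℕ} (hy : D.I.IsSol y) {σ : ℕ → ℤ}
    (hσ : ∀ u : Fin D.I.nc, σ u = D.sigOf y u) : D.ok σ ∧ D.cand σ = y := by
  have hσ' : ∀ u < D.I.nc, σ u = ext (D.sigOf y) u := fun u hu => by
    rw [ext_lt _ hu]; exact hσ ⟨u, hu⟩
  have hdev : ∀ u < D.I.nc, D.dev σ u = (y.getD u 0 : ℤ) - D.x0 u := fun u hu => by
    by_cases ht : D.tree u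
    · obtain ⟨r, -, hr⟩ := h.tree_iff.1 ht
      rw [h.dev_par σ hr, tv_eq, net_congr hσ' r, ← tv_eq, h.tv_sig hy hr]
    · unfold dev
      rw [if_neg ht, hσ' u hu, rc_sig_free y u hu ht]
  have hc : D.cand σ = y := by
    apply List.ext_getElem (by simp [cand, hy.1])
    intro i h1 h2
    have hi : i < D.I.nc := hy.1 ▸ h2
    have h3 := rc_cand_getD σ hi
    rw [hdev i hi, List.getD_eq_getElem _ _ h1, List.getD_eq_getElem _ _ h2] at h3
    rw [h3]
    omega
  refine ⟨⟨fun u hu => ?_, hc ▸ hy⟩, hc⟩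
  rw [hdev u hu]
  omega

/-- Conversely an accepted point is recovered from its candidate. -/
theorem sig_cand {σ : ℕ → ℤ} (ht : ∀ u < D.I.nc, D.tree u → σ u = 0) (hok : D.ok σ)
    (u : Fin D.I.nc) : D.sigOf (D.cand σ) u = σ u := by
  unfold sigOf
  split_ifs with htu
  · exact (ht u u.2 htu).symm
  · have h1 := hok.1 u u.2
    rw [rc_cand_getD σ u.2]
    have h2 : D.dev σ u = σ u := by unfold dev; rw [if_neg htu]
    rw [h2] at h1 ⊢
    omega

private theorem rc_div_zero (h : D.Good) (f : ℕ → ℤ)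
    (hf : ∀ r < D.I.nv, ∑ v ∈ range D.I.nv, (if D.A v r then f v else 0) = 0) :
    ∀ r < D.I.nv, f r = 0 := by
  have key : ∀ n, ∀ r < D.I.nv, ((range D.I.nv).filter fun v => D.A v r).card = n → f r = 0 := by
    intro n
    induction n using Nat.strong_induction_on with
    | _ n ih =>
      intro r hr hn
      have h1 := hf r hr
      rw [Finset.sum_eq_single r, if_pos (show D.A r r from h.tr.refl r hr)] at h1
      · exact h1
      · intro v hv hne
        have hv' := mem_range.1 hv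
        split_ifs with hA
        · refine ih _ ?_ v hv' rfl
          rw [← hn]
          refine Finset.card_lt_card ⟨fun x hx => ?_, fun hsub => ?_⟩
          · rw [mem_filter] at hx ⊢
            exact ⟨hx.1, h.tr.trans x (mem_range.1 hx.1) v hx.2 r hA⟩
          · have h2 : r ∈ (range D.I.nv).filter fun x => D.A x v :=
              hsub (mem_filter.2 ⟨mem_range.2 hr, h.tr.refl r hr⟩)
            exact hne (h.tr.antisymm v hv' r hA (mem_filter.1 h2).2).symm
        · rfl
      · intro hr'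
        exact absurd (mem_range.2 hr) hr'
  exact fun r hr => key _ r hr rfl

/-- Reconstruction.  Let `τ = dev σ`.  For every vertex `r < nv` the net flow of `τ` into the descendants of `r`
vanishes (`cross_par`, `cross_tree`, `dev_par`), i.e. `∑_{v < nv, A v r} div τ v = 0` (`Inst.sum_div`).  If some
`div τ v ≠ 0`, take such a `v` with the largest number of ancestors: every other `v'` with `A v' v` has strictly
more ancestors (`trans`, `antisymm`, `refl`), so the sum for `r = v` is `div τ v`, a contradiction.  Hence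
`x0 + τ` has the divergence `d`. -/
theorem Good.ok_of (h : D.Good) {σ : ℕ → ℤ} (ht : ∀ u < D.I.nc, D.tree u → σ u = 0)
    (h1 : ∀ r < D.I.nv, D.par r = none → D.net σ r = 0)
    (h2 : ∀ r e, D.par r = some e → - (D.x0 e : ℤ) ≤ D.tv σ r e ∧ D.tv σ r e ≤ D.I.b e - D.x0 e)
    (h3 : ∀ u < D.I.nc, D.lo u ≤ σ u ∧ σ u ≤ D.hi u) : D.ok σ := by
  have hfree : ∀ u < D.I.nc, ¬ D.tree u → σ u = D.dev σ u := fun u _ htu => by
    unfold dev; rw [if_neg htu]
  have hnet : ∀ r < D.I.nv, D.net (D.dev σ) r = 0 := fun r hr => by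
    rcases hp : D.par r with _ | e
    · rw [rc_split_root h hfree hp, h1 r hr hp]
    · rw [rc_split_par h hfree ht hp, h.dev_par σ hp, tv_eq, ← mul_assoc, rc_sg_sq, one_mul, sub_self]
  have hdiv : ∀ v < D.I.nv, D.I.div (D.dev σ) v = 0 :=
    rc_div_zero h _ fun r hr => by
      have := hnet r hr
      rwa [rc_net_div h, neg_eq_zero] at this
  have hbd : ∀ u < D.I.nc, - (D.x0 u : ℤ) ≤ D.dev σ u ∧ D.dev σ u ≤ D.I.b u - D.x0 u := fun u hu => by
    by_cases htu : D.tree u
    · obtain ⟨r, -, hr⟩ := h.tree_iff.1 htu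
      rw [h.dev_par σ hr]
      exact h2 r u hr
    · rw [← hfree u hu htu]
      exact ⟨(neg_x0_le_lo u).trans (h3 u hu).1, (h3 u hu).2.trans (h.hi_le hu)⟩
  refine ⟨fun u hu => by have := (hbd u hu).1; omega, by simp [cand], fun u hu => ?_, fun v hv => ?_⟩
  · rw [rc_cand_getD σ hu]
    have := hbd u hu
    omega
  · have e1 : D.I.div (fun u => ((D.cand σ).getD u 0 : ℤ)) v =
        D.I.div (fun u => (D.X0.getD u 0 : ℤ) + D.dev σ u) v := by
      refine Inst.div_congr (fun u hu => ?_) v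
      have := (hbd u hu).1
      rw [rc_cand_getD σ hu]
      change _ = (D.x0 u : ℤ) + D.dev σ u
      omega
    rw [e1, D.I.div_add, h.sol.2.2 v hv, hdiv v hv, add_zero]

/-- The block of a solution has energy `0`: the corner differs from `sigOf y` by less than `s u` on large cells
only, so the net flows at roots vanish (`net_root`), and the deviations of tree cells are within
`wd e / G^8 < Wp e` of `[-x0 e, b e - x0 e]` (`net_tree` with `k = 1`). -/
theorem Good.En_sig (h : D.Good) (φ : List ℤ) {y : List ℕ} (hy : D.I.IsSol y) :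
    D.En φ (D.cor (D.blk (D.sigOf y))) = 0 := by
  have hm := h.sig_mem hy
  have hx := h.blk_mem hm
  have hc := (h.blk_eq_iff hm hx).1 rfl
  set x := D.blk (D.sigOf y) with hxdef
  have hd : ∀ u < D.I.nc, D.cor x u ≠ ext (D.sigOf y) u →
      D.G ^ 9 ≤ D.wd u ∧ |D.cor x u - ext (D.sigOf y) u| ≤ (1 : ℕ) * D.s u := fun u hu hne => by
    rw [ext_lt _ hu] at hne ⊢
    obtain ⟨h1, h2⟩ := hc ⟨u, hu⟩
    simp only at h1 h2
    refine ⟨(large_of_s fun hs => hne ?_).2, ?_⟩
    · rw [hs] at h2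
      push_cast at h2
      omega
    · rw [abs_le]
      push_cast
      omega
  refine Finset.sum_eq_zero fun r _ => ?_
  unfold pen
  rcases hp : D.par r with _ | e
  · have h1 : D.net (D.cor x) r = 0 := by
      rw [h.net_root (fun u hu hne => (hd u hu hne).1) hp, h.net_sig_root hy hp]
    simp [h1]
  · have h1 := h.net_tree hd hp
    obtain ⟨h2, h3⟩ := h.Wp_eq hp
    obtain ⟨-, he, -, -⟩ := h.par_lt hp
    have hG := h.G_ge
    have h4 := h.tv_sig hy hp
    have h5 : |D.tv (D.cor x) r e - D.tv (ext (D.sigOf y)) r e| =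
        |D.net (D.cor x) r - D.net (ext (D.sigOf y)) r| := by
      unfold tv
      split_ifs
      · rfl
      · rw [← abs_neg]; congr 1; ring
    rw [← h5, h4, ← h2] at h1
    have hW : 0 < D.Wp e := lt_of_lt_of_le (by positivity) h3
    have h6 : |D.tv (D.cor x) r e - ((y.getD e 0 : ℤ) - D.x0 e)| < D.Wp e := by
      by_contra hcon
      push Not at hcon
      have hG' : (1024 : ℤ) ≤ D.G := by exact_mod_cast hG
      have hW' : (0 : ℤ) < D.Wp e := by exact_mod_cast hW
      have h7 : (0 : ℤ) < (D.G : ℤ) ^ 7 := by positivity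
      have h8 : (D.Wp e : ℤ) * (D.G : ℤ) ^ 8 ≤ (D.Wp e : ℤ) * (D.G : ℤ) ^ 7 := by
        refine le_trans (mul_le_mul_of_nonneg_right hcon (by positivity)) (h1.trans_eq ?_)
        push_cast
        ring
      have h9 : (D.G : ℤ) ^ 8 = (D.G : ℤ) ^ 7 * D.G := by ring
      rw [h9] at h8
      have h10 := mul_pos hW' h7
      nlinarith
    have hb := hy.2.1 e he
    rw [abs_lt] at h6
    simp only [Option.elim, penT]
    rw [Nat.div_eq_of_lt (by omega), Nat.div_eq_of_lt (by omega)]
    simp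

theorem Good.one_le_Zb (h : D.Good) (φ : List ℤ) : 1 ≤ D.Zb φ := by
  have hx := h.blk_mem (h.sig_mem h.sol)
  have h1 : D.wb φ (D.blk (D.sigOf D.X0)) = 1 := by
    unfold wb
    rw [h.En_sig φ h.sol, zpow_zero]
  rw [← h1]
  exact Finset.single_le_sum (fun x _ => (h.wb_pos φ x).le) hx

end Dat

end Crest.Agent.R309
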