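import Crest.Agent.R309.Iface
import Crest.Agent.R309.Tape2

/-!
# R309: the almost uniform sampler
-/

set_option linter.dupNamespace false

namespace Crest.Agent.R309

open Finset Crest.Agent.Lib.PT

private theorem samp_none {β : Type} [DecidableEq β] (S : Finset β) (ρ : ℕ) (g : List Bool → Option β)
    (hg : ∀ ω y, g ω = some y → y ∈ S) :
    Pr ρ (fun ω => g ω = none) = 1 - ∑ y ∈ S, Pr ρ (fun ω => g ω = some y) := by
  have : ∑ y ∈ S, Pr ρ (fun ω => g ω = some y) = Pr ρ (fun ω => ¬ g ω = none) := by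
    simp only [Pr]
    rw [← Ex_sum]
    refine Ex_congr fun ω _ => ?_
    cases h : g ω with
    | none => simp [ind]
    | some z =>
      rw [Finset.sum_eq_single z]
      · simp [ind]
      · intro y _ hy; simp [ind, hy.symm]
      · intro hz; exact absurd (hg ω z h) hz
  rw [this, Pr_not]; ring

private theorem samp_getD {β : Type} (n : ℕ) (o : List Bool → Option β) (x0 y : β) :
    Pr n (fun l => (o l).getD x0 = y) =
      Pr n (fun l => o l = some y) + ind (x0 = y) * Pr n (fun l => o l = none) := by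
  simp only [Pr]
  rw [← Ex_mul_left, ← Ex_add]
  refine Ex_congr fun l _ => ?_
  cases o l with
  | none => simp [ind]
  | some z => by_cases h : z = y <;> simp [ind, h]

private theorem samp_tv {β : Type} [DecidableEq β] (S : Finset β) (ρ N : ℕ)
    (g : List Bool → Option β) (x0 : β) (h0 : x0 ∈ S) (hg : ∀ ω y, g ω = some y → y ∈ S)
    (c η : ℝ) (hη : 0 ≤ η) (hη' : η ≤ 1 / 2)
    (hr : ∀ y ∈ S, |Pr ρ (fun ω => g ω = some y) - c| ≤ η * c) (hc : 1 / 4 ≤ S.card * c) :
    ∑ y ∈ S, |Pr (N * ρ) (fun l => ((chunks ρ N l).findSome? g).getD x0 = y) - 1 / S.card| ≤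
      4 * η + 2 * (7 / 8) ^ N := by
  set r : β → ℝ := fun y => Pr ρ (fun ω => g ω = some y) with hrdef
  set q : ℝ := Pr ρ (fun ω => g ω = none) with hq
  set s : ℝ := ∑ y ∈ S, r y with hs
  set T : ℝ := (S.card : ℝ) with hT
  have hT0 : 0 < T := by
    rw [hT]; exact_mod_cast Finset.card_pos.2 ⟨x0, h0⟩
  have hqs : q = 1 - s := samp_none S ρ g hg
  have hq0 : 0 ≤ q := Pr_nonneg _ _
  have hsc : |s - T * c| ≤ η * (T * c) := by
    have e1 : s - T * c = ∑ y ∈ S, (r y - c) := by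
      rw [Finset.sum_sub_distrib, Finset.sum_const, nsmul_eq_mul]
    rw [e1]
    refine (Finset.abs_sum_le_sum_abs _ _).trans ((Finset.sum_le_sum hr).trans ?_)
    rw [Finset.sum_const, nsmul_eq_mul]; exact le_of_eq (by ring)
  have hs2 : T * c / 2 ≤ s := by
    have := (abs_le.1 hsc).1
    nlinarith
  have hs0 : 0 < s := by linarith
  have hq78 : q ≤ 7 / 8 := by linarith
  have hA : s * ∑ j ∈ range N, q ^ j = 1 - q ^ N := by
    have := mul_neg_geom_sum q N
    rwa [show 1 - q = s by linarith] at this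
  have hP : ∀ y, Pr (N * ρ) (fun l => ((chunks ρ N l).findSome? g).getD x0 = y) =
      r y / s - r y / s * q ^ N + ind (x0 = y) * q ^ N := fun y => by
    rw [samp_getD, first_some, first_none, ← hq]
    have : ∑ j ∈ range N, q ^ j = (1 - q ^ N) / s := by
      rw [eq_div_iff hs0.ne', mul_comm, hA]
    rw [this]; simp only [hrdef]; field_simp
  have hqN : 0 ≤ q ^ N := pow_nonneg hq0 N
  have hb : ∀ y ∈ S, |Pr (N * ρ) (fun l => ((chunks ρ N l).findSome? g).getD x0 = y) - 1 / T| ≤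
      4 * η / T + r y / s * q ^ N + ind (x0 = y) * q ^ N := fun y hy => by
    have h1 : |r y / s - 1 / T| ≤ 4 * η / T := by
      have e1 : r y / s - 1 / T = (T * (r y - c) - (s - T * c)) / (s * T) := by
        field_simp; ring
      rw [e1, abs_div, abs_of_pos (mul_pos hs0 hT0), div_le_div_iff₀ (mul_pos hs0 hT0) hT0]
      have h2 : |T * (r y - c) - (s - T * c)| ≤ 2 * η * (T * c) := by
        refine (abs_sub _ _).trans ?_
        rw [abs_mul, abs_of_pos hT0]
        have := mul_le_mul_of_nonneg_left (hr y hy) hT0.le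
        linarith
      have h3 : 2 * η * (T * c) ≤ 4 * η * s := by nlinarith
      calc _ ≤ 4 * η * s * T := mul_le_mul_of_nonneg_right (h2.trans h3) hT0.le
        _ = _ := by ring
    have h4 : 0 ≤ r y / s * q ^ N := mul_nonneg (div_nonneg (Pr_nonneg _ _) hs0.le) hqN
    have h5 : 0 ≤ ind (x0 = y) * q ^ N := mul_nonneg (ind_nonneg _) hqN
    rw [hP, abs_le]
    have := abs_le.1 h1
    constructor <;> linarith [this.1, this.2]
  refine (Finset.sum_le_sum hb).trans ?_
  have e1 : ∑ y ∈ S, ind (x0 = y) = 1 := by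
    rw [Finset.sum_eq_single x0]
    · simp [ind]
    · intro y _ hy; simp [ind, hy.symm]
    · intro h; exact absurd h0 h
  rw [Finset.sum_add_distrib, Finset.sum_add_distrib, Finset.sum_const, nsmul_eq_mul,
    ← Finset.sum_mul, ← Finset.sum_mul, ← Finset.sum_div, ← hs, e1, div_self hs0.ne', ← hT,
    mul_div_cancel₀ _ hT0.ne']
  have := pow_le_pow_left₀ hq0 hq78 N
  linarith

/-- One round. -/
private def sampRnd (C : Core) (G : Un) (I : Inst) (X0 : List ℕ) (k : ℕ) (ω : List Bool) :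
    Option (List ℕ) :=
  shotF (C.st (C.mk' (G, I, X0, ω.take (G.n ^ C.e)))) (C.out (C.mk' (G, I, X0, ω.take (G.n ^ C.e))))
    (G.n ^ C.e) (G.n ^ C.e * (k + 3 + 1)) (ω.drop (G.n ^ C.e))

/-- Bits used by a round. -/
private def sampRho (C : Core) (G k : ℕ) : ℕ := G ^ C.e + (G ^ C.e * (k + 3 + 1) + 1) * G ^ C.e

private def sampF (C : Core) (a : Un × Inst × List ℕ × Un × List Bool) : List ℕ :=
  ((chunks (sampRho C a.1.n a.2.2.2.1.n) (8 * (a.2.2.2.1.n + 2)) a.2.2.2.2).findSome?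
    (sampRnd C a.1 a.2.1 a.2.2.1 a.2.2.2.1.n)).getD a.2.2.1

private theorem sampRnd_pt (C : Core) :
    PT fun p : (Un × Inst × List ℕ × Un × List Bool) × List Bool =>
      sampRnd C p.1.1 p.1.2.1 p.1.2.2.1 p.1.2.2.2.1.n p.2 := by
  have hm := C.mk_pt
  have hc : PT fun p : (Un × Inst × List ℕ × Un × List Bool) × List Bool =>
      C.mk' (p.1.1, p.1.2.1, p.1.2.2.1, p.2.take (p.1.1.n ^ C.e)) := by fun_prop
  refine (C.shot_pt hc (t := fun p => p.1.1.n ^ C.e * (p.1.2.2.2.1.n + 3 + 1))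
    (l := fun p => p.2.drop (p.1.1.n ^ C.e)) (by fun_prop) (by fun_prop) (by fun_prop)).of_eq ?_
  intro p
  simp only [sampRnd, C.gs_mk]

private theorem sampF_pt (C : Core) : PT (sampF C) := by
  have h := sampRnd_pt C
  unfold sampF sampRho
  refine PT.option_getD (PT.findSome? (by fun_prop) h) (by fun_prop)

private theorem sampRnd_sol (C : Core) {G : Un} {I : Inst} {X0 : List ℕ} {k : ℕ} {ω : List Bool}
    {y : List ℕ} (h : sampRnd C G I X0 k ω = some y) : I.IsSol y :=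
  C.out_sol _ _ _ _ _ _ _ h

private theorem sampRnd_unif (C : Core) {G : Un} {I : Inst} {X0 : List ℕ} (hG : Fits G.n I)
    (h0 : I.IsSol X0) (k : ℕ) {y : List ℕ} (hy : I.IsSol y) :
    |Pr (sampRho C G.n k) (fun ω => sampRnd C G I X0 k ω = some y) -
      Ex (G.n ^ C.e) (fun l => C.cst (C.mk' (G, I, X0, l)))| ≤
      (1 / 2) ^ (k + 3) * Ex (G.n ^ C.e) (fun l => C.cst (C.mk' (G, I, X0, l))) := by
  have e1 : Pr (sampRho C G.n k) (fun ω => sampRnd C G I X0 k ω = some y) =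
      Ex (G.n ^ C.e) fun l => Pr ((G.n ^ C.e * (k + 3 + 1) + 1) * G.n ^ C.e) fun l' =>
        shotF (C.st (C.mk' (G, I, X0, l))) (C.out (C.mk' (G, I, X0, l))) (G.n ^ C.e)
          (G.n ^ C.e * (k + 3 + 1)) l' = some y := by
    have := Ex_take_drop (k := G.n ^ C.e) (n := sampRho C G.n k) (Nat.le_add_right _ _)
      fun l l' => ind (shotF (C.st (C.mk' (G, I, X0, l))) (C.out (C.mk' (G, I, X0, l))) (G.n ^ C.e)
          (G.n ^ C.e * (k + 3 + 1)) l' = some y)
    rw [sampRho, Nat.add_sub_cancel_left] at this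
    exact this
  rw [e1, ← Ex_sub, ← Ex_mul_left]
  exact (abs_Ex_le _ _).trans (Ex_mono fun l hl => C.unif G I X0 hG h0 l hl _ _ le_rfl y hy)

private theorem samp_len (C : Core) {G : ℕ} (hG : 1024 ≤ G) (k : ℕ) :
    8 * (k + 2) * sampRho C G k ≤ (G * (k + 1)) ^ (2 * C.e + 2) := by
  have hQ : 1 ≤ G ^ C.e := Nat.one_le_pow _ _ (by omega)
  set Q := G ^ C.e with hQd
  have h1 : sampRho C G k ≤ Q * Q * (6 * (k + 1)) := by
    rw [sampRho, ← hQd]
    have : Q ≤ Q * Q := Nat.le_mul_self Q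
    nlinarith [Nat.zero_le (Q * Q * k)]
  have h2 : 8 * (k + 2) ≤ 16 * (k + 1) := by omega
  have h3 : (k + 1) ^ 2 ≤ (k + 1) ^ (2 * C.e + 2) := Nat.pow_le_pow_right (by omega) (by omega)
  have h4 : G ^ (2 * C.e + 2) = Q * Q * (G * G) := by rw [hQd]; ring
  have h5 : 96 ≤ G * G := by nlinarith
  calc _ ≤ 16 * (k + 1) * (Q * Q * (6 * (k + 1))) := Nat.mul_le_mul h2 h1
    _ = Q * Q * 96 * (k + 1) ^ 2 := by ring
    _ ≤ Q * Q * (G * G) * (k + 1) ^ (2 * C.e + 2) := by gcongr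
    _ = _ := by rw [mul_pow, h4]

/-- With `Q = G ^ e`, `K = k + 3`, `t = Q (K+1)`, a round uses `ρ = Q + (t+1) Q` bits `ω` and returns
`g ω = shotF (st c) (out c) Q t (ω.drop Q)` for `c = mk' (G, I, X0, ω.take Q)` (`Core.shot_pt`, `gs_mk`).  The sampler
is `((chunks ρ N l).findSome? g).getD X0` with `N = 8 (k+2)`.
Let `T = card Sols`, `η = 2^{-K}`, `c̄ = Ex Q cst`, `r y = Pr ρ (g = some y) ∈ c̄ [1-η, 1+η]` (`Ex_take_drop`,
`unif`), `s = ∑_{y ∈ Sols} r y = 1 - Pr ρ (g = none) ∈ T c̄ [1-η, 1+η]` (`out_sol`), so `s ≥ 1/8` (`acc`).  By `first_some`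
and `first_none`, `Pr (smp = y) = r y (1 - (1-s)^N) / s + [y = X0] (1-s)^N`; `|r y / s - 1/T| ≤ 4 η / T`; so the
sum is at most `4 η + 2 (7/8)^N ≤ 2^{-k}` as `(7/8)^8 ≤ 1/2`.  Finally `N ρ ≤ (G (k+1))^e'` since `G ≥ 1024`
(`chunks_take`, `Pr_take` for longer tapes). -/
theorem exists_sampler (C : Core) : ∃ smp e, SamplerSpec smp e := by
  refine ⟨sampF C, 2 * C.e + 2, sampF_pt C, fun G I X0 k l h0 => ?_, fun G I X0 k hG h0 n hn => ?_⟩
  · simp only [sampF]
    cases h : (chunks (sampRho C G.n k.n) (8 * (k.n + 2)) l).findSome? (sampRnd C G I X0 k.n) with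
    | none => exact h0
    | some y =>
      obtain ⟨ω, -, hω⟩ := List.exists_of_findSome?_eq_some h
      exact sampRnd_sol C hω
  · have hG' : 1024 ≤ G.n := by
      rw [hG.pow]
      exact (Nat.pow_le_pow_right (by norm_num : 0 < 2) hG.ten)
    have hlen := (samp_len C hG' k.n).trans hn
    have e1 : ∀ y, Pr n (fun l => sampF C (G, I, X0, k, l) = y) =
        Pr (8 * (k.n + 2) * sampRho C G.n k.n) fun l => ((chunks (sampRho C G.n k.n)
          (8 * (k.n + 2)) l).findSome? (sampRnd C G I X0 k.n)).getD X0 = y := fun y => by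
      rw [← Pr_take hlen]
      simp only [sampF, chunks_take le_rfl]
    simp only [e1]
    have hacc := C.acc G I X0 hG h0
    rw [Ex_mul_left] at hacc
    refine (samp_tv I.Sols _ _ _ X0 (Inst.mem_Sols.2 h0)
      (fun ω y h => Inst.mem_Sols.2 (sampRnd_sol C h)) _ ((1 / 2) ^ (k.n + 3)) (by positivity) ?_
      (fun y hy => sampRnd_unif C hG h0 k.n (Inst.mem_Sols.1 hy)) hacc).trans ?_
    · calc ((1 : ℝ) / 2) ^ (k.n + 3) ≤ (1 / 2) ^ 1 :=
          pow_le_pow_of_le_one (by norm_num) (by norm_num) (by omega)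
        _ = _ := by norm_num
    · have h1 : ((7 : ℝ) / 8) ^ (8 * (k.n + 2)) ≤ (1 / 2) ^ (k.n + 2) := by
        rw [pow_mul]
        exact pow_le_pow_left₀ (by positivity) (by norm_num) _
      have h2 : (0 : ℝ) ≤ (1 / 2) ^ k.n := by positivity
      rw [pow_add] at h1 ⊢
      nlinarith

end Crest.Agent.R309
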