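import Crest.Agent.Lib.PT.All
import Crest.Prelude.Def_FinProb

/-!
# R309: expectations over uniformly random bit strings
-/

set_option linter.dupNamespace false

namespace Crest.Agent.R309

open Finset Crest.Agent.Lib.PT

/-- Average of `f` over the bit strings of length `n`. -/
noncomputable def Ex : ℕ → (List Bool → ℝ) → ℝ
  | 0, f => f []
  | n + 1, f => (Ex n (fun l => f (false :: l)) + Ex n (fun l => f (true :: l))) / 2

open Classical in
/-- Indicator of a proposition. -/
noncomputable def ind (p : Prop) : ℝ := if p then 1 else 0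

/-- Fraction of the bit strings of length `n` satisfying `E`. -/
noncomputable def Pr (n : ℕ) (E : List Bool → Prop) : ℝ := Ex n fun l => ind (E l)

/-- The `n` lowest bits of `i`, least significant first. -/
def bitsN (n i : ℕ) : List Bool := (List.range n).map fun j => i.testBit j

/-- Run `f` on `t` consecutive blocks of `ρ` bits. -/
def iter {σ : Type} (f : σ → List Bool → σ) (ρ t : ℕ) (s : σ) (l : List Bool) : σ :=
  (chunks ρ t l).foldl f s

theorem ind_pos {p : Prop} (h : p) : ind p = 1 := by simp [ind, h]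
theorem ind_neg {p : Prop} (h : ¬ p) : ind p = 0 := by simp [ind, h]
theorem ind_nonneg (p : Prop) : 0 ≤ ind p := by unfold ind; split_ifs <;> simp
theorem ind_le_one (p : Prop) : ind p ≤ 1 := by unfold ind; split_ifs <;> simp
theorem ind_eq (p : Prop) [Decidable p] : ind p = if p then 1 else 0 := by
  unfold ind; congr
theorem ind_mono {p q : Prop} (h : p → q) : ind p ≤ ind q := by
  by_cases hp : p
  · rw [ind_pos hp, ind_pos (h hp)]
  · rw [ind_neg hp]; exact ind_nonneg _
theorem ind_and (p q : Prop) : ind (p ∧ q) = ind p * ind q := by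
  by_cases hp : p <;> by_cases hq : q <;> simp [ind, hp, hq]
theorem ind_not (p : Prop) : ind (¬ p) = 1 - ind p := by
  by_cases hp : p <;> simp [ind, hp]

theorem Ex_mono {n : ℕ} {f g : List Bool → ℝ} (h : ∀ l, l.length = n → f l ≤ g l) :
    Ex n f ≤ Ex n g := by
  induction n generalizing f g with
  | zero => exact h [] rfl
  | succ n ih =>
    have h1 := ih (f := fun l => f (false :: l)) (g := fun l => g (false :: l))
      fun l hl => h _ (by simp [hl])
    have h2 := ih (f := fun l => f (true :: l)) (g := fun l => g (true :: l))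
      fun l hl => h _ (by simp [hl])
    simp only [Ex]; linarith

theorem Ex_congr {n : ℕ} {f g : List Bool → ℝ} (h : ∀ l, l.length = n → f l = g l) :
    Ex n f = Ex n g :=
  le_antisymm (Ex_mono fun l hl => (h l hl).le) (Ex_mono fun l hl => (h l hl).ge)

@[simp] theorem Ex_const (n : ℕ) (c : ℝ) : Ex n (fun _ => c) = c := by
  induction n with
  | zero => rfl
  | succ n ih => simp [Ex, ih]

theorem Ex_add (n : ℕ) (f g : List Bool → ℝ) : Ex n (fun l => f l + g l) = Ex n f + Ex n g := by
  induction n generalizing f g with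
  | zero => rfl
  | succ n ih => simp only [Ex, ih]; ring

theorem Ex_mul_left (n : ℕ) (c : ℝ) (f : List Bool → ℝ) : Ex n (fun l => c * f l) = c * Ex n f := by
  induction n generalizing f with
  | zero => rfl
  | succ n ih => simp only [Ex, ih]; ring

theorem Ex_mul_right (n : ℕ) (c : ℝ) (f : List Bool → ℝ) :
    Ex n (fun l => f l * c) = Ex n f * c := by
  simp only [mul_comm _ c, Ex_mul_left]

theorem Ex_neg (n : ℕ) (f : List Bool → ℝ) : Ex n (fun l => - f l) = - Ex n f := by
  simpa using Ex_mul_left n (-1) f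

theorem Ex_sub (n : ℕ) (f g : List Bool → ℝ) : Ex n (fun l => f l - g l) = Ex n f - Ex n g := by
  simp only [sub_eq_add_neg, Ex_add, Ex_neg]

theorem Ex_sum {ι : Type*} (n : ℕ) (s : Finset ι) (f : ι → List Bool → ℝ) :
    Ex n (fun l => ∑ i ∈ s, f i l) = ∑ i ∈ s, Ex n (f i) := by
  classical
  induction s using Finset.induction_on with
  | empty => simp
  | insert a s ha ih => simp only [Finset.sum_insert ha, Ex_add, ih]

theorem Ex_nonneg {n : ℕ} {f : List Bool → ℝ} (h : ∀ l, l.length = n → 0 ≤ f l) : 0 ≤ Ex n f := by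
  simpa using Ex_mono (f := fun _ => 0) h

theorem Ex_le {n : ℕ} {f : List Bool → ℝ} {c : ℝ} (h : ∀ l, l.length = n → f l ≤ c) :
    Ex n f ≤ c := by
  simpa using Ex_mono (g := fun _ => c) h

theorem le_Ex {n : ℕ} {f : List Bool → ℝ} {c : ℝ} (h : ∀ l, l.length = n → c ≤ f l) :
    c ≤ Ex n f := by
  simpa using Ex_mono (f := fun _ => c) h

theorem abs_Ex_le (n : ℕ) (f : List Bool → ℝ) : |Ex n f| ≤ Ex n fun l => |f l| :=
  abs_le.2 ⟨by rw [← Ex_neg]; exact Ex_mono fun l _ => neg_abs_le _,
    Ex_mono fun l _ => le_abs_self _⟩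

theorem Ex_append (n m : ℕ) (f : List Bool → ℝ) :
    Ex (n + m) f = Ex n fun l => Ex m fun l' => f (l ++ l') := by
  induction n generalizing f with
  | zero => simp [Ex]
  | succ n ih => rw [Nat.add_right_comm]; simp only [Ex, ih, List.cons_append]

/-- A prefix and the rest of a random string are independent random strings. -/
theorem Ex_take_drop {k n : ℕ} (h : k ≤ n) (f : List Bool → List Bool → ℝ) :
    Ex n (fun l => f (l.take k) (l.drop k)) = Ex k fun l => Ex (n - k) (f l) := by
  obtain ⟨m, rfl⟩ := Nat.exists_eq_add_of_le h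
  rw [Ex_append, Nat.add_sub_cancel_left]
  refine Ex_congr fun l hl => ?_
  simp [← hl]

theorem Ex_take {k n : ℕ} (h : k ≤ n) (f : List Bool → ℝ) :
    Ex n (fun l => f (l.take k)) = Ex k f := by
  simpa using Ex_take_drop h fun l _ => f l

theorem Ex_drop {k n : ℕ} (h : k ≤ n) (f : List Bool → ℝ) :
    Ex n (fun l => f (l.drop k)) = Ex (n - k) f := by
  simpa using Ex_take_drop h fun _ l => f l

theorem Pr_nonneg (n : ℕ) (E : List Bool → Prop) : 0 ≤ Pr n E := Ex_nonneg fun _ _ => ind_nonneg _
theorem Pr_le_one (n : ℕ) (E : List Bool → Prop) : Pr n E ≤ 1 := Ex_le fun _ _ => ind_le_one _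

theorem Pr_mono {n : ℕ} {E E' : List Bool → Prop} (h : ∀ l, l.length = n → E l → E' l) :
    Pr n E ≤ Pr n E' := Ex_mono fun l hl => ind_mono (h l hl)

theorem Pr_congr {n : ℕ} {E E' : List Bool → Prop} (h : ∀ l, l.length = n → (E l ↔ E' l)) :
    Pr n E = Pr n E' :=
  le_antisymm (Pr_mono fun l hl => (h l hl).1) (Pr_mono fun l hl => (h l hl).2)

theorem Pr_not (n : ℕ) (E : List Bool → Prop) : Pr n (fun l => ¬ E l) = 1 - Pr n E := by
  simp only [Pr, ind_not, Ex_sub, Ex_const]

theorem Pr_true {n : ℕ} {E : List Bool → Prop} (h : ∀ l, l.length = n → E l) : Pr n E = 1 := by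
  rw [Pr, Ex_congr (g := fun _ => 1) fun l hl => ind_pos (h l hl), Ex_const]

theorem Pr_false {n : ℕ} {E : List Bool → Prop} (h : ∀ l, l.length = n → ¬ E l) : Pr n E = 0 := by
  rw [Pr, Ex_congr (g := fun _ => 0) fun l hl => ind_neg (h l hl), Ex_const]

theorem Pr_or_le (n : ℕ) (E E' : List Bool → Prop) :
    Pr n (fun l => E l ∨ E' l) ≤ Pr n E + Pr n E' := by
  rw [Pr, Pr, Pr, ← Ex_add]
  refine Ex_mono fun l _ => ?_
  by_cases h : E l <;> by_cases h' : E' l <;> simp [ind, h, h']

/-- Union bound. -/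
theorem Pr_exists_le {ι : Type*} (n : ℕ) (s : Finset ι) (E : ι → List Bool → Prop) :
    Pr n (fun l => ∃ i ∈ s, E i l) ≤ ∑ i ∈ s, Pr n (E i) := by
  simp only [Pr]
  rw [← Ex_sum]
  refine Ex_mono fun l _ => ?_
  by_cases h : ∃ i ∈ s, E i l
  · obtain ⟨i, hi, h'⟩ := h
    refine (ind_le_one _).trans ?_
    rw [← ind_pos h']
    exact Finset.single_le_sum (f := fun i => ind (E i l)) (fun _ _ => ind_nonneg _) hi
  · rw [ind_neg h]; exact Finset.sum_nonneg fun _ _ => ind_nonneg _

theorem Pr_take {k n : ℕ} (h : k ≤ n) (E : List Bool → Prop) :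
    Pr n (fun l => E (l.take k)) = Pr k E := Ex_take h fun l => ind (E l)

/-- Markov's inequality. -/
theorem Pr_ge_le {n : ℕ} {f : List Bool → ℝ} (h : ∀ l, l.length = n → 0 ≤ f l) {a : ℝ}
    (ha : 0 < a) : Pr n (fun l => a ≤ f l) ≤ Ex n f / a := by
  rw [le_div_iff₀ ha, Pr, ← Ex_mul_right]
  refine Ex_mono fun l hl => ?_
  by_cases h' : a ≤ f l
  · simp [ind, h']
  · simp [ind, h', h l hl]

/-- The expectation of a function of a value in a finite set. -/
theorem Ex_comp {β : Type*} {n : ℕ} {g : List Bool → β} {s : Finset β}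
    (hs : ∀ l, l.length = n → g l ∈ s) (F : β → ℝ) :
    Ex n (fun l => F (g l)) = ∑ y ∈ s, Pr n (fun l => g l = y) * F y := by
  classical
  simp only [Pr, ← Ex_mul_right]
  rw [← Ex_sum]
  refine Ex_congr fun l hl => ?_
  rw [Finset.sum_eq_single (g l)]
  · simp [ind]
  · intro y _ hy; simp [ind, hy.symm]
  · intro h; exact absurd (hs l hl) h

@[simp] theorem length_bitsN (n i : ℕ) : (bitsN n i).length = n := by simp [bitsN]

theorem bitsN_succ (n i : ℕ) : bitsN (n + 1) i = i.bodd :: bitsN n (i / 2) := by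
  simp only [bitsN, List.range_succ_eq_map, List.map_cons, List.map_map]
  refine congrArg₂ List.cons ?_ (List.map_congr_left fun j _ => ?_)
  · rw [Nat.testBit_zero]
    have := Nat.mod_two_of_bodd i
    cases h : i.bodd <;> simp_all
  · simp [Nat.testBit_succ]

theorem sum_range_two_mul (n : ℕ) (g : ℕ → ℝ) :
    ∑ i ∈ range (2 * n), g i = ∑ i ∈ range n, (g (2 * i) + g (2 * i + 1)) := by
  induction n with
  | zero => simp
  | succ n ih => rw [Nat.mul_succ, Finset.sum_range_succ, Finset.sum_range_succ, ih,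
      Finset.sum_range_succ]; ring

theorem Ex_eq_sum (n : ℕ) (f : List Bool → ℝ) :
    Ex n f = (∑ i ∈ range (2 ^ n), f (bitsN n i)) / 2 ^ n := by
  induction n generalizing f with
  | zero => simp [Ex, bitsN]
  | succ n ih =>
    rw [Ex, ih, ih, pow_succ' 2 n, sum_range_two_mul, Finset.sum_add_distrib]
    have e1 : ∀ i, bitsN (n + 1) (2 * i) = false :: bitsN n i := fun i => by
      rw [bitsN_succ]; simp
    have e2 : ∀ i, bitsN (n + 1) (2 * i + 1) = true :: bitsN n i := fun i => by
      rw [bitsN_succ]; congr 1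
      · simp
      · congr 1; omega
    simp only [e1, e2]
    field_simp
    ring

theorem ofBits_bitsN {n i : ℕ} (h : i < 2 ^ n) : ofBits (bitsN n i) = i := by
  induction n generalizing i with
  | zero => simp [bitsN]; omega
  | succ n ih =>
    rw [bitsN_succ, ofBits_cons, ih (by rw [pow_succ] at h; omega)]
    have := Nat.bit_bodd_div2 i
    rwa [Nat.div2_val] at this

/-- The number written by a random string is uniform. -/
theorem Ex_ofBits (n : ℕ) (g : ℕ → ℝ) :
    Ex n (fun l => g (ofBits l)) = (∑ i ∈ range (2 ^ n), g i) / 2 ^ n := by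
  rw [Ex_eq_sum]
  congr 1
  exact Finset.sum_congr rfl fun i hi => by rw [ofBits_bitsN (Finset.mem_range.1 hi)]

theorem Pr_ofBits_lt {n t : ℕ} (h : t ≤ 2 ^ n) : Pr n (fun l => ofBits l < t) = t / 2 ^ n := by
  rw [Pr, Ex_ofBits n fun i => ind (i < t)]
  congr 1
  simp only [ind_eq, Finset.sum_boole]
  congr 1
  rw [← Finset.card_range t]
  congr 1
  ext i; simp; omega

theorem Pr_ofBits_eq {n t : ℕ} (h : t < 2 ^ n) : Pr n (fun l => ofBits l = t) = 1 / 2 ^ n := by
  rw [Pr, Ex_ofBits n fun i => ind (i = t)]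
  congr 1
  simp [ind_eq, h]

theorem Ex_eq_sum_fn (n : ℕ) (f : List Bool → ℝ) :
    Ex n f = (∑ ω : Fin n → Bool, f (List.ofFn ω)) / 2 ^ n := by
  induction n generalizing f with
  | zero => simp [Ex]
  | succ n ih =>
    rw [Ex, ih, ih, ← (Fin.consEquiv fun _ : Fin (n + 1) => Bool).sum_comp, Fintype.sum_prod_type]
    simp [Fin.consEquiv, List.ofFn_succ]
    field_simp
    ring

/-- Bridge to the probability of the statements. -/
theorem uniformProb_eq (n : ℕ) (E : List Bool → Prop) :
    Crest.FinProb.uniformProb {ω : Fin n → Bool | E (List.ofFn ω)} = Pr n E := by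
  classical
  rw [Pr, Ex_eq_sum_fn]
  simp [Crest.FinProb.uniformProb, ind_eq, Finset.sum_boole]

theorem chunks_succ {β : Type} (ρ t : ℕ) (l : List β) :
    chunks ρ (t + 1) l = l.take ρ :: chunks ρ t (l.drop ρ) := by
  simp only [chunks, List.range_succ_eq_map, List.map_cons, List.map_map]
  congr 1
  · simp
  · refine List.map_congr_left fun i _ => ?_
    simp [Nat.succ_mul, Nat.add_comm]

theorem chunks_succ' {β : Type} (ρ t : ℕ) (l : List β) :
    chunks ρ (t + 1) l = chunks ρ t l ++ [(l.drop (t * ρ)).take ρ] := by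
  simp [chunks, List.range_succ]

@[simp] theorem chunks_zero {β : Type} (ρ : ℕ) (l : List β) : chunks ρ 0 l = [] := rfl

@[simp] theorem length_chunks {β : Type} (ρ t : ℕ) (l : List β) : (chunks ρ t l).length = t := by
  simp [chunks]

theorem length_of_mem_chunks {β : Type} {ρ t : ℕ} {l ω : List β} (hl : t * ρ ≤ l.length)
    (h : ω ∈ chunks ρ t l) : ω.length = ρ := by
  simp only [chunks, List.mem_map, List.mem_range] at h
  obtain ⟨i, hi, rfl⟩ := h
  have := Nat.mul_le_mul_right ρ (Nat.succ_le_of_lt hi)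
  rw [Nat.succ_mul] at this
  simp; omega

theorem chunks_take {β : Type} {ρ t n : ℕ} (h : t * ρ ≤ n) (l : List β) :
    chunks ρ t (l.take n) = chunks ρ t l := by
  simp only [chunks]
  refine List.map_congr_left fun i hi => ?_
  have := Nat.mul_le_mul_right ρ (Nat.succ_le_of_lt (List.mem_range.1 hi))
  rw [Nat.succ_mul] at this
  rw [List.drop_take, List.take_take, min_eq_left (by omega)]

section iter

variable {σ : Type} (f : σ → List Bool → σ) (ρ : ℕ)

@[simp] theorem iter_zero (s : σ) (l : List Bool) : iter f ρ 0 s l = s := rfl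

theorem iter_succ (t : ℕ) (s : σ) (l : List Bool) :
    iter f ρ (t + 1) s l = iter f ρ t (f s (l.take ρ)) (l.drop ρ) := by
  simp [iter, chunks_succ]

theorem iter_succ' (t : ℕ) (s : σ) (l : List Bool) :
    iter f ρ (t + 1) s l = f (iter f ρ t s l) ((l.drop (t * ρ)).take ρ) := by
  simp [iter, chunks_succ']

theorem iter_take {t n : ℕ} (h : t * ρ ≤ n) (s : σ) (l : List Bool) :
    iter f ρ t s (l.take n) = iter f ρ t s l := by
  simp [iter, chunks_take h]

/-- Longer tapes give the same law. -/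
theorem Ex_iter {t n : ℕ} (h : t * ρ ≤ n) (s : σ) (g : σ → ℝ) :
    Ex n (fun l => g (iter f ρ t s l)) = Ex (t * ρ) fun l => g (iter f ρ t s l) := by
  rw [← Ex_take h]; simp only [iter_take f ρ le_rfl]

/-- First-step analysis. -/
theorem Ex_iter_succ (t : ℕ) (s : σ) (g : σ → ℝ) :
    Ex ((t + 1) * ρ) (fun l => g (iter f ρ (t + 1) s l)) =
      Ex ρ fun ω => Ex (t * ρ) fun l => g (iter f ρ t (f s ω) l) := by
  simp only [iter_succ]
  rw [Ex_take_drop (k := ρ) (by rw [Nat.succ_mul]; omega)
    fun ω l => g (iter f ρ t (f s ω) l), Nat.succ_mul, Nat.add_sub_cancel]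

/-- Last-step analysis. -/
theorem Ex_iter_succ' (t : ℕ) (s : σ) (g : σ → List Bool → ℝ) :
    Ex ((t + 1) * ρ) (fun l => g (iter f ρ t s l) ((l.drop (t * ρ)).take ρ)) =
      Ex (t * ρ) fun l => Ex ρ (g (iter f ρ t s l)) := by
  have := Ex_take_drop (k := t * ρ) (n := (t + 1) * ρ) (by rw [Nat.succ_mul]; omega)
    fun l l' => g (iter f ρ t s l) (l'.take ρ)
  simp only [iter_take f ρ le_rfl] at this
  rw [this, Nat.succ_mul, Nat.add_sub_cancel_left]
  exact Ex_congr fun l _ => Ex_take le_rfl _

/-- An invariant of the step is an invariant of the run. -/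
theorem iter_inv {J : σ → Prop} (h : ∀ s ω, ω.length = ρ → J s → J (f s ω)) {t : ℕ} {s : σ}
    (hs : J s) {l : List Bool} (hl : t * ρ ≤ l.length) : J (iter f ρ t s l) := by
  induction t generalizing s l with
  | zero => exact hs
  | succ t ih =>
    rw [Nat.succ_mul] at hl
    rw [iter_succ]
    exact ih (h _ _ (by simp; omega) hs) (by simp; omega)

/-- An indexed invariant that needs no assumption on the tape. -/
theorem iter_inv' {J : ℕ → σ → Prop} (h : ∀ k s ω, J k s → J (k + 1) (f s ω)) {s : σ}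
    (hs : J 0 s) (t : ℕ) (l : List Bool) : J t (iter f ρ t s l) := by
  induction t with
  | zero => exact hs
  | succ t ih => rw [iter_succ']; exact h _ _ _ ih

/-- If each step keeps an invariant except with probability `δ`, so do `t` steps except with
probability `t δ`. -/
theorem iter_good {J : ℕ → σ → Prop} {δ : ℝ} (hδ : 0 ≤ δ) {t : ℕ}
    (h : ∀ k < t, ∀ s, J k s → 1 - δ ≤ Pr ρ fun ω => J (k + 1) (f s ω)) {s : σ} (hs : J 0 s) :
    1 - t * δ ≤ Pr (t * ρ) fun l => J t (iter f ρ t s l) := by
  induction t with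
  | zero => rw [Pr_true (by simpa using hs)]; simp
  | succ t ih =>
    have ih' := ih fun k hk => h k (by omega)
    simp only [iter_succ', Pr] at ih' ⊢
    rw [Ex_iter_succ' f ρ t s fun s ω => ind (J (t + 1) (f s ω))]
    have : Ex (t * ρ) (fun l => ind (J t (iter f ρ t s l)) - δ) ≤
        Ex (t * ρ) fun l => Ex ρ fun ω => ind (J (t + 1) (f (iter f ρ t s l) ω)) := by
      refine Ex_mono fun l _ => ?_
      by_cases hJ : J t (iter f ρ t s l)
      · rw [ind_pos hJ]; exact h t (by omega) _ hJ
      · rw [ind_neg hJ]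
        have := Pr_nonneg ρ fun ω => J (t + 1) (f (iter f ρ t s l) ω)
        unfold Pr at this
        linarith
    rw [Ex_sub, Ex_const] at this
    push_cast; linarith

end iter

@[fun_prop] theorem bitsN_pt {α : Type} [Enc α] {n i : α → ℕ} (hn : PT n) (hb : PB n) (hi : PT i) :
    PT fun a => bitsN (n a) (i a) := by
  unfold bitsN; fun_prop

/-- `iter` is polynomial time when an invariant bounds the size of the states. -/
theorem iter_pt {α σ : Type} [Enc α] [Enc σ] {f : α → σ → List Bool → σ} {ρ t : α → ℕ}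
    {s : α → σ} {l : α → List Bool} (hf : PT fun p : α × σ × List Bool => f p.1 p.2.1 p.2.2)
    (hρ : PT ρ) (ht : PT t) (hb : PB t) (hs : PT s) (hl : PT l) (J : α → ℕ → σ → Prop)
    (h0 : ∀ a, J a 0 (s a)) (hJ : ∀ a k c ω, J a k c → J a (k + 1) (f a c ω)) {B : α → ℕ}
    (hB : PB B) (hsz : ∀ a k c, k ≤ t a → J a k c → sz c ≤ B a) :
    PT fun a => iter (f a) (ρ a) (t a) (s a) (l a) :=
  PT.foldl_inv J (PT.chunks hρ ht hb hl) hs h0 (fun a k c b _ _ h => hJ a k c b h)
    (hf.restrict _) hB fun a k c hk h => hsz a k c (by simpa using hk) h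

end Crest.Agent.R309
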